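import Crest.Agent.R83.Tst

/-!
# R83 TASK Geo: similarities and the geometry of the ellipsoids
-/

set_option autoImplicit false

namespace Crest.Agent.R83

open MeasureTheory Set Filter Topology
open scoped Gradient RealInnerProductSpace ENNReal NNReal ContDiff

namespace Sim

variable (T : Sim)

theorem inv_apply (x : E3) : T.inv (T x) = x := by
  have := T.pos.ne'
  simp [inv, toFun, smul_smul, this]

theorem apply_inv (x : E3) : T (T.inv x) = x := by
  have := T.pos.ne'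
  simp [inv, toFun, smul_smul, this]

theorem contDiff (n : ℕ∞ω) : ContDiff ℝ n T := contDiff_const.add (T.R.contDiff.const_smul T.s)

theorem geo_continuous : Continuous T := (T.contDiff 0).continuous

/-- the similarity as a homeomorphism -/
noncomputable def geoHomeo : E3 ≃ₜ E3 where
  toFun := T
  invFun := T.inv
  left_inv := T.inv_apply
  right_inv := T.apply_inv
  continuous_toFun := T.geo_continuous
  continuous_invFun := T.inv.geo_continuous

theorem geo_emb : MeasurableEmbedding T := T.geoHomeo.measurableEmbedding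

theorem geo_hasFDerivAt (x : E3) :
    HasFDerivAt T (T.s • (T.R.toContinuousLinearEquiv : E3 →L[ℝ] E3)) x :=
  (((T.R.toContinuousLinearEquiv : E3 →L[ℝ] E3).hasFDerivAt (x := x)).const_smul T.s).const_add T.a

theorem norm_sub (x y : E3) : ‖T x - T y‖ = T.s * ‖x - y‖ := by
  have : T x - T y = T.s • T.R (x - y) := by simp [toFun, smul_sub]
  rw [this, norm_smul, T.R.norm_map, Real.norm_of_nonneg T.pos.le]

theorem norm_pG (G : E3 → E3) (x : E3) : ‖T.pG G x‖ = T.s * ‖G (T x)‖ := by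
  rw [pG, norm_smul, T.R.symm.norm_map, Real.norm_of_nonneg T.pos.le]

theorem inner_pG (G J : E3 → E3) (x : E3) :
    ⟪T.pG G x, T.pG J x⟫ = T.s ^ 2 * ⟪G (T x), J (T x)⟫ := by
  rw [pG, pG, inner_smul_left, inner_smul_right, T.R.symm.inner_map_map]
  simp only [conj_trivial]
  ring

theorem grad_comp {u : E3 → ℝ} {x : E3} (hu : DifferentiableAt ℝ u (T x)) :
    ∇ (fun y => u (T y)) x = T.pG (∇ u) x := by
  refine ext_inner_right ℝ fun a => ?_
  have h := (hu.hasFDerivAt.comp x (T.geo_hasFDerivAt x)).fderiv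
  rw [inner_grad, show (fun y => u (T y)) = u ∘ T from rfl, h, pG, inner_smul_left,
    ← T.R.inner_map_map, T.R.apply_symm_apply, inner_grad]
  simp

/-- `Measure.map_addHaar_smul`, `LinearIsometryEquiv.measurePreserving`, translation invariance -/
theorem map_volume : Measure.map T volume = ENNReal.ofReal (T.s ^ 3)⁻¹ • (volume : Measure E3) := by
  have e1 : (T : E3 → E3) = (fun y => T.a + y) ∘ (fun y => T.s • y) ∘ T.R := rfl
  rw [e1, ← Measure.map_map (by fun_prop) (by fun_prop), ← Measure.map_map (by fun_prop) (by fun_prop),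
    T.R.measurePreserving.map_eq, Measure.map_addHaar_smul _ T.pos.ne', Measure.map_smul,
    map_add_left_eq_self]
  have := T.pos
  rw [finrank_euclideanSpace_fin, abs_of_pos (by positivity)]

theorem qmp : Measure.QuasiMeasurePreserving T volume volume := ⟨T.geo_emb.measurable, by rw [T.map_volume]; exact Measure.smul_absolutelyContinuous⟩

theorem integral_comp {V : Type} [NormedAddCommGroup V] [NormedSpace ℝ V] (f : E3 → V) :
    ∫ x, f (T x) = (T.s ^ 3)⁻¹ • ∫ x, f x := by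
  have := T.pos
  rw [← T.geo_emb.integral_map, T.map_volume, integral_smul_measure, ENNReal.toReal_ofReal (by positivity)]

theorem lintegral_comp (f : E3 → ℝ≥0∞) :
    ∫⁻ x, f (T x) = ENNReal.ofReal (T.s ^ 3)⁻¹ * ∫⁻ x, f x := by
  rw [← T.geo_emb.lintegral_map, T.map_volume, lintegral_smul_measure, smul_eq_mul]

theorem memLp_comp {V : Type} [NormedAddCommGroup V] {f : E3 → V} {p : ℝ≥0∞} (hf : MemLp f p volume) :
    MemLp (fun x => f (T x)) p volume := by
  refine (T.geo_emb.memLp_map_measure_iff (g := f)).1 ?_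
  rw [T.map_volume]
  exact hf.smul_measure ENNReal.ofReal_ne_top

theorem memLp_pG {G : E3 → E3} {p : ℝ≥0∞} (hG : MemLp G p volume) : MemLp (T.pG G) p volume := ((T.R.symm.toContinuousLinearEquiv : E3 →L[ℝ] E3).comp_memLp' (T.memLp_comp hG)).const_smul T.s

theorem geo_eLpNorm {p : ℝ≥0∞} (hp : p ≠ ⊤) : ∃ C : ℝ≥0∞, C ≠ ⊤ ∧
    ∀ (V : Type) [NormedAddCommGroup V] (f : E3 → V),
      eLpNorm (fun x => f (T x)) p volume = C * eLpNorm f p volume := by
  refine ⟨ENNReal.ofReal (T.s ^ 3)⁻¹ ^ (1 / p).toReal,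
    ENNReal.rpow_ne_top_of_nonneg ENNReal.toReal_nonneg ENNReal.ofReal_ne_top, fun V _ f => ?_⟩
  rw [show (fun x => f (T x)) = f ∘ T from rfl, ← T.geo_emb.eLpNorm_map_measure, T.map_volume,
    eLpNorm_smul_measure_of_ne_top hp, smul_eq_mul]

end Sim

variable {Ω : Set E3} {ψ u f : E3 → ℝ} {G J : E3 → E3}

theorem Test.sim (h : Test Ω ψ) (T : Sim) : Test (T ⁻¹' Ω) fun x => ψ (T x) := by
  refine ⟨h.c1.comp (T.contDiff 1), h.cpt.comp_homeomorph T.geoHomeo, fun x hx => h.sub ?_⟩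
  exact tsupport_comp_subset_preimage ψ T.geo_continuous hx

theorem H0.sim (h : H0 Ω u G) (T : Sim) : H0 (T ⁻¹' Ω) (fun x => u (T x)) (T.pG G) := by
  refine ⟨T.memLp_comp h.mu, T.memLp_pG h.mG, fun ε hε => ?_⟩
  obtain ⟨C₁, hC₁, h₁⟩ := T.geo_eLpNorm (p := 6) (by norm_num)
  obtain ⟨C₂, hC₂, h₂⟩ := T.geo_eLpNorm (p := 2) (by norm_num)
  have hC₃ : ‖T.s‖ₑ * C₂ ≠ ⊤ := ENNReal.mul_ne_top enorm_ne_top hC₂
  obtain ⟨ψ, hψ, a₁, a₂⟩ := h.apx (min (ε / C₁) (ε / (‖T.s‖ₑ * C₂)))
    (lt_min (ENNReal.div_pos hε.ne' hC₁) (ENNReal.div_pos hε.ne' hC₃))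
  refine ⟨_, hψ.sim T, ?_, ?_⟩
  · rw [h₁ ℝ fun x => u x - ψ x]
    exact (mul_le_mul_right (a₁.trans (min_le_left _ _)) _).trans ENNReal.mul_div_le
  · have e1 : eLpNorm (fun x => T.pG G x - ∇ (fun x => ψ (T x)) x) 2 volume =
        eLpNorm (T.s • fun x => G (T x) - ∇ ψ (T x)) 2 volume := by
      refine eLpNorm_congr_norm_ae (.of_forall fun x => ?_)
      rw [T.grad_comp (hψ.differentiable _), Sim.pG, Sim.pG, ← smul_sub, ← map_sub, norm_smul,
        T.R.symm.norm_map, Pi.smul_apply, norm_smul]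
    rw [e1, eLpNorm_const_smul, h₂ E3 fun x => G x - ∇ ψ x, ← mul_assoc]
    exact (mul_le_mul_right (a₂.trans (min_le_right _ _)) _).trans ENNReal.mul_div_le

/-- write the test function as `(ψ ∘ T.inv) ∘ T` -/
theorem WD.sim (h : WD Ω J f) (T : Sim) : WD (T ⁻¹' Ω) (T.pG J) fun x => T.s ^ 2 * f (T x) := by
  intro ψ hψ
  have hη : Test Ω fun x => ψ (T.inv x) := (hψ.sim T.inv).mono fun x hx => by
    simpa only [mem_preimage, T.apply_inv] using hx
  have e1 : ∀ x, ∇ ψ x = T.pG (∇ fun x => ψ (T.inv x)) x := fun x => by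
    rw [← T.grad_comp (hη.differentiable _)]
    simp only [T.inv_apply]
  have e2 : ∀ x, T.s ^ 2 * f (T x) * ψ x = T.s ^ 2 * (f (T x) * ψ (T.inv (T x))) := fun x => by
    rw [T.inv_apply, mul_assoc]
  simp only [e1, e2, T.inner_pG, integral_const_mul]
  rw [T.integral_comp fun x => ⟪J x, ∇ (fun x => ψ (T.inv x)) x⟫,
    T.integral_comp fun x => f x * ψ (T.inv x), h _ hη]

theorem contDiff_Q (n : ℕ∞ω) : ContDiff ℝ n Q := by
  unfold Q
  fun_prop

theorem Q_nonneg (x : E3) : 0 ≤ Q x := by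
  unfold Q
  positivity

theorem Q_smul (s : ℝ) (x : E3) : Q (s • x) = s ^ 2 * Q x := by
  simp only [Q, PiLp.smul_apply, smul_eq_mul]
  ring

theorem norm_sq_le_Q (x : E3) : ‖x‖ ^ 2 ≤ 2 * Q x := by
  rw [EuclideanSpace.real_norm_sq_eq, Fin.sum_univ_three, Q]
  nlinarith [sq_nonneg (x 2)]

theorem Q_le_norm_sq (x : E3) : Q x ≤ ‖x‖ ^ 2 := by
  rw [EuclideanSpace.real_norm_sq_eq, Fin.sum_univ_three, Q]
  nlinarith [sq_nonneg (x 0), sq_nonneg (x 1)]

theorem geo_grad_Q (x : E3) : ∇ Q x = x 0 • e 0 + x 1 • e 1 + (2 * x 2) • e 2 := by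
  have e1 : Q = fun y : E3 => (1 / 2) * (y 0 * y 0 + y 1 * y 1) + y 2 * y 2 := by
    funext y
    rw [Q]
    ring
  rw [e1, grad_add (by fun_prop) (by fun_prop), grad_const_mul _ (by fun_prop),
    grad_add (by fun_prop) (by fun_prop), grad_mul (by fun_prop) (by fun_prop),
    grad_mul (by fun_prop) (by fun_prop), grad_mul (by fun_prop) (by fun_prop)]
  simp only [grad_coord]
  module

theorem inner_grad_Q (x : E3) : ⟪∇ Q x, x⟫ = 2 * Q x := by
  rw [geo_grad_Q, Q]
  simp only [inner_add_left, inner_smul_left, EuclideanSpace.inner_single_left, conj_trivial]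
  ring

theorem lap_Q (x : E3) : lap Q x = 4 := by
  let L : E3 →L[ℝ] E3 := (EuclideanSpace.proj (𝕜 := ℝ) (0 : Fin 3)).smulRight (e 0) +
    (EuclideanSpace.proj (𝕜 := ℝ) (1 : Fin 3)).smulRight (e 1) +
    ((2 : ℝ) • EuclideanSpace.proj (𝕜 := ℝ) (2 : Fin 3)).smulRight (e 2)
  have e1 : ∇ Q = L := by
    funext y
    rw [geo_grad_Q]
    simp [L]
  rw [lap, dvg, e1, L.fderiv, Fin.sum_univ_three]
  simp [L]
  norm_num

theorem isCompact_Q_le (r : ℝ) : IsCompact {x | Q x ≤ r} := by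
  refine Metric.isCompact_of_isClosed_isBounded (isClosed_le (contDiff_Q 0).continuous continuous_const)
    ((Metric.isBounded_closedBall (x := (0 : E3)) (r := 1 + |r|)).subset fun x hx => ?_)
  rw [mem_closedBall_zero_iff]
  have h1 := norm_sq_le_Q x
  have h2 : Q x ≤ |r| := le_trans hx (le_abs_self r)
  refine abs_le_of_sq_le_sq' ?_ (by positivity) |>.2
  nlinarith [sq_nonneg |r|]

theorem isOpen_El : IsOpen El := isOpen_lt (contDiff_Q 0).continuous continuous_const

theorem El_subset_ball : El ⊆ Metric.ball 0 (3 / 2) := by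
  intro x hx
  rw [mem_ball_zero_iff]
  have h1 := norm_sq_le_Q x
  have h2 : Q x < 1 := hx
  nlinarith [norm_nonneg x]

theorem volume_El_pos : 0 < volume.real El := by
  refine ENNReal.toReal_pos (isOpen_El.measure_pos volume ⟨0, ?_⟩).ne'
    ((measure_mono El_subset_ball).trans_lt measure_ball_lt_top).ne
  simp [El, Q]

/-- `Measure.addHaar_sphere`-like: use `Convex.addHaar_frontier`, or the scaling `s • {Q = r}` -/
theorem volume_Q_eq (r : ℝ) : volume {x | Q x = r} = 0 := by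
  rcases le_or_gt r 0 with hr | hr
  · refine measure_mono_null (t := {0}) (fun x hx => ?_) (measure_singleton _)
    have h1 := norm_sq_le_Q x
    have h2 : Q x = r := hx
    have h3 : ‖x‖ ^ 2 = 0 := le_antisymm (by linarith) (sq_nonneg _)
    simpa using h3
  · have hc : Convex ℝ {x | Q x ≤ r} := by
      intro x hx y hy a b ha hb hab
      have h1 : Q x ≤ r := hx
      have h2 : Q y ≤ r := hy
      have h3 : ∀ s t : ℝ, (a * s + b * t) ^ 2 ≤ a * s ^ 2 + b * t ^ 2 := fun s t => by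
        obtain rfl : b = 1 - a := by linarith
        nlinarith [mul_nonneg (mul_nonneg ha hb) (sq_nonneg (s - t))]
      have h4 : Q (a • x + b • y) ≤ a * Q x + b * Q y := by
        simp only [Q, PiLp.add_apply, PiLp.smul_apply, smul_eq_mul]
        linarith [h3 (x 0) (y 0), h3 (x 1) (y 1), h3 (x 2) (y 2)]
      have h5 : a * Q x + b * Q y ≤ a * r + b * r :=
        add_le_add (mul_le_mul_of_nonneg_left h1 ha) (mul_le_mul_of_nonneg_left h2 hb)
      have h6 : a * r + b * r = r := by rw [← add_mul, hab, one_mul]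
      exact h4.trans (h5.trans h6.le)
    refine measure_mono_null (fun x hx => ?_) (hc.addHaar_frontier volume)
    have h2 : Q x = r := hx
    refine ⟨subset_closure h2.le, fun hi => ?_⟩
    have h3 : ContinuousAt (fun t : ℝ => t • x) 1 := by fun_prop
    have h4 : ∀ᶠ t in 𝓝 (1 : ℝ), t • x ∈ {x | Q x ≤ r} :=
      h3.eventually (by simp only [one_smul]; exact mem_interior_iff_mem_nhds.1 hi)
    obtain ⟨t, h5, h6⟩ := ((h4.filter_mono nhdsWithin_le_nhds).and (self_mem_nhdsWithin (s := Ioi 1))).exists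
    have h7 : Q (t • x) ≤ r := h5
    have h8 : 1 < t := h6
    rw [Q_smul, h2] at h7
    have h9 : 1 < t ^ 2 := by nlinarith
    nlinarith

theorem sw_apply (x : E3) : sw x 0 = x 2 ∧ sw x 1 = x 1 ∧ sw x 2 = x 0 := by
  refine ⟨?_, ?_, ?_⟩ <;> simp [sw, Equiv.swap_apply_def]

theorem T_s (i : Bool) : (T i).s = σ := rfl

theorem S_s (i : Bool) : (S i).s = σ⁻¹ := rfl

theorem S_T (i : Bool) (x : E3) : S i (T i x) = x := (T i).inv_apply x

theorem T_S (i : Bool) (x : E3) : T i (S i x) = x := (T i).apply_inv x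

theorem geo_σ_pos : 0 < σ := by norm_num [σ]

theorem geo_S_eq (i : Bool) (x : E3) : S i x = σ⁻¹ • sw.symm (x - ctr i) := by
  simp only [S, T, Sim.inv, Sim.toFun, map_sub, smul_sub]
  abel

theorem geo_T_apply (i : Bool) (x : E3) :
    T i x 0 = sg i * (3 / 5) + σ * x 2 ∧ T i x 1 = σ * x 1 ∧ T i x 2 = σ * x 0 := by
  obtain ⟨h0, h1, h2⟩ := sw_apply x
  refine ⟨?_, ?_, ?_⟩ <;> simp [T, Sim.toFun, ctr, h0, h1, h2]

theorem S_ctr (i : Bool) : S i (ctr i) = 0 := by
  rw [geo_S_eq, sub_self, map_zero, smul_zero]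

theorem norm_S (i : Bool) (x : E3) : ‖S i x‖ = σ⁻¹ * ‖x - ctr i‖ := by
  rw [geo_S_eq, norm_smul, sw.symm.norm_map, Real.norm_of_nonneg (inv_pos.2 geo_σ_pos).le]

/-- `T i x = (± 3/5 + σ x₂, σ x₁, σ x₀)`; the maximum is at most `2 c² / 3 + 2 σ² 1.1 = 0.9055` -/
theorem Q_T_le (i : Bool) {x : E3} (hx : Q x ≤ 11 / 10) : Q (T i x) ≤ 92 / 100 := by
  obtain ⟨h0, h1, h2⟩ := geo_T_apply i x
  rw [Q] at hx ⊢
  rw [h0, h1, h2, σ]
  cases i
  · simp only [sg, Bool.false_eq_true, if_false]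
    nlinarith [sq_nonneg (11 / 20 * x 2 - 1 / 5), sq_nonneg (x 1)]
  · simp only [sg, if_true]
    nlinarith [sq_nonneg (11 / 20 * x 2 + 1 / 5), sq_nonneg (x 1)]

theorem sg_mul_T_pos (i : Bool) {x : E3} (hx : Q x ≤ 11 / 10) : 0 < sg i * T i x 0 := by
  rw [(geo_T_apply i x).1, σ]
  rw [Q] at hx
  have h1 : x 2 ^ 2 ≤ (21 / 20) ^ 2 := by nlinarith [sq_nonneg (x 0), sq_nonneg (x 1)]
  obtain ⟨h2, h3⟩ := abs_le_of_sq_le_sq' h1 (by norm_num)
  cases i
  · simp only [sg, Bool.false_eq_true, if_false]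
    linarith
  · simp only [sg, if_true]
    linarith

/-- the two collars are disjoint -/
theorem lt_Q_S {i j : Bool} (hij : i ≠ j) {x : E3} (hx : Q (S i x) ≤ 11 / 10) : 11 / 10 < Q (S j x) := by
  by_contra h
  have h1 := sg_mul_T_pos i hx
  have h2 := sg_mul_T_pos j (not_lt.1 h)
  rw [T_S] at h1 h2
  cases i <;> cases j <;> simp only [sg, Bool.false_eq_true, if_false, if_true] at h1 h2 <;>
    first | exact hij rfl | linarith

theorem Q_le_of_S {i : Bool} {x : E3} (hx : Q (S i x) ≤ 11 / 10) : Q x ≤ 92 / 100 := by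
  simpa only [T_S] using Q_T_le i hx

theorem isOpen_Out (r : ℝ) : IsOpen (Out r) := by
  rw [Out, Set.ofPred_forall]
  exact isOpen_iInter_of_finite fun i =>
    isOpen_lt continuous_const ((contDiff_Q 0).continuous.comp (S i).geo_continuous)

theorem integral_hat_mul (i : Bool) (f w : E3 → ℝ) :
    ∫ x, hat i f x * w x = ∫ x, f x * w (T i x) := by
  have h := (T i).integral_comp fun x => hat i f x * w x
  simp only [hat, S_T, mul_assoc, integral_const_mul, T_s, smul_eq_mul] at h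
  have hσ := geo_σ_pos
  simp only [hat, mul_assoc, integral_const_mul]
  exact (mul_left_cancel₀ (by positivity) h).symm

theorem Bd.hat {K : Set E3} {M : ℝ} (h : Bd K M f) (i : Bool) :
    Bd (S i ⁻¹' K) ((σ ^ 3)⁻¹ * M) (hat i f) := by
  have hσ := geo_σ_pos
  refine ⟨(h.meas.comp (S i).geo_emb.measurable).const_mul _, fun x => ?_, fun x hx => ?_⟩
  · rw [R83.hat, abs_mul, abs_of_pos (by positivity)]
    exact mul_le_mul_of_nonneg_left (h.bdd _) (by positivity)
  · rw [R83.hat, h.off _ hx, mul_zero]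

theorem Src.hat (h : Src f) (i : Bool) : Src (hat i f) := by
  obtain ⟨R, M, h⟩ := h
  have hσ := geo_σ_pos
  refine (h.hat i).src ((Metric.isBounded_ball (x := ctr i) (r := σ * R)).subset fun x hx => ?_)
  rw [mem_preimage, mem_ball_zero_iff, norm_S, inv_mul_lt_iff₀ hσ] at hx
  rwa [mem_ball_iff_norm]

theorem WD.hat (h : WD Ω J f) (i : Bool) : WD (S i ⁻¹' Ω) (hatG i J) (hat i f) := by
  have h1 := (h.sim (S i)).smul σ⁻¹
  have e1 : R83.hat i f = fun x => σ⁻¹ * ((S i).s ^ 2 * f (S i x)) := by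
    funext x
    rw [R83.hat, S_s]
    ring
  rw [e1]
  exact h1

theorem grad_hatu (i : Bool) {x : E3} (hu : DifferentiableAt ℝ u (S i x)) :
    ∇ (hatu i u) x = hatG i (∇ u) x := by
  have h1 : DifferentiableAt ℝ (fun y => u (S i y)) x :=
    hu.comp x ((S i).geo_hasFDerivAt x).differentiableAt
  rw [hatG, ← (S i).grad_comp hu, ← grad_const_mul _ h1]
  rfl

theorem hatG_Bf (i : Bool) (x : E3) : hatG i Bf x = Bf (x - ctr i) := by
  have hσ := geo_σ_pos
  have e1 : (S i).R.symm = sw := rfl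
  rw [hatG, Sim.pG, S_s, e1, Bf, Bf, norm_S, geo_S_eq, map_smul, map_smul, sw.apply_symm_apply,
    smul_smul, smul_smul, smul_smul]
  congr 1
  rw [mul_pow, mul_inv]
  field_simp

theorem integral_norm_sq_hatG (i : Bool) (G : E3 → E3) :
    ∫ x, ‖hatG i G x‖ ^ 2 = σ⁻¹ * ∫ x, ‖G x‖ ^ 2 := by
  have hσ := geo_σ_pos
  have e1 : ∀ x, ‖hatG i G x‖ ^ 2 = σ⁻¹ ^ 4 * ‖G (S i x)‖ ^ 2 := fun x => by
    rw [hatG, norm_smul, Sim.norm_pG, S_s, Real.norm_of_nonneg (inv_pos.2 hσ).le]
    ring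
  simp only [e1, integral_const_mul]
  rw [(S i).integral_comp fun x => ‖G x‖ ^ 2, S_s, smul_eq_mul]
  field_simp

end Crest.Agent.R83
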