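import Crest.Agent.R83.Newt
import Crest.Agent.R83.Geo

/-!
# R83 TASK L1b: an `L¹` bound for the potential of a cluster that does not depend on the contrast
-/

set_option autoImplicit false

namespace Crest.Agent.R83

open MeasureTheory Set Filter Topology
open scoped Gradient RealInnerProductSpace ENNReal NNReal ContDiff

theorem l1b_der (n : ℕ) (t : ℝ) :
    HasDerivAt (fun t : ℝ => max t 0 ^ (n + 2)) ((n + 2 : ℕ) * max t 0 ^ (n + 1)) t := by
  refine hasDerivAt_of_hasDerivAt_of_ne' (x := 0) (g := fun t => ((n + 2 : ℕ) : ℝ) * max t 0 ^ (n + 1))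
    (fun y hy => ?_) (by fun_prop) (by fun_prop) t
  rcases hy.lt_or_gt with h | h
  · rw [max_eq_right h.le, zero_pow (by omega), mul_zero]
    refine (hasDerivAt_const y (0 : ℝ)).congr_of_eventuallyEq ?_
    filter_upwards [Iio_mem_nhds h] with z hz
    rw [max_eq_right (le_of_lt hz), zero_pow (by omega)]
  · rw [max_eq_left h.le]
    refine (hasDerivAt_pow (n + 2) y).congr_of_eventuallyEq ?_
    filter_upwards [Ioi_mem_nhds h] with z hz
    rw [max_eq_left (le_of_lt hz)]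

theorem l1b_d1 : deriv (fun t : ℝ => max t 0 ^ 3) = fun t => 3 * max t 0 ^ 2 :=
  funext fun t => by simpa using (l1b_der 1 t).deriv

theorem l1b_d2 : deriv (fun t : ℝ => 3 * max t 0 ^ 2) = fun t => 6 * max t 0 :=
  funext fun t => ((l1b_der 0 t).const_mul 3).deriv.trans (by push_cast; ring)

theorem l1b_c2 : ContDiff ℝ 2 fun t : ℝ => max t 0 ^ 3 := by
  rw [show (2 : ℕ∞ω) = 1 + 1 from rfl, contDiff_succ_iff_deriv, l1b_d1, contDiff_one_iff_deriv, l1b_d2]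
  exact ⟨fun t => (l1b_der 1 t).differentiableAt, by simp,
    fun t => ((l1b_der 0 t).const_mul 3).differentiableAt, by fun_prop⟩

section

variable {a b : E3 → ℝ} {x : E3}

theorem l1b_dif (ha : ContDiff ℝ 2 a) : Differentiable ℝ a := ha.differentiable (by simp)

theorem l1b_grad_c1 (ha : ContDiff ℝ 2 a) : ContDiff ℝ 1 (∇ a) :=
  contDiff_iff_contDiffAt.2 fun _ => contDiffAt_grad (n := 1) ha.contDiffAt

theorem l1b_lap_cube (ha : ContDiff ℝ 2 a) (x : E3) : lap (fun y => max (a y) 0 ^ 3) x =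
    6 * max (a x) 0 * ‖∇ a x‖ ^ 2 + 3 * max (a x) 0 ^ 2 * lap a x := by
  rw [lap_comp (h := fun t => max t 0 ^ 3) ha.contDiffAt l1b_c2.contDiffAt, l1b_d1, l1b_d2]

theorem l1b_grad_aff (ha : ContDiff ℝ 2 a) (α β : ℝ) :
    ∇ (fun y => α + β * a y) = fun y => β • ∇ a y :=
  funext fun y => by rw [grad_const_add, grad_const_mul _ (l1b_dif ha y)]

theorem l1b_lap_aff (ha : ContDiff ℝ 2 a) (α β : ℝ) (x : E3) :
    lap (fun y => α + β * a y) x = β * lap a x := by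
  rw [lap, l1b_grad_aff ha, dvg, fderiv_fun_const_smul ((l1b_grad_c1 ha).differentiable (by simp) x)]
  simp [lap, dvg, Finset.mul_sum]

theorem l1b_lap_add (ha : ContDiff ℝ 2 a) (hb : ContDiff ℝ 2 b) (x : E3) :
    lap (fun y => a y + b y) x = lap a x + lap b x := by
  rw [lap, show ∇ (fun y => a y + b y) = fun y => ∇ a y + ∇ b y from
    funext fun y => grad_add (l1b_dif ha y) (l1b_dif hb y), dvg,
    fderiv_fun_add ((l1b_grad_c1 ha).differentiable (by simp) x)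
      ((l1b_grad_c1 hb).differentiable (by simp) x)]
  simp [lap, dvg, Finset.sum_add_distrib]

theorem l1b_lap_congr (h : a =ᶠ[𝓝 x] b) : lap a x = lap b x := by
  have h1 : ∇ a =ᶠ[𝓝 x] ∇ b := h.eventuallyEq_nhds.mono fun y hy => hy.gradient_eq
  rw [lap, lap, dvg, dvg, h1.fderiv_eq]

theorem l1b_lap_zero (h : a =ᶠ[𝓝 x] fun _ => 0) : lap a x = 0 := by
  rw [l1b_lap_congr h]
  simp [lap, dvg]

theorem l1b_lap_cont (ha : ContDiff ℝ 2 a) : Continuous (lap a) := by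
  have h1 := (l1b_grad_c1 ha).continuous_fderiv (by simp)
  unfold lap dvg
  fun_prop

end

theorem l1b_outer : ∃ ψ : E3 → ℝ, ContDiff ℝ 2 ψ ∧ (∀ x, ‖x‖ ^ 2 ≤ 3 → ψ x = 1 / 8) ∧ (∀ x, |ψ x| ≤ 1) ∧
    (∀ x, lap ψ x ≤ 0) ∧ (∀ x, 3 < ‖x‖ ^ 2 → lap ψ x < 0) ∧
    (∀ x, 0 < ‖x‖ → |ψ x| ≤ 1 / ‖x‖ ∧ ‖∇ ψ x‖ ≤ 1 / ‖x‖ ^ 2) ∧ MemLp (lap ψ) (6 / 5) volume := by
  obtain ⟨N, hN⟩ : ∃ N : E3 → ℝ, N = fun z : E3 => (1 ^ 2 + ‖z‖ ^ 2) ^ (-(1 / 2) : ℝ) := ⟨_, rfl⟩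
  have h0 : ∀ x, 0 < N x := fun x => by rw [hN]; positivity
  have hp : ∀ (x : E3) (n : ℕ) (r : ℝ), r = -(1 / 2) * n → (1 ^ 2 + ‖x‖ ^ 2) ^ r = N x ^ n :=
    fun x n r hr => by rw [hr, Real.rpow_mul_natCast (by positivity), hN]
  have h2 : ∀ x, N x ^ 2 * (1 + ‖x‖ ^ 2) = 1 := fun x => by
    rw [← hp x 2 (-1) (by norm_num), Real.rpow_neg_one, one_pow, inv_mul_cancel₀ (by positivity)]
  have h1 : ∀ x, N x ≤ 1 := fun x => by nlinarith [h2 x, h0 x, sq_nonneg (N x * ‖x‖)]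
  have h3 : ∀ x, N x * ‖x‖ ≤ 1 := fun x => by nlinarith [h2 x, sq_nonneg (N x)]
  have hc : ContDiff ℝ 2 N := by
    rw [hN]
    exact (contDiff_const.add (contDiff_norm_sq ℝ)).rpow_const_of_ne fun x => by positivity
  have hl : ∀ x, lap N x = -(3 * N x ^ 5) := fun x => by
    rw [← hp x 5 (-(5 / 2)) (by norm_num), hN, lap_reg one_pos, one_pow, mul_one]
  have hg : ∀ x, ‖∇ N x‖ = N x ^ 3 * ‖x‖ := fun x => by
    have h4 : HasDerivAt (fun t : ℝ => (1 ^ 2 + t) ^ (-(1 / 2) : ℝ)) _ (‖x‖ ^ 2) :=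
      ((hasDerivAt_id' _).const_add _).rpow_const (Or.inl (by positivity))
    have h5 := grad_comp (f := fun y : E3 => ‖y‖ ^ 2) h4
      ((contDiff_norm_sq ℝ (n := 1)).differentiable (by simp) x)
    rw [← hN, grad_norm_sq, hp x 3 _ (by norm_num), smul_smul] at h5
    rw [h5, norm_smul, Real.norm_of_nonpos (by nlinarith [pow_pos (h0 x) 3])]
    ring
  have ha : ContDiff ℝ 2 fun y => 1 / 2 + -1 * N y := by fun_prop
  have hb : ContDiff ℝ 2 fun y => max (1 / 2 + -1 * N y) 0 ^ 3 := l1b_c2.comp ha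
  obtain ⟨m, hm⟩ : ∃ m : E3 → ℝ, ∀ y, m y = max (1 / 2 + -1 * N y) 0 := ⟨_, fun _ => rfl⟩
  have m0 : ∀ x, 0 ≤ m x := fun x => hm x ▸ le_max_right _ _
  have m1 : ∀ x, m x ≤ 1 / 2 := fun x => hm x ▸ max_le (by linarith [h0 x]) (by norm_num)
  have m2 : ∀ x, 1 / 2 + -1 * N x ≤ m x := fun x => hm x ▸ le_max_left _ _
  have hL : ∀ x, lap (fun y => 1 / 8 + -1 * max (1 / 2 + -1 * N y) 0 ^ 3) x =
      -(6 * m x * (N x ^ 3 * ‖x‖) ^ 2 + 9 * m x ^ 2 * N x ^ 5) := fun x => by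
    rw [l1b_lap_aff hb, l1b_lap_cube ha, l1b_lap_aff hc, l1b_grad_aff hc, hl, ← hm, ← hg]
    simp only [neg_smul, one_smul, norm_neg]
    ring
  have hv : ∀ x, |1 / 8 + -1 * max (1 / 2 + -1 * N x) 0 ^ 3| ≤ N x := fun x => by
    have h4 := mul_nonneg (m0 x) (m0 x)
    have h5 := mul_le_mul (m1 x) (m1 x) (m0 x) (by norm_num)
    rw [← hm, abs_of_nonneg (by nlinarith [m0 x, m1 x])]
    nlinarith [m0 x, m1 x, m2 x, h0 x]
  refine ⟨fun y => 1 / 8 + -1 * max (1 / 2 + -1 * N y) 0 ^ 3, by fun_prop, fun x hx => ?_,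
    fun x => (hv x).trans (h1 x), fun x => ?_, fun x hx => ?_, fun x hx => ⟨?_, ?_⟩, ?_⟩
  · have : 1 / 2 ≤ N x := by
      by_contra h
      nlinarith [h2 x, h0 x, mul_le_mul_of_nonneg_left hx (sq_nonneg (N x))]
    simp only
    rw [max_eq_right (by linarith)]
    norm_num
  · have := m0 x
    have := h0 x
    rw [hL, neg_nonpos]
    positivity
  · have h4 : N x < 1 / 2 := by
      by_contra h
      nlinarith [h2 x, h0 x, mul_lt_mul_of_pos_left hx (pow_pos (h0 x) 2)]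
    have : 0 < m x := by linarith [m2 x]
    have := h0 x
    rw [hL, neg_lt_zero]
    positivity
  · exact (hv x).trans ((le_div_iff₀ hx).2 (h3 x))
  · rw [l1b_grad_aff hb]
    simp only
    rw [grad_comp (f := fun y => 1 / 2 + -1 * N y) (l1b_der 1 _) (l1b_dif ha x), l1b_grad_aff hc, ← hm,
      le_div_iff₀ (by positivity)]
    simp only [neg_smul, one_smul, norm_neg, smul_neg, norm_smul, hg]
    have h4 := pow_le_one₀ (n := 3) (mul_pos (h0 x) hx).le (h3 x)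
    have h5 : ‖((1 + 2 : ℕ) : ℝ) * m x ^ (1 + 1)‖ ≤ 1 := by
      rw [Real.norm_of_nonneg (by have := m0 x; positivity)]
      push_cast
      nlinarith [m0 x, m1 x]
    calc _ = ‖((1 + 2 : ℕ) : ℝ) * m x ^ (1 + 1)‖ * (N x * ‖x‖) ^ 3 := by ring
      _ ≤ 1 := mul_le_one₀ h5 (pow_pos (mul_pos (h0 x) hx) 3).le h4
  · have h4 : MemLp (fun x => N x ^ 4) (6 / 5) volume := by
      refine (integrable_norm_rpow_iff (hc.continuous.pow 4).aestronglyMeasurable (by simp)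
        (ENNReal.div_ne_top (by simp) (by simp))).1 ((integrable_rpow_neg_one_add_norm_sq
        (r := 24 / 5) (by simp; norm_num)).congr (Eventually.of_forall fun x => ?_))
      simp only [Pi.pow_apply]
      rw [← hp x 4 (-2) (by norm_num), Real.norm_of_nonneg (by positivity),
        ← Real.rpow_mul (by positivity), one_pow]
      norm_num
    refine (h4.const_mul 6).of_le (l1b_lap_cont (by fun_prop)).aestronglyMeasurable
      (Eventually.of_forall fun x => ?_)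
    have := m0 x
    have := h0 x
    have h5 := pow_le_one₀ (n := 2) (mul_nonneg (h0 x).le (norm_nonneg x)) (h3 x)
    rw [hL, norm_neg, Real.norm_of_nonneg (by positivity), Real.norm_of_nonneg (by positivity)]
    calc _ = (6 * m x * (N x * ‖x‖) ^ 2 + 9 * m x ^ 2 * N x) * N x ^ 4 := by ring
      _ ≤ (6 * (1 / 2) * 1 + 9 * (1 / 2) ^ 2 * 1) * N x ^ 4 := by gcongr <;> apply_assumption
      _ ≤ _ := by gcongr; norm_num

/-- Let `N x = (1 + ‖x‖²) ^ (-1/2)` (`lap_reg`), `s₁ = 3 ^ (-1/2)`, `ψ₁ = s₁³ - (max (s₁ - N) 0)³`; it is `C²`,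
constant on `‖x‖² ≤ 2` (which contains `El`), `Δψ₁ ≤ 0` and `Δψ₁ < 0` on `‖x‖² > 2` (`lap_comp`), `ψ₁ = O(‖x‖⁻¹)`,
`∇ψ₁ = O(‖x‖⁻²)`, `Δψ₁ = O(‖x‖⁻⁴)`.  Let `ψ₂ = -(max (Q - 1) 0)³ * χ (Q)`, `χ = 1` on `(-∞, 3]`, `0` on `[4, ∞)`:
`ψ₂ = 0` on `El`, `Δψ₂ ≤ 0` on `Q ≤ 3`, `Δψ₂ ≤ -c` on `1.01 ≤ Q ≤ 1.05` (`lap_Q`), and on the compact set
`3 ≤ Q ≤ 4` (where `‖x‖² ≥ 3`) `Δ(ψ₂ + Λ ψ₁) ≤ 0` for large `Λ`. -/
theorem exists_barrier : ∃ (ψ : E3 → ℝ) (c C R : ℝ), 0 < c ∧ 2 ≤ R ∧ ContDiff ℝ 2 ψ ∧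
    (∀ x ∈ El, ∇ ψ x = 0) ∧ (∀ x, |ψ x| ≤ C) ∧ (∀ x, lap ψ x ≤ 0) ∧
    (∀ x, 101 / 100 ≤ Q x → Q x ≤ 105 / 100 → lap ψ x ≤ -c) ∧
    (∀ x, R ≤ ‖x‖ → |ψ x| ≤ C / ‖x‖ ∧ ‖∇ ψ x‖ ≤ C / ‖x‖ ^ 2) ∧ MemLp (lap ψ) (6 / 5) volume := by
  obtain ⟨ψ, a1, a2, a3, a4, a5, a6, a7⟩ := l1b_outer
  have hQ := contDiff_Q 2
  have hO : IsOpen {x | Q x < 5} := isOpen_lt hQ.continuous continuous_const
  obtain ⟨χ, b1, b2, -, b4⟩ := exists_cutoff (isCompact_Q_le 4) hO fun x (hx : Q x ≤ 4) =>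
    show Q x < 5 by linarith
  have ha : ContDiff ℝ 2 fun y => -1 + 1 * Q y := by fun_prop
  have hb : ContDiff ℝ 2 fun y => max (-1 + 1 * Q y) 0 ^ 3 := l1b_c2.comp ha
  have hg : ContDiff ℝ 2 fun y => 0 + -1 * max (-1 + 1 * Q y) 0 ^ 3 := by fun_prop
  have hT := b2.mul hO (hg.of_le (by norm_num)).contDiffOn
  have hη := (b1.of_le (m := 2) (by decide)).mul hg
  obtain ⟨η, hη'⟩ : ∃ η : E3 → ℝ, η = fun y => χ y * (0 + -1 * max (-1 + 1 * Q y) 0 ^ 3) := ⟨_, rfl⟩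
  rw [← hη'] at hT hη
  have c1 : ∀ x, Q x ≤ 4 → lap η x ≤ -12 * max (-1 + 1 * Q x) 0 ^ 2 := fun x hx => by
    have h1 : η =ᶠ[𝓝 x] fun y => 0 + -1 * max (-1 + 1 * Q y) 0 ^ 3 := by
      filter_upwards [b4.filter_mono (nhds_le_nhdsSet (s := {x | Q x ≤ 4}) hx)] with y hy
      rw [hη']
      simp only [hy, one_mul]
    rw [l1b_lap_congr h1, l1b_lap_aff hb, l1b_lap_cube ha, l1b_lap_aff hQ, lap_Q]
    nlinarith [mul_nonneg (le_max_right (-1 + 1 * Q x) 0) (sq_nonneg ‖∇ (fun y => -1 + 1 * Q y) x‖)]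
  have c2 : ∀ x, x ∉ tsupport η → lap η x = 0 := fun x hx =>
    l1b_lap_zero (notMem_tsupport_iff_eventuallyEq.1 hx)
  have hK : IsCompact (tsupport η ∩ {x | 4 ≤ Q x}) :=
    hT.cpt.isCompact.inter_right (isClosed_le continuous_const hQ.continuous)
  have c3 : ∀ x ∈ tsupport η ∩ {x | 4 ≤ Q x}, lap ψ x < 0 :=
    fun x hx => a5 x (by linarith [Q_le_norm_sq x, show 4 ≤ Q x from hx.2])
  obtain ⟨Λ, hΛ⟩ := hK.exists_bound_of_continuousOn (f := fun x => lap η x / lap ψ x)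
    ((l1b_lap_cont hη).continuousOn.div (l1b_lap_cont a1).continuousOn fun x hx => (c3 x hx).ne)
  obtain ⟨B, hB, hB'⟩ := hT.bdd
  have hψ : ContDiff ℝ 2 fun y => 0 + |Λ| * ψ y := by fun_prop
  have hL : ∀ x, lap (fun y => η y + (0 + |Λ| * ψ y)) x = lap η x + |Λ| * lap ψ x := fun x => by
    rw [l1b_lap_add hη hψ, l1b_lap_aff a1]
  have c4 := fun x => mul_nonpos_of_nonneg_of_nonpos (abs_nonneg Λ) (a4 x)
  refine ⟨fun y => η y + (0 + |Λ| * ψ y), 12 / 10000, B + |Λ|, 4, by norm_num, by norm_num, hη.add hψ,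
    fun x hx => ?_, fun x => ?_, fun x => ?_, fun x h1 h2 => ?_, fun x hx => ?_, ?_⟩
  · have h1 : (fun y => η y + (0 + |Λ| * ψ y)) =ᶠ[𝓝 x] fun _ => |Λ| * (1 / 8) := by
      filter_upwards [isOpen_El.mem_nhds hx] with y (hy : Q y < 1)
      rw [a2 y (by linarith [norm_sq_le_Q y]), hη']
      simp only
      rw [max_eq_right (by linarith)]
      ring
    rw [h1.gradient_eq, gradient_fun_const]
  · refine (abs_add_le _ _).trans (add_le_add (hB' x).1 ?_)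
    rw [zero_add, abs_mul, abs_abs]
    exact mul_le_of_le_one_right (abs_nonneg Λ) (a3 x)
  · rw [hL]
    rcases le_total (Q x) 4 with h | h
    · nlinarith [c1 x h, c4 x, sq_nonneg (max (-1 + 1 * Q x) 0)]
    by_cases h1 : x ∈ tsupport η
    · have h2 := (neg_le_abs _).trans ((hΛ x ⟨h1, h⟩).trans (le_abs_self Λ))
      rw [neg_le, le_div_iff_of_neg (c3 x ⟨h1, h⟩)] at h2
      linarith
    · rw [c2 x h1, zero_add]
      exact c4 x
  · rw [hL]
    nlinarith [c1 x (by linarith), c4 x, le_max_left (-1 + 1 * Q x) 0]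
  · have h1 := hT.eq_zero (x := x) fun h : Q x < 5 => by nlinarith [norm_sq_le_Q x]
    have h2 := a6 x (by linarith)
    rw [grad_add (l1b_dif hη x) (l1b_dif hψ x), l1b_grad_aff a1, h1.2]
    simp only [h1.1, zero_add, abs_mul, abs_abs, norm_smul, Real.norm_eq_abs]
    have h3 := abs_nonneg Λ
    constructor
    · calc _ ≤ (B + |Λ|) * (1 / ‖x‖) := mul_le_mul (by linarith) h2.1 (abs_nonneg _) (by linarith)
        _ = _ := mul_one_div _ _
    · calc _ ≤ (B + |Λ|) * (1 / ‖x‖ ^ 2) := mul_le_mul (by linarith) h2.2 (norm_nonneg _) (by linarith)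
        _ = _ := mul_one_div _ _
  · rw [funext hL]
    exact ((l1b_lap_cont hη).memLp_of_hasCompactSupport
      (HasCompactSupport.intro hT.cpt c2)).add (a7.const_mul _)

/-- `ibp_decay` with the barrier -/
theorem l1_bound : ∃ N : ℝ, ∀ {c C M : ℝ} {γ φ P : E3 → ℝ} {G : E3 → E3}, Dat c C M γ φ → H0 univ P G →
    WD univ (fun x => γ x • G x) φ → (∀ᵐ x, 0 ≤ P x) →
    ∫ x in {x | 101 / 100 ≤ Q x ∧ Q x ≤ 105 / 100}, P x ≤ N := by
  obtain ⟨ψ, c, C, R, hc, hR, h1, h2, h3, h4, h5, h6, h7⟩ := exists_barrier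
  refine ⟨C / c, fun {_ _ _ γ φ P G} hD hP hw h0 => ?_⟩
  have hs := hD.den.1.src (Metric.isBounded_ball.subset El_subset_ball)
  have e1 := ibp_decay hP hw hs h1 (subset_univ _) h6 (Eventually.of_forall fun x hx => by
    rw [hD.one x fun h => ?_, one_smul]
    have := mem_ball_zero_iff.1 (El_subset_ball h)
    exact hx.elim (fun h' => h' (h2 x h)) fun h' => by linarith) h7
  have : ENNReal.HolderTriple 6 (6 / 5) 1 := ⟨by
    rw [ENNReal.inv_div (by simp) (by simp), ← one_div, ENNReal.div_add_div_same, inv_one,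
      show (1 + 5 : ℝ≥0∞) = 6 by norm_num, ENNReal.div_self (by simp) (by simp)]⟩
  have hi : Integrable (fun x => -(P x * lap ψ x)) volume := (hP.mu.integrable_mul h7).neg
  have hφ := memLp_one_iff_integrable.1 (hs.memLp 1)
  have hm : MeasurableSet {x | 101 / 100 ≤ Q x ∧ Q x ≤ 105 / 100} :=
    (measurableSet_le measurable_const (contDiff_Q 0).continuous.measurable).inter
      (measurableSet_le (contDiff_Q 0).continuous.measurable measurable_const)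
  rw [le_div_iff₀ hc, ← integral_mul_const]
  calc _ ≤ ∫ x in {x | 101 / 100 ≤ Q x ∧ Q x ≤ 105 / 100}, -(P x * lap ψ x) := by
        refine integral_mono_of_nonneg (ae_restrict_of_ae (h0.mono fun x hx => mul_nonneg hx hc.le))
          hi.integrableOn ((ae_restrict_iff' hm).2 (h0.mono fun x hx hx' => ?_))
        have := mul_le_mul_of_nonneg_left (h5 x hx'.1 hx'.2) hx
        simp only
        linarith
    _ ≤ ∫ x, -(P x * lap ψ x) := setIntegral_le_integral hi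
        (h0.mono fun x hx => neg_nonneg.2 (mul_nonpos_of_nonneg_of_nonpos hx (h4 x)))
    _ = ∫ x, φ x * ψ x := by rw [integral_neg, e1]
    _ ≤ ∫ x, φ x * C := integral_mono (hφ.mul_bdd h1.continuous.aestronglyMeasurable
        (Eventually.of_forall h3)) (hφ.mul_const C)
        fun x => mul_le_mul_of_nonneg_left ((le_abs_self _).trans (h3 x)) (hD.nn x)
    _ = C := by rw [integral_mul_const, hD.den.2, one_mul]

end Crest.Agent.R83
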