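import Crest.Agent.R83.Defs

/-!
# R83 TASK CProf: profiles of the Plis-Miller cascade (one real variable)
-/

set_option autoImplicit false

namespace Crest.Agent.R83

open MeasureTheory Set Filter Topology
open scoped Gradient RealInnerProductSpace ENNReal NNReal ContDiff

/-! ### the cut-off function -/

theorem cprof_S_diff (x : ℝ) :
    HasDerivAt Real.smoothTransition (deriv Real.smoothTransition x) x :=
  (((Real.smoothTransition.contDiff (n := 1)).differentiable (by simp)) x).hasDerivAt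

theorem cprof_S'_nonneg (x : ℝ) : 0 ≤ deriv Real.smoothTransition x :=
  Real.smoothTransition.monotone.deriv_nonneg

theorem cprof_S'_zero_left {x : ℝ} (hx : x ≤ 0) : deriv Real.smoothTransition x = 0 := by
  apply IsLocalMin.deriv_eq_zero
  refine Filter.Eventually.of_forall fun y => ?_
  rw [Real.smoothTransition.zero_of_nonpos hx]
  exact Real.smoothTransition.nonneg y

theorem cprof_S'_zero_right {x : ℝ} (hx : 1 ≤ x) : deriv Real.smoothTransition x = 0 := by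
  apply IsLocalMax.deriv_eq_zero
  refine Filter.Eventually.of_forall fun y => ?_
  rw [Real.smoothTransition.one_of_one_le hx]
  exact Real.smoothTransition.le_one y

theorem cprof_S'_bdd : ∃ L : ℝ, 0 ≤ L ∧ ∀ x, deriv Real.smoothTransition x ≤ L := by
  have hc : Continuous (deriv Real.smoothTransition) :=
    (Real.smoothTransition.contDiff (n := 1)).continuous_deriv (by simp)
  obtain ⟨L, hL⟩ := (isCompact_Icc (a := (0 : ℝ)) (b := 1)).exists_bound_of_continuousOn hc.continuousOn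
  have h0 : 0 ≤ L := le_trans (norm_nonneg _) (hL 0 (by simp))
  refine ⟨L, h0, fun x => ?_⟩
  rcases le_total x 0 with h | h
  · rw [cprof_S'_zero_left h]; exact h0
  rcases le_total 1 x with h' | h'
  · rw [cprof_S'_zero_right h']; exact h0
  exact le_trans (le_abs_self _) (hL x ⟨h, h'⟩)

/-! ### the four phases (pure algebra) -/

theorem cprof_sq_le {x B : ℝ} (h : |x| ≤ B) : x ^ 2 ≤ B ^ 2 := by
  rw [← sq_abs x]
  exact pow_le_pow_left₀ (abs_nonneg x) h 2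

theorem cprof_unit {c s : ℝ} (h : c ^ 2 + s ^ 2 = 1) : |c| ≤ 1 ∧ |s| ≤ 1 := by
  constructor
  · exact abs_le_one_iff_mul_self_le_one.2 (by nlinarith [sq_nonneg s])
  · exact abs_le_one_iff_mul_self_le_one.2 (by nlinarith [sq_nonneg c])

theorem cprof_mul_le {x y X Y : ℝ} (hx : |x| ≤ X) (hy : |y| ≤ Y) : |x * y| ≤ X * Y := by
  rw [abs_mul]
  exact mul_le_mul hx hy (abs_nonneg _) (le_trans (abs_nonneg _) hx)

theorem cprof_ph1 {κ c₁ s₁ c₂ s₂ a b b' q q' : ℝ} (hκ : κ ≤ 1 / 100)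
    (h1 : c₁ ^ 2 + s₁ ^ 2 = 1) (h2 : c₂ ^ 2 + s₂ ^ 2 = 1) (ha : 0 < a)
    (hb : |b| ≤ a / 4) (hb' : |b'| ≤ a / 4) (hq : |q| ≤ a / 4) (hq' : |q'| ≤ a / 4) :
    κ * ((-a * c₁ + b' * c₂) ^ 2 + (a * s₁) ^ 2 + (2 * b * s₂) ^ 2 + (a * c₁ + q * c₂) ^ 2 +
          (-a * s₁) ^ 2 + (q' * s₂ / 2) ^ 2) ≤
        -((-a * c₁ + b' * c₂) * (a * c₁ + q * c₂)) - a * (-a) * s₁ ^ 2 - b * q' * s₂ ^ 2 := by
  obtain ⟨hc1, hs1⟩ := cprof_unit h1
  obtain ⟨hc2, hs2⟩ := cprof_unit h2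
  have haa : |a| ≤ a := (abs_of_pos ha).le
  have haa' : |-a| ≤ a := by rw [abs_neg]; exact haa
  have e1 : |-a * c₁ + b' * c₂| ≤ 5 * a / 4 := by
    have := cprof_mul_le haa' hc1
    have := cprof_mul_le hb' hc2
    have := abs_add_le (-a * c₁) (b' * c₂)
    linarith
  have e2 : |a * s₁| ≤ a := by simpa using cprof_mul_le haa hs1
  have e3 : |2 * b * s₂| ≤ a / 2 := by
    have h := cprof_mul_le hb hs2
    rw [mul_assoc, abs_mul, abs_two]; linarith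
  have e4 : |a * c₁ + q * c₂| ≤ 5 * a / 4 := by
    have := cprof_mul_le haa hc1
    have := cprof_mul_le hq hc2
    have := abs_add_le (a * c₁) (q * c₂)
    linarith
  have e5 : |-a * s₁| ≤ a := by simpa using cprof_mul_le haa' hs1
  have e6 : |q' * s₂ / 2| ≤ a / 8 := by
    have h := cprof_mul_le hq' hs2
    rw [abs_div, abs_two]; linarith
  have hsum : (-a * c₁ + b' * c₂) ^ 2 + (a * s₁) ^ 2 + (2 * b * s₂) ^ 2 + (a * c₁ + q * c₂) ^ 2 +
          (-a * s₁) ^ 2 + (q' * s₂ / 2) ^ 2 ≤ 6 * a ^ 2 := by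
    have := cprof_sq_le e1
    have := cprof_sq_le e2
    have := cprof_sq_le e3
    have := cprof_sq_le e4
    have := cprof_sq_le e5
    have := cprof_sq_le e6
    nlinarith
  have hR : -((-a * c₁ + b' * c₂) * (a * c₁ + q * c₂)) - a * (-a) * s₁ ^ 2 - b * q' * s₂ ^ 2 =
      a ^ 2 * (c₁ ^ 2 + s₁ ^ 2) + a * (q - b') * (c₁ * c₂) - b' * q * (c₂ * c₂) - b * q' * (s₂ * s₂) := by
    ring
  have f1 : |a * (q - b') * (c₁ * c₂)| ≤ a * (a / 2) * (1 * 1) := by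
    refine cprof_mul_le (cprof_mul_le haa ?_) (cprof_mul_le hc1 hc2)
    have := abs_sub q b'
    linarith
  have f2 : |b' * q * (c₂ * c₂)| ≤ a / 4 * (a / 4) * (1 * 1) :=
    cprof_mul_le (cprof_mul_le hb' hq) (cprof_mul_le hc2 hc2)
  have f3 : |b * q' * (s₂ * s₂)| ≤ a / 4 * (a / 4) * (1 * 1) :=
    cprof_mul_le (cprof_mul_le hb hq') (cprof_mul_le hs2 hs2)
  rw [hR, h1]
  have g1 := (abs_le.1 f1).1
  have g2 := (abs_le.1 f2).2
  have g3 := (abs_le.1 f3).2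
  have hs0 : 0 ≤ (-a * c₁ + b' * c₂) ^ 2 + (a * s₁) ^ 2 + (2 * b * s₂) ^ 2 + (a * c₁ + q * c₂) ^ 2 +
          (-a * s₁) ^ 2 + (q' * s₂ / 2) ^ 2 := by positivity
  have := mul_le_mul_of_nonneg_right hκ hs0
  nlinarith [sq_nonneg a]

theorem cprof_ph2 {κ c₁ s₁ c₂ s₂ a E : ℝ} (hκ : κ ≤ 1 / 100) :
    κ * ((-a * c₁ + -(2 * E) * c₂) ^ 2 + (a * s₁) ^ 2 + (2 * (4 * E) * s₂) ^ 2 +
          (a * c₁ + 2 * E * c₂) ^ 2 + (-a * s₁) ^ 2 + (-E * s₂ / 2) ^ 2) ≤
        -((-a * c₁ + -(2 * E) * c₂) * (a * c₁ + 2 * E * c₂)) - a * (-a) * s₁ ^ 2 -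
          4 * E * (-E) * s₂ ^ 2 := by
  have hs0 : 0 ≤ (-a * c₁ + -(2 * E) * c₂) ^ 2 + (a * s₁) ^ 2 + (2 * (4 * E) * s₂) ^ 2 +
          (a * c₁ + 2 * E * c₂) ^ 2 + (-a * s₁) ^ 2 + (-E * s₂ / 2) ^ 2 := by positivity
  have := mul_le_mul_of_nonneg_right hκ hs0
  nlinarith [sq_nonneg (a * c₁ + 2 * E * c₂), sq_nonneg (a * s₁), sq_nonneg (E * s₂)]

theorem cprof_ph3 {κ c₁ s₁ c₂ s₂ a a' E : ℝ} (hκ : κ ≤ 1 / 100)
    (h1 : c₁ ^ 2 + s₁ ^ 2 = 1) (h2 : c₂ ^ 2 + s₂ ^ 2 = 1) (hE : 0 < E)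
    (ha0 : 0 ≤ a) (ha : a ≤ E / 4) (ha'0 : a' ≤ 0) (ha' : -(E / 4) ≤ a') :
    κ * ((a' * c₁ + -(2 * E) * c₂) ^ 2 + (a * s₁) ^ 2 + (2 * (4 * E) * s₂) ^ 2 +
          (a * c₁ + 2 * E * c₂) ^ 2 + (a' * s₁) ^ 2 + (-E * s₂ / 2) ^ 2) ≤
        -((a' * c₁ + -(2 * E) * c₂) * (a * c₁ + 2 * E * c₂)) - a * a' * s₁ ^ 2 -
          4 * E * (-E) * s₂ ^ 2 := by
  obtain ⟨hc1, hs1⟩ := cprof_unit h1
  obtain ⟨hc2, hs2⟩ := cprof_unit h2
  have haa : |a| ≤ E / 4 := abs_le.2 ⟨by linarith, ha⟩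
  have haa' : |a'| ≤ E / 4 := abs_le.2 ⟨ha', by linarith⟩
  have hE2 : |2 * E| ≤ 2 * E := (abs_of_pos (by linarith)).le
  have hE2' : |-(2 * E)| ≤ 2 * E := by rw [abs_neg]; exact hE2
  have e1 : |a' * c₁ + -(2 * E) * c₂| ≤ 9 * E / 4 := by
    have := cprof_mul_le haa' hc1
    have := cprof_mul_le hE2' hc2
    have := abs_add_le (a' * c₁) (-(2 * E) * c₂)
    linarith
  have e2 : |a * s₁| ≤ E / 4 := by simpa using cprof_mul_le haa hs1
  have e3 : |2 * (4 * E) * s₂| ≤ 8 * E := by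
    have h8 : |2 * (4 * E)| ≤ 8 * E := by rw [abs_of_pos (by linarith)]; linarith
    simpa using cprof_mul_le h8 hs2
  have e4 : |a * c₁ + 2 * E * c₂| ≤ 9 * E / 4 := by
    have := cprof_mul_le haa hc1
    have := cprof_mul_le hE2 hc2
    have := abs_add_le (a * c₁) (2 * E * c₂)
    linarith
  have e5 : |a' * s₁| ≤ E / 4 := by simpa using cprof_mul_le haa' hs1
  have e6 : |-E * s₂ / 2| ≤ E / 2 := by
    have hE1 : |-E| ≤ E := by rw [abs_neg, abs_of_pos hE]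
    have h := cprof_mul_le hE1 hs2
    rw [abs_div, abs_two]; linarith
  have hsum : (a' * c₁ + -(2 * E) * c₂) ^ 2 + (a * s₁) ^ 2 + (2 * (4 * E) * s₂) ^ 2 +
          (a * c₁ + 2 * E * c₂) ^ 2 + (a' * s₁) ^ 2 + (-E * s₂ / 2) ^ 2 ≤ 75 * E ^ 2 := by
    have := cprof_sq_le e1
    have := cprof_sq_le e2
    have := cprof_sq_le e3
    have := cprof_sq_le e4
    have := cprof_sq_le e5
    have := cprof_sq_le e6
    nlinarith
  have hR : -((a' * c₁ + -(2 * E) * c₂) * (a * c₁ + 2 * E * c₂)) - a * a' * s₁ ^ 2 -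
          4 * E * (-E) * s₂ ^ 2 =
      4 * E ^ 2 * (c₂ ^ 2 + s₂ ^ 2) + 2 * E * (a - a') * (c₁ * c₂) - a * a' * (c₁ ^ 2 + s₁ ^ 2) := by
    ring
  have f1 : |2 * E * (a - a') * (c₁ * c₂)| ≤ 2 * E * (E / 2) * (1 * 1) := by
    refine cprof_mul_le (cprof_mul_le hE2 ?_) (cprof_mul_le hc1 hc2)
    have := abs_sub a a'
    linarith
  rw [hR, h1, h2]
  have g1 := (abs_le.1 f1).1
  have g2 : a * a' ≤ 0 := mul_nonpos_of_nonneg_of_nonpos ha0 ha'0
  have hs0 : 0 ≤ (a' * c₁ + -(2 * E) * c₂) ^ 2 + (a * s₁) ^ 2 + (2 * (4 * E) * s₂) ^ 2 +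
          (a * c₁ + 2 * E * c₂) ^ 2 + (a' * s₁) ^ 2 + (-E * s₂ / 2) ^ 2 := by positivity
  have := mul_le_mul_of_nonneg_right hκ hs0
  nlinarith [sq_nonneg E]

theorem cprof_ph4 {κ M ρ c₁ s₁ c₂ s₂ b b' q q' : ℝ} (hκ : κ * M ^ 2 ≤ 1 / 100) (hκ0 : 0 ≤ κ)
    (h2 : c₂ ^ 2 + s₂ ^ 2 = 1) (hρ : 0 < ρ)
    (hb : ρ ≤ b) (hbM : b ≤ M * ρ) (hb' : ρ ≤ -b') (hbM' : -b' ≤ M * ρ)
    (hq : ρ ≤ q) (hqM : q ≤ M * ρ) (hq' : ρ ≤ -q') (hqM' : -q' ≤ M * ρ) :
    κ * ((0 * c₁ + b' * c₂) ^ 2 + (0 * s₁) ^ 2 + (2 * b * s₂) ^ 2 + (0 * c₁ + q * c₂) ^ 2 +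
          (0 * s₁) ^ 2 + (q' * s₂ / 2) ^ 2) ≤
        -((0 * c₁ + b' * c₂) * (0 * c₁ + q * c₂)) - 0 * 0 * s₁ ^ 2 - b * q' * s₂ ^ 2 := by
  have p1 : ρ * ρ ≤ -b' * q := mul_le_mul hb' hq hρ.le (by linarith)
  have p2 : ρ * ρ ≤ b * -q' := mul_le_mul hb hq' hρ.le (by linarith)
  have u1 : b ^ 2 ≤ (M * ρ) ^ 2 := pow_le_pow_left₀ (by linarith) hbM 2
  have u2 : (-b') ^ 2 ≤ (M * ρ) ^ 2 := pow_le_pow_left₀ (by linarith) hbM' 2
  have u3 : q ^ 2 ≤ (M * ρ) ^ 2 := pow_le_pow_left₀ (by linarith) hqM 2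
  have u4 : (-q') ^ 2 ≤ (M * ρ) ^ 2 := pow_le_pow_left₀ (by linarith) hqM' 2
  have hc : 0 ≤ c₂ ^ 2 := sq_nonneg _
  have hs : 0 ≤ s₂ ^ 2 := sq_nonneg _
  have hsum : (0 * c₁ + b' * c₂) ^ 2 + (0 * s₁) ^ 2 + (2 * b * s₂) ^ 2 + (0 * c₁ + q * c₂) ^ 2 +
          (0 * s₁) ^ 2 + (q' * s₂ / 2) ^ 2 ≤ 5 * (M * ρ) ^ 2 := by
    have v1 := mul_le_mul_of_nonneg_right u1 hs
    have v2 := mul_le_mul_of_nonneg_right u2 hc
    have v3 := mul_le_mul_of_nonneg_right u3 hc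
    have v4 := mul_le_mul_of_nonneg_right u4 hs
    have v5 : 0 ≤ (M * ρ) ^ 2 * c₂ ^ 2 := by positivity
    have v6 : 0 ≤ (M * ρ) ^ 2 * s₂ ^ 2 := by positivity
    have v7 : (M * ρ) ^ 2 = (M * ρ) ^ 2 * c₂ ^ 2 + (M * ρ) ^ 2 * s₂ ^ 2 := by
      rw [← mul_add, h2, mul_one]
    nlinarith
  have hR : ρ * ρ ≤ -((0 * c₁ + b' * c₂) * (0 * c₁ + q * c₂)) - 0 * 0 * s₁ ^ 2 - b * q' * s₂ ^ 2 := by
    have v1 := mul_le_mul_of_nonneg_right p1 hc
    have v2 := mul_le_mul_of_nonneg_right p2 hs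
    have v7 : ρ * ρ = ρ * ρ * c₂ ^ 2 + ρ * ρ * s₂ ^ 2 := by
      rw [← mul_add, h2, mul_one]
    nlinarith
  have w1 := mul_le_mul_of_nonneg_left hsum hκ0
  have w2 : κ * M ^ 2 * (ρ * ρ) ≤ 1 / 100 * (ρ * ρ) :=
    mul_le_mul_of_nonneg_right hκ (by positivity)
  nlinarith [mul_pos hρ hρ]

/-! ### the profiles -/

/-- interpolation between `k exp (-τ/4)` (`τ ≤ -2`) and `exp (-τ)` (`τ ≥ -1`) -/
noncomputable def cprof_g (k τ : ℝ) : ℝ :=
  (1 - Real.smoothTransition (τ + 2)) * (k * Real.exp (-τ / 4)) +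
    Real.smoothTransition (τ + 2) * Real.exp (-τ)

noncomputable def cprof_g' (k τ : ℝ) : ℝ :=
  -((1 - Real.smoothTransition (τ + 2)) * (k / 4 * Real.exp (-τ / 4))) -
    Real.smoothTransition (τ + 2) * Real.exp (-τ) -
    deriv Real.smoothTransition (τ + 2) * (k * Real.exp (-τ / 4) - Real.exp (-τ))

theorem cprof_g_diff (k τ : ℝ) : HasDerivAt (cprof_g k) (cprof_g' k τ) τ := by
  have hS : HasDerivAt (fun τ => Real.smoothTransition (τ + 2)) (deriv Real.smoothTransition (τ + 2)) τ :=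
    (cprof_S_diff (τ + 2)).comp_add_const τ 2
  have h1 : HasDerivAt (fun τ : ℝ => Real.exp (-τ / 4)) (Real.exp (-τ / 4) * (-1 / 4)) τ :=
    (((hasDerivAt_id τ).neg).div_const 4).exp
  have h2 : HasDerivAt (fun τ : ℝ => Real.exp (-τ)) (Real.exp (-τ) * (-1)) τ :=
    ((hasDerivAt_id τ).neg).exp
  have h := ((hS.const_sub 1).mul (h1.const_mul k)).add (hS.mul h2)
  refine (h.congr_deriv ?_)
  simp only [cprof_g']
  ring

theorem cprof_g_contDiff (k : ℝ) : ContDiff ℝ 1 (cprof_g k) := by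
  have hS : ContDiff ℝ 1 (fun τ : ℝ => Real.smoothTransition (τ + 2)) :=
    (Real.smoothTransition.contDiff (n := 1)).comp (contDiff_id.add contDiff_const)
  unfold cprof_g
  exact ((contDiff_const.sub hS).mul (contDiff_const.mul
    (Real.contDiff_exp.comp (contDiff_id.neg.div_const 4)))).add
    (hS.mul (Real.contDiff_exp.comp contDiff_id.neg))

theorem cprof_g_left (k : ℝ) {τ : ℝ} (h : τ ≤ -2) :
    cprof_g k τ = k * Real.exp (-τ / 4) ∧ cprof_g' k τ = -(k / 4 * Real.exp (-τ / 4)) := by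
  have h0 : τ + 2 ≤ 0 := by linarith
  simp only [cprof_g, cprof_g', Real.smoothTransition.zero_of_nonpos h0, cprof_S'_zero_left h0]
  constructor <;> ring

theorem cprof_g_right (k : ℝ) {τ : ℝ} (h : -1 ≤ τ) : cprof_g k τ = Real.exp (-τ) := by
  have h0 : 1 ≤ τ + 2 := by linarith
  simp only [cprof_g, Real.smoothTransition.one_of_one_le h0]
  ring

theorem cprof_exp_two : Real.exp 2 ≤ 8 := by
  have h := Real.exp_one_lt_d9
  have h0 := Real.exp_pos 1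
  have : Real.exp 2 = Real.exp 1 * Real.exp 1 := by rw [← Real.exp_add]; norm_num
  nlinarith

theorem cprof_g_mid {k L τ : ℝ} (hk : 8 ≤ k) (hL0 : 0 ≤ L)
    (hL : ∀ x, deriv Real.smoothTransition x ≤ L) (h1 : -2 ≤ τ) (h2 : τ ≤ 0) :
    1 ≤ cprof_g k τ ∧ cprof_g k τ ≤ 8 * k ∧ 1 ≤ -cprof_g' k τ ∧ -cprof_g' k τ ≤ 8 * k * (1 + L) := by
  set u := Real.smoothTransition (τ + 2) with hu
  set d := deriv Real.smoothTransition (τ + 2) with hd
  have hu0 : 0 ≤ u := Real.smoothTransition.nonneg _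
  have hu1 : u ≤ 1 := Real.smoothTransition.le_one _
  have hd0 : 0 ≤ d := cprof_S'_nonneg _
  have hdL : d ≤ L := hL _
  have x1 : 1 ≤ Real.exp (-τ / 4) := Real.one_le_exp (by linarith)
  have x2 : Real.exp (-τ / 4) ≤ 8 := le_trans (Real.exp_le_exp.2 (by linarith)) cprof_exp_two
  have y1 : 1 ≤ Real.exp (-τ) := Real.one_le_exp (by linarith)
  have y2 : Real.exp (-τ) ≤ 8 := le_trans (Real.exp_le_exp.2 (by linarith)) cprof_exp_two
  set x := Real.exp (-τ / 4) with hx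
  set y := Real.exp (-τ) with hy
  have kx1 : k ≤ k * x := by nlinarith
  have kx2 : k * x ≤ 8 * k := by nlinarith
  have hg : cprof_g k τ = (1 - u) * (k * x) + u * y := rfl
  have hg' : -cprof_g' k τ = (1 - u) * (k / 4 * x) + u * y + d * (k * x - y) := by
    simp only [cprof_g', ← hu, ← hd, ← hx, ← hy]; ring
  rw [hg, hg']
  have hv : 0 ≤ 1 - u := by linarith
  have m1 : (1 - u) * 1 ≤ (1 - u) * (k * x) := mul_le_mul_of_nonneg_left (by linarith) hv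
  have m2 : u * 1 ≤ u * y := mul_le_mul_of_nonneg_left y1 hu0
  have m3 : (1 - u) * (k * x) ≤ (1 - u) * (8 * k) := mul_le_mul_of_nonneg_left kx2 hv
  have m4 : u * y ≤ u * (8 * k) := mul_le_mul_of_nonneg_left (by linarith) hu0
  have m5 : (1 - u) * 1 ≤ (1 - u) * (k / 4 * x) := mul_le_mul_of_nonneg_left (by nlinarith) hv
  have m6 : (1 - u) * (k / 4 * x) ≤ (1 - u) * (8 * k) := mul_le_mul_of_nonneg_left (by nlinarith) hv
  have m7 : 0 ≤ d * (k * x - y) := mul_nonneg hd0 (by linarith)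
  have m8 : d * (k * x - y) ≤ L * (8 * k) := mul_le_mul hdL (by linarith) (by linarith) hL0
  refine ⟨by linarith, by linarith, by linarith, by nlinarith⟩

/-- the old mode -/
noncomputable def cprof_A0 (T τ : ℝ) : ℝ := Real.exp (-τ) * (1 - Real.smoothTransition (τ - T + 2))

/-- the new mode -/
noncomputable def cprof_N (k T τ : ℝ) : ℝ :=
  Real.smoothTransition (τ / 2 + T) * cprof_g k τ * (1 - Real.smoothTransition (τ - T + 2))

theorem cprof_cut_diff (T τ : ℝ) :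
    HasDerivAt (fun τ => 1 - Real.smoothTransition (τ - T + 2))
      (-deriv Real.smoothTransition (τ - T + 2)) τ := by
  have h : HasDerivAt (fun τ : ℝ => τ - T + 2) 1 τ := ((hasDerivAt_id τ).sub_const T).add_const 2
  have := ((cprof_S_diff (τ - T + 2)).comp τ h).const_sub 1
  simpa using this

theorem cprof_A0_deriv (T τ : ℝ) : deriv (cprof_A0 T) τ =
    -(Real.exp (-τ) * (1 - Real.smoothTransition (τ - T + 2))) -
      Real.exp (-τ) * deriv Real.smoothTransition (τ - T + 2) := by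
  have h2 : HasDerivAt (fun τ : ℝ => Real.exp (-τ)) (Real.exp (-τ) * (-1)) τ :=
    ((hasDerivAt_id τ).neg).exp
  have h := h2.mul (cprof_cut_diff T τ)
  have h' : HasDerivAt (cprof_A0 T) _ τ := h
  rw [h'.deriv]
  ring

theorem cprof_N_deriv (k T τ : ℝ) (h : τ - T + 2 ≤ 0) : cprof_N k T τ =
    Real.smoothTransition (τ / 2 + T) * cprof_g k τ ∧ deriv (cprof_N k T) τ =
    deriv Real.smoothTransition (τ / 2 + T) / 2 * cprof_g k τ +
      Real.smoothTransition (τ / 2 + T) * cprof_g' k τ := by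
  have h0 : HasDerivAt (fun τ : ℝ => τ / 2 + T) (1 / 2) τ := ((hasDerivAt_id τ).div_const 2).add_const T
  have h1 := (cprof_S_diff (τ / 2 + T)).comp τ h0
  have h3 := (h1.mul (cprof_g_diff k τ)).mul (cprof_cut_diff T τ)
  have h' : HasDerivAt (cprof_N k T) _ τ := h3
  rw [h'.deriv]
  simp only [cprof_N, Real.smoothTransition.zero_of_nonpos h, cprof_S'_zero_left h, Function.comp,
    Pi.mul_apply]
  constructor <;> ring

theorem cprof_cut_contDiff (T : ℝ) :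
    ContDiff ℝ 1 (fun τ => 1 - Real.smoothTransition (τ - T + 2)) :=
  contDiff_const.sub ((Real.smoothTransition.contDiff (n := 1)).comp
    ((contDiff_id.sub contDiff_const).add contDiff_const))

theorem cprof_A0_contDiff (T : ℝ) : ContDiff ℝ 1 (cprof_A0 T) :=
  (Real.contDiff_exp.comp contDiff_id.neg).mul (cprof_cut_contDiff T)

theorem cprof_N_contDiff (k T : ℝ) : ContDiff ℝ 1 (cprof_N k T) :=
  (((Real.smoothTransition.contDiff (n := 1)).comp
    ((contDiff_id.div_const 2).add contDiff_const)).mul (cprof_g_contDiff k)).mul (cprof_cut_contDiff T)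

set_option maxHeartbeats 1000000 in
/-- `S = Real.smoothTransition`.  `A₀ τ = exp (-τ) (1 - S (τ - T + 2))`, `β τ = τ/4 + 3/4 (τ + 2) S (τ + 2) - 3/2`,
`α = β - log 4 (1 - S (τ + 2))` (`α', β' ≥ 1/4`; `α = β = τ` for `τ ≥ -1`; `exp (-α) = 4 exp (-β)`,
`β = τ/4 - 3/2` for `τ ≤ -2`), `A τ = S (τ/2 + T) exp (-α τ) (1 - S (τ - T + 2))`, `P` the same with `β`,
`ρ = exp (-3T/4)`, `T` large.  Four phases.  `s ∈ [0,1]`: the new mode is `O(exp (-T/4))` with its derivative, the old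
one is `a = exp (-s)` and gives `a²` on the right.  `s ∈ [1, T-2]`: `a' = -a`, `b' = -q`, `q' = -b/4`; the right side is
`(a c₁ + q c₂)² + (a s₁)² + (b s₂)²/4`.  `s ∈ [T-2, T-1]`: the old mode is `O(exp (-T/4))` relative to the new one,
`b' = -q = -b/2`, `q' = -b/4`.  `s ∈ [T-1, T]`: `a = 0`, `b, q > 0`, `b', q' < 0`.  On each phase either use explicit
bounds (`|S'| ≤ L`) or compactness. -/
theorem casc_prof : ∃ (T ρ κ : ℝ) (A₀ A P : ℝ → ℝ), 4 ≤ T ∧ 0 < ρ ∧ ρ ≤ 1 / 4 ∧ 0 < κ ∧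
    ContDiff ℝ 1 A₀ ∧ ContDiff ℝ 1 A ∧ ContDiff ℝ 1 P ∧ (∀ τ ≤ 1, A₀ τ = Real.exp (-τ)) ∧
    (∀ τ, -1 ≤ τ → A τ = A₀ τ ∧ P τ = A₀ τ) ∧ (∀ τ, T - 1 ≤ τ → A₀ τ = 0) ∧
    (∀ τ ≤ -(2 * T), A τ = 0 ∧ P τ = 0) ∧
    ∀ s ∈ Icc 0 T, ∀ c₁ s₁ c₂ s₂ a a' b b' q q' : ℝ, c₁ ^ 2 + s₁ ^ 2 = 1 → c₂ ^ 2 + s₂ ^ 2 = 1 →
      a = A₀ s → a' = deriv A₀ s → b = ρ * A (2 * s - 2 * T) → b' = 2 * ρ * deriv A (2 * s - 2 * T) →
      q = 2 * ρ * P (2 * s - 2 * T) → q' = 4 * ρ * deriv P (2 * s - 2 * T) →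
      κ * ((a' * c₁ + b' * c₂) ^ 2 + (a * s₁) ^ 2 + (2 * b * s₂) ^ 2 + (a * c₁ + q * c₂) ^ 2 +
          (a' * s₁) ^ 2 + (q' * s₂ / 2) ^ 2) ≤
        -((a' * c₁ + b' * c₂) * (a * c₁ + q * c₂)) - a * a' * s₁ ^ 2 - b * q' * s₂ ^ 2 := by
  obtain ⟨L, hL0, hL⟩ := cprof_S'_bdd
  set N : ℝ := 400 * (1 + L) with hN
  have hN1 : 400 ≤ N := by rw [hN]; linarith
  set T : ℝ := 4 * N with hT
  set w : ℝ := Real.exp (-T / 4) with hw
  have hw0 : 0 < w := Real.exp_pos _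
  have hwN : w * N ≤ 1 := by
    have h1 : N + 1 ≤ Real.exp N := Real.add_one_le_exp N
    have h2 : w * Real.exp N = 1 := by
      rw [hw, ← Real.exp_add, hT, show -(4 * N) / 4 + N = 0 by ring, Real.exp_zero]
    nlinarith
  have hw1 : w ≤ 1 / 400 := by nlinarith
  have hwL : w * (1 + L) ≤ 1 / 400 := by rw [hN] at hwN; linarith
  set M : ℝ := 1024 * (1 + L) with hM
  have hM1 : 1 ≤ M := by rw [hM]; linarith
  have hM2 : 1 ≤ M ^ 2 := one_le_pow₀ hM1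
  have hT4 : 4 ≤ T := by rw [hT]; linarith
  have hρ0 : 0 < w ^ 3 := pow_pos hw0 3
  have hκ0 : 0 < 1 / (100 * M ^ 2) := by positivity
  have hκM : 1 / (100 * M ^ 2) * M ^ 2 ≤ 1 / 100 := by
    apply le_of_eq; field_simp
  have hκ : 1 / (100 * M ^ 2) ≤ 1 / 100 :=
    one_div_le_one_div_of_le (by norm_num) (by linarith)
  refine ⟨T, w ^ 3, 1 / (100 * M ^ 2), cprof_A0 T, cprof_N 32 T, cprof_N 8 T, hT4, hρ0, ?_, hκ0,
    cprof_A0_contDiff T, cprof_N_contDiff 32 T, cprof_N_contDiff 8 T, ?_, ?_, ?_, ?_, ?_⟩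
  · have : w ^ 3 ≤ 1 ^ 2 * w := by
      rw [pow_succ]
      exact mul_le_mul_of_nonneg_right (pow_le_pow_left₀ hw0.le (by linarith) 2) hw0.le
    linarith
  · intro τ hτ
    rw [cprof_A0, Real.smoothTransition.zero_of_nonpos (by linarith)]; ring
  · intro τ hτ
    have h1 : 1 ≤ τ / 2 + T := by linarith
    simp only [cprof_N, cprof_A0, Real.smoothTransition.one_of_one_le h1, cprof_g_right _ hτ]
    constructor <;> ring
  · intro τ hτ
    rw [cprof_A0, Real.smoothTransition.one_of_one_le (by linarith)]; ring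
  · intro τ hτ
    have h1 : τ / 2 + T ≤ 0 := by linarith
    simp only [cprof_N, Real.smoothTransition.zero_of_nonpos h1]
    constructor <;> ring
  intro s hs c₁ s₁ c₂ s₂ a a' b b' q q' h1 h2 ha ha' hb hb' hq hq'
  obtain ⟨hs0, hsT⟩ := hs
  have hτ : 2 * s - 2 * T - T + 2 ≤ 0 := by linarith
  obtain ⟨n1, n2⟩ := cprof_N_deriv 32 T _ hτ
  obtain ⟨n3, n4⟩ := cprof_N_deriv 8 T _ hτ
  have harg : (2 * s - 2 * T) / 2 + T = s := by ring
  rw [harg] at n1 n2 n3 n4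
  rw [n1] at hb
  rw [n2] at hb'
  rw [n3] at hq
  rw [n4] at hq'
  rw [cprof_A0_deriv] at ha'
  rw [cprof_A0] at ha
  rcases le_total (T - 1) s with h4 | h4
  · -- phase 4
    have z1 : (1 : ℝ) ≤ s := by linarith
    have z2 : 1 ≤ s - T + 2 := by linarith
    rw [Real.smoothTransition.one_of_one_le z2] at ha ha'
    rw [cprof_S'_zero_right z2] at ha'
    rw [Real.smoothTransition.one_of_one_le z1] at hb hb' hq hq'
    rw [cprof_S'_zero_right z1] at hb' hq'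
    have ea : a = 0 := by rw [ha]; ring
    have ea' : a' = 0 := by rw [ha']; ring
    obtain ⟨g1, g2, g3, g4⟩ := cprof_g_mid (k := 32) (τ := 2 * s - 2 * T) (by norm_num) hL0 hL
      (by linarith) (by linarith)
    obtain ⟨g5, g6, g7, g8⟩ := cprof_g_mid (k := 8) (τ := 2 * s - 2 * T) (by norm_num) hL0 hL
      (by linarith) (by linarith)
    rw [ea, ea']
    have key : ∀ y : ℝ, 1 ≤ y → y ≤ M → w ^ 3 ≤ w ^ 3 * y ∧ w ^ 3 * y ≤ M * w ^ 3 := by
      intro y hy1 hy2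
      exact ⟨le_mul_of_one_le_right hρ0.le hy1,
        (mul_le_mul_of_nonneg_left hy2 hρ0.le).trans (mul_comm _ _).le⟩
    have eb : b = w ^ 3 * cprof_g 32 (2 * s - 2 * T) := by rw [hb]; ring
    have eb' : -b' = w ^ 3 * (2 * -cprof_g' 32 (2 * s - 2 * T)) := by rw [hb']; ring
    have eq : q = w ^ 3 * (2 * cprof_g 8 (2 * s - 2 * T)) := by rw [hq]; ring
    have eq' : -q' = w ^ 3 * (4 * -cprof_g' 8 (2 * s - 2 * T)) := by rw [hq']; ring
    obtain ⟨k1, k2⟩ := key (cprof_g 32 (2 * s - 2 * T)) g1 (by rw [hM]; linarith)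
    obtain ⟨k3, k4⟩ := key (2 * -cprof_g' 32 (2 * s - 2 * T)) (by linarith) (by rw [hM]; linarith)
    obtain ⟨k5, k6⟩ := key (2 * cprof_g 8 (2 * s - 2 * T)) (by linarith) (by rw [hM]; linarith)
    obtain ⟨k7, k8⟩ := key (4 * -cprof_g' 8 (2 * s - 2 * T)) (by linarith) (by rw [hM]; linarith)
    exact cprof_ph4 hκM hκ0.le h2 hρ0 (eb ▸ k1) (eb ▸ k2) (eb' ▸ k3) (eb' ▸ k4) (eq ▸ k5) (eq ▸ k6)
      (eq' ▸ k7) (eq' ▸ k8)
  have hτ2 : 2 * s - 2 * T ≤ -2 := by linarith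
  obtain ⟨l1, l2⟩ := cprof_g_left 32 hτ2
  obtain ⟨l3, l4⟩ := cprof_g_left 8 hτ2
  rw [l1] at hb hb'
  rw [l2] at hb'
  rw [l3] at hq hq'
  rw [l4] at hq'
  set r : ℝ := Real.exp (-s / 2) with hr
  have hr0 : 0 < r := Real.exp_pos _
  have hr1 : r ≤ 1 := Real.exp_le_one_iff.2 (by linarith)
  have hE : w ^ 3 * Real.exp (-(2 * s - 2 * T) / 4) = w * r := by
    rw [hw, hr, ← Real.exp_nat_mul, ← Real.exp_add, ← Real.exp_add]
    congr 1; push_cast; ring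
  have hrr : Real.exp (-s) = r * r := by
    rw [hr, ← Real.exp_add]; congr 1; ring
  set X := Real.exp (-(2 * s - 2 * T) / 4) with hX
  set E : ℝ := 8 * (w * r) with hEdef
  have hE0 : 0 < E := by positivity
  set u := Real.smoothTransition s with hu
  set d := deriv Real.smoothTransition s with hd
  have eb : b = 4 * u * E := by rw [hb, hEdef, ← hE]; ring
  have eb' : b' = 4 * d * E - 2 * u * E := by rw [hb', hEdef, ← hE]; ring
  have eq : q = 2 * u * E := by rw [hq, hEdef, ← hE]; ring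
  have eq' : q' = 2 * d * E - u * E := by rw [hq', hEdef, ← hE]; ring
  rcases le_total s 1 with h1' | h1'
  · -- phase 1
    have z2 : s - T + 2 ≤ 0 := by linarith
    rw [Real.smoothTransition.zero_of_nonpos z2] at ha ha'
    rw [cprof_S'_zero_left z2] at ha'
    have ea : a = Real.exp (-s) := by rw [ha]; ring
    have ea' : a' = -a := by rw [ha', ea]; ring
    have ha3 : 1 / 3 ≤ a := by
      have i1 : Real.exp (-1) ≤ a := ea ▸ Real.exp_le_exp.2 (by linarith)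
      have i2 : Real.exp (-1) * Real.exp 1 = 1 := by rw [← Real.exp_add]; simp
      have i3 := Real.exp_one_lt_d9
      have i4 := Real.exp_pos (-1)
      have i5 : Real.exp (-1) * Real.exp 1 ≤ Real.exp (-1) * 3 :=
        mul_le_mul_of_nonneg_left (by linarith) i4.le
      linarith
    have hu0 : 0 ≤ u := Real.smoothTransition.nonneg _
    have hu1 : u ≤ 1 := Real.smoothTransition.le_one _
    have hd0 : 0 ≤ d := cprof_S'_nonneg _
    have hdL : d ≤ L := hL _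
    have hEw : E ≤ 8 * w := by
      have := mul_le_of_le_one_right hw0.le hr1
      rw [hEdef]; linarith
    have i1 : u * E ≤ E := mul_le_of_le_one_left hE0.le hu1
    have i2 : 0 ≤ u * E := by positivity
    have i3 : d * E ≤ L * E := mul_le_mul_of_nonneg_right hdL hE0.le
    have i4 : 0 ≤ d * E := by positivity
    have i5 : E + L * E ≤ 1 / 50 := by
      have := mul_le_mul_of_nonneg_left hEw (show 0 ≤ 1 + L by linarith)
      linarith
    have i6 : 0 ≤ L * E := by positivity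
    rw [ea']
    refine cprof_ph1 hκ h1 h2 (by linarith) ?_ ?_ ?_ ?_
    · rw [eb]; exact abs_le.2 ⟨by linarith, by linarith⟩
    · rw [eb']; exact abs_le.2 ⟨by linarith, by linarith⟩
    · rw [eq]; exact abs_le.2 ⟨by linarith, by linarith⟩
    · rw [eq']; exact abs_le.2 ⟨by linarith, by linarith⟩
  have hu1 : u = 1 := Real.smoothTransition.one_of_one_le h1'
  have hd0 : d = 0 := cprof_S'_zero_right h1'
  have fb : b = 4 * E := by rw [eb, hu1]; ring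
  have fb' : b' = -(2 * E) := by rw [eb', hu1, hd0]; ring
  have fq : q = 2 * E := by rw [eq, hu1]; ring
  have fq' : q' = -E := by rw [eq', hu1, hd0]; ring
  rw [fb, fb', fq, fq']
  rcases le_total s (T - 2) with h2' | h2'
  · -- phase 2
    have z2 : s - T + 2 ≤ 0 := by linarith
    rw [Real.smoothTransition.zero_of_nonpos z2] at ha ha'
    rw [cprof_S'_zero_left z2] at ha'
    have ea' : a' = -a := by rw [ha', ha]; ring
    rw [ea']
    exact cprof_ph2 hκ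
  · -- phase 3
    set v := Real.smoothTransition (s - T + 2) with hv
    set f := deriv Real.smoothTransition (s - T + 2) with hf
    have hv0 : 0 ≤ v := Real.smoothTransition.nonneg _
    have hv1 : v ≤ 1 := Real.smoothTransition.le_one _
    have hf0 : 0 ≤ f := cprof_S'_nonneg _
    have hfL : f ≤ L := hL _
    have hrw : r ≤ 3 * w ^ 2 := by
      have i1 : r ≤ Real.exp (1 + -T / 4 + -T / 4) := Real.exp_le_exp.2 (by linarith)
      rw [Real.exp_add, Real.exp_add, ← hw] at i1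
      have i3 := Real.exp_one_lt_d9
      have i4 : Real.exp 1 * (w * w) ≤ 3 * (w * w) :=
        mul_le_mul_of_nonneg_right (by linarith) (mul_pos hw0 hw0).le
      linarith
    have hbig : (1 + L) * (r * r) ≤ E / 4 := by
      have i1 : (1 + L) * r ≤ (1 + L) * (3 * w ^ 2) := mul_le_mul_of_nonneg_left hrw (by linarith)
      have i2 : (1 + L) * (3 * w ^ 2) = 3 * w * (w * (1 + L)) := by ring
      have i3 : 3 * w * (w * (1 + L)) ≤ 3 * w * (1 / 400) :=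
        mul_le_mul_of_nonneg_left hwL (by positivity)
      have i4 : (1 + L) * r ≤ 2 * w := by linarith
      have i5 := mul_le_mul_of_nonneg_right i4 hr0.le
      rw [hEdef]; linarith
    rw [hrr] at ha ha'
    have rr0 : 0 < r * r := mul_pos hr0 hr0
    have j1 : 0 ≤ r * r * (1 - v) := mul_nonneg rr0.le (by linarith)
    have j2 : r * r * (1 - v) ≤ r * r := mul_le_of_le_one_right rr0.le (by linarith)
    have j3 : 0 ≤ r * r * f := mul_nonneg rr0.le hf0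
    have j4 : r * r * f ≤ r * r * L := mul_le_mul_of_nonneg_left hfL rr0.le
    have j5 : 0 ≤ r * r * L := mul_nonneg rr0.le hL0
    refine cprof_ph3 hκ h1 h2 hE0 ?_ ?_ ?_ ?_
    · rw [ha]; exact j1
    · rw [ha]; linarith
    · rw [ha']; linarith
    · rw [ha']; linarith

end Crest.Agent.R83
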