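import Crest.Agent.R83.CProf
import Crest.Agent.R83.PB

/-!
# R83 TASK Casc: killing the field `exp (-t) cos θ` in a toroidal collar
-/

set_option autoImplicit false

namespace Crest.Agent.R83

open MeasureTheory Set Filter Topology
open scoped Gradient RealInnerProductSpace ENNReal NNReal ContDiff

theorem casc_norm3 {a b c : E3} {N x y z : ℝ} (ha : ‖a‖ ≤ N) (hb : ‖b‖ ≤ N) (hc : ‖c‖ ≤ N) :
    ‖x • a + y • b + z • c‖ ^ 2 ≤ 3 * N ^ 2 * (x ^ 2 + y ^ 2 + z ^ 2) := by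
  have hN : 0 ≤ N := (norm_nonneg a).trans ha
  have h1 : ‖x • a + y • b + z • c‖ ≤ N * (|x| + |y| + |z|) := by
    refine (norm_add₃_le).trans ?_
    rw [norm_smul, norm_smul, norm_smul, Real.norm_eq_abs, Real.norm_eq_abs, Real.norm_eq_abs]
    nlinarith [abs_nonneg x, abs_nonneg y, abs_nonneg z]
  have h2 : (|x| + |y| + |z|) ^ 2 ≤ 3 * (x ^ 2 + y ^ 2 + z ^ 2) := by
    rw [← sq_abs x, ← sq_abs y, ← sq_abs z]
    nlinarith [sq_nonneg (|x| - |y|), sq_nonneg (|y| - |z|), sq_nonneg (|x| - |z|)]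
  calc _ ≤ (N * (|x| + |y| + |z|)) ^ 2 := pow_le_pow_left₀ (norm_nonneg _) h1 2
    _ = N ^ 2 * (|x| + |y| + |z|) ^ 2 := by ring
    _ ≤ N ^ 2 * (3 * (x ^ 2 + y ^ 2 + z ^ 2)) := mul_le_mul_of_nonneg_left h2 (sq_nonneg N)
    _ = _ := by ring

theorem casc_norm_cross {a b : E3} {N : ℝ} (ha : ‖a‖ ≤ N) (hb : ‖b‖ ≤ N) : ‖cross a b‖ ≤ N ^ 2 :=
  (norm_cross_le a b).trans (by
    rw [sq]; exact mul_le_mul ha hb (norm_nonneg _) ((norm_nonneg _).trans ha))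

theorem casc_inner (a b : E3) : ⟪a, b⟫ = a 0 * b 0 + a 1 * b 1 + a 2 * b 2 := by
  simp [PiLp.inner_apply, Fin.sum_univ_three]
  ring

/-- the pointwise algebra of one stage: `n = ∇t`, `w₁`, `w₂` the gradients of the old and the new angle,
`ε = ± 1` according to the parity of the stage -/
theorem stage_cone {n w₁ w₂ : E3} {ε d N κ x₀ x₁ x₂ y₀ y₁ y₂ : ℝ} (hε : ε = 1 ∨ ε = -1) (hd : 0 < d)
    (hκ : 0 < κ) (hN : 1 ≤ N) (hdet : ε * ⟪n, cross w₁ w₂⟫ ≤ -d) (h₀ : ‖n‖ ≤ N) (h₁ : ‖w₁‖ ≤ N)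
    (h₂ : ‖w₂‖ ≤ N)
    (h : κ * (x₀ ^ 2 + x₁ ^ 2 + x₂ ^ 2 + y₀ ^ 2 + y₁ ^ 2 + y₂ ^ 2) ≤ x₀ * y₀ + x₁ * y₁ + x₂ * y₂) :
    cone (κ * d / (3 * N ^ 4)) (x₀ • n + x₁ • w₁ + x₂ • w₂)
      (-(ε • (y₀ • cross w₁ w₂ + y₁ • cross w₂ n + y₂ • cross n w₁))) := by
  unfold cone
  have hin : ⟪x₀ • n + x₁ • w₁ + x₂ • w₂,
      -(ε • (y₀ • cross w₁ w₂ + y₁ • cross w₂ n + y₂ • cross n w₁))⟫ =
      -(ε * ⟪n, cross w₁ w₂⟫) * (x₀ * y₀ + x₁ * y₁ + x₂ * y₂) := by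
    rw [casc_inner, casc_inner]
    simp [cross]
    ring
  have hε1 : ‖ε‖ = 1 := by rcases hε with h | h <;> simp [h]
  have hE := casc_norm3 (x := x₀) (y := x₁) (z := x₂) h₀ h₁ h₂
  have hJ := casc_norm3 (x := y₀) (y := y₁) (z := y₂) (casc_norm_cross h₁ h₂) (casc_norm_cross h₂ h₀)
    (casc_norm_cross h₀ h₁)
  rw [hin, norm_neg, norm_smul, hε1, one_mul]
  have hN0 : 0 < N := by linarith
  have hN2 : N ^ 2 ≤ N ^ 4 := pow_le_pow_right₀ hN (by norm_num)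
  have hX : 0 ≤ x₀ ^ 2 + x₁ ^ 2 + x₂ ^ 2 := by positivity
  have hS : 0 ≤ κ * (x₀ ^ 2 + x₁ ^ 2 + x₂ ^ 2 + y₀ ^ 2 + y₁ ^ 2 + y₂ ^ 2) := by positivity
  have h3 : ‖x₀ • n + x₁ • w₁ + x₂ • w₂‖ ^ 2 +
      ‖y₀ • cross w₁ w₂ + y₁ • cross w₂ n + y₂ • cross n w₁‖ ^ 2 ≤
      3 * N ^ 4 * (x₀ ^ 2 + x₁ ^ 2 + x₂ ^ 2 + y₀ ^ 2 + y₁ ^ 2 + y₂ ^ 2) := by
    nlinarith [mul_le_mul_of_nonneg_right hN2 hX]
  calc _ ≤ κ * d / (3 * N ^ 4) *
        (3 * N ^ 4 * (x₀ ^ 2 + x₁ ^ 2 + x₂ ^ 2 + y₀ ^ 2 + y₁ ^ 2 + y₂ ^ 2)) :=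
        mul_le_mul_of_nonneg_left h3 (by positivity)
    _ = d * (κ * (x₀ ^ 2 + x₁ ^ 2 + x₂ ^ 2 + y₀ ^ 2 + y₁ ^ 2 + y₂ ^ 2)) := by field_simp
    _ ≤ _ := mul_le_mul (by linarith) h hS (by linarith)

theorem casc_cone_smul {κ : ℝ} {E J : E3} (h : cone κ E J) (c : ℝ) : cone κ (c • E) (c • J) := by
  unfold cone at h ⊢
  rw [norm_smul, norm_smul, inner_smul_left, inner_smul_right, mul_pow, mul_pow, Real.norm_eq_abs, sq_abs]
  simp only [conj_trivial]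
  nlinarith [mul_le_mul_of_nonneg_left h (sq_nonneg c)]

theorem casc_two {V : Type} [NormedAddCommGroup V] (g : ℕ → V) (k : ℕ)
    (h : ∀ j, j ≠ k → j ≠ k + 1 → g j = 0) : g 0 + ∑' j, g (j + 1) = g k + g (k + 1) := by
  have hs : HasSum g (∑ j ∈ ({k, k + 1} : Finset ℕ), g j) :=
    hasSum_sum_of_ne_finset_zero (fun j hj => h j (fun e => hj (by simp [e])) (fun e => hj (by simp [e])))
  rw [Finset.sum_pair (Nat.succ_ne_self k).symm] at hs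
  rw [← hs.summable.tsum_eq_zero_add, hs.tsum_eq]

/-- series of `C¹` functions -/
theorem casc_series {Ω : Set E3} (hΩ : IsOpen Ω) {f : ℕ → E3 → ℝ} {u : ℕ → ℝ} (hu : Summable u)
    (hf : ∀ k, ContDiffOn ℝ 1 (f k) Ω) (h0 : ∀ k, ∀ x ∈ Ω, ‖f k x‖ ≤ u k)
    (h1 : ∀ k, ∀ x ∈ Ω, ‖∇ (f k) x‖ ≤ u k) :
    ContDiffOn ℝ 1 (fun x => ∑' k, f k x) Ω ∧
      ∀ x ∈ Ω, ∇ (fun x => ∑' k, f k x) x = ∑' k, ∇ (f k) x := by
  have h1' : ∀ k, ∀ x ∈ Ω, ‖fderiv ℝ (f k) x‖ ≤ u k := fun k x hx => by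
    rw [← norm_grad]; exact h1 k x hx
  have hd : ∀ k, ∀ x ∈ Ω, HasFDerivAt (f k) (fderiv ℝ (f k) x) x := fun k x hx =>
    (((hf k).contDiffAt (hΩ.mem_nhds hx)).differentiableAt one_ne_zero).hasFDerivAt
  have key : ∀ x ∈ Ω, HasFDerivAt (fun x => ∑' k, f k x) (∑' k, fderiv ℝ (f k) x) x := by
    intro x hx
    refine hasFDerivAt_of_tendstoUniformlyOn hΩ (tendstoUniformlyOn_tsum_nat hu h1')
      (f := fun N y => ∑ k ∈ Finset.range N, f k y) (fun N y hy => ?_) (fun y hy => ?_) hx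
    · exact HasFDerivAt.fun_sum (fun k _ => hd k y hy)
    · exact (Summable.of_norm_bounded hu (fun k => h0 k y hy)).hasSum.tendsto_sum_nat
  constructor
  · rw [show (1 : ℕ∞ω) = 0 + 1 by simp, contDiffOn_succ_iff_fderiv_of_isOpen hΩ]
    refine ⟨fun x hx => (key x hx).differentiableAt.differentiableWithinAt, by simp, ?_⟩
    rw [contDiffOn_zero]
    refine (continuousOn_tsum (fun k => ?_) hu h1').congr (fun x hx => (key x hx).fderiv)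
    exact (hf k).continuousOn_fderiv_of_isOpen hΩ le_rfl
  · intro x hx
    have hs : Summable (fun k => fderiv ℝ (f k) x) :=
      Summable.of_norm_bounded hu (fun k => h1' k x hx)
    unfold gradient
    rw [(key x hx).fderiv]
    exact (InnerProductSpace.toDual ℝ E3).symm.toContinuousLinearEquiv.map_tsum

/-- series of divergence-free fields -/
theorem casc_wd_series {Ω : Set E3} (hΩ : IsOpen Ω) {J : ℕ → E3 → E3} {u : ℕ → ℝ} (hu : Summable u)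
    (hJ : ∀ k, ContinuousOn (J k) Ω) (hw : ∀ k, WD Ω (J k) 0) (h0 : ∀ k, ∀ x ∈ Ω, ‖J k x‖ ≤ u k) :
    ContinuousOn (fun x => ∑' k, J k x) Ω ∧ WD Ω (fun x => ∑' k, J k x) 0 := by
  refine ⟨continuousOn_tsum hJ hu h0, fun ψ hψ => ?_⟩
  have hi : ∀ k, Integrable (fun x => ⟪J k x, ∇ ψ x⟫) volume := fun k => hψ.integrable_inner hΩ (hJ k)
  have hg : Integrable (fun x => ‖∇ ψ x‖) volume :=
    (hψ.continuous_grad.integrable_of_hasCompactSupport hψ.hasCompactSupport_grad).norm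
  have hs : Summable fun k => ∫ x, ‖⟪J k x, ∇ ψ x⟫‖ := by
    refine Summable.of_nonneg_of_le (fun k => integral_nonneg fun x => norm_nonneg _) (fun k => ?_)
      (hu.mul_right (∫ x, ‖∇ ψ x‖))
    rw [← integral_const_mul]
    refine integral_mono (hi k).norm (hg.const_mul _) (fun x => ?_)
    by_cases hx : x ∈ Ω
    · exact (norm_inner_le_norm _ _).trans (mul_le_mul_of_nonneg_right (h0 k x hx) (norm_nonneg _))
    · simp [(hψ.eq_zero hx).2]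
  have he : (fun x => ⟪∑' k, J k x, ∇ ψ x⟫) = fun x => ∑' k, ⟪J k x, ∇ ψ x⟫ := by
    funext x
    by_cases hx : x ∈ Ω
    · have := (innerSL ℝ (∇ ψ x)).map_tsum (Summable.of_norm_bounded hu (fun k => h0 k x hx))
      simpa only [innerSL_apply_apply, real_inner_comm] using this
    · simp [(hψ.eq_zero hx).2]
  rw [he, ← integral_tsum_of_summable_integral_norm hi hs]
  have : ∀ k, ∫ x, ⟪J k x, ∇ ψ x⟫ = 0 := fun k => by simpa using hw k ψ hψ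
  simp only [this, tsum_zero, Pi.zero_apply, zero_mul, integral_zero]

theorem casc_deriv_Iic {f : ℝ → ℝ} (hf : ContDiff ℝ 1 f) {c τ : ℝ} (h : ∀ s ≤ c, f s = 0) (hτ : τ ≤ c) :
    deriv f τ = 0 :=
  UniqueDiffWithinAt.eq_deriv (Iic τ) (uniqueDiffWithinAt_Iic τ)
    ((hf.differentiable one_ne_zero τ).hasDerivAt.hasDerivWithinAt)
    ((hasDerivWithinAt_const τ (Iic τ) (0 : ℝ)).congr (fun s hs => h s (le_trans hs hτ)) (h τ hτ))

theorem casc_deriv_Ici {f : ℝ → ℝ} (hf : ContDiff ℝ 1 f) {c τ : ℝ} (h : ∀ s, c ≤ s → f s = 0)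
    (hτ : c ≤ τ) : deriv f τ = 0 :=
  UniqueDiffWithinAt.eq_deriv (Ici τ) (uniqueDiffWithinAt_Ici τ)
    ((hf.differentiable one_ne_zero τ).hasDerivAt.hasDerivWithinAt)
    ((hasDerivWithinAt_const τ (Ici τ) (0 : ℝ)).congr (fun s hs => h s (le_trans hτ hs)) (h τ hτ))

theorem casc_bdd {f : ℝ → ℝ} (hf : Continuous f) {a b : ℝ} (h1 : ∀ s ≤ a, f s = 0)
    (h2 : ∀ s, b ≤ s → f s = 0) : ∃ M, 0 ≤ M ∧ ∀ s, |f s| ≤ M := by
  obtain ⟨M, hM⟩ := (isCompact_Icc (a := a) (b := b)).exists_bound_of_continuousOn hf.continuousOn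
  refine ⟨max M 0, le_max_right _ _, fun s => ?_⟩
  rcases le_total s a with h | h
  · rw [h1 s h, abs_zero]; exact le_max_right _ _
  rcases le_total b s with h' | h'
  · rw [h2 s h', abs_zero]; exact le_max_right _ _
  · exact (hM s ⟨h, h'⟩).trans (le_max_left _ _)

/-- the rescaled time of the mode `k` -/
def casc_tau (T : ℝ) (t : E3 → ℝ) (k : ℕ) (x : E3) : ℝ := 2 ^ k * (t x - 2 * T) + 2 * T

theorem casc_tau_zero (T : ℝ) (t : E3 → ℝ) (x : E3) : casc_tau T t 0 x = t x := by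
  simp [casc_tau]

theorem casc_tau_succ (T : ℝ) (t : E3 → ℝ) (k : ℕ) (x : E3) :
    casc_tau T t (k + 1) x = 2 * casc_tau T t k x - 2 * T := by
  unfold casc_tau
  ring

theorem casc_tau_anti {T : ℝ} {t : E3 → ℝ} {x : E3} (h : t x ≤ 2 * T) {j k : ℕ} (hjk : j ≤ k) :
    casc_tau T t k x ≤ casc_tau T t j x := by
  unfold casc_tau
  have : (2 : ℝ) ^ j ≤ 2 ^ k := pow_le_pow_right₀ one_le_two hjk
  nlinarith

theorem casc_tau_ge {T : ℝ} {t : E3 → ℝ} {x : E3} (h : 2 * T ≤ t x) (k : ℕ) :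
    2 * T ≤ casc_tau T t k x := by
  unfold casc_tau
  have : (0 : ℝ) < 2 ^ k := by positivity
  nlinarith

theorem casc_tau_le {T : ℝ} {t : E3 → ℝ} {x : E3} (hT : 0 ≤ T) (h : t x ≤ 0) (k : ℕ) :
    casc_tau T t (k + 1) x ≤ -(2 * T) := by
  have := casc_tau_anti (T := T) (t := t) (x := x) (by linarith) (Nat.le_add_left 1 k)
  rw [casc_tau_succ T t 0, casc_tau_zero] at this
  linarith

theorem casc_exists_stage {T : ℝ} {t : E3 → ℝ} {x : E3} (h0 : 0 ≤ t x) (h : t x < 2 * T) :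
    ∃ k, casc_tau T t k x ∈ Icc 0 T := by
  classical
  have hex : ∃ k, casc_tau T t k x ≤ T := by
    obtain ⟨k, hk⟩ := pow_unbounded_of_one_lt (T / (2 * T - t x)) (one_lt_two (α := ℝ))
    refine ⟨k, ?_⟩
    rw [div_lt_iff₀ (by linarith)] at hk
    unfold casc_tau
    linarith
  refine ⟨Nat.find hex, ?_, Nat.find_spec hex⟩
  rcases hk : Nat.find hex with _ | k
  · rwa [casc_tau_zero]
  · have := Nat.find_min hex (m := k) (by omega)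
    rw [casc_tau_succ]
    linarith [not_le.1 this]

/-- the potential of a mode -/
noncomputable def casc_re (T ρ : ℝ) (t : E3 → ℝ) (f : ℝ → ℝ) (V : E3 → ℂ) (k : ℕ) (x : E3) : ℝ :=
  ρ ^ k * (f (casc_tau T t k x) * (V x ^ 2 ^ k).re)

/-- the stream function of a mode -/
noncomputable def casc_im (T ρ : ℝ) (t : E3 → ℝ) (f : ℝ → ℝ) (V : E3 → ℂ) (k : ℕ) (x : E3) : ℝ :=
  ρ ^ k * (f (casc_tau T t k x) * (V x ^ 2 ^ k).im)

section modes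

variable {Ω : Set E3} {T ρ : ℝ} {t : E3 → ℝ} {f : ℝ → ℝ} {V : E3 → ℂ} {x : E3}

theorem casc_cd_tau (ht : ContDiffOn ℝ 2 t Ω) (hf : ContDiff ℝ 1 f) (T : ℝ) (k : ℕ) :
    ContDiffOn ℝ 1 (fun y => f (casc_tau T t k y)) Ω := by
  refine hf.comp_contDiffOn ?_
  unfold casc_tau
  exact (contDiffOn_const.mul ((ht.of_le one_le_two).sub contDiffOn_const)).add contDiffOn_const

theorem casc_cd_re (hV : ContDiffOn ℝ 2 V Ω) (n : ℕ) : ContDiffOn ℝ 1 (fun y => (V y ^ n).re) Ω :=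
  Complex.reCLM.contDiff.comp_contDiffOn ((hV.of_le one_le_two).pow n)

theorem casc_cd_im (hV : ContDiffOn ℝ 2 V Ω) (n : ℕ) : ContDiffOn ℝ 1 (fun y => (V y ^ n).im) Ω :=
  Complex.imCLM.contDiff.comp_contDiffOn ((hV.of_le one_le_two).pow n)

theorem casc_re_cd (ht : ContDiffOn ℝ 2 t Ω) (hf : ContDiff ℝ 1 f) (hV : ContDiffOn ℝ 2 V Ω) (T ρ : ℝ)
    (k : ℕ) : ContDiffOn ℝ 1 (casc_re T ρ t f V k) Ω :=
  contDiffOn_const.mul ((casc_cd_tau ht hf T k).mul (casc_cd_re hV _))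

theorem casc_im_cd (ht : ContDiffOn ℝ 2 t Ω) (hf : ContDiff ℝ 1 f) (hV : ContDiffOn ℝ 2 V Ω) (T ρ : ℝ)
    (k : ℕ) : ContDiffOn ℝ 1 (casc_im T ρ t f V k) Ω :=
  contDiffOn_const.mul ((casc_cd_tau ht hf T k).mul (casc_cd_im hV _))

theorem casc_diff (hΩ : IsOpen Ω) (hx : x ∈ Ω) {g : E3 → ℝ} (hg : ContDiffOn ℝ 1 g Ω) :
    DifferentiableAt ℝ g x := (hg.contDiffAt (hΩ.mem_nhds hx)).differentiableAt one_ne_zero

theorem casc_grad_tau (hΩ : IsOpen Ω) (hx : x ∈ Ω) (ht : ContDiffOn ℝ 2 t Ω) (hf : ContDiff ℝ 1 f)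
    (T : ℝ) (k : ℕ) : ∇ (fun y => f (casc_tau T t k y)) x =
      (deriv f (casc_tau T t k x) * 2 ^ k) • ∇ t x := by
  have h1 : HasDerivAt (fun s : ℝ => (2 : ℝ) ^ k * (s - 2 * T) + 2 * T) (2 ^ k) (t x) := by
    simpa using (((hasDerivAt_id (t x)).sub_const (2 * T)).const_mul ((2 : ℝ) ^ k)).add_const (2 * T)
  have h2 := (hf.differentiable one_ne_zero (casc_tau T t k x)).hasDerivAt.comp (t x) h1
  exact grad_comp (f := t) h2 (casc_diff hΩ hx (ht.of_le one_le_two))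

theorem casc_grad (hΩ : IsOpen Ω) (hx : x ∈ Ω) (ht : ContDiffOn ℝ 2 t Ω) (hf : ContDiff ℝ 1 f)
    (hV : ContDiffOn ℝ 2 V Ω) (h1 : ∀ y ∈ Ω, ‖V y‖ = 1) (T ρ : ℝ) (k : ℕ) :
    ∇ (casc_re T ρ t f V k) x = (2 * ρ) ^ k •
        ((deriv f (casc_tau T t k x) * (V x ^ 2 ^ k).re) • ∇ t x +
          (-(f (casc_tau T t k x) * (V x ^ 2 ^ k).im)) • om V x) ∧
      ∇ (casc_im T ρ t f V k) x = (2 * ρ) ^ k •
        ((deriv f (casc_tau T t k x) * (V x ^ 2 ^ k).im) • ∇ t x +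
          (f (casc_tau T t k x) * (V x ^ 2 ^ k).re) • om V x) := by
  have d1 := casc_diff hΩ hx (casc_cd_tau ht hf T k)
  have d2 := casc_diff hΩ hx (casc_cd_re hV (2 ^ k))
  have d3 := casc_diff hΩ hx (casc_cd_im hV (2 ^ k))
  obtain ⟨g1, g2⟩ := grad_pow ((hV.contDiffAt (hΩ.mem_nhds hx)).differentiableAt two_ne_zero)
    (Filter.eventually_of_mem (hΩ.mem_nhds hx) h1) (2 ^ k)
  constructor
  · unfold casc_re
    rw [grad_const_mul _ (d1.fun_mul d2), grad_mul d1 d2, g1, casc_grad_tau hΩ hx ht hf]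
    push_cast
    rw [mul_pow]
    module
  · unfold casc_im
    rw [grad_const_mul _ (d1.fun_mul d3), grad_mul d1 d3, g2, casc_grad_tau hΩ hx ht hf]
    push_cast
    rw [mul_pow]
    module

theorem casc_norm_pow (h1 : ‖V x‖ = 1) (n : ℕ) : |(V x ^ n).re| ≤ 1 ∧ |(V x ^ n).im| ≤ 1 := by
  have : ‖V x ^ n‖ = 1 := by rw [norm_pow, h1, one_pow]
  exact ⟨this ▸ Complex.abs_re_le_norm _, this ▸ Complex.abs_im_le_norm _⟩

theorem casc_sq_pow (h1 : ‖V x‖ = 1) (n : ℕ) : (V x ^ n).re ^ 2 + (V x ^ n).im ^ 2 = 1 := by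
  have : ‖V x ^ n‖ ^ 2 = 1 := by rw [norm_pow, h1, one_pow, one_pow]
  rw [Complex.sq_norm, Complex.normSq_apply] at this
  rw [← this]
  ring

theorem casc_bound2 {a b : E3} {l M N p q c s : ℝ} (hl : 0 ≤ l) (ha : ‖a‖ ≤ N) (hb : ‖b‖ ≤ N)
    (hp : |p| ≤ M) (hq : |q| ≤ M) (hc : |c| ≤ 1) (hs : |s| ≤ 1) :
    ‖l • ((p * c) • a + (q * s) • b)‖ ≤ l * (2 * M * N) := by
  have hM : 0 ≤ M := (abs_nonneg _).trans hp
  rw [norm_smul, Real.norm_of_nonneg hl]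
  refine mul_le_mul_of_nonneg_left ((norm_add_le _ _).trans ?_) hl
  rw [norm_smul, norm_smul, Real.norm_eq_abs, Real.norm_eq_abs, abs_mul, abs_mul]
  have h1 : |p| * |c| * ‖a‖ ≤ M * 1 * N := by gcongr
  have h2 : |q| * |s| * ‖b‖ ≤ M * 1 * N := by gcongr
  linarith

/-- a mode vanishes where the profile and its derivative vanish -/
theorem casc_vanish (hΩ : IsOpen Ω) (hx : x ∈ Ω) (ht : ContDiffOn ℝ 2 t Ω) (hf : ContDiff ℝ 1 f)
    (hV : ContDiffOn ℝ 2 V Ω) (h1 : ∀ y ∈ Ω, ‖V y‖ = 1) (ρ : ℝ) {k : ℕ}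
    (h : f (casc_tau T t k x) = 0 ∧ deriv f (casc_tau T t k x) = 0) :
    casc_re T ρ t f V k x = 0 ∧ ∇ (casc_re T ρ t f V k) x = 0 ∧ ∇ (casc_im T ρ t f V k) x = 0 := by
  obtain ⟨g1, g2⟩ := casc_grad hΩ hx ht hf hV h1 T ρ k
  rw [g1, g2]
  unfold casc_re
  simp [h.1, h.2]

theorem casc_mode_bound (hΩ : IsOpen Ω) (hx : x ∈ Ω) (ht : ContDiffOn ℝ 2 t Ω) (hf : ContDiff ℝ 1 f)
    (hV : ContDiffOn ℝ 2 V Ω) (h1 : ∀ y ∈ Ω, ‖V y‖ = 1) (hρ : 0 ≤ ρ) {M N : ℝ} (hN : 1 ≤ N)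
    (hM : ∀ s, |f s| ≤ M ∧ |deriv f s| ≤ M) (h₀ : ‖∇ t x‖ ≤ N) (h₁ : ‖om V x‖ ≤ N) (k : ℕ) :
    ‖casc_re T ρ t f V k x‖ ≤ (2 * ρ) ^ k * (2 * M * N) ∧
      ‖∇ (casc_re T ρ t f V k) x‖ ≤ (2 * ρ) ^ k * (2 * M * N) ∧
      ‖∇ (casc_im T ρ t f V k) x‖ ≤ (2 * ρ) ^ k * (2 * M * N) := by
  obtain ⟨g1, g2⟩ := casc_grad hΩ hx ht hf hV h1 T ρ k
  obtain ⟨hc, hs⟩ := casc_norm_pow (h1 x hx) (2 ^ k)
  have hM0 : 0 ≤ M := (abs_nonneg _).trans (hM 0).1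
  have hl : 0 ≤ (2 * ρ) ^ k := by positivity
  refine ⟨?_, ?_, ?_⟩
  · unfold casc_re
    rw [Real.norm_eq_abs, abs_mul, abs_mul, abs_of_nonneg (pow_nonneg hρ k)]
    refine mul_le_mul (pow_le_pow_left₀ hρ (by linarith) k) ?_ (by positivity) hl
    have := mul_le_mul (hM (casc_tau T t k x)).1 hc (abs_nonneg _) hM0
    nlinarith
  · rw [g1, ← mul_neg]
    exact casc_bound2 hl h₀ h₁ (hM _).2 (hM _).1 hc (by rwa [abs_neg])
  · rw [g2]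
    exact casc_bound2 hl h₀ h₁ (hM _).2 (hM _).1 hs hc

end modes

theorem casc_cross_zero (w : E3) : cross 0 w = 0 := by
  ext i; fin_cases i <;> simp [cross]

theorem casc_cross_swap (n a b : E3) : ⟪n, cross b a⟫ = -⟪n, cross a b⟫ := by
  rw [casc_inner, casc_inner]
  simp [cross]
  ring

theorem casc_J_alg (n w₁ w₂ : E3) (ε l ρ a a' c₁ s₁ P P' c₂ s₂ : ℝ) :
    ε • cross (l • ((a' * s₁) • n + (a * c₁) • w₁)) w₂ +
      (ε * -1) • cross ((l * (2 * ρ)) • ((P' * s₂) • n + (P * c₂) • w₂)) w₁ =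
    l • (-(ε • ((-(a * c₁ + 2 * ρ * P * c₂)) • cross w₁ w₂ + (a' * s₁) • cross w₂ n +
      (4 * ρ * P' * s₂ / 2) • cross n w₁))) := by
  ext i; fin_cases i <;> simp [cross] <;> ring

/-- the profiles of the mode `k` -/
theorem casc_seq {T : ℝ} {A₀ A : ℝ → ℝ} (hT : 4 ≤ T) (c₀ : ContDiff ℝ 1 A₀) (c : ContDiff ℝ 1 A)
    (h : ∀ τ, -1 ≤ τ → A τ = A₀ τ) (hz : ∀ τ, T - 1 ≤ τ → A₀ τ = 0) (hz' : ∀ τ ≤ -(2 * T), A τ = 0) :
    ∃ (a : ℕ → ℝ → ℝ) (M : ℝ), 0 ≤ M ∧ a 0 = A₀ ∧ (∀ k, a (k + 1) = A) ∧ (∀ k, ContDiff ℝ 1 (a k)) ∧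
      (∀ k s, 0 ≤ s → a k s = A₀ s ∧ deriv (a k) s = deriv A₀ s) ∧
      (∀ k s, T - 1 ≤ s → a k s = 0 ∧ deriv (a k) s = 0) ∧
      (∀ s ≤ -(2 * T), A s = 0 ∧ deriv A s = 0) ∧ ∀ s, |A s| ≤ M ∧ |deriv A s| ≤ M := by
  have hA : ∀ τ, T - 1 ≤ τ → A τ = 0 := fun τ hτ => (h τ (by linarith)).trans (hz τ hτ)
  obtain ⟨M₁, h₁, hM₁⟩ := casc_bdd c.continuous hz' hA
  obtain ⟨M₂, -, hM₂⟩ := casc_bdd (c.continuous_deriv le_rfl) (fun s hs => casc_deriv_Iic c hz' hs)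
    (fun s hs => casc_deriv_Ici c hA hs)
  refine ⟨fun k => if k = 0 then A₀ else A, max M₁ M₂, h₁.trans (le_max_left _ _), if_pos rfl,
    fun k => if_neg (Nat.succ_ne_zero k), fun k => ?_, fun k s hs => ?_, fun k s hs => ?_,
    fun s hs => ⟨hz' s hs, casc_deriv_Iic c hz' hs⟩,
    fun s => ⟨(hM₁ s).trans (le_max_left _ _), (hM₂ s).trans (le_max_right _ _)⟩⟩
  · simp only
    split_ifs <;> assumption
  · simp only
    split_ifs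
    · exact ⟨rfl, rfl⟩
    · refine ⟨h s (by linarith), Filter.EventuallyEq.deriv_eq ?_⟩
      filter_upwards [Ioi_mem_nhds (show (-1 : ℝ) < s by linarith)] with τ hτ using h τ (le_of_lt hτ)
  · simp only
    split_ifs
    · exact ⟨hz s hs, casc_deriv_Ici c₀ hz hs⟩
    · exact ⟨hA s hs, casc_deriv_Ici c hA hs⟩

/-- uniform constants and the alternating sequence of angles -/
theorem casc_angles {Ω K : Set E3} {t : E3 → ℝ} {U₁ U₂ : E3 → ℂ} (hΩ : IsOpen Ω) (ht : ContDiffOn ℝ 2 t Ω)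
    (hU₁ : ContDiffOn ℝ 2 U₁ Ω) (hU₂ : ContDiffOn ℝ 2 U₂ Ω) (hU : ∀ x ∈ Ω, ‖U₁ x‖ = 1 ∧ ‖U₂ x‖ = 1)
    (hK : IsCompact K) (hKΩ : K ⊆ Ω) (hdet : ∀ x ∈ Ω, ⟪∇ t x, cross (om U₁ x) (om U₂ x)⟫ < 0) :
    ∃ (U : ℕ → E3 → ℂ) (N d : ℝ), 1 ≤ N ∧ 0 < d ∧ U 0 = U₁ ∧ U 1 = U₂ ∧ (∀ k, U (k + 1 + 1) = U k) ∧
      (∀ k, ContDiffOn ℝ 2 (U k) Ω) ∧ (∀ k, ∀ x ∈ Ω, ‖U k x‖ = 1) ∧ (∀ x ∈ K, ‖∇ t x‖ ≤ N) ∧
      (∀ k, ∀ x ∈ K, ‖om (U k) x‖ ≤ N) ∧
      ∀ k, ∀ x ∈ K, (-1) ^ k * ⟪∇ t x, cross (om (U k) x) (om (U (k + 1)) x)⟫ ≤ -d := by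
  have c₀ := (continuousOn_grad hΩ (ht.of_le one_le_two)).mono hKΩ
  have c₁ := (continuousOn_om hΩ (hU₁.of_le one_le_two)).mono hKΩ
  have c₂ := (continuousOn_om hΩ (hU₂.of_le one_le_two)).mono hKΩ
  obtain ⟨N₀, h₀⟩ := hK.exists_bound_of_continuousOn c₀
  obtain ⟨N₁, h₁⟩ := hK.exists_bound_of_continuousOn c₁
  obtain ⟨N₂, h₂⟩ := hK.exists_bound_of_continuousOn c₂
  have c₃ : ContinuousOn (fun x => -⟪∇ t x, cross (om U₁ x) (om U₂ x)⟫) K :=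
    (ContinuousOn.inner (𝕜 := ℝ) c₀ (continuous_cross.comp_continuousOn (c₁.prodMk c₂))).neg
  obtain ⟨d, hd, hd'⟩ := hK.exists_forall_le' c₃ (a := 0) (fun x hx => neg_pos.2 (hdet x (hKΩ hx)))
  refine ⟨fun k => if Even k then U₁ else U₂, max (max 1 N₀) (max N₁ N₂), d,
    (le_max_left _ _).trans (le_max_left _ _), hd, by simp, by simp, fun k => ?_, fun k => ?_,
    fun k x hx => ?_, fun x hx => (h₀ x hx).trans ((le_max_right _ _).trans (le_max_left _ _)),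
    fun k x hx => ?_, fun k x hx => ?_⟩
  · simp only [Nat.even_add_one, not_not]
  · simp only
    split_ifs <;> assumption
  · simp only
    split_ifs
    · exact (hU x hx).1
    · exact (hU x hx).2
  · simp only
    split_ifs
    · exact (h₁ x hx).trans ((le_max_left _ _).trans (le_max_right _ _))
    · exact (h₂ x hx).trans ((le_max_right _ _).trans (le_max_right _ _))
  · have := hd' x hx
    simp only [Nat.even_add_one]
    by_cases hk : Even k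
    · rw [if_pos hk, if_neg (not_not.2 hk), hk.neg_one_pow]
      linarith
    · rw [if_neg hk, if_pos hk, (Nat.not_even_iff_odd.1 hk).neg_one_pow, casc_cross_swap]
      linarith

/-- Take the data of `casc_prof`; the total length is `2 T`.  Let `t k = 2 T (1 - 2 ^ (-k))`, `U k = U₁` for even and
`U₂` for odd `k`, `τ k = 2 ^ k (t - t k)`, `v k = ρ ^ k A (τ k) re (U k ^ 2 ^ k)`, `h k = ρ ^ k P (τ k) im (U k ^ 2 ^ k)`
(`A₀` for `k = 0`), `J k = (-1) ^ k ∇h k × om (U (k + 1))`.  (The amplitude of `h k` is `2 ^ k ρ ^ k P / 2 ^ k`.)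
For `k ≥ 1` the modes are supported in the compact set `t (k - 1) ≤ t ≤ t (k + 1)`; extend them by zero.  They are `C¹`
resp. continuous on the whole space with `|v k|, ‖∇v k‖, ‖J k‖ ≤ C (2 ρ) ^ k` (`grad_pow`), so the sums are `C¹` resp.
continuous (`hasFDerivAt_tsum`, `continuous_tsum`) and `WD` passes to the sum (`wd_om`, `integral_tsum`).
On `t k ≤ t ≤ t (k + 1)` only the modes `k`, `k + 1` contribute; with `s = τ k`,
`∇v = (2 ρ) ^ k ((a' c₁ + b' c₂) ∇t - a s₁ ω₁ - 2 b s₂ ω₂)` and `J` is `(2 ρ) ^ k` times the vector of `stage_cone` with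
`y = (-(a c₁ + q c₂), a' s₁, q' s₂ / 2)`. -/
theorem cascade : ∃ T : ℝ, 0 < T ∧ ∀ (Ω : Set E3) (t : E3 → ℝ) (U₁ U₂ : E3 → ℂ), IsOpen Ω →
    ContDiffOn ℝ 2 t Ω → ContDiffOn ℝ 2 U₁ Ω → ContDiffOn ℝ 2 U₂ Ω → (∀ x ∈ Ω, ‖U₁ x‖ = 1 ∧ ‖U₂ x‖ = 1) →
    IsCompact {x | x ∈ Ω ∧ 0 ≤ t x ∧ t x ≤ T} →
    (∀ x ∈ Ω, ⟪∇ t x, cross (om U₁ x) (om U₂ x)⟫ < 0) →
    ∃ (v : E3 → ℝ) (J : E3 → E3) (κ : ℝ), 0 < κ ∧ ContDiffOn ℝ 1 v Ω ∧ ContinuousOn J Ω ∧ WD Ω J 0 ∧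
      (∀ x ∈ Ω, t x ≤ 0 → v x = Real.exp (-t x) * (U₁ x).re ∧
        J x = cross (∇ (fun y => Real.exp (-t y) * (U₁ y).im) x) (om U₂ x)) ∧
      (∀ x ∈ Ω, T ≤ t x → v x = 0 ∧ J x = 0) ∧ ∀ x ∈ Ω, 0 ≤ t x → cone κ (∇ v x) (J x) := by
  obtain ⟨T, ρ, κ, A₀, A, P, hT, hρ, hρ4, hκ, cA₀, cA, cP, hA₀, hAP, hA₀z, hz, hineq⟩ := casc_prof
  refine ⟨2 * T, by linarith, fun Ω t U₁ U₂ hΩ ht hU₁ hU₂ hU hK hdet => ?_⟩
  obtain ⟨U, N, d, hN, hd, hU0, hU1, hU2, cU, nU, bt, bU, hUd⟩ :=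
    casc_angles hΩ ht hU₁ hU₂ hU hK (fun x hx => hx.1) hdet
  obtain ⟨a, Ma, hMa, a0, aS, ca, aA, ahi, alo, abd⟩ :=
    casc_seq hT cA₀ cA (fun τ h => (hAP τ h).1) hA₀z (fun τ h => (hz τ h).1)
  obtain ⟨p, Mp, hMp, p0, pS, cp, pA, phi, plo, pbd⟩ :=
    casc_seq hT cA₀ cP (fun τ h => (hAP τ h).2) hA₀z (fun τ h => (hz τ h).2)
  obtain ⟨v, hv⟩ : ∃ v : ℕ → E3 → ℝ, ∀ k, v k = casc_re T ρ t (a k) (U k) k := ⟨_, fun _ => rfl⟩
  obtain ⟨J, hJ⟩ : ∃ J : ℕ → E3 → E3, ∀ k, J k = fun x =>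
      (-1 : ℝ) ^ k • cross (∇ (casc_im T ρ t (p k) (U k) k) x) (om (U (k + 1)) x) := ⟨_, fun _ => rfl⟩
  have cv : ∀ k, ContDiffOn ℝ 1 (v k) Ω := fun k => by
    rw [hv]; exact casc_re_cd ht (ca k) (cU k) T ρ k
  have cJ : ∀ k, ContinuousOn (J k) Ω := fun k => by
    rw [hJ]
    exact (continuous_cross.comp_continuousOn
      ((continuousOn_grad hΩ (casc_im_cd ht (cp k) (cU k) T ρ k)).prodMk
        (continuousOn_om hΩ ((cU (k + 1)).of_le one_le_two)))).const_smul ((-1 : ℝ) ^ k)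
  have wJ : ∀ k, WD Ω (J k) 0 := fun k => by
    rw [hJ]
    have := (wd_om hΩ (casc_im_cd ht (cp k) (cU k) T ρ k) (cU (k + 1)) (nU (k + 1))).smul ((-1) ^ k)
    simp only [Pi.zero_apply, mul_zero] at this
    exact this
  have van : ∀ k, ∀ x ∈ Ω, (a k (casc_tau T t k x) = 0 ∧ deriv (a k) (casc_tau T t k x) = 0) →
      (p k (casc_tau T t k x) = 0 ∧ deriv (p k) (casc_tau T t k x) = 0) →
      v k x = 0 ∧ ∇ (v k) x = 0 ∧ J k x = 0 := by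
    intro k x hx h1 h2
    obtain ⟨e1, e2, -⟩ := casc_vanish hΩ hx ht (ca k) (cU k) (nU k) ρ h1
    obtain ⟨-, -, e3⟩ := casc_vanish hΩ hx ht (cp k) (cU k) (nU k) ρ h2
    rw [hv, hJ]
    refine ⟨e1, e2, ?_⟩
    simp only [e3, casc_cross_zero, smul_zero]
  have hi : ∀ k, ∀ x ∈ Ω, T - 1 ≤ casc_tau T t k x → v k x = 0 ∧ ∇ (v k) x = 0 ∧ J k x = 0 :=
    fun k x hx h => van k x hx (ahi k _ h) (phi k _ h)
  have lo : ∀ k, ∀ x ∈ Ω, casc_tau T t (k + 1) x ≤ -(2 * T) →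
      v (k + 1) x = 0 ∧ ∇ (v (k + 1)) x = 0 ∧ J (k + 1) x = 0 :=
    fun k x hx h => van (k + 1) x hx (by rw [aS]; exact alo _ h) (by rw [pS]; exact plo _ h)
  have top : ∀ k, ∀ x ∈ Ω, 2 * T ≤ t x → v k x = 0 ∧ ∇ (v k) x = 0 ∧ J k x = 0 :=
    fun k x hx h => hi k x hx (by linarith [casc_tau_ge (T := T) h k])
  have bot : ∀ k, ∀ x ∈ Ω, t x ≤ 0 → v (k + 1) x = 0 ∧ ∇ (v (k + 1)) x = 0 ∧ J (k + 1) x = 0 :=
    fun k x hx h => lo k x hx (casc_tau_le (by linarith) h k)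
  have bd : ∀ k, ∀ x ∈ Ω, ‖v (k + 1) x‖ ≤ (2 * ρ) ^ (k + 1) * (2 * Ma * N) ∧
      ‖∇ (v (k + 1)) x‖ ≤ (2 * ρ) ^ (k + 1) * (2 * Ma * N) ∧
      ‖J (k + 1) x‖ ≤ (2 * ρ) ^ (k + 1) * (2 * Mp * N * N) := by
    intro k x hx
    by_cases hxK : 0 ≤ t x ∧ t x ≤ 2 * T
    · obtain ⟨e1, e2, -⟩ := casc_mode_bound (T := T) hΩ hx ht cA (cU (k + 1)) (nU (k + 1)) hρ.le hN abd
        (bt x ⟨hx, hxK⟩) (bU (k + 1) x ⟨hx, hxK⟩) (k + 1)
      obtain ⟨-, -, e3⟩ := casc_mode_bound (T := T) hΩ hx ht cP (cU (k + 1)) (nU (k + 1)) hρ.le hN pbd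
        (bt x ⟨hx, hxK⟩) (bU (k + 1) x ⟨hx, hxK⟩) (k + 1)
      rw [hv, hJ, aS, pS]
      refine ⟨e1, e2, ?_⟩
      simp only
      rw [norm_smul, norm_pow, norm_neg, norm_one, one_pow, one_mul, ← mul_assoc]
      exact (norm_cross_le _ _).trans
        (mul_le_mul e3 (bU (k + 1 + 1) x ⟨hx, hxK⟩) (norm_nonneg _) (by positivity))
    · have : v (k + 1) x = 0 ∧ ∇ (v (k + 1)) x = 0 ∧ J (k + 1) x = 0 := by
        rcases not_and_or.1 hxK with h | h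
        · exact bot k x hx (not_le.1 h).le
        · exact top (k + 1) x hx (not_le.1 h).le
      rw [this.1, this.2.1, this.2.2, norm_zero, norm_zero]
      exact ⟨by positivity, by positivity, by positivity⟩
  have hsum : Summable fun k : ℕ => (2 * ρ) ^ (k + 1) :=
    (summable_nat_add_iff 1).2 (summable_geometric_of_lt_one (by linarith) (by linarith))
  obtain ⟨s1, s2⟩ := casc_series hΩ (f := fun k => v (k + 1)) (hsum.mul_right _) (fun k => cv (k + 1))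
    (fun k x hx => (bd k x hx).1) (fun k x hx => (bd k x hx).2.1)
  obtain ⟨s3, s4⟩ := casc_wd_series hΩ (J := fun k => J (k + 1)) (hsum.mul_right _) (fun k => cJ (k + 1))
    (fun k => wJ (k + 1)) (fun k x hx => (bd k x hx).2.2)
  have hN0 : 0 < N := by linarith
  refine ⟨fun x => v 0 x + ∑' k, v (k + 1) x, fun x => J 0 x + ∑' k, J (k + 1) x, κ * d / (3 * N ^ 4),
    by positivity, (cv 0).add s1, (cJ 0).add s3, (wJ 0).add_cont hΩ s4 (cJ 0) s3, fun x hx h => ?_,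
    fun x hx h => ?_, fun x hx h => ?_⟩
  · simp only [fun k => (bot k x hx h).1, fun k => (bot k x hx h).2.2, tsum_zero, add_zero]
    rw [hv, hJ, a0, p0, hU0, zero_add, hU1]
    constructor
    · unfold casc_re
      rw [casc_tau_zero, hA₀ _ (by linarith)]
      simp
    · simp only [pow_zero, one_smul]
      congr 1
      refine Filter.EventuallyEq.gradient_eq ?_
      have hc : ContinuousAt t x := ht.continuousOn.continuousAt (hΩ.mem_nhds hx)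
      filter_upwards [hc.eventually (gt_mem_nhds (show t x < 1 by linarith))] with y hy
      unfold casc_im
      rw [casc_tau_zero, hA₀ _ hy.le]
      simp
  · simp only [fun k => (top k x hx h).1, fun k => (top k x hx h).2.2, tsum_zero, add_zero, and_self]
  · rw [grad_add (casc_diff hΩ hx (cv 0)) (casc_diff hΩ hx s1), s2 x hx]
    beta_reduce
    rcases le_or_gt (2 * T) (t x) with h' | h'
    · simp only [fun k => (top k x hx h').2.1, fun k => (top k x hx h').2.2, tsum_zero, add_zero]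
      simp [cone]
    obtain ⟨k, hk⟩ := casc_exists_stage h h'
    have hxK : x ∈ {x | x ∈ Ω ∧ 0 ≤ t x ∧ t x ≤ 2 * T} := ⟨hx, h, h'.le⟩
    have off : ∀ j, j ≠ k → j ≠ k + 1 → v j x = 0 ∧ ∇ (v j) x = 0 ∧ J j x = 0 := by
      intro j h1 h2
      rcases lt_or_gt_of_ne h1 with h3 | h3
      · refine hi j x hx ?_
        have := casc_tau_anti h'.le (show j + 1 ≤ k from h3)
        rw [casc_tau_succ] at this
        linarith [hk.1]
      · obtain ⟨i, rfl⟩ : ∃ i, j = i + 1 := ⟨j - 1, by omega⟩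
        refine lo i x hx ?_
        have := casc_tau_anti h'.le (show k + 1 + 1 ≤ i + 1 by omega)
        rw [casc_tau_succ T t (k + 1), casc_tau_succ T t k] at this
        linarith [hk.2]
    rw [casc_two (fun j => ∇ (v j) x) k (fun j h1 h2 => (off j h1 h2).2.1),
      casc_two (fun j => J j x) k (fun j h1 h2 => (off j h1 h2).2.2), hv, hv, hJ, hJ]
    simp only
    rw [(casc_grad hΩ hx ht (ca k) (cU k) (nU k) T ρ k).1,
      (casc_grad hΩ hx ht (ca (k + 1)) (cU (k + 1)) (nU (k + 1)) T ρ (k + 1)).1,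
      (casc_grad hΩ hx ht (cp k) (cU k) (nU k) T ρ k).2,
      (casc_grad hΩ hx ht (cp (k + 1)) (cU (k + 1)) (nU (k + 1)) T ρ (k + 1)).2,
      aS, pS, hU2, casc_tau_succ, (aA k _ hk.1).1, (aA k _ hk.1).2, (pA k _ hk.1).1, (pA k _ hk.1).2,
      pow_succ (-1 : ℝ) k, pow_succ (2 * ρ) k, casc_J_alg]
    have hc := hineq _ hk _ _ _ _ _ _ _ _ _ _ (casc_sq_pow (nU k x hx) (2 ^ k))
      (casc_sq_pow (nU (k + 1) x hx) (2 ^ (k + 1))) rfl rfl rfl rfl rfl rfl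
    have hε : (-1 : ℝ) ^ k = 1 ∨ (-1 : ℝ) ^ k = -1 := neg_one_pow_eq_or ℝ k
    have hb1 := bU k x hxK
    have hb2 := bU (k + 1) x hxK
    have hdk := hUd k x hxK
    have hb0 := bt x hxK
    generalize casc_tau T t k x = s at *
    generalize (U k x ^ 2 ^ k).re = c₁ at *
    generalize (U k x ^ 2 ^ k).im = s₁ at *
    generalize (U (k + 1) x ^ 2 ^ (k + 1)).re = c₂ at *
    generalize (U (k + 1) x ^ 2 ^ (k + 1)).im = s₂ at *
    have := casc_cone_smul (stage_cone (κ := κ)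
      (x₀ := deriv A₀ s * c₁ + 2 * ρ * deriv A (2 * s - 2 * T) * c₂) (x₁ := -(A₀ s * s₁))
      (x₂ := -(2 * (ρ * A (2 * s - 2 * T)) * s₂)) (y₀ := -(A₀ s * c₁ + 2 * ρ * P (2 * s - 2 * T) * c₂))
      (y₁ := deriv A₀ s * s₁) (y₂ := 4 * ρ * deriv P (2 * s - 2 * T) * s₂ / 2)
      hε hd hκ hN hdk hb0 hb1 hb2 (by convert hc using 1 <;> ring)) ((2 * ρ) ^ k)
    convert this using 1
    module

end Crest.Agent.R83
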