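import Crest.Agent.R83.H0a

/-!
# R83 TASK Chain: chain rule, products, positivity, energy bound
-/

set_option autoImplicit false

namespace Crest.Agent.R83

open MeasureTheory Set Filter Topology
open scoped Gradient RealInnerProductSpace ENNReal NNReal ContDiff

variable {Ω : Set E3} {u u' f γ : E3 → ℝ} {G G' : E3 → E3}

/-- dominated convergence in `L²` -/
theorem chain_dct {F : ℕ → E3 → E3} {B : E3 → E3} (hB : MemLp B 2 volume)
    (hF : ∀ n, AEStronglyMeasurable (F n) volume) (hle : ∀ n x, ‖F n x‖ ≤ ‖B x‖)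
    (h0 : ∀ᵐ x, Tendsto (fun n => F n x) atTop (𝓝 0)) :
    Tendsto (fun n => eLpNorm (F n) 2 volume) atTop (𝓝 0) := by
  have h2 : (0 : ℝ) < (2 : ℝ≥0∞).toReal := by norm_num
  simp only [eLpNorm_eq_lintegral_rpow_enorm_toReal (p := 2) two_ne_zero ENNReal.ofNat_ne_top]
  have h1 := tendsto_lintegral_of_dominated_convergence' (μ := volume) (f := fun _ => 0)
    (F := fun n x => ‖F n x‖ₑ ^ (2 : ℝ≥0∞).toReal) (fun x => ‖B x‖ₑ ^ (2 : ℝ≥0∞).toReal)
    (fun n => (hF n).enorm.pow_const _)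
    (fun n => Eventually.of_forall fun x => ENNReal.rpow_le_rpow
      (by rw [← ofReal_norm, ← ofReal_norm]
          exact ENNReal.ofReal_le_ofReal (hle n x)) h2.le)
    (lintegral_rpow_enorm_lt_top_of_eLpNorm_lt_top two_ne_zero ENNReal.ofNat_ne_top hB.2).ne
    (h0.mono fun x hx => by
      have := (ENNReal.continuous_rpow_const (y := (2 : ℝ≥0∞).toReal)).continuousAt.tendsto.comp
        hx.enorm
      rwa [enorm_zero, ENNReal.zero_rpow_of_pos h2] at this)
  have := (ENNReal.continuous_rpow_const (y := 1 / (2 : ℝ≥0∞).toReal)).continuousAt.tendsto.comp h1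
  rwa [lintegral_zero, ENNReal.zero_rpow_of_pos (by positivity)] at this

theorem chain_test {ψ : E3 → ℝ} (h : Test Ω ψ) {g : ℝ → ℝ} (hg : ContDiff ℝ 1 g) (h0 : g 0 = 0) :
    Test Ω fun x => g (ψ x) :=
  ⟨hg.comp h.c1, h.cpt.comp_left h0, (closure_mono (Function.support_comp_subset h0 ψ)).trans h.sub⟩

/-- Approximate by `g ∘ ψ n` (`H0.exists_seq`): `g' (ψ n) ∇ψ n - g' (u) G = g' (ψ n) (∇ψ n - G) +
(g' (ψ n) - g' (u)) G`, dominated convergence for the second term. -/
theorem H0.comp (h : H0 Ω u G) {g : ℝ → ℝ} (hg : ContDiff ℝ 1 g) (h0 : g 0 = 0) {L : ℝ}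
    (hL : ∀ s, |deriv g s| ≤ L) : H0 Ω (fun x => g (u x)) fun x => deriv g (u x) • G x := by
  have hd : Differentiable ℝ g := hg.differentiable one_ne_zero
  have hc : Continuous (deriv g) := hg.continuous_deriv le_rfl
  have hlip : ∀ a b, ‖g a - g b‖ ≤ L * ‖a - b‖ := fun a b =>
    Convex.norm_image_sub_le_of_norm_deriv_le (s := univ) (fun x _ => hd x) (fun x _ => hL x)
      convex_univ trivial trivial
  have hm : AEStronglyMeasurable (fun x => deriv g (u x)) volume :=
    hc.comp_aestronglyMeasurable h.mu.1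
  refine ⟨h.mu.of_le_mul (c := L) (hg.continuous.comp_aestronglyMeasurable h.mu.1)
    (Eventually.of_forall fun x => by simpa [h0] using hlip (u x) 0),
    h.mG.of_le_mul (c := L) (hm.smul h.mG.1) (Eventually.of_forall fun x => by
      rw [norm_smul]
      exact mul_le_mul_of_nonneg_right (hL _) (norm_nonneg _)), fun ε hε => ?_⟩
  obtain ⟨ψ, hψ, h1, h2, h3⟩ := h.exists_seq
  have hmn : ∀ n, AEStronglyMeasurable (fun x => deriv g (ψ n x)) volume := fun n =>
    (hc.comp (hψ n).c1.continuous).aestronglyMeasurable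
  have h4 := chain_dct (F := fun n x => (deriv g (u x) - deriv g (ψ n x)) • G x)
    (h.mG.const_smul (2 * L)) (fun n => (hm.sub (hmn n)).smul h.mG.1)
    (fun n x => by
      rw [Pi.smul_apply, norm_smul, norm_smul]
      refine mul_le_mul_of_nonneg_right ((norm_sub_le _ _).trans ?_) (norm_nonneg _)
      have a1 := hL (u x)
      have a2 := hL (ψ n x)
      simp only [Real.norm_eq_abs]
      linarith [le_abs_self (2 * L)])
    (h3.mono fun x hx => by
      have := ((tendsto_const_nhds (x := deriv g (u x))).sub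
        (hc.continuousAt.tendsto.comp hx.1)).smul_const (G x)
      rwa [sub_self, zero_smul] at this)
  have h5 := ENNReal.Tendsto.const_mul (a := ENNReal.ofReal L) h1 (Or.inr ENNReal.ofReal_ne_top)
  have h6 := (ENNReal.Tendsto.const_mul (a := ENNReal.ofReal L) h2
    (Or.inr ENNReal.ofReal_ne_top)).add h4
  rw [mul_zero] at h5
  rw [mul_zero, add_zero] at h6
  obtain ⟨n, h7, h8⟩ := ((h5.eventually (ge_mem_nhds hε)).and (h6.eventually (ge_mem_nhds hε))).exists
  refine ⟨_, chain_test (hψ n) hg h0, (eLpNorm_le_mul_eLpNorm_of_ae_le_mul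
    (Eventually.of_forall fun x => hlip _ _) 6).trans h7, le_trans ?_ h8⟩
  have e : (fun x => deriv g (u x) • G x - ∇ (fun x => g (ψ n x)) x) =
      (fun x => deriv g (ψ n x) • (G x - ∇ (ψ n) x)) +
        fun x => (deriv g (u x) - deriv g (ψ n x)) • G x := by
    funext x
    rw [grad_comp (hd _).hasDerivAt ((hψ n).differentiable x), Pi.add_apply, smul_sub, sub_smul]
    abel
  rw [e]
  refine (eLpNorm_add_le ((hmn n).smul (h.mG.1.sub (hψ n).continuous_grad.aestronglyMeasurable))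
    ((hm.sub (hmn n)).smul h.mG.1) one_le_two).trans (add_le_add ?_ le_rfl)
  refine eLpNorm_le_mul_eLpNorm_of_ae_le_mul (Eventually.of_forall fun x => ?_) 2
  exact (norm_smul (deriv g (ψ n x)) (G x - ∇ (ψ n) x)).trans_le
    (mul_le_mul_of_nonneg_right (hL (ψ n x)) (norm_nonneg _))

/-- multiply `g` by a bump function that is `1` near `[-M, M]` -/
theorem H0.comp_bdd (h : H0 Ω u G) {M M' : ℝ} (hM : ∀ᵐ x, |u x| ≤ M) (hM' : M < M') {g : ℝ → ℝ}
    (hg : ContDiffOn ℝ 1 g (Ioo (-M') M')) (h0 : g 0 = 0) :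
    H0 Ω (fun x => g (u x)) fun x => deriv g (u x) • G x := by
  have hM0 : 0 ≤ M := by
    obtain ⟨x, hx⟩ := hM.exists
    exact (abs_nonneg _).trans hx
  let χ : ContDiffBump (0 : ℝ) := ⟨(M + M') / 2, (M + 3 * M') / 4, by linarith, by linarith⟩
  have hs : tsupport χ ⊆ Ioo (-M') M' := by
    rw [χ.tsupport_eq, Real.closedBall_eq_Icc]
    exact Icc_subset_Ioo (by simp only [χ]; linarith) (by simp only [χ]; linarith)
  have h1 : ContDiff ℝ 1 fun s => χ s * g s := by
    refine contDiff_iff_contDiffAt.2 fun s => ?_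
    by_cases hs' : s ∈ tsupport χ
    · exact χ.contDiff.contDiffAt.mul (hg.contDiffAt (isOpen_Ioo.mem_nhds (hs hs')))
    · refine (contDiffAt_const (c := (0 : ℝ))).congr_of_eventuallyEq ?_
      filter_upwards [notMem_tsupport_iff_eventuallyEq.1 hs'] with t ht
      rw [ht, Pi.zero_apply, zero_mul]
  have h2 : HasCompactSupport fun s => χ s * g s := χ.hasCompactSupport.mul_right
  obtain ⟨L, hL⟩ := (h1.continuous_deriv le_rfl).bounded_above_of_compact_support h2.deriv
  have h3 : ∀ s, |s| ≤ M → (fun s => χ s * g s) =ᶠ[𝓝 s] g := fun s hs => by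
    have : s ∈ Metric.ball (0 : ℝ) χ.rIn := by
      rw [mem_ball_zero_iff, Real.norm_eq_abs]
      simp only [χ]
      linarith
    filter_upwards [χ.eventuallyEq_one_of_mem_ball this] with t ht
    rw [ht, Pi.one_apply, one_mul]
  exact (h.comp h1 (by simp [h0]) hL).congr (hM.mono fun x hx => (h3 _ hx).self_of_nhds)
    (hM.mono fun x hx => by simp only [(h3 _ hx).deriv_eq])

/-- polarisation: `4 u u' = (u + u')² - (u - u')²` -/
theorem H0.mul_bdd (h : H0 Ω u G) (h' : H0 Ω u' G') {M : ℝ} (hM : ∀ᵐ x, |u x| ≤ M)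
    (hM' : ∀ᵐ x, |u' x| ≤ M) : H0 Ω (fun x => u x * u' x) fun x => u x • G' x + u' x • G x := by
  have hg : ContDiffOn ℝ 1 (fun s : ℝ => s ^ 2) (Ioo (-(2 * M + 1)) (2 * M + 1)) := by fun_prop
  have h1 := (h.add h').comp_bdd (M := 2 * M) ((hM.and hM').mono fun x hx =>
    (abs_add_le _ _).trans (by linarith [hx.1, hx.2])) (lt_add_one _) hg (by simp)
  have h2 := (h.sub h').comp_bdd (M := 2 * M) ((hM.and hM').mono fun x hx =>
    (abs_sub _ _).trans (by linarith [hx.1, hx.2])) (lt_add_one _) hg (by simp)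
  refine ((h1.sub h2).smul (1 / 4)).congr (Eventually.of_forall fun x => ?_)
    (Eventually.of_forall fun x => ?_)
  · ring
  · have hd : ∀ s : ℝ, deriv (fun s : ℝ => s ^ 2) s = 2 * s := fun s => by simp
    simp only [hd]
    module

theorem chain_integrable_inner {J : E3 → E3} (hJ : MemLp J 2 volume) (hG : MemLp G 2 volume) :
    Integrable (fun x => ⟪J x, G x⟫) volume := by
  refine (hJ.norm.integrable_mul hG.norm).mono' (hJ.1.inner hG.1) (Eventually.of_forall fun x => ?_)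
  exact norm_inner_le_norm _ _

theorem chain_exists_g : ∃ g : ℝ → ℝ, ContDiff ℝ 1 g ∧ g 0 = 0 ∧ (∀ s, 0 ≤ deriv g s) ∧
    (∀ s, deriv g s ≤ 1) ∧ (∀ s, g s ≤ 0) ∧ ∀ s, s < 0 → g s < 0 := by
  have hc : Continuous fun t : ℝ => min (max (-t) 0) 1 := by fun_prop
  have hd : deriv (fun s => ∫ t in (0 : ℝ)..s, min (max (-t) 0) (1 : ℝ)) =
      fun t => min (max (-t) 0) 1 := funext fun s => hc.deriv_integral _ 0 s
  have hD : Differentiable ℝ fun s => ∫ t in (0 : ℝ)..s, min (max (-t) 0) (1 : ℝ) := fun s =>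
    (hc.integral_hasStrictDerivAt 0 s).hasDerivAt.differentiableAt
  have hneg : ∀ s : ℝ, s < 0 → ∫ t in (0 : ℝ)..s, min (max (-t) 0) (1 : ℝ) < 0 := fun s hs => by
    rw [intervalIntegral.integral_symm, neg_lt_zero]
    exact intervalIntegral.intervalIntegral_pos_of_pos_on (hc.intervalIntegrable _ _)
      (fun t ht => lt_min (lt_max_of_lt_left (neg_pos.2 ht.2)) one_pos) hs
  refine ⟨_, contDiff_one_iff_deriv.2 ⟨hD, by rw [hd]; exact hc⟩, intervalIntegral.integral_same,
    fun s => by rw [hd]; exact le_min (le_max_right _ _) zero_le_one,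
    fun s => by rw [hd]; exact min_le_right _ _, fun s => ?_, hneg⟩
  rcases lt_or_ge s 0 with hs | hs
  · exact (hneg s hs).le
  · refine le_of_eq ((intervalIntegral.integral_congr (g := fun _ => 0) fun t ht => ?_).trans
      intervalIntegral.integral_zero)
    rw [uIcc_of_le hs] at ht
    simp [ht.1]

/-- Test with `g (u)`, `g s = 1 - √(1 + (min s 0)²)` (`C¹`, `0 ≤ g' ≤ 1`, `g ≤ 0`, `g s = 0 ↔ 0 ≤ s`):
`c ∫ g'(u)² ‖G‖² ≤ ∫ f g(u) ≤ 0`, then the Sobolev inequality. -/
theorem nonneg_of_sol {c C : ℝ} (hc : 0 < c) (hγ : Ell c C γ) (h : H0 Ω u G)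
    (hw : WD Ω (fun x => γ x • G x) f) (hf : Src f) (h0 : ∀ x, 0 ≤ f x) : ∀ᵐ x, 0 ≤ u x := by
  obtain ⟨g, hg, hg0, h1, h2, h3, h4⟩ := chain_exists_g
  have hu := h.comp hg hg0 (L := 1) fun s => abs_le.2 ⟨by linarith [h1 s], h2 s⟩
  have hJ := hγ.memLp_smul h.mG
  have he := hw.ext hJ hf hu
  have hp : ∀ x, ⟪γ x • G x, deriv g (u x) • G x⟫ = γ x * (deriv g (u x) * ‖G x‖ ^ 2) := fun x => by
    rw [real_inner_smul_left, real_inner_smul_right, real_inner_self_eq_norm_sq]
  have hγ0 : ∀ x, 0 < γ x := fun x => hc.trans_le (hγ.le x)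
  have hnn : ∀ x, 0 ≤ ⟪γ x • G x, deriv g (u x) • G x⟫ := fun x => by
    rw [hp]
    exact mul_nonneg (hγ0 x).le (mul_nonneg (h1 _) (sq_nonneg _))
  have h5 : ∫ x, ⟪γ x • G x, deriv g (u x) • G x⟫ = 0 :=
    le_antisymm (he ▸ integral_nonpos fun x => mul_nonpos_of_nonneg_of_nonpos (h0 x) (h3 _))
      (integral_nonneg hnn)
  have h6 := (integral_eq_zero_iff_of_nonneg hnn (chain_integrable_inner hJ hu.mG)).1 h5
  have h7 : (fun x => deriv g (u x) • G x) =ᵐ[volume] 0 := h6.mono fun x hx => by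
    simp only [hp, Pi.zero_apply, mul_eq_zero, (hγ0 x).ne', false_or, pow_eq_zero_iff two_ne_zero,
      norm_eq_zero] at hx
    exact smul_eq_zero.2 hx
  obtain ⟨Cs, hCs⟩ := exists_sobolev
  have h8 := hCs hu
  rw [eLpNorm_congr_ae h7, eLpNorm_zero, mul_zero, nonpos_iff_eq_zero,
    eLpNorm_eq_zero_iff hu.mu.1 (by norm_num)] at h8
  exact h8.mono fun x hx => not_lt.1 fun h' => (h4 _ h').ne hx

/-- test with `u`; Hölder and Sobolev -/
theorem energy_bound {c : ℝ} (hc : 0 < c) (R M : ℝ) : ∃ N : ℝ≥0, ∀ {C : ℝ} {Ω : Set E3} {γ u f : E3 → ℝ}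
    {G : E3 → E3}, Ell c C γ → H0 Ω u G → WD Ω (fun x => γ x • G x) f → Bd (Metric.ball 0 R) M f →
    eLpNorm G 2 volume ≤ N := by
  obtain ⟨Cs, hCs⟩ := exists_sobolev
  set A : ℝ≥0∞ := ENNReal.ofReal M *
    (Cs * volume (Metric.ball (0 : E3) R) ^ (1 / (1 : ℝ≥0∞).toReal - 1 / (6 : ℝ≥0∞).toReal)) with hA
  have hA' : A ≠ ⊤ := ENNReal.mul_ne_top ENNReal.ofReal_ne_top (ENNReal.mul_ne_top ENNReal.coe_ne_top
    (ENNReal.rpow_ne_top_of_nonneg (by norm_num) measure_ball_lt_top.ne))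
  have hc' : ENNReal.ofReal c ≠ 0 := (ENNReal.ofReal_pos.2 hc).ne'
  refine ⟨(A / ENNReal.ofReal c).toNNReal, fun {C Ω γ u f G} hγ h hw hf => ?_⟩
  rw [ENNReal.coe_toNNReal (ENNReal.div_ne_top hA' hc')]
  have hJ := hγ.memLp_smul h.mG
  have he := hw.ext hJ ⟨R, M, hf⟩ h
  have hp : ∀ x, c * ‖G x‖ ^ 2 ≤ ⟪γ x • G x, G x⟫ := fun x => by
    rw [real_inner_smul_left, real_inner_self_eq_norm_sq]
    exact mul_le_mul_of_nonneg_right (hγ.le x) (sq_nonneg _)
  have h1 : ENNReal.ofReal c * (eLpNorm G 2 volume * eLpNorm G 2 volume) ≤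
      ENNReal.ofReal (∫ x, ⟪γ x • G x, G x⟫) := by
    have e := eLpNorm_nnreal_pow_eq_lintegral (f := G) (μ := volume) (p := 2) two_ne_zero
    simp only [ENNReal.coe_ofNat, NNReal.coe_ofNat, ENNReal.rpow_ofNat] at e
    rw [← sq, e, ← lintegral_const_mul' _ _ ENNReal.ofReal_ne_top,
      ofReal_integral_eq_lintegral_ofReal (chain_integrable_inner hJ h.mG)
        (Eventually.of_forall fun x => (by positivity : (0 : ℝ) ≤ c * ‖G x‖ ^ 2).trans (hp x))]
    refine lintegral_mono fun x => ?_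
    rw [← ofReal_norm, ← ENNReal.ofReal_pow (norm_nonneg _), ← ENNReal.ofReal_mul hc.le]
    exact ENNReal.ofReal_le_ofReal (hp x)
  have h2 : ENNReal.ofReal (∫ x, f x * u x) ≤ A * eLpNorm G 2 volume := by
    calc ENNReal.ofReal (∫ x, f x * u x) ≤ eLpNorm (fun x => f x * u x) 1 volume := by
          rw [eLpNorm_one_eq_lintegral_enorm]
          exact Real.ofReal_le_enorm _ |>.trans (enorm_integral_le_lintegral_enorm _)
      _ ≤ ENNReal.ofReal M * eLpNorm ((Metric.ball (0 : E3) R).indicator u) 1 volume := by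
          refine eLpNorm_le_mul_eLpNorm_of_ae_le_mul (Eventually.of_forall fun x => ?_) 1
          by_cases hx : x ∈ Metric.ball (0 : E3) R
          · rw [indicator_of_mem hx, norm_mul]
            exact mul_le_mul_of_nonneg_right (hf.bdd x) (norm_nonneg _)
          · simp [hf.off x hx, indicator_of_notMem hx]
      _ ≤ A * eLpNorm G 2 volume := by
          rw [hA, mul_assoc, eLpNorm_indicator_eq_eLpNorm_restrict measurableSet_ball]
          refine mul_le_mul_right ((eLpNorm_le_eLpNorm_mul_rpow_measure_univ (q := 6) (by norm_num)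
            h.mu.1.restrict).trans ?_) _
          rw [Measure.restrict_apply_univ, mul_right_comm]
          exact mul_le_mul_left ((eLpNorm_mono_measure _ Measure.restrict_le_self).trans (hCs h)) _
  by_cases h0 : eLpNorm G 2 volume = 0
  · simp [h0]
  rw [he, ← mul_assoc] at h1
  rw [ENNReal.le_div_iff_mul_le (Or.inl hc') (Or.inl ENNReal.ofReal_ne_top), mul_comm]
  exact (ENNReal.mul_le_mul_iff_left h0 h.mG.2.ne).1 (h1.trans h2)

end Crest.Agent.R83
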