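import Crest.Agent.R83.H0a
import Crest.Agent.R83.Geo

/-!
# R83 TASK LocA: local solutions
-/

set_option autoImplicit false

namespace Crest.Agent.R83

open MeasureTheory Set Filter Topology
open scoped Gradient RealInnerProductSpace ENNReal NNReal ContDiff

variable {Ω Ω' O : Set E3} {u u' f f' γ : E3 → ℝ} {G G' J J' : E3 → E3}

theorem loca_cut {K : Set E3} (hK : IsCompact K) (hO : IsOpen O) (h : K ⊆ O) :
    ∃ χ : E3 → ℝ, Test O χ ∧ ∀ x ∈ K, χ x = 1 ∧ ∇ χ x = 0 := by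
  obtain ⟨χ, -, hχ, -, h1⟩ := exists_cutoff hK hO h
  refine ⟨χ, hχ, fun x hx => ?_⟩
  have h2 : χ =ᶠ[𝓝 x] fun _ => 1 := h1.filter_mono (nhds_le_nhdsSet hx)
  exact ⟨h2.eq_of_nhds, by rw [h2.gradient_eq, gradient_fun_const]⟩

theorem loca_cut' {ψ : E3 → ℝ} (hΩ : IsOpen Ω) (hψ : Test Ω ψ) :
    ∃ χ : E3 → ℝ, Test Ω χ ∧ ∀ x, (χ x = 1 ∧ ∇ χ x = 0) ∨ (ψ x = 0 ∧ ∇ ψ x = 0) := by
  obtain ⟨χ, hχ, h1⟩ := loca_cut hψ.cpt hΩ hψ.sub
  refine ⟨χ, hχ, fun x => ?_⟩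
  by_cases hx : x ∈ tsupport ψ
  · exact Or.inl (h1 x hx)
  · exact Or.inr ⟨image_eq_zero_of_notMem_tsupport hx, grad_eq_zero_of_notMem hx⟩

theorem loca_int_inner {A B : E3 → E3} (hA : MemLp A 2 volume) (hB : MemLp B 2 volume) :
    Integrable (fun x => ⟪A x, B x⟫) volume :=
  (hA.norm.integrable_mul hB.norm).mono' (hA.1.inner hB.1)
    (ae_of_all _ fun x => norm_inner_le_norm (A x) (B x))

theorem H0.hat (h : H0 Ω u G) (i : Bool) : H0 (S i ⁻¹' Ω) (hatu i u) (hatG i G) :=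
  (h.sim (S i)).smul σ⁻¹

/-- `ψ * u = ψ * (ψ' * u)` for a cut-off `ψ'` equal to `1` near `tsupport ψ`, `H0.mul_test` -/
theorem Loc.mono (hΩ : IsOpen Ω) (h : Loc Ω u G J f) (hΩ' : Ω' ⊆ Ω) : Loc Ω' u G J f := by
  refine ⟨fun ψ hψ => ?_, fun ψ hψ => h.mJ ψ (hψ.mono hΩ'), fun ψ hψ => h.mf ψ (hψ.mono hΩ'),
    h.wd.mono hΩ'⟩
  obtain ⟨χ, hχ, h1⟩ := loca_cut' hΩ (hψ.mono hΩ')
  refine ((h.h0 χ hχ).mul_test hψ).congr (ae_of_all _ fun x => ?_) (ae_of_all _ fun x => ?_)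
  · rcases h1 x with h2 | h2 <;> simp [h2.1]
  · rcases h1 x with h2 | h2 <;> simp [h2.1, h2.2]

theorem Loc.congr (h : Loc Ω u G J f)
    (he : ∀ᵐ x, x ∈ Ω → u x = u' x ∧ G x = G' x ∧ J x = J' x ∧ f x = f' x) : Loc Ω u' G' J' f' := by
  refine ⟨fun ψ hψ => (h.h0 ψ hψ).congr ?_ ?_, fun ψ hψ => (h.mJ ψ hψ).ae_eq ?_,
    fun ψ hψ => (h.mf ψ hψ).ae_eq ?_,
    h.wd.congr (he.mono fun x hx h1 => (hx h1).2.2.1) (he.mono fun x hx h1 => (hx h1).2.2.2)⟩
  all_goals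
    filter_upwards [he] with x hx
    by_cases h1 : x ∈ Ω
    · simp only [(hx h1).1, (hx h1).2.1, (hx h1).2.2.1, (hx h1).2.2.2]
    · simp [(hψ.eq_zero h1).1, (hψ.eq_zero h1).2]

theorem Loc.integrable_inner (hΩ : IsOpen Ω) (h : Loc Ω u G J f) {ψ : E3 → ℝ} (hψ : Test Ω ψ) :
    Integrable (fun x => ⟪J x, ∇ ψ x⟫) volume ∧ Integrable (fun x => f x * ψ x) volume := by
  obtain ⟨χ, hχ, h1⟩ := loca_cut' hΩ hψ
  refine ⟨(loca_int_inner (h.mJ χ hχ) (hψ.memLp_grad 2)).congr (ae_of_all _ fun x => ?_),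
    ((h.mf χ hχ).integrable_mul (hψ.memLp 2)).congr (ae_of_all _ fun x => ?_)⟩
  · rcases h1 x with h2 | h2
    · simp [h2.1]
    · simp [h2.2]
  · rcases h1 x with h2 | h2 <;> simp [h2.1]

/-- `Test.split` -/
theorem Loc.union (hΩ : IsOpen Ω) (hΩ' : IsOpen Ω') (h : Loc Ω u G J f) (h' : Loc Ω' u G J f) :
    Loc (Ω ∪ Ω') u G J f := by
  refine ⟨fun ψ hψ => ?_, fun ψ hψ => ?_, fun ψ hψ => ?_, fun ψ hψ => ?_⟩
  all_goals obtain ⟨ψ₁, ψ₂, h1, h2, rfl⟩ := hψ.split hΩ hΩ'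
  · refine (((h.h0 _ h1).mono subset_union_left).add ((h'.h0 _ h2).mono subset_union_right)).congr
      (ae_of_all _ fun x => ?_) (ae_of_all _ fun x => ?_)
    · simp only [add_mul]
    · simp only [grad_add (h1.differentiable x) (h2.differentiable x), add_smul, smul_add]
      abel
  · exact ((h.mJ _ h1).add (h'.mJ _ h2)).ae_eq (ae_of_all _ fun x => by simp [add_smul])
  · exact ((h.mf _ h1).add (h'.mf _ h2)).ae_eq (ae_of_all _ fun x => by simp [add_mul])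
  · have i1 := h.integrable_inner hΩ h1
    have i2 := h'.integrable_inner hΩ' h2
    simp only [grad_add (h1.differentiable _) (h2.differentiable _), inner_add_right, mul_add]
    rw [integral_add i1.1 i2.1, integral_add i1.2 i2.2, h.wd _ h1, h'.wd _ h2]

theorem Loc.of_h0 (h : H0 Ω' u G) (hJ : MemLp J 2 volume) (hf : Src f) (hw : WD Ω J f) :
    Loc Ω u G J f :=
  ⟨fun _ hψ => h.mul_test hψ, fun _ hψ => hJ.smul (hψ.memLp ∞),
    fun _ hψ => (hf.memLp 2).smul (hψ.memLp ∞), hw⟩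

theorem Loc.of_c1 (hO : IsOpen O) (hu : ContDiffOn ℝ 1 u O) (hJ : ContinuousOn J O) (hw : WD O J 0) :
    Loc O u (∇ u) J 0 := by
  refine ⟨fun ψ hψ => (hψ.mul hO hu).h0.congr (ae_of_all _ fun x => rfl) (ae_of_all _ fun x => ?_),
    fun ψ hψ => ?_, fun ψ _ => by simp, hw⟩
  · by_cases hx : x ∈ O
    · exact grad_mul (hψ.differentiable x)
        ((hu.contDiffAt (hO.mem_nhds hx)).differentiableAt one_ne_zero)
    · simp [((hψ.mul hO hu).eq_zero hx).2, (hψ.eq_zero hx).1, (hψ.eq_zero hx).2]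
  · have hc : Continuous fun x => ψ x • J x :=
      (hψ.c1.continuous.continuousOn.smul hJ).continuous_of_tsupport_subset hO
        ((tsupport_smul_subset_left _ _).trans hψ.sub)
    exact hc.memLp_of_hasCompactSupport hψ.cpt.smul_right

theorem Loc.smul (h : Loc Ω u G J f) (c : ℝ) :
    Loc Ω (fun x => c * u x) (fun x => c • G x) (fun x => c • J x) fun x => c * f x := by
  refine ⟨fun ψ hψ => ((h.h0 ψ hψ).smul c).congr (ae_of_all _ fun x => ?_) (ae_of_all _ fun x => ?_),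
    fun ψ hψ => ((h.mJ ψ hψ).const_smul c).ae_eq (ae_of_all _ fun x => ?_),
    fun ψ hψ => ((h.mf ψ hψ).const_mul c).ae_eq (ae_of_all _ fun x => ?_), h.wd.smul c⟩
  · ring
  · simp only [smul_add, smul_smul, mul_comm]
  · simp only [Pi.smul_apply, smul_smul, mul_comm]
  · ring

theorem Loc.const_add (h : Loc Ω u G J f) (c : ℝ) : Loc Ω (fun x => c + u x) G J f := by
  refine ⟨fun ψ hψ => ((hψ.h0.smul c).add (h.h0 ψ hψ)).congr (ae_of_all _ fun x => ?_)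
    (ae_of_all _ fun x => ?_), h.mJ, h.mf, h.wd⟩
  · ring
  · simp only [add_smul]
    abel

theorem Loc.sim (h : Loc Ω u G J f) (T : Sim) :
    Loc (T ⁻¹' Ω) (fun x => u (T x)) (T.pG G) (T.pG J) fun x => T.s ^ 2 * f (T x) := by
  have key : ∀ ψ, Test (T ⁻¹' Ω) ψ → Test Ω fun x => ψ (T.inv x) := fun ψ hψ =>
    (hψ.sim T.inv).mono fun x hx => by simpa [T.apply_inv] using hx
  refine ⟨fun ψ hψ => ((h.h0 _ (key ψ hψ)).sim T).congr (ae_of_all _ fun x => ?_)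
    (ae_of_all _ fun x => ?_),
    fun ψ hψ => (T.memLp_pG (h.mJ _ (key ψ hψ))).ae_eq (ae_of_all _ fun x => ?_),
    fun ψ hψ => ((T.memLp_comp (h.mf _ (key ψ hψ))).const_mul (T.s ^ 2)).ae_eq
      (ae_of_all _ fun x => ?_), h.wd.sim T⟩
  · simp only [T.inv_apply]
  · have e := T.grad_comp ((key ψ hψ).differentiable (T x))
    simp only [T.inv_apply] at e
    change _ = ψ x • T.pG G x + u (T x) • ∇ (fun y => ψ y) x
    rw [e]
    simp only [Sim.pG, T.inv_apply, map_add, map_smul, smul_add, smul_comm T.s]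
  · simp only [Sim.pG, T.inv_apply, map_smul, smul_comm T.s]
  · simp only [T.inv_apply]
    ring

theorem Loc.hat (h : Loc Ω u G J f) (i : Bool) :
    Loc (S i ⁻¹' Ω) (hatu i u) (hatG i G) (hatG i J) (hat i f) := by
  refine ((h.sim (S i)).smul σ⁻¹).congr (ae_of_all _ fun x _ => ⟨rfl, rfl, rfl, ?_⟩)
  rw [S_s, R83.hat]
  ring

theorem Loc.to_h0 (h : Loc univ u G J f) {K : Set E3} (hK : IsCompact K) (hO : IsOpen O) (hKO : K ⊆ O)
    (h0 : ∀ᵐ x, x ∉ K → u x = 0 ∧ G x = 0 ∧ J x = 0) : H0 O u G ∧ MemLp J 2 volume := by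
  obtain ⟨χ, hχ, h1⟩ := loca_cut hK hO hKO
  have h2 := h.mono isOpen_univ (subset_univ O)
  refine ⟨(h2.h0 χ hχ).congr ?_ ?_, (h2.mJ χ hχ).ae_eq ?_⟩
  all_goals
    filter_upwards [h0] with x hx
    by_cases h3 : x ∈ K
    · simp [(h1 x h3).1, (h1 x h3).2]
    · simp [(hx h3).1, (hx h3).2.1, (hx h3).2.2]

/-- Take a cut-off `χ` in `Ω` equal to `1` near `{Q ≤ 1}`.  Test the equation of `v` with `χ u` and the equation of
`u` (in the form `WD El (χ • γ • G) 0`) with `v` (`WD.ext`, `H0.zero_off`). -/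
theorem Loc.orth {c C : ℝ} (hγ : Ell c C γ) (hΩ : IsOpen Ω) (hE : {x | Q x ≤ 1} ⊆ Ω)
    (h : Loc Ω u G (fun x => γ x • G x) 0) {v : E3 → ℝ} {Gv : E3 → E3} (hv : H0 El v Gv)
    (hw : WD univ (fun x => γ x • Gv x) f) (hf : Src f) (h0 : ∀ x, x ∉ El → f x = 0) :
    ∫ x, f x * u x = 0 := by
  obtain ⟨χ, hχ, h1⟩ := loca_cut (isCompact_Q_le 1) hΩ hE
  have hEl : El ⊆ {x | Q x ≤ 1} := fun x hx => le_of_lt (α := ℝ) hx
  have e1 := hw.ext (hγ.memLp_smul hv.mG) hf ((h.h0 χ hχ).mono (subset_univ _))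
  have hw2 : WD El (fun x => χ x • γ x • G x) 0 :=
    (h.wd.mono (hEl.trans hE)).congr (ae_of_all _ fun x hx => by rw [(h1 x (hEl hx)).1, one_smul])
      (ae_of_all _ fun _ _ => rfl)
  have e2 := hw2.ext (h.mJ χ hχ) Src.zero hv
  simp only [Pi.zero_apply, zero_mul, integral_zero] at e2
  calc ∫ x, f x * u x = ∫ x, f x * (χ x * u x) := by
        refine integral_congr_ae (ae_of_all _ fun x => ?_)
        by_cases hx : x ∈ El
        · simp only [(h1 x (hEl hx)).1, one_mul]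
        · simp only [h0 x hx, zero_mul]
    _ = ∫ x, ⟪χ x • γ x • G x, Gv x⟫ := by
        rw [← e1]
        refine integral_congr_ae ?_
        filter_upwards [hv.zero_off] with x hx
        by_cases h2 : x ∈ El
        · simp only [(h1 x (hEl h2)).1, (h1 x (hEl h2)).2, one_smul, smul_zero, add_zero,
            real_inner_smul_left]
          rw [real_inner_comm]
        · simp [(hx h2).2]
    _ = 0 := e2

end Crest.Agent.R83
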