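import Crest.Agent.R83.H0a

/-!
# R83 TASK Solve: Lax-Milgram and weak limits along ultrafilters
-/

set_option autoImplicit false

namespace Crest.Agent.R83

open MeasureTheory Set Filter Topology
open scoped Gradient RealInnerProductSpace ENNReal NNReal ContDiff

/-! Let `𝒢 Ω` be the topological closure, in `Lp E3 2`, of the subspace of gradients of test functions; by
`H0.exists_lim` its elements are exactly the classes of the `G` with `H0 Ω u G` for some `u`. -/

/-- the gradients of elements of `H0 Ω` -/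
def solve_V (Ω : Set E3) : Submodule ℝ (Lp E3 2 (volume : Measure E3)) where
  carrier := {g | ∃ u, H0 Ω u g}
  add_mem' := by
    rintro g g' ⟨u, hu⟩ ⟨u', hu'⟩
    exact ⟨_, (hu.add hu').congr EventuallyEq.rfl (Lp.coeFn_add g g').symm⟩
  zero_mem' := ⟨_, (H0.zero Ω).congr EventuallyEq.rfl (Lp.coeFn_zero E3 2 volume).symm⟩
  smul_mem' := by
    rintro c g ⟨u, hu⟩
    exact ⟨_, (hu.smul c).congr EventuallyEq.rfl (Lp.coeFn_smul c g).symm⟩

theorem solve_closed (Ω : Set E3) : IsClosed (solve_V Ω : Set (Lp E3 2 (volume : Measure E3))) := by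
  refine IsSeqClosed.isClosed fun g y hg hy => ?_
  choose u hu using hg
  have h1 := (Lp.tendsto_Lp_iff_tendsto_eLpNorm' g y).1 hy
  obtain ⟨u', hu', -⟩ := H0.exists_lim hu (Lp.memLp y) (h1.congr fun n => eLpNorm_sub_comm _ _ _ _)
  exact ⟨u', hu'⟩

theorem solve_mem {Ω : Set E3} {u : E3 → ℝ} {G : E3 → E3} (h : H0 Ω u G) : h.mG.toLp G ∈ solve_V Ω :=
  ⟨u, h.congr EventuallyEq.rfl h.mG.coeFn_toLp.symm⟩

theorem solve_uniq {Ω : Set E3} {u u' : E3 → ℝ} {G : E3 → E3} (h : H0 Ω u G) (h' : H0 Ω u' G) :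
    u =ᵐ[volume] u' := by
  obtain ⟨Cs, hCs⟩ := exists_sobolev
  have h1 := hCs (h.sub h')
  simp only [sub_self, eLpNorm_zero', mul_zero, nonpos_iff_eq_zero] at h1
  have h2 := (eLpNorm_eq_zero_iff (h.sub h').mu.1 (by norm_num)).1 h1
  filter_upwards [h2] with x hx
  exact sub_eq_zero.1 hx

theorem solve_holder : ENNReal.HolderTriple (6 / 5) 6 1 := ⟨by
  rw [ENNReal.inv_div (by norm_num) (by norm_num), inv_one, ← one_div, ← ENNReal.add_div,
    show (5 : ℝ≥0∞) + 1 = 6 by norm_num]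
  exact ENNReal.div_self (by norm_num) (by norm_num)⟩

/-- the functional `G ↦ ∫ f u` -/
theorem solve_functional (Ω : Set E3) {f : E3 → ℝ} (hf : Src f) :
    ∃ ℓ : solve_V Ω →L[ℝ] ℝ, ∀ (g : solve_V Ω) (u : E3 → ℝ), H0 Ω u g.1 → ℓ g = ∫ x, f x * u x := by
  have := solve_holder
  obtain ⟨Cs, hCs⟩ := exists_sobolev
  have hf' := hf.memLp (6 / 5)
  choose U hU using fun g : solve_V Ω => g.2
  have key : ∀ (g : solve_V Ω) (u : E3 → ℝ), H0 Ω u g.1 → ∫ x, f x * U g x = ∫ x, f x * u x := by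
    intro g u hu
    refine integral_congr_ae ?_
    filter_upwards [solve_uniq (hU g) hu] with x hx
    rw [hx]
  let L : solve_V Ω →ₗ[ℝ] ℝ :=
    { toFun := fun g => ∫ x, f x * U g x
      map_add' := fun g g' => by
        rw [key (g + g') _ (((hU g).add (hU g')).congr EventuallyEq.rfl (Lp.coeFn_add g.1 g'.1).symm)]
        simp only [mul_add]
        exact integral_add (hf'.integrable_mul (hU g).mu) (hf'.integrable_mul (hU g').mu)
      map_smul' := fun c g => by
        rw [key (c • g) _ (((hU g).smul c).congr EventuallyEq.rfl (Lp.coeFn_smul c g.1).symm), RingHom.id_apply,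
          smul_eq_mul, ← integral_const_mul]
        simp only [mul_left_comm] }
  refine ⟨L.mkContinuous ((eLpNorm f (6 / 5) volume).toReal * Cs) fun g => ?_, key⟩
  have h1 : ‖∫ x, f x * U g x‖ₑ ≤ eLpNorm f (6 / 5) volume * (Cs * eLpNorm g.1 2 volume) := by
    refine (enorm_integral_le_lintegral_enorm _).trans ?_
    rw [← eLpNorm_one_eq_lintegral_enorm]
    exact (eLpNorm_smul_le_mul_eLpNorm (p := 6 / 5) (q := 6) (r := 1) (hU g).mu.1 hf'.1).trans
      (mul_le_mul_right (hCs (hU g)) _)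
  have h2 := ENNReal.toReal_mono (ENNReal.mul_ne_top hf'.2.ne
    (ENNReal.mul_ne_top ENNReal.coe_ne_top (Lp.memLp g.1).2.ne)) h1
  rw [toReal_enorm, ENNReal.toReal_mul, ENNReal.toReal_mul, ENNReal.coe_toReal, ← Lp.norm_def, ← mul_assoc] at h2
  exact h2

theorem solve_inner {V : Type} [NormedAddCommGroup V] [InnerProductSpace ℝ V] {G F : E3 → V}
    (hG : MemLp G 2 volume) (hF : MemLp F 2 volume) : ⟪hG.toLp G, hF.toLp F⟫ = ∫ x, ⟪G x, F x⟫ := by
  rw [L2.inner_def]
  refine integral_congr_ae ?_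
  filter_upwards [hG.coeFn_toLp, hF.coeFn_toLp] with x h1 h2
  rw [h1, h2]

/-- Lax-Milgram (`IsCoercive.continuousLinearEquivOfBilin`) or Riesz in `𝒢 Ω`; the functional
`∇ψ ↦ ∫ f ψ - ∫ ⟪F, ∇ψ⟫` is bounded by Hölder and Sobolev (`LinearMap.extend..`, or define it through `u`). -/
theorem exists_sol {c C : ℝ} (hc : 0 < c) {γ : E3 → ℝ} (hγ : Ell c C γ) (Ω : Set E3) {f : E3 → ℝ}
    (hf : Src f) {F : E3 → E3} (hF : MemLp F 2 volume) :
    ∃ u G, H0 Ω u G ∧ WD Ω (fun x => γ x • G x + F x) f := by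
  have hcl := solve_closed Ω
  have : CompleteSpace (solve_V Ω) := hcl.completeSpace_coe
  obtain ⟨ℓ, hℓ⟩ := solve_functional Ω hf
  have hγm : MemLp γ ∞ volume := memLp_top_of_bound hγ.meas.aestronglyMeasurable C (Eventually.of_forall fun x => by
    rw [Real.norm_eq_abs, abs_of_pos (hc.trans_le (hγ.le x))]
    exact hγ.ge x)
  let A : Lp E3 2 (volume : Measure E3) →L[ℝ] Lp E3 2 (volume : Measure E3) :=
    (ContinuousLinearMap.lsmul ℝ ℝ : ℝ →L[ℝ] E3 →L[ℝ] E3).holderL volume ∞ 2 2 (hγm.toLp γ)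
  have hA : ∀ g, A g =ᵐ[volume] fun x => γ x • g x := by
    intro g
    filter_upwards [(ContinuousLinearMap.lsmul ℝ ℝ : ℝ →L[ℝ] E3 →L[ℝ] E3).coeFn_holder (r := 2) (hγm.toLp γ) g,
      hγm.coeFn_toLp] with x h1 h2
    rw [h2] at h1
    exact h1
  let B : solve_V Ω →L[ℝ] solve_V Ω →L[ℝ] ℝ :=
    (LinearMap.mk₂ ℝ (fun g h : solve_V Ω => ⟪A g.1, h.1⟫)
      (fun g g' h => by rw [Submodule.coe_add, map_add, inner_add_left])
      (fun a g h => by rw [Submodule.coe_smul, map_smul, real_inner_smul_left, smul_eq_mul])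
      (fun g h h' => by rw [Submodule.coe_add, inner_add_right])
      (fun a g h => by rw [Submodule.coe_smul, real_inner_smul_right, smul_eq_mul])).mkContinuous₂ ‖A‖
      fun g h => (norm_inner_le_norm _ _).trans (mul_le_mul_of_nonneg_right (A.le_opNorm g.1) (norm_nonneg _))
  have hB : ∀ g h, B g h = ⟪A g.1, h.1⟫ := fun g h => rfl
  have hco : IsCoercive B := by
    refine ⟨c, hc, fun g => ?_⟩
    rw [hB, mul_assoc, Submodule.coe_norm, ← real_inner_self_eq_norm_mul_norm, L2.inner_def, L2.inner_def,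
      ← integral_const_mul]
    refine integral_mono_ae ((L2.integrable_inner _ _).const_mul c) (L2.integrable_inner _ _) ?_
    filter_upwards [hA g.1] with x hx
    rw [hx, real_inner_smul_left]
    exact mul_le_mul_of_nonneg_right (hγ.le x) real_inner_self_nonneg
  let ℓ' : solve_V Ω →L[ℝ] ℝ := ℓ - (innerSL ℝ (hF.toLp F)).comp (solve_V Ω).subtypeL
  let g := hco.continuousLinearEquivOfBilin.symm ((InnerProductSpace.toDual ℝ (solve_V Ω)).symm ℓ')
  have hg : ∀ h : solve_V Ω, ⟪A g.1, h.1⟫ = ℓ h - ⟪hF.toLp F, h.1⟫ := fun h => by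
    rw [← hB, ← hco.continuousLinearEquivOfBilin_apply, ContinuousLinearEquiv.apply_symm_apply,
      InnerProductSpace.toDual_symm_apply]
    rfl
  obtain ⟨u, hu⟩ := g.2
  refine ⟨u, g.1, hu, fun ψ hψ => ?_⟩
  have h1 := hg ⟨_, solve_mem hψ.h0⟩
  rw [hℓ _ ψ (hψ.h0.congr EventuallyEq.rfl hψ.h0.mG.coeFn_toLp.symm), eq_sub_iff_add_eq, ← inner_add_left,
    L2.inner_def] at h1
  rw [← h1]
  refine integral_congr_ae ?_
  filter_upwards [Lp.coeFn_add (A g.1) (hF.toLp F), hA g.1, hF.coeFn_toLp, hψ.h0.mG.coeFn_toLp] with x h2 h3 h4 h5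
  rw [h2, Pi.add_apply, h3, h4, h5]

/-- abstract form: bounded families in a closed subspace of a Hilbert space converge weakly along ultrafilters
(define the functional `y ↦ lim ⟪x n, y⟫`, Riesz) -/
theorem exists_weak_lim {H ι : Type} [NormedAddCommGroup H] [InnerProductSpace ℝ H] [CompleteSpace H]
    (V : Submodule ℝ H) (hV : IsClosed (V : Set H)) (𝒰 : Ultrafilter ι) {x : ι → H} (hx : ∀ n, x n ∈ V)
    {M : ℝ} (hM : ∀ n, ‖x n‖ ≤ M) :
    ∃ y ∈ V, ∀ z, Tendsto (fun n => ⟪x n, z⟫) 𝒰 (𝓝 ⟪y, z⟫) := by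
  have hb : ∀ n z, ‖⟪x n, z⟫‖ ≤ M * ‖z‖ := fun n z =>
    (norm_inner_le_norm _ _).trans (mul_le_mul_of_nonneg_right (hM n) (norm_nonneg _))
  have hl : ∀ z, ∃ a ∈ Metric.closedBall (0 : ℝ) (M * ‖z‖), Tendsto (fun n => ⟪x n, z⟫) 𝒰 (𝓝 a) := fun z =>
    (isCompact_closedBall 0 (M * ‖z‖)).ultrafilter_le_nhds (𝒰.map fun n => ⟪x n, z⟫)
      (le_principal_iff.2 (mem_map.2 (Eventually.of_forall fun n => mem_closedBall_zero_iff.2 (hb n z))))
  choose a ha hta using hl
  let L : H →ₗ[ℝ] ℝ :=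
    { toFun := a
      map_add' := fun z z' => tendsto_nhds_unique (hta (z + z'))
        (((hta z).add (hta z')).congr fun n => (inner_add_right _ _ _).symm)
      map_smul' := fun c z => tendsto_nhds_unique (hta (c • z))
        (((hta z).const_mul c).congr fun n => (real_inner_smul_right _ _ _).symm) }
  let y := (InnerProductSpace.toDual ℝ H).symm (L.mkContinuous M fun z => mem_closedBall_zero_iff.1 (ha z))
  have hy : ∀ z, ⟪y, z⟫ = a z := fun z => InnerProductSpace.toDual_symm_apply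
  have : CompleteSpace V := hV.completeSpace_coe
  refine ⟨y, ?_, fun z => hy z ▸ hta z⟩
  rw [← V.orthogonal_orthogonal, Submodule.mem_orthogonal']
  intro z hz
  rw [hy]
  exact tendsto_nhds_unique (hta z)
    (tendsto_const_nhds.congr fun n => (Submodule.inner_right_of_mem_orthogonal (hx n) hz).symm)

theorem H0.weak_lim {ι : Type} (𝒰 : Ultrafilter ι) {Ω : Set E3} {u : ι → E3 → ℝ} {G : ι → E3 → E3}
    (h : ∀ n, H0 Ω (u n) (G n)) {M : ℝ≥0} (hM : ∀ n, eLpNorm (G n) 2 volume ≤ M) :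
    ∃ u' G', H0 Ω u' G' ∧ ∀ F, MemLp F 2 volume →
      Tendsto (fun n => ∫ x, ⟪G n x, F x⟫) 𝒰 (𝓝 (∫ x, ⟪G' x, F x⟫)) := by
  obtain ⟨y, ⟨u', hu'⟩, hy⟩ := exists_weak_lim (solve_V Ω) (solve_closed Ω) 𝒰 (fun n => solve_mem (h n)) (M := M)
    fun n => by
      rw [Lp.norm_toLp]
      exact ENNReal.toReal_le_coe_of_le_coe (hM n)
  refine ⟨u', y, hu', fun F hF => ?_⟩
  have h1 := hy (hF.toLp F)
  rw [← Lp.toLp_coeFn y (Lp.memLp y), solve_inner] at h1
  exact h1.congr fun n => solve_inner _ _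

theorem solve_nonneg {ι : Type} {𝒰 : Ultrafilter ι} {x : ι → Lp ℝ 2 (volume : Measure E3)}
    {y : Lp ℝ 2 (volume : Measure E3)} (h : ∀ z, Tendsto (fun n => ⟪x n, z⟫) 𝒰 (𝓝 ⟪y, z⟫))
    (hx : ∀ n, 0 ≤ᵐ[volume] x n) : 0 ≤ᵐ[volume] y := by
  refine ae_nonneg_of_forall_setIntegral_nonneg_of_sigmaFinite
    (fun s _ hs => integrableOn_Lp_of_measure_ne_top y (by norm_num) hs.ne) fun s hs hs' => ?_
  rw [← L2.inner_indicatorConstLp_one hs hs'.ne, real_inner_comm]
  refine ge_of_tendsto' (h _) fun n => ?_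
  rw [real_inner_comm, L2.inner_indicatorConstLp_one]
  exact setIntegral_nonneg_of_ae (hx n)

/-- weak limit in `L²`; the bounds persist a.e. (test with indicators of `{φ' > b}` etc.); clip and cut off a
measurable representative -/
theorem weak_lim_bdd {ι : Type} (𝒰 : Ultrafilter ι) {K : Set E3} (hK : MeasurableSet K)
    (hb : Bornology.IsBounded K) {M : ℝ} {φ : ι → E3 → ℝ} (h : ∀ n, Bd K M (φ n)) :
    ∃ φ', Bd K M φ' ∧ ((∀ n x, 0 ≤ φ n x) → ∀ x, 0 ≤ φ' x) ∧ ∀ w : E3 → ℝ, ContinuousOn w (closure K) →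
      Tendsto (fun n => ∫ x, φ n x * w x) 𝒰 (𝓝 (∫ x, φ' x * w x)) := by
  classical
  obtain ⟨n0⟩ : Nonempty ι := nonempty_of_neBot (𝒰 : Filter ι)
  have hM : 0 ≤ M := (abs_nonneg _).trans ((h n0).bdd 0)
  let b : E3 → ℝ := K.indicator fun _ => M
  have hb0 : ∀ x, 0 ≤ b x := fun x => indicator_nonneg (fun _ _ => hM) x
  have hbM : ∀ x, b x ≤ M := fun x => indicator_le_self' (fun _ _ => hM) x
  have hbd : Bd K M b := ⟨measurable_const.indicator hK, fun x => (abs_of_nonneg (hb0 x)).trans_le (hbM x),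
    fun x hx => indicator_of_notMem hx _⟩
  have hφb : ∀ n x, |φ n x| ≤ b x := fun n x => by
    by_cases hx : x ∈ K
    · exact ((h n).bdd x).trans_eq (indicator_of_mem hx fun _ => M).symm
    · rw [(h n).off x hx, abs_zero]
      exact hb0 x
  have hm : ∀ n, MemLp (φ n) 2 volume := fun n => ((h n).src hb).memLp 2
  have hbm : MemLp b 2 volume := (hbd.src hb).memLp 2
  obtain ⟨y, -, hy⟩ := exists_weak_lim (⊤ : Submodule ℝ (Lp ℝ 2 (volume : Measure E3))) isClosed_univ 𝒰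
    (x := fun n => (hm n).toLp (φ n)) (fun _ => trivial) (M := ‖hbm.toLp b‖) fun n => by
      refine Lp.norm_le_norm_of_ae_le ?_
      filter_upwards [(hm n).coeFn_toLp, hbm.coeFn_toLp] with x h1 h2
      rw [h1, h2]
      exact (hφb n x).trans (le_abs_self _)
  have hup : y ≤ᵐ[volume] b := by
    have h1 := solve_nonneg (𝒰 := 𝒰) (x := fun n => hbm.toLp b - (hm n).toLp (φ n)) (y := hbm.toLp b - y)
      (fun z => by
        simp only [inner_sub_left]
        exact tendsto_const_nhds.sub (hy z))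
      fun n => by
        filter_upwards [Lp.coeFn_sub (hbm.toLp b) ((hm n).toLp (φ n)), (hm n).coeFn_toLp, hbm.coeFn_toLp]
          with x h1 h2 h3
        rw [h1, Pi.sub_apply, h2, h3]
        exact sub_nonneg.2 (abs_le.1 (hφb n x)).2
    filter_upwards [h1, Lp.coeFn_sub (hbm.toLp b) y, hbm.coeFn_toLp] with x h1 h2 h3
    rw [h2, Pi.sub_apply, h3] at h1
    exact sub_nonneg.1 h1
  have hlow : (fun x => -b x) ≤ᵐ[volume] y := by
    have h1 := solve_nonneg (𝒰 := 𝒰) (x := fun n => hbm.toLp b + (hm n).toLp (φ n)) (y := hbm.toLp b + y)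
      (fun z => by
        simp only [inner_add_left]
        exact tendsto_const_nhds.add (hy z))
      fun n => by
        filter_upwards [Lp.coeFn_add (hbm.toLp b) ((hm n).toLp (φ n)), (hm n).coeFn_toLp, hbm.coeFn_toLp]
          with x h1 h2 h3
        rw [h1, Pi.add_apply, h2, h3]
        exact neg_le_iff_add_nonneg'.1 (abs_le.1 (hφb n x)).1
    filter_upwards [h1, Lp.coeFn_add (hbm.toLp b) y, hbm.coeFn_toLp] with x h1 h2 h3
    rw [h2, Pi.add_apply, h3] at h1
    exact neg_le_iff_add_nonneg'.2 h1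
  obtain ⟨l, hlm, hl1, hl2, hl3, hl4⟩ : ∃ l : E3 → ℝ, Measurable l ∧ (∀ x, -b x ≤ l x) ∧ (∀ x, l x ≤ 0) ∧
      l ≤ᵐ[volume] y ∧ ((∀ n x, 0 ≤ φ n x) → ∀ x, 0 ≤ l x) := by
    by_cases hp : ∀ n x, 0 ≤ φ n x
    · refine ⟨0, measurable_const, fun x => neg_nonpos.2 (hb0 x), fun _ => le_rfl, solve_nonneg hy fun n => ?_,
        fun _ _ => le_rfl⟩
      filter_upwards [(hm n).coeFn_toLp] with x hx
      rw [hx]
      exact hp n x
    · exact ⟨fun x => -b x, hbd.meas.neg, fun _ => le_rfl, fun x => neg_nonpos.2 (hb0 x), hlow,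
        fun h' => absurd h' hp⟩
  let φ' : E3 → ℝ := fun x => max (l x) (min (b x) (y x))
  have hφ' : ∀ x, |φ' x| ≤ b x := fun x =>
    abs_le.2 ⟨(hl1 x).trans (le_max_left _ _), max_le ((hl2 x).trans (hb0 x)) (min_le_left _ _)⟩
  have hoff : ∀ x, x ∉ K → φ' x = 0 := fun x hx => abs_nonpos_iff.1 ((hφ' x).trans_eq (hbd.off x hx))
  have hae : φ' =ᵐ[volume] y := by
    filter_upwards [hup, hl3] with x h1 h2
    rw [show φ' x = max (l x) (min (b x) (y x)) from rfl, min_eq_right h1, max_eq_right h2]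
  refine ⟨φ', ⟨hlm.max (hbd.meas.min (Lp.stronglyMeasurable y).measurable), fun x => (hφ' x).trans (hbM x), hoff⟩,
    fun hp x => (hl4 hp x).trans (le_max_left _ _), fun w hw => ?_⟩
  obtain ⟨B, hB⟩ := hb.isCompact_closure.exists_bound_of_continuousOn hw
  have : IsFiniteMeasure (volume.restrict K) := isFiniteMeasure_restrict.2 hb.measure_lt_top.ne
  have hwm : MemLp (K.indicator w) 2 volume := (memLp_indicator_iff_restrict hK).2
    (MemLp.of_bound ((hw.mono subset_closure).aestronglyMeasurable hK) B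
      ((ae_restrict_iff' hK).2 (Eventually.of_forall fun x hx => hB x (subset_closure hx))))
  have hind : ∀ g : E3 → ℝ, (∀ x, x ∉ K → g x = 0) → ∀ x, ⟪g x, K.indicator w x⟫ = g x * w x := fun g hg x => by
    rw [Real.inner_apply]
    by_cases hx : x ∈ K
    · rw [indicator_of_mem hx]
    · rw [hg x hx, zero_mul, zero_mul]
  have h1 := hy (hwm.toLp _)
  have h2 : ⟪y, hwm.toLp _⟫ = ∫ x, φ' x * w x := by
    rw [L2.inner_def]
    refine integral_congr_ae ?_
    filter_upwards [hae, hwm.coeFn_toLp] with x h3 h4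
    rw [← h3, h4, hind φ' hoff]
  rw [h2] at h1
  refine h1.congr fun n => ?_
  rw [solve_inner]
  simp only [hind (φ n) (h n).off]

end Crest.Agent.R83
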