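import Crest.Agent.R83.Chain

/-!
# R83 TASK Stamp: Stampacchia's `L^∞` bound
-/

set_option autoImplicit false

namespace Crest.Agent.R83

open MeasureTheory Set Filter Topology
open scoped Gradient RealInnerProductSpace ENNReal NNReal ContDiff

theorem stamp_trunc (k : ℝ) {ε : ℝ} (hε : 0 < ε) : ∃ g : ℝ → ℝ, ContDiff ℝ 1 g ∧
    (∀ s, 0 ≤ deriv g s ∧ deriv g s ≤ 1) ∧ (∀ s, s ≤ k → g s = 0 ∧ deriv g s = 0) ∧ (∀ s, 0 ≤ g s) ∧
    ∀ s, k + 2 * ε ≤ s → ε ≤ g s := by
  set ρ : ℝ → ℝ := fun t => max 0 (min 1 ((t - k) / ε)) with hρ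
  have hc : Continuous ρ := by rw [hρ]; fun_prop
  have h0 : ∀ t, 0 ≤ ρ t := fun t => le_max_left _ _
  have h1 : ∀ t, t ≤ k → ρ t = 0 := fun t ht =>
    max_eq_left ((min_le_right _ _).trans (div_nonpos_of_nonpos_of_nonneg (sub_nonpos.2 ht) hε.le))
  have h2 : ∀ t, k + ε ≤ t → ρ t = 1 := fun t ht => by
    simp only [hρ]
    rw [min_eq_left ((le_div_iff₀ hε).2 (by linarith)), max_eq_right zero_le_one]
  have hd : ∀ s, HasDerivAt (fun s => ∫ t in k..s, ρ t) (ρ s) s := fun s =>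
    (hc.integral_hasStrictDerivAt k s).hasDerivAt
  have hd' : deriv (fun s => ∫ t in k..s, ρ t) = ρ := funext fun s => (hd s).deriv
  have h3 : ∀ s, s ≤ k → ∫ t in k..s, ρ t = 0 := fun s hs => by
    rw [intervalIntegral.integral_congr (g := fun _ => (0 : ℝ)) fun t ht => h1 t ?_, intervalIntegral.integral_zero]
    rw [uIcc_of_ge hs] at ht
    exact ht.2
  refine ⟨fun s => ∫ t in k..s, ρ t, contDiff_one_iff_deriv.2 ⟨fun s => (hd s).differentiableAt, hd'.symm ▸ hc⟩,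
    fun s => ?_, fun s hs => ⟨h3 s hs, by rw [hd', h1 s hs]⟩, fun s => ?_, fun s hs => ?_⟩
  · rw [hd']
    exact ⟨h0 s, max_le zero_le_one (min_le_left _ _)⟩
  · rcases le_total s k with h | h
    · exact (h3 s h).ge
    · exact intervalIntegral.integral_nonneg h fun t _ => h0 t
  · dsimp only
    rw [← intervalIntegral.integral_add_adjacent_intervals (b := k + ε) (hc.intervalIntegrable _ _)
      (hc.intervalIntegrable _ _), intervalIntegral.integral_congr (a := k + ε) (g := fun _ => (1 : ℝ))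
      fun t ht => h2 t (by rw [uIcc_of_le (by linarith)] at ht; exact ht.1)]
    have := intervalIntegral.integral_nonneg (μ := volume) (show k ≤ k + ε by linarith) fun t _ => h0 t
    simp only [intervalIntegral.integral_const, smul_eq_mul, mul_one]
    linarith

/-- the Sobolev inequality in real form -/
theorem stamp_sob : ∃ S : ℝ, 0 ≤ S ∧ ∀ {Ω : Set E3} {u : E3 → ℝ} {G : E3 → E3}, H0 Ω u G →
    ∫ x, |u x| ^ 6 ≤ S * (∫ x, ‖G x‖ ^ 2) ^ 3 := by
  obtain ⟨Cs, h⟩ := exists_sobolev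
  refine ⟨(Cs : ℝ) ^ 6, by positivity, fun {Ω u G} hu => ?_⟩
  have h1 := h hu
  rw [hu.mu.eLpNorm_eq_integral_rpow_norm (by norm_num) (by norm_num),
    hu.mG.eLpNorm_eq_integral_rpow_norm (by norm_num) (by norm_num), ← ENNReal.ofReal_coe_nnreal,
    ← ENNReal.ofReal_mul (by positivity), ENNReal.ofReal_le_ofReal_iff (by positivity)] at h1
  have e6 : (6 : ℝ≥0∞).toReal = ((6 : ℕ) : ℝ) := by norm_num
  have e2 : (2 : ℝ≥0∞).toReal = ((2 : ℕ) : ℝ) := by norm_num
  simp only [e6, e2, Real.rpow_natCast, Real.norm_eq_abs] at h1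
  have h2 := pow_le_pow_left₀ (by positivity) h1 6
  rwa [Real.rpow_inv_natCast_pow (by positivity) (by norm_num), mul_pow,
    show (6 : ℕ) = 2 * 3 from rfl, pow_mul (_ ^ _ : ℝ) 2 3, Real.rpow_inv_natCast_pow (by positivity) (by norm_num)]
    at h2

theorem stamp_alg {c M S V a I I₆ J : ℝ} (hc : 0 < c) (hM : 0 ≤ M) (hS : 0 ≤ S) (ha : 0 < a) (haV : a ≤ V)
    (hI : 0 ≤ I) (h6 : I₆ ≤ S * I ^ 3) (hJ : ∀ l, 0 < l → J ≤ M * (l * a + I₆ / l ^ 5))
    (h : c / 2 * I ≤ J + M ^ 2 / (2 * c) * a) :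
    I ≤ 4 / c * ((M * (1 + S * V ^ 2)) ^ 2 / c + M ^ 2 / (2 * c)) * a := by
  rcases hI.eq_or_lt with rfl | hI
  · positivity
  obtain ⟨X, hX, rfl⟩ : ∃ X : ℝ, 0 < X ∧ I = X ^ 2 := ⟨√I, Real.sqrt_pos.2 hI, (Real.sq_sqrt hI.le).symm⟩
  obtain ⟨r, hr, rfl⟩ : ∃ r : ℝ, 0 < r ∧ a = r ^ 2 := ⟨√a, Real.sqrt_pos.2 ha, (Real.sq_sqrt ha.le).symm⟩
  set K := M * (1 + S * V ^ 2) with hK
  have h1 : I₆ / (X / r) ^ 5 ≤ S * V ^ 2 * (X * r) := by
    calc I₆ / (X / r) ^ 5 ≤ S * (X ^ 2) ^ 3 / (X / r) ^ 5 := by gcongr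
      _ = S * (r ^ 2) ^ 2 * (X * r) := by field_simp
      _ ≤ _ := by gcongr
  have h2 : J ≤ K * (X * r) := by
    refine (hJ (X / r) (by positivity)).trans ?_
    have : X / r * r ^ 2 = X * r := by field_simp
    rw [this, hK, mul_assoc, add_mul, one_mul]
    gcongr
  have h3 : K * (X * r) ≤ c / 4 * X ^ 2 + K ^ 2 / c * r ^ 2 := by
    have : c / 4 * X ^ 2 + K ^ 2 / c * r ^ 2 - K * (X * r) = (c * X - 2 * K * r) ^ 2 / (4 * c) := by
      field_simp
      ring
    have h4 : 0 ≤ (c * X - 2 * K * r) ^ 2 / (4 * c) := by positivity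
    linarith
  have h5 : X ^ 2 = 4 / c * (c / 4 * X ^ 2) := by field_simp
  rw [h5, mul_assoc (4 / c)]
  exact mul_le_mul_of_nonneg_left (by linarith) (by positivity)

theorem stamp_le {R k : ℝ} {Ω : Set E3} {u : E3 → ℝ} {G : E3 → E3} (hΩ : Ω ⊆ Metric.ball 0 R) (hu : H0 Ω u G)
    (hk : 0 ≤ k) : volume {x | k < u x} ≤ volume (Metric.ball (0 : E3) R) := by
  refine measure_mono_ae ?_
  filter_upwards [hu.zero_off] with x hx hx'
  by_contra hn
  have : k < u x := hx'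
  rw [(hx fun h => hn (hΩ h)).1] at this
  exact this.not_ge hk

theorem stamp_step {c : ℝ} (hc : 0 < c) (R M : ℝ) : ∃ C₂ : ℝ, 0 ≤ C₂ ∧ ∀ {C : ℝ} {Ω : Set E3} {γ u f : E3 → ℝ}
    {G F : E3 → E3}, Ω ⊆ Metric.ball 0 R → Ell c C γ → H0 Ω u G →
    WD Ω (fun x => γ x • G x + F x) f → Bd (Metric.ball 0 R) M f → MemLp F 2 volume →
    (∀ x, ‖F x‖ ≤ M) → Measurable u → ∀ k ε : ℝ, 0 ≤ k → 0 < ε →
      ε ^ 6 * volume.real {x | k + 2 * ε < u x} ≤ C₂ * volume.real {x | k < u x} ^ 3 := by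
  obtain ⟨S, hS, hsob⟩ := stamp_sob
  set V := volume.real (Metric.ball (0 : E3) R) with hV
  set C₁ := 4 / c * ((M * (1 + S * V ^ 2)) ^ 2 / c + M ^ 2 / (2 * c)) with hC₁
  refine ⟨S * C₁ ^ 3, by positivity, fun {C Ω γ u f G F} hΩ hγ hu hw hf hF hM hum k ε hk hε => ?_⟩
  have hM0 : 0 ≤ M := (norm_nonneg _).trans (hM 0)
  have hB : volume (Metric.ball (0 : E3) R) ≠ ⊤ := measure_ball_lt_top.ne
  set A := {x | k < u x} with hA
  have hAm : MeasurableSet A := measurableSet_lt measurable_const hum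
  have hAf : volume A ≠ ⊤ := ne_top_of_le_ne_top hB (stamp_le hΩ hu hk)
  have hAV : volume.real A ≤ V := ENNReal.toReal_mono hB (stamp_le hΩ hu hk)
  rcases (measureReal_nonneg (μ := volume) (s := A)).eq_or_lt with ha | ha
  · have : volume.real {x | k + 2 * ε < u x} ≤ volume.real A :=
      measureReal_mono (fun x hx => show k < u x by linarith [show k + 2 * ε < u x from hx]) hAf
    rw [← ha] at this ⊢
    simpa using mul_nonpos_of_nonneg_of_nonpos (pow_nonneg hε.le 6) this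
  obtain ⟨g, hg, hg1, hg0, hgp, hge⟩ := stamp_trunc k hε
  have hW := hu.comp hg (hg0 0 hk).1 (L := 1) fun s => abs_le.2 ⟨by linarith [(hg1 s).1], (hg1 s).2⟩
  have hJ : MemLp (fun x => γ x • G x + F x) 2 volume := (hγ.memLp_smul hu.mG).add hF
  have he := hw.ext hJ ⟨R, M, hf⟩ hW
  have i2 : Integrable (fun x => ‖deriv g (u x) • G x‖ ^ 2) volume := hW.mG.integrable_norm_pow two_ne_zero
  have i6 : Integrable (fun x => |g (u x)| ^ 6) volume := hW.mu.integrable_norm_pow (p := 6) (by norm_num)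
  have iA : ∀ l : ℝ, Integrable (A.indicator fun _ => l) volume := fun l =>
    (integrableOn_const hAf).integrable_indicator hAm
  have eA : ∀ l : ℝ, ∫ x, A.indicator (fun _ => l) x = l * volume.real A := fun l => by
    rw [integral_indicator_const _ hAm, smul_eq_mul, mul_comm]
  have iJ : Integrable (fun x => ⟪γ x • G x + F x, deriv g (u x) • G x⟫) volume :=
    (hJ.norm.integrable_mul hW.mG.norm).mono' (hJ.1.inner hW.mG.1)
      (Eventually.of_forall fun x => norm_inner_le_norm _ _)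
  have hI : ∫ x, ‖deriv g (u x) • G x‖ ^ 2 ≤ C₁ * volume.real A := by
    refine stamp_alg (J := ∫ x, f x * g (u x)) hc hM0 hS ha hAV (integral_nonneg fun x => by positivity) (hsob hW)
      (fun l hl => ?_) ?_
    · refine (le_abs_self _).trans (abs_integral_le_integral_abs.trans ?_)
      rw [← eA, ← integral_div, ← integral_add (iA l) (i6.div_const _), ← integral_const_mul]
      refine integral_mono_of_nonneg (Eventually.of_forall fun x => abs_nonneg _)
        (((iA l).add (i6.div_const _)).const_mul M) (Eventually.of_forall fun x => ?_)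
      dsimp only
      rw [abs_mul]
      refine mul_le_mul (hf.bdd x) ?_ (abs_nonneg _) hM0
      by_cases hx : x ∈ A
      · rw [indicator_of_mem hx]
        rcases le_total |g (u x)| l with h | h
        · exact le_add_of_le_of_nonneg h (by positivity)
        · refine le_add_of_nonneg_of_le hl.le ?_
          rw [le_div_iff₀ (by positivity), pow_succ' |g (u x)| 5]
          gcongr
      · rw [(hg0 _ (not_lt.1 hx)).1, indicator_of_notMem hx]
        simp
    · rw [← he, ← eA, ← integral_add iJ (iA _), ← integral_const_mul]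
      refine integral_mono (i2.const_mul _) (iJ.add (iA _)) fun x => ?_
      dsimp only
      by_cases hx : x ∈ A
      · rw [indicator_of_mem hx, inner_add_left]
        obtain ⟨d0, d1⟩ := hg1 (u x)
        have k1 : c * ‖deriv g (u x) • G x‖ ^ 2 ≤ ⟪γ x • G x, deriv g (u x) • G x⟫ := by
          rw [real_inner_smul_left, real_inner_smul_right, real_inner_self_eq_norm_sq, norm_smul, mul_pow,
            Real.norm_eq_abs, sq_abs]
          refine mul_le_mul (hγ.le x) (mul_le_mul_of_nonneg_right (by nlinarith) (sq_nonneg _)) (by positivity)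
            (hc.le.trans (hγ.le x))
        have k2 : |⟪F x, deriv g (u x) • G x⟫| ≤ M * ‖deriv g (u x) • G x‖ :=
          (abs_real_inner_le_norm _ _).trans (mul_le_mul_of_nonneg_right (hM x) (norm_nonneg _))
        generalize ‖deriv g (u x) • G x‖ = Y at k1 k2 ⊢
        have k3 : c / 2 * Y ^ 2 + M ^ 2 / (2 * c) - M * Y = (c * Y - M) ^ 2 / (2 * c) := by
          field_simp
          ring
        have k4 : 0 ≤ (c * Y - M) ^ 2 / (2 * c) := by positivity
        linarith [(abs_le.1 k2).1]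
      · rw [(hg0 _ (not_lt.1 hx)).2, indicator_of_notMem hx]
        simp
  have hA' : MeasurableSet {x | k + 2 * ε < u x} := measurableSet_lt measurable_const hum
  calc _ = ∫ x, {x | k + 2 * ε < u x}.indicator (fun _ => ε ^ 6) x := by
        rw [integral_indicator_const _ hA', smul_eq_mul, mul_comm]
    _ ≤ ∫ x, |g (u x)| ^ 6 := by
        refine integral_mono_of_nonneg (Eventually.of_forall fun x => indicator_nonneg (fun _ _ => by positivity) x)
          i6 (Eventually.of_forall fun x => ?_)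
        exact indicator_apply_le' (fun hx => pow_le_pow_left₀ hε.le
          ((hge _ (le_of_lt hx)).trans (le_abs_self _)) 6) fun _ => by positivity
    _ ≤ S * (C₁ * volume.real A) ^ 3 := (hsob hW).trans (by
        have : 0 ≤ ∫ x, ‖deriv g (u x) • G x‖ ^ 2 := integral_nonneg fun x => by positivity
        gcongr)
    _ = _ := by ring

theorem stamp_up {c : ℝ} (hc : 0 < c) (R M : ℝ) : ∃ N : ℝ, ∀ {C : ℝ} {Ω : Set E3} {γ u f : E3 → ℝ}
    {G F : E3 → E3}, Ω ⊆ Metric.ball 0 R → Ell c C γ → H0 Ω u G →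
    WD Ω (fun x => γ x • G x + F x) f → Bd (Metric.ball 0 R) M f → MemLp F 2 volume →
    (∀ x, ‖F x‖ ≤ M) → ∀ᵐ x, u x ≤ N := by
  obtain ⟨C₂, hC₂, h⟩ := stamp_step hc R M
  set V := volume.real (Metric.ball (0 : E3) R) with hV
  have hV0 : 0 ≤ V := measureReal_nonneg
  set d := 8 * C₂ * V ^ 2 + 1 with hd
  have hd1 : 1 ≤ d := le_add_of_nonneg_left (by positivity)
  have hd6 : 8 * C₂ * V ^ 2 ≤ d ^ 6 := by linarith [le_self_pow₀ hd1 (n := 6) (by norm_num)]
  refine ⟨4 * d, fun {C Ω γ u f G F} hΩ hγ hu hw hf hF hM => ?_⟩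
  have hu' := hu.congr hu.mu.1.ae_eq_mk EventuallyEq.rfl
  have hm : Measurable (hu.mu.1.mk u) := hu.mu.1.measurable_mk
  suffices hs : ∀ᵐ x, hu.mu.1.mk u x ≤ 4 * d by
    filter_upwards [hs, hu.mu.1.ae_eq_mk] with x h1 h2 using h2 ▸ h1
  generalize hu.mu.1.mk u = w at hu' hm
  have hB : volume (Metric.ball (0 : E3) R) ≠ ⊤ := measure_ball_lt_top.ne
  have hk : ∀ n : ℕ, 0 ≤ 4 * d * (1 - (1 / 2) ^ n) := fun n =>
    mul_nonneg (by linarith) (sub_nonneg.2 (pow_le_one₀ (by norm_num) (by norm_num)))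
  have key : ∀ n : ℕ, volume.real {x | 4 * d * (1 - (1 / 2) ^ n) < w x} ≤ V * (1 / 8) ^ n := fun n => by
    induction n with
    | zero =>
      rw [pow_zero (1 / 8 : ℝ), mul_one]
      exact ENNReal.toReal_mono hB (stamp_le hΩ hu' (hk 0))
    | succ n ih =>
      have h1 := h hΩ hγ hu' hw hf hF hM hm _ (d * (1 / 2) ^ n) (hk n) (by positivity)
      rw [show 4 * d * (1 - (1 / 2) ^ n) + 2 * (d * (1 / 2) ^ n) = 4 * d * (1 - (1 / 2) ^ (n + 1)) by ring] at h1
      refine le_of_mul_le_mul_left (h1.trans ?_) (show 0 < (d * (1 / 2) ^ n) ^ 6 by positivity)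
      have e8 : ((1 / 8 : ℝ)) ^ n = ((1 / 2) ^ n) ^ 3 := by rw [← pow_mul, mul_comm, pow_mul]; norm_num
      calc _ ≤ C₂ * (V * (1 / 8) ^ n) ^ 3 := by
            have : 0 ≤ volume.real {x | 4 * d * (1 - (1 / 2) ^ n) < w x} := measureReal_nonneg
            gcongr
        _ = 8 * C₂ * V ^ 2 * (((1 / 2) ^ n) ^ 6 * (V * (1 / 8) ^ (n + 1))) := by
            rw [pow_succ (1 / 8 : ℝ), e8]; ring
        _ ≤ d ^ 6 * (((1 / 2) ^ n) ^ 6 * (V * (1 / 8) ^ (n + 1))) := by gcongr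
        _ = _ := by ring
  have h0 : volume.real {x | 4 * d < w x} ≤ 0 := by
    have ht : Tendsto (fun n : ℕ => V * (1 / 8 : ℝ) ^ n) atTop (𝓝 (V * 0)) :=
      (tendsto_pow_atTop_nhds_zero_of_lt_one (by norm_num) (by norm_num)).const_mul V
    rw [mul_zero] at ht
    refine ge_of_tendsto' ht fun n => le_trans (measureReal_mono (fun x hx => ?_)
      (ne_top_of_le_ne_top hB (stamp_le hΩ hu' (hk n)))) (key n)
    have : 0 ≤ 4 * d * (1 / 2) ^ n := by positivity
    simp only [mem_setOf_eq] at hx ⊢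
    linarith
  have h1 := (measureReal_eq_zero_iff (ne_top_of_le_ne_top hB (stamp_le hΩ hu' (by linarith)))).1
    (le_antisymm h0 measureReal_nonneg)
  rw [ae_iff]
  simpa only [not_le] using h1

/-- **Stampacchia.**  `A k = {u > k}` (`k ≥ 0`) lies in the ball a.e.  Test with `g (u)`,
`g s = √((max (s - k) 0)² + ε²) - ε` (`C¹`, `0 ≤ g' ≤ 1`, `g ≥ s - k - ε`, `g = g' = 0` on `s ≤ k`): with
`X² = ∫ g'(u) ‖G‖² ≥ ‖∇ g(u)‖²`, `c X² ≤ M |A k| ^ (5/6) Cs X + M |A k| ^ (1/2) X`, so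
`(h - k) |A h| ^ (1/6) ≤ C₁ |A k| ^ (1/2)` for `h > k`.  With `k n = d (1 - 2 ^ (-n))` and `d` large,
`|A (k n)| ≤ |ball| 8 ^ (-n)` by induction.  Apply the result to `-u` as well. -/
theorem stampacchia {c : ℝ} (hc : 0 < c) (R M : ℝ) : ∃ N : ℝ, ∀ {C : ℝ} {Ω : Set E3} {γ u f : E3 → ℝ}
    {G F : E3 → E3}, Ω ⊆ Metric.ball 0 R → Ell c C γ → H0 Ω u G →
    WD Ω (fun x => γ x • G x + F x) f → Bd (Metric.ball 0 R) M f → MemLp F 2 volume →
    (∀ x, ‖F x‖ ≤ M) → ∀ᵐ x, |u x| ≤ N := by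
  obtain ⟨N, h⟩ := stamp_up hc R M
  refine ⟨N, fun {C Ω γ u f G F} hΩ hγ hu hw hf hF hM => ?_⟩
  have h1 := h hΩ hγ hu hw hf hF hM
  have h2 := h (f := fun x => -1 * f x) (F := fun x => (-1 : ℝ) • F x) hΩ hγ (hu.smul (-1))
    ((hw.smul (-1)).congr (Eventually.of_forall fun x _ => by rw [smul_add, smul_comm])
      (Eventually.of_forall fun x _ => rfl))
    ⟨hf.meas.const_mul _, fun x => by simpa using hf.bdd x, fun x hx => by rw [hf.off x hx, mul_zero]⟩
    (hF.const_smul (-1 : ℝ)) fun x => by simpa using hM x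
  filter_upwards [h1, h2] with x h1 h2 using abs_le.2 ⟨by linarith, h1⟩

end Crest.Agent.R83
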