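import Crest.Prelude.Def_Conductivity
import Crest.Agent.R83.Stamp
import Crest.Agent.R83.Solve
import Crest.Agent.R83.LocA

/-!
# R83 TASK Comp: competitors versus weak solutions
-/

set_option autoImplicit false

namespace Crest.Agent.R83

open MeasureTheory Set Filter Topology
open scoped Gradient RealInnerProductSpace ENNReal NNReal ContDiff

open Crest.AnalysisR.PDE.Calderon


variable {c C : ℝ} {γ φ h : E3 → ℝ} {G : E3 → E3}

theorem comp_cont_grad (hφ : ContDiff ℝ 1 φ) : Continuous (∇ φ) :=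
  continuousOn_univ.1 (continuousOn_grad isOpen_univ hφ.contDiffOn)

theorem comp_bdd {V : Type} [NormedAddCommGroup V] {F : E3 → V} (hF : Continuous F) :
    ∃ M : ℝ, 0 ≤ M ∧ ∀ x ∈ Metric.closedBall (0 : E3) 3, ‖F x‖ ≤ M := by
  obtain ⟨M, hM⟩ := (isCompact_closedBall (0 : E3) 3).exists_bound_of_continuousOn hF.continuousOn
  exact ⟨M, (norm_nonneg _).trans (hM 0 (by simp)), hM⟩

theorem comp_memLp {V : Type} [NormedAddCommGroup V] [SecondCountableTopology V] {F : E3 → V}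
    (hF : Continuous F) (p : ℝ≥0∞) : MemLp F p (volume.restrict (Metric.ball (0 : E3) 3)) := by
  obtain ⟨M, -, hM⟩ := comp_bdd hF
  have : IsFiniteMeasure (volume.restrict (Metric.ball (0 : E3) 3)) :=
    isFiniteMeasure_restrict.2 measure_ball_lt_top.ne
  exact MemLp.of_bound hF.aestronglyMeasurable M
    ((ae_restrict_mem measurableSet_ball).mono fun x hx => hM x (Metric.ball_subset_closedBall hx))

theorem comp_lip {ψ : E3 → ℝ} (hψ : ContDiff ℝ 1 ψ) (h0 : ∀ x : E3, ‖x‖ = 3 → ψ x = 0) {L : ℝ}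
    (hL : ∀ x ∈ Metric.closedBall (0 : E3) 3, ‖∇ ψ x‖ ≤ L) {x : E3} (hx : ‖x‖ < 3) : |ψ x| ≤ L * (3 - ‖x‖) := by
  obtain ⟨y, hy, hxy⟩ : ∃ y : E3, ‖y‖ = 3 ∧ ‖x - y‖ = 3 - ‖x‖ := by
    by_cases h : x = 0
    · exact ⟨(3 : ℝ) • e 0, by simp [norm_smul], by simp [h, norm_smul]⟩
    · have h1 : 0 < ‖x‖ := norm_pos_iff.2 h
      refine ⟨(3 / ‖x‖) • x, by rw [norm_smul, Real.norm_of_nonneg (by positivity)]; field_simp, ?_⟩
      have h2 : 1 ≤ 3 / ‖x‖ := (one_le_div h1).2 hx.le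
      rw [norm_sub_rev, show (3 / ‖x‖) • x - x = (3 / ‖x‖ - 1) • x by rw [sub_smul, one_smul], norm_smul,
        Real.norm_of_nonneg (by linarith)]
      field_simp
  have := (convex_closedBall (0 : E3) 3).norm_image_sub_le_of_norm_fderiv_le (𝕜 := ℝ) (f := ψ)
    (fun z _ => hψ.differentiable one_ne_zero z) (fun z hz => norm_grad ψ z ▸ hL z hz)
    (x := y) (y := x) (by simp [hy]) (by simpa using hx.le)
  rwa [h0 y hy, sub_zero, hxy, Real.norm_eq_abs] at this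

theorem comp_cut {ε : ℝ} (hε : 0 < ε) :
    Test (Metric.ball 0 3) fun y : E3 => Real.smoothTransition ((9 / ε - 1) + (-ε⁻¹) * ‖y‖ ^ 2) := by
  have hs : tsupport (fun y : E3 => Real.smoothTransition ((9 / ε - 1) + (-ε⁻¹) * ‖y‖ ^ 2)) ⊆
      {y : E3 | ‖y‖ ^ 2 ≤ 9 - ε} := by
    refine closure_minimal (fun y hy => ?_) (isClosed_le (by fun_prop) continuous_const)
    have h1 := not_le.1 (mt Real.smoothTransition.zero_of_nonpos hy)
    have h2 : (9 / ε - 1) + (-ε⁻¹) * ‖y‖ ^ 2 = (9 - ε - ‖y‖ ^ 2) / ε := by field_simp; ring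
    rw [h2, div_pos_iff_of_pos_right hε] at h1
    exact (sub_pos.1 h1).le
  have hb : {y : E3 | ‖y‖ ^ 2 ≤ 9 - ε} ⊆ Metric.ball 0 3 := fun y hy => by
    rw [mem_ball_zero_iff]
    have : ‖y‖ ^ 2 ≤ 9 - ε := hy
    nlinarith [norm_nonneg y]
  exact ⟨Real.smoothTransition.contDiff.comp (contDiff_const.add (contDiff_const.mul (contDiff_norm_sq ℝ))),
    (isCompact_closedBall (0 : E3) 3).of_isClosed_subset (isClosed_tsupport _)
      (hs.trans (hb.trans Metric.ball_subset_closedBall)), hs.trans hb⟩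

theorem comp_cut_grad (a b : ℝ) (x : E3) :
    ∇ (fun y : E3 => Real.smoothTransition (a + b * ‖y‖ ^ 2)) x =
      deriv Real.smoothTransition (a + b * ‖x‖ ^ 2) • b • (2 : ℝ) • x := by
  have h1 : DifferentiableAt ℝ (fun y : E3 => ‖y‖ ^ 2) x :=
    (contDiff_norm_sq ℝ (n := 1)).differentiable one_ne_zero x
  rw [grad_comp (f := fun y : E3 => a + b * ‖y‖ ^ 2)
    ((Real.smoothTransition.contDiff (n := 1)).differentiable one_ne_zero _).hasDerivAt
    ((h1.const_mul b).const_add a), grad_const_add, grad_const_mul _ h1, grad_norm_sq]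

theorem comp_small (M : ℝ) {p : ℝ≥0∞} (hp : 0 < p.toReal) :
    Tendsto (fun n : ℕ => eLpNorm ({x : E3 | ‖x‖ < 3 ∧ 9 - ‖x‖ ^ 2 ≤ 2 * (1 / ((n : ℝ) + 1))}.indicator
      fun _ => M) p volume) atTop (𝓝 0) := by
  have h1 := tendsto_measure_iInter_atTop (μ := (volume : Measure E3))
    (s := fun n : ℕ => {x : E3 | ‖x‖ < 3 ∧ 9 - ‖x‖ ^ 2 ≤ 2 * (1 / ((n : ℝ) + 1))})
    (fun n => MeasurableSet.nullMeasurableSet (by measurability))
    (fun n m hnm x hx => ⟨hx.1, hx.2.trans (by gcongr)⟩)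
    ⟨0, ((measure_mono fun x hx => mem_ball_zero_iff.2 hx.1).trans_lt measure_ball_lt_top).ne⟩
  have h2 : ⋂ n : ℕ, {x : E3 | ‖x‖ < 3 ∧ 9 - ‖x‖ ^ 2 ≤ 2 * (1 / ((n : ℝ) + 1))} = ∅ := by
    refine eq_empty_of_forall_notMem fun x hx => ?_
    rw [mem_iInter] at hx
    have h3 : 0 < (9 - ‖x‖ ^ 2) / 2 := by nlinarith [(hx 0).1, norm_nonneg x]
    obtain ⟨n, hn⟩ := exists_nat_one_div_lt h3
    linarith [(hx n).2]
  rw [h2, measure_empty] at h1
  have h3 := ENNReal.Tendsto.const_mul (a := ‖M‖ₑ) (h1.ennrpow_const (1 / p.toReal)) (Or.inr enorm_ne_top)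
  rw [ENNReal.zero_rpow_of_pos (by positivity), mul_zero] at h3
  exact tendsto_of_tendsto_of_tendsto_of_le_of_le tendsto_const_nhds h3 (fun _ => zero_le)
    fun n => eLpNorm_indicator_const_le _ _

/-- Multiply by `ζ ((3 - ‖x‖) / ε)`-like cut-offs `χ (x / (1 - ε))`: `|ψ x| ≤ L (3 - ‖x‖)` on the ball, so
`ψ ∇(cut-off)` is bounded and supported in a layer of small measure. -/
theorem h0_of_sphere {ψ : E3 → ℝ} (hψ : ContDiff ℝ 1 ψ) (h0 : ∀ x : E3, ‖x‖ = 3 → ψ x = 0) :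
    H0 (Metric.ball 0 3) ((Metric.ball (0 : E3) 3).indicator ψ) ((Metric.ball (0 : E3) 3).indicator (∇ ψ)) := by
  refine ⟨(memLp_indicator_iff_restrict measurableSet_ball).2 (comp_memLp hψ.continuous _),
    (memLp_indicator_iff_restrict measurableSet_ball).2 (comp_memLp (comp_cont_grad hψ) _), fun η hη => ?_⟩
  obtain ⟨L, hL0, hL⟩ := comp_bdd (comp_cont_grad hψ)
  obtain ⟨L', hL'⟩ := (isCompact_Icc (a := (-1 : ℝ)) (b := 1)).exists_bound_of_continuousOn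
    ((Real.smoothTransition.contDiff (n := 1)).continuous_deriv le_rfl).continuousOn
  have hL0' : 0 ≤ L' := (norm_nonneg _).trans (hL' 0 (by simp))
  obtain ⟨n, h6, h2⟩ := (((comp_small (3 * L + 4 * L * L') (p := 6) (by simp)).eventually (ge_mem_nhds hη)).and
    ((comp_small (3 * L + 4 * L * L') (p := 2) (by simp)).eventually (ge_mem_nhds hη))).exists
  obtain ⟨ε, hε'⟩ : ∃ ε : ℝ, ε = 1 / ((n : ℝ) + 1) := ⟨_, rfl⟩
  have hε : 0 < ε := by rw [hε']; positivity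
  rw [← hε'] at h6 h2
  have hT := (comp_cut hε).mul Metric.isOpen_ball hψ.contDiffOn
  have key : ∀ x : E3, ‖(Metric.ball (0 : E3) 3).indicator ψ x -
      Real.smoothTransition ((9 / ε - 1) + (-ε⁻¹) * ‖x‖ ^ 2) * ψ x‖ ≤
      ‖{x : E3 | ‖x‖ < 3 ∧ 9 - ‖x‖ ^ 2 ≤ 2 * ε}.indicator (fun _ => 3 * L + 4 * L * L') x‖ ∧
      ‖(Metric.ball (0 : E3) 3).indicator (∇ ψ) x -
        ∇ (fun y => Real.smoothTransition ((9 / ε - 1) + (-ε⁻¹) * ‖y‖ ^ 2) * ψ y) x‖ ≤
      ‖{x : E3 | ‖x‖ < 3 ∧ 9 - ‖x‖ ^ 2 ≤ 2 * ε}.indicator (fun _ => 3 * L + 4 * L * L') x‖ := by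
    intro x
    by_cases hx : x ∈ Metric.ball (0 : E3) 3
    swap
    · rw [indicator_of_notMem hx, indicator_of_notMem hx, (hT.eq_zero hx).1, (hT.eq_zero hx).2]
      simp
    rw [indicator_of_mem hx, indicator_of_mem hx, grad_mul ((comp_cut hε).differentiable x)
      (hψ.differentiable one_ne_zero x), comp_cut_grad]
    have hx' := mem_ball_zero_iff.1 hx
    obtain ⟨s, hs⟩ : ∃ s, s = (9 / ε - 1) + (-ε⁻¹) * ‖x‖ ^ 2 := ⟨_, rfl⟩
    rw [← hs]
    have hs' : (s + 1) * ε = 9 - ‖x‖ ^ 2 := by rw [hs]; field_simp; ring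
    by_cases hA : 9 - ‖x‖ ^ 2 ≤ 2 * ε
    · rw [indicator_of_mem (show x ∈ {x : E3 | ‖x‖ < 3 ∧ 9 - ‖x‖ ^ 2 ≤ 2 * ε} from ⟨hx', hA⟩),
        Real.norm_of_nonneg (by positivity : 0 ≤ 3 * L + 4 * L * L')]
      have h1 := comp_lip hψ h0 hL hx'
      have h3 := hL x (Metric.ball_subset_closedBall hx)
      have h4 := hL' s ⟨by nlinarith [norm_nonneg x], by nlinarith⟩
      have z0 := Real.smoothTransition.nonneg s
      have z1 := Real.smoothTransition.le_one s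
      have hn := norm_nonneg x
      have hLL := mul_nonneg hL0 hL0'
      constructor
      · rw [← one_sub_mul, norm_mul, Real.norm_of_nonneg (by linarith), Real.norm_eq_abs]
        nlinarith [abs_nonneg (ψ x), mul_nonneg hL0 hn, mul_nonneg z0 (abs_nonneg (ψ x))]
      · rw [← sub_sub]
        refine (norm_sub_le _ _).trans (add_le_add ?_ ?_)
        · rw [show ∇ ψ x - Real.smoothTransition s • ∇ ψ x = (1 - Real.smoothTransition s) • ∇ ψ x by
            rw [sub_smul, one_smul], norm_smul, Real.norm_of_nonneg (by linarith)]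
          nlinarith [norm_nonneg (∇ ψ x), mul_nonneg z0 (norm_nonneg (∇ ψ x))]
        · rw [norm_smul, norm_smul, norm_smul, norm_smul, norm_neg, Real.norm_of_nonneg (inv_pos.2 hε).le,
            Real.norm_ofNat, Real.norm_eq_abs]
          have h5 : |ψ x| ≤ L * (2 * ε / 3) := h1.trans (mul_le_mul_of_nonneg_left (by nlinarith) hL0)
          calc _ ≤ L * (2 * ε / 3) * (L' * (ε⁻¹ * (2 * 3))) := by gcongr
            _ = _ := by field_simp; ring
    · have h1 : 1 < s := by nlinarith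
      have h3 : deriv Real.smoothTransition s = 0 := by
        rw [Filter.EventuallyEq.deriv_eq (f := fun _ => (1 : ℝ)) ((lt_mem_nhds h1).mono fun t ht =>
          Real.smoothTransition.one_of_one_le ht.le), deriv_const]
      rw [h3, Real.smoothTransition.one_of_one_le h1.le]
      simp
  exact ⟨_, hT, (eLpNorm_mono fun x => (key x).1).trans h6, (eLpNorm_mono fun x => (key x).2).trans h2⟩

theorem comp_abs (hγ : Ell c C γ) (x : E3) : |γ x| ≤ |c| + |C| :=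
  abs_le.2 ⟨by linarith [hγ.le x, neg_abs_le c, abs_nonneg C], by linarith [hγ.ge x, le_abs_self C, abs_nonneg c]⟩

theorem comp_smul (hγ : Ell c C γ) {μ : Measure E3} {A : E3 → E3} (hA : MemLp A 2 μ) :
    MemLp (fun x => γ x • A x) 2 μ :=
  hA.of_le_mul (c := |c| + |C|) (hγ.meas.aestronglyMeasurable.smul hA.1) (.of_forall fun x => by
    rw [norm_smul]
    exact mul_le_mul_of_nonneg_right (comp_abs hγ x) (norm_nonneg _))

theorem comp_int {μ : Measure E3} {A B : E3 → E3} (hA : MemLp A 2 μ) (hB : MemLp B 2 μ) :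
    Integrable (fun x => ⟪A x, B x⟫) μ :=
  (L2.integrable_inner (𝕜 := ℝ) hA.toLp hB.toLp).congr (by
    filter_upwards [hA.coeFn_toLp, hB.coeFn_toLp] with x h1 h2
    rw [h1, h2])

theorem comp_int_sq (hγ : Ell c C γ) {μ : Measure E3} {A : E3 → E3} (hA : MemLp A 2 μ) :
    Integrable (fun x => γ x * ‖A x‖ ^ 2) μ := by
  simpa only [real_inner_smul_left, real_inner_self_eq_norm_sq] using comp_int (comp_smul hγ hA) hA

theorem comp_E (hφ : ContDiff ℝ 1 φ) (hG : MemLp G 2 volume) :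
    MemLp (fun x => ∇ φ x + G x) 2 (volume.restrict (Metric.ball (0 : E3) 3)) :=
  (comp_memLp (comp_cont_grad hφ) 2).add (hG.restrict _)

theorem comp_orth (hγ : Ell c C γ) (hφ : ContDiff ℝ 1 φ) (hG : MemLp G 2 volume)
    (hw : WD (Metric.ball 0 3) (fun x => γ x • (∇ φ x + G x)) 0) {v : E3 → ℝ} {D : E3 → E3}
    (hv : H0 (Metric.ball 0 3) v D) : ∫ x in Metric.ball (0 : E3) 3, ⟪γ x • (∇ φ x + G x), D x⟫ = 0 := by
  have h := (hw.congr (J' := (Metric.ball (0 : E3) 3).indicator fun x => γ x • (∇ φ x + G x)) (g := 0)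
    (.of_forall fun x hx => by rw [indicator_of_mem hx]) (.of_forall fun _ _ => rfl)).ext
    ((memLp_indicator_iff_restrict measurableSet_ball).2 (comp_smul hγ (comp_E hφ hG))) Src.zero hv
  rw [← integral_indicator measurableSet_ball]
  simp only [Pi.zero_apply, zero_mul, integral_zero] at h
  rw [← h]
  congr 1
  ext x
  by_cases hx : x ∈ Metric.ball (0 : E3) 3
  · rw [indicator_of_mem hx, indicator_of_mem hx]
  · rw [indicator_of_notMem hx, indicator_of_notMem hx, inner_zero_left]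

/-- weak solutions minimise: expand the square, `WD.ext` with `h0_of_sphere (u - φ) - h` -/
theorem energy_le (hc : 0 < c) (hγ : Ell c C γ) (hφ : ContDiff ℝ 1 φ) (hh : H0 (Metric.ball 0 3) h G)
    (hw : WD (Metric.ball 0 3) (fun x => γ x • (∇ φ x + G x)) 0) {u : E3 → ℝ} (hu : IsCompetitor φ u) :
    ∫ x in Metric.ball (0 : E3) 3, γ x * ‖∇ φ x + G x‖ ^ 2 ≤ ballEnergy γ u := by
  have hH := (h0_of_sphere (hu.1.sub hφ) fun x hx => by rw [hu.2 x hx, sub_self]).sub hh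
  have h1 := comp_orth hγ hφ hh.mG hw hH
  have hE := comp_E hφ hh.mG
  have hI := comp_int (comp_smul hγ hE) (hH.mG.restrict (Metric.ball (0 : E3) 3))
  rw [← add_zero (∫ x in Metric.ball (0 : E3) 3, γ x * ‖∇ φ x + G x‖ ^ 2), ← mul_zero 2, ← h1,
    ← integral_const_mul, ← integral_add (comp_int_sq hγ hE) (hI.const_mul 2)]
  refine setIntegral_mono_on ((comp_int_sq hγ hE).add (hI.const_mul 2))
    (comp_int_sq hγ (comp_memLp (comp_cont_grad hu.1) 2)) measurableSet_ball fun x hx => ?_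
  rw [indicator_of_mem hx, grad_sub (hu.1.differentiable one_ne_zero x) (hφ.differentiable one_ne_zero x),
    real_inner_smul_left]
  have h2 : ∇ u x = (∇ φ x + G x) + (∇ u x - ∇ φ x - G x) := by abel
  conv_rhs => rw [h2, norm_add_sq_real]
  nlinarith [mul_nonneg (hc.le.trans (hγ.le x)) (sq_nonneg ‖∇ u x - ∇ φ x - G x‖)]

theorem comp_sq_le {D : E3 → E3} (hD : MemLp D 2 volume) {δ : ℝ} (hδ : 0 < δ)
    (h : eLpNorm D 2 volume ≤ ENNReal.ofReal δ) : ∫ x in Metric.ball (0 : E3) 3, ‖D x‖ ^ 2 ≤ δ ^ 2 := by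
  have h1 := (eLpNorm_mono_measure D (p := 2) (Measure.restrict_le_self (s := Metric.ball (0 : E3) 3))).trans h
  rw [(hD.restrict _).eLpNorm_eq_integral_rpow_norm two_ne_zero ENNReal.ofNat_ne_top,
    ENNReal.ofReal_le_ofReal_iff hδ.le] at h1
  simp only [ENNReal.toReal_ofNat, Real.rpow_ofNat] at h1
  have h2 : 0 ≤ ∫ x in Metric.ball (0 : E3) 3, ‖D x‖ ^ 2 := integral_nonneg fun _ => by positivity
  have h3 := pow_le_pow_left₀ (by positivity) h1 2
  rwa [← Real.rpow_natCast, ← Real.rpow_mul h2, show (2 : ℝ)⁻¹ * (2 : ℕ) = 1 by norm_num, Real.rpow_one] at h3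

/-- `w = φ + ψ` with `ψ` from `H0.apx` -/
theorem exists_competitor (hγ : Ell c C γ) (hφ : ContDiff ℝ 1 φ) (hh : H0 (Metric.ball 0 3) h G) {ε : ℝ}
    (hε : 0 < ε) : ∃ w, IsCompetitor φ w ∧
      ballEnergy γ w < (∫ x in Metric.ball (0 : E3) 3, γ x * ‖∇ φ x + G x‖ ^ 2) + ε := by
  have hE := comp_E hφ hh.mG
  have hE2 := (memLp_two_iff_integrable_sq_norm hE.1).1 hE
  obtain ⟨K, hK⟩ : ∃ K, K = |c| + |C| := ⟨_, rfl⟩
  have hK0 : 0 ≤ K := by rw [hK]; positivity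
  obtain ⟨I, hI⟩ : ∃ I, I = ∫ x in Metric.ball (0 : E3) 3, ‖∇ φ x + G x‖ ^ 2 := ⟨_, rfl⟩
  obtain ⟨δ, hδ, hδ'⟩ : ∃ δ : ℝ, 0 < δ ∧ K * δ * I + K * (δ + δ ^ 2) < ε := by
    have h1 : Tendsto (fun δ : ℝ => K * δ * I + K * (δ + δ ^ 2)) (𝓝[>] 0) (𝓝 0) :=
      tendsto_nhdsWithin_of_tendsto_nhds (Continuous.tendsto' (by fun_prop) _ _ (by simp))
    obtain ⟨δ, h2, h3⟩ := ((h1.eventually (gt_mem_nhds hε)).and self_mem_nhdsWithin).exists
    exact ⟨δ, h3, h2⟩
  obtain ⟨ψ, hψ, -, h2⟩ := hh.apx (ENNReal.ofReal δ) (by simpa using hδ)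
  have hD : MemLp (fun x => G x - ∇ ψ x) 2 volume := hh.mG.sub (hψ.memLp_grad 2)
  have hD2 := (memLp_two_iff_integrable_sq_norm (hD.restrict (Metric.ball (0 : E3) 3)).1).1 (hD.restrict _)
  have h3 := comp_sq_le hD hδ h2
  refine ⟨fun x => φ x + ψ x, ⟨hφ.add hψ.c1, fun x hx => by
    simp [(hψ.eq_zero (x := x) (by simp [hx])).1]⟩, ?_⟩
  have h4 : ballEnergy γ (fun x => φ x + ψ x) ≤ ∫ x in Metric.ball (0 : E3) 3, (γ x * ‖∇ φ x + G x‖ ^ 2 +
      (K * δ * ‖∇ φ x + G x‖ ^ 2 + K * (δ⁻¹ + 1) * ‖G x - ∇ ψ x‖ ^ 2)) := by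
    refine integral_mono (comp_int_sq hγ (comp_memLp (comp_cont_grad (hφ.add hψ.c1)) 2))
      ((comp_int_sq hγ hE).add ((hE2.const_mul _).add (hD2.const_mul _))) fun x => ?_
    beta_reduce
    rw [grad_add (hφ.differentiable one_ne_zero x) (hψ.differentiable x),
      show ∇ φ x + ∇ ψ x = (∇ φ x + G x) - (G x - ∇ ψ x) by abel, norm_sub_sq_real]
    generalize ∇ φ x + G x = A
    generalize G x - ∇ ψ x = B
    have h5 : |‖B‖ ^ 2 - 2 * ⟪A, B⟫| ≤ δ * ‖A‖ ^ 2 + (δ⁻¹ + 1) * ‖B‖ ^ 2 := by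
      have h6 : 2 * (‖A‖ * ‖B‖) ≤ δ * ‖A‖ ^ 2 + δ⁻¹ * ‖B‖ ^ 2 := by
        have : δ * ‖A‖ ^ 2 + δ⁻¹ * ‖B‖ ^ 2 - 2 * (‖A‖ * ‖B‖) = δ⁻¹ * (δ * ‖A‖ - ‖B‖) ^ 2 := by
          field_simp; ring
        have h7 : 0 ≤ δ⁻¹ * (δ * ‖A‖ - ‖B‖) ^ 2 := by positivity
        linarith
      have h8 := abs_le.1 (abs_real_inner_le_norm A B)
      exact abs_le.2 ⟨by nlinarith [sq_nonneg ‖B‖], by nlinarith⟩
    have h9 : γ x * (‖B‖ ^ 2 - 2 * ⟪A, B⟫) ≤ K * (δ * ‖A‖ ^ 2 + (δ⁻¹ + 1) * ‖B‖ ^ 2) :=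
      (le_abs_self _).trans (abs_mul (γ x) _ ▸ mul_le_mul (hK ▸ comp_abs hγ x) h5 (abs_nonneg _) hK0)
    nlinarith
  rw [integral_add (comp_int_sq hγ hE) (by exact (hE2.const_mul _).add (hD2.const_mul _)),
    integral_add (hE2.const_mul _) (hD2.const_mul _), integral_const_mul, integral_const_mul, ← hI] at h4
  have h5 : K * (δ⁻¹ + 1) * ∫ x in Metric.ball (0 : E3) 3, ‖G x - ∇ ψ x‖ ^ 2 ≤ K * (δ + δ ^ 2) :=
    (mul_le_mul_of_nonneg_left h3 (by positivity)).trans_eq (by field_simp)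
  linarith

/-- `WD.ext` with `h` -/
theorem energy_eq (hγ : Ell c C γ) (hφ : ContDiff ℝ 1 φ) (hh : H0 (Metric.ball 0 3) h G)
    (hw : WD (Metric.ball 0 3) (fun x => γ x • (∇ φ x + G x)) 0) :
    ∫ x in Metric.ball (0 : E3) 3, γ x * ‖∇ φ x + G x‖ ^ 2 =
      ∫ x in Metric.ball (0 : E3) 3, ⟪γ x • (∇ φ x + G x), ∇ φ x⟫ := by
  have hE := comp_smul hγ (comp_E hφ hh.mG)
  rw [← add_zero (∫ x in Metric.ball (0 : E3) 3, ⟪γ x • (∇ φ x + G x), ∇ φ x⟫), ← comp_orth hγ hφ hh.mG hw hh,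
    ← integral_add (comp_int hE (comp_memLp (comp_cont_grad hφ) 2)) (comp_int hE (hh.mG.restrict _))]
  congr 1
  ext x
  rw [← inner_add_right, real_inner_smul_left, real_inner_self_eq_norm_sq]

/-- `exists_sol` and `stampacchia` with `F = indicator (ball 0 3) (γ • ∇φ)` -/
theorem exists_dirichlet (hc : 0 < c) (hγ : Ell c C γ) (hφ : ContDiff ℝ 1 φ) :
    ∃ (h : E3 → ℝ) (G : E3 → E3) (N : ℝ), H0 (Metric.ball 0 3) h G ∧
      WD (Metric.ball 0 3) (fun x => γ x • (∇ φ x + G x)) 0 ∧ (∀ᵐ x, |h x| ≤ N) ∧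
      Loc (Metric.ball 0 3) (fun x => φ x + h x) (fun x => ∇ φ x + G x) (fun x => γ x • (∇ φ x + G x)) 0 := by
  have hF : MemLp ((Metric.ball (0 : E3) 3).indicator fun x => γ x • ∇ φ x) 2 volume :=
    (memLp_indicator_iff_restrict measurableSet_ball).2 (comp_smul hγ (comp_memLp (comp_cont_grad hφ) 2))
  obtain ⟨h, G, hh, hw⟩ := exists_sol hc hγ (Metric.ball 0 3) Src.zero hF
  obtain ⟨L, hL0, hL⟩ := comp_bdd (comp_cont_grad hφ)
  obtain ⟨N, hN⟩ := stampacchia hc 3 ((|c| + |C|) * L)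
  have hw' : WD (Metric.ball 0 3) (fun x => γ x • (∇ φ x + G x)) 0 :=
    hw.congr (.of_forall fun x hx => by rw [indicator_of_mem hx, smul_add, add_comm]) (.of_forall fun _ _ => rfl)
  refine ⟨h, G, N, hh, hw', hN Subset.rfl hγ hh hw ⟨measurable_const, fun x => by simp; positivity, fun _ _ => rfl⟩
    hF fun x => ?_, fun ψ hψ => ?_, fun ψ hψ => ?_, fun ψ _ => by simp, hw'⟩
  · by_cases hx : x ∈ Metric.ball (0 : E3) 3
    · rw [indicator_of_mem hx, norm_smul]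
      exact mul_le_mul (comp_abs hγ x) (hL x (Metric.ball_subset_closedBall hx)) (norm_nonneg _) (by positivity)
    · rw [indicator_of_notMem hx, norm_zero]
      positivity
  · refine ((hψ.mul Metric.isOpen_ball hφ.contDiffOn).h0.add (hh.mul_test hψ)).congr
      (.of_forall fun x => (mul_add _ _ _).symm) (.of_forall fun x => ?_)
    beta_reduce
    rw [grad_mul (hψ.differentiable x) (hφ.differentiable one_ne_zero x), smul_add, add_smul]
    abel
  · obtain ⟨M, -, hM⟩ := hψ.bdd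
    have hJ := (memLp_indicator_iff_restrict measurableSet_ball).2 (comp_smul hγ (comp_E hφ hh.mG))
    refine (hJ.of_le_mul (c := M) (hψ.c1.continuous.aestronglyMeasurable.smul hJ.1) (.of_forall fun x => by
      rw [Pi.smul_apply', norm_smul]
      exact mul_le_mul_of_nonneg_right (hM x).1 (norm_nonneg _))).ae_eq (.of_forall fun x => ?_)
    by_cases hx : x ∈ Metric.ball (0 : E3) 3
    · rw [Pi.smul_apply', indicator_of_mem hx]
    · simp [(hψ.eq_zero hx).1]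

end Crest.Agent.R83
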