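import Crest.Agent.R83.Comp
import Crest.Agent.R83.Chain

/-!
# R83 TASK Final: the transformation `γ ↦ w² γ`
-/

set_option autoImplicit false

namespace Crest.Agent.R83

open MeasureTheory Set Filter Topology
open scoped Gradient RealInnerProductSpace ENNReal NNReal ContDiff

open Crest.AnalysisR.PDE.Calderon

theorem final_int {F G : E3 → E3} (hF : MemLp F 2 volume) (hG : MemLp G 2 volume) :
    Integrable (fun x => ⟪F x, G x⟫) volume :=
  (hF.norm.integrable_mul hG.norm).mono' (hF.1.inner hG.1)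
    (Eventually.of_forall fun x => norm_inner_le_norm (𝕜 := ℝ) (F x) (G x))

theorem final_w {N ε : ℝ} {p : E3 → ℝ} (hN : ∀ x, |p x| ≤ N) (hε : 0 < ε) (hεN : ε * N ≤ 1 / 2) (x : E3) :
    1 / 2 ≤ 1 + ε * p x ∧ 1 + ε * p x ≤ 3 / 2 := by
  have h1 : |ε * p x| ≤ 1 / 2 := by
    rw [abs_mul, abs_of_pos hε]
    exact (mul_le_mul_of_nonneg_left (hN x) hε.le).trans hεN
  constructor <;> linarith [(abs_le.1 h1).1, (abs_le.1 h1).2]

theorem final_ell {c C N ε : ℝ} {γ p : E3 → ℝ} (hc : 0 < c) (hγ : Ell c C γ) (hm : Measurable p)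
    (hN : ∀ x, |p x| ≤ N) (hε : 0 < ε) (hεN : ε * N ≤ 1 / 2) :
    Ell (c / 4) (9 / 4 * C) fun x => (1 + ε * p x) ^ 2 * γ x := by
  refine ⟨((measurable_const.add (measurable_const.mul hm)).pow_const 2).mul hγ.meas, fun x => ?_,
    fun x => ?_⟩
  · obtain ⟨h3, h4⟩ := final_w hN hε hεN x
    have h1 := hγ.le x
    have h5 : 1 / 4 ≤ (1 + ε * p x) ^ 2 := by nlinarith
    nlinarith
  · obtain ⟨h3, h4⟩ := final_w hN hε hεN x
    have h1 := hγ.le x
    have h2 := hγ.ge x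
    have h6 : (1 + ε * p x) ^ 2 ≤ 9 / 4 := by nlinarith
    nlinarith

theorem final_a {N ε : ℝ} {p : E3 → ℝ} {Gp : E3 → E3} (hp : H0 El p Gp) (hN : ∀ x, |p x| ≤ N) (hε : 0 < ε)
    (hεN : ε * N ≤ 1 / 2) :
    H0 El (fun x => (1 + ε * p x)⁻¹ - 1) fun x => (-ε / (1 + ε * p x) ^ 2) • Gp x := by
  have hM : N < ε⁻¹ := by
    rw [← one_div, lt_div_iff₀ hε]
    linarith
  have hpos : ∀ s ∈ Ioo (-ε⁻¹) ε⁻¹, 1 + ε * s ≠ 0 := by
    intro s hs
    have h1 := mul_lt_mul_of_pos_left hs.1 hε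
    rw [mul_neg, mul_inv_cancel₀ hε.ne'] at h1
    linarith
  have hg : ContDiffOn ℝ 1 (fun s : ℝ => (1 + ε * s)⁻¹ - 1) (Ioo (-ε⁻¹) ε⁻¹) :=
    ((contDiffOn_const.add (contDiffOn_const.mul contDiffOn_id)).inv hpos).sub contDiffOn_const
  have h := hp.comp_bdd (Eventually.of_forall hN) hM hg (by simp)
  refine h.congr (Eventually.of_forall fun _ => rfl) (Eventually.of_forall fun x => ?_)
  have h0 : 1 + ε * p x ≠ 0 := by linarith [(final_w hN hε hεN x).1]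
  have hd : HasDerivAt (fun s : ℝ => (1 + ε * s)⁻¹ - 1) (-ε / (1 + ε * p x) ^ 2) (p x) := by
    have h1 : HasDerivAt (fun s : ℝ => 1 + ε * s) ε (p x) := by
      simpa using ((hasDerivAt_id (p x)).const_mul ε).const_add 1
    exact (h1.inv h0).sub_const 1
  simp only [hd.deriv]

theorem final_cut {χ f : E3 → ℝ} {K : Set E3} (hχ : ∀ᶠ x in 𝓝ˢ K, χ x = 1) {x : E3} (hx : x ∈ K) :
    χ x * f x = f x ∧ ∇ (fun y => χ y * f y) x = ∇ f x := by
  have h1 : ∀ᶠ y in 𝓝 x, χ y = 1 := hχ.filter_mono (nhds_le_nhdsSet hx)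
  have h2 : (fun y => χ y * f y) =ᶠ[𝓝 x] f := h1.mono fun y hy => by simp [hy]
  exact ⟨h2.eq_of_nhds, h2.gradient_eq⟩

theorem final_core {c C N ε : ℝ} {γ p : E3 → ℝ} {Gp : E3 → E3} (hc : 0 < c) (hγ : Ell c C γ)
    (hp : H0 El p Gp) (hm : Measurable p) (hN : ∀ x, |p x| ≤ N) (hε : 0 < ε) (hεN : ε * N ≤ 1 / 2)
    (hk : ∀ (u : E3 → ℝ) (G : E3 → E3) (N' : ℝ), Loc (Metric.ball 0 3) u G (fun x => γ x • G x) 0 →
      (∀ᵐ x, x ∈ Metric.ball (0 : E3) 3 → |u x| ≤ N') → ∃ k : ℝ, ∀ ψ, Test (Metric.ball 0 3) ψ →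
        ∫ x, ⟪γ x • Gp x, ψ x • G x + (u x - k) • ∇ ψ x⟫ = 0) {φ : E3 → ℝ} (hφ : Test univ φ) :
    ∃ (h h' : E3 → ℝ) (G G' : E3 → E3), H0 (Metric.ball 0 3) h G ∧
      WD (Metric.ball 0 3) (fun x => γ x • (∇ φ x + G x)) 0 ∧ H0 (Metric.ball 0 3) h' G' ∧
      WD (Metric.ball 0 3) (fun x => ((1 + ε * p x) ^ 2 * γ x) • (∇ φ x + G' x)) 0 ∧
      ∫ x in Metric.ball (0 : E3) 3, ((1 + ε * p x) ^ 2 * γ x) * ‖∇ φ x + G' x‖ ^ 2 =
        ∫ x in Metric.ball (0 : E3) 3, γ x * ‖∇ φ x + G x‖ ^ 2 := by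
  have hγ' := final_ell hc hγ hm hN hε hεN
  obtain ⟨h, G, N', hh, hw, hb, hloc⟩ := exists_dirichlet hc hγ hφ.c1
  obtain ⟨M, hM0, hM⟩ := hφ.bdd
  obtain ⟨k, hk⟩ := hk _ _ (M + N') hloc (by
    filter_upwards [hb] with x hx _
    exact (abs_add_le _ _).trans (add_le_add (hM x).1 hx))
  have hB : IsOpen (Metric.ball (0 : E3) 3) := Metric.isOpen_ball
  have hKB : {x : E3 | Q x ≤ 1} ⊆ Metric.ball 0 3 := by
    intro x hx
    have h1 := norm_sq_le_Q x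
    have h2 : Q x ≤ 1 := hx
    rw [mem_ball_zero_iff]
    nlinarith [norm_nonneg x]
  have hEK : El ⊆ {x : E3 | Q x ≤ 1} := fun x (hx : Q x < 1) => (hx.le : Q x ≤ 1)
  obtain ⟨χ, -, hχ, -, hχ1⟩ := exists_cutoff (isCompact_Q_le 1) hB hKB
  have ha := final_a hp hN hε hεN
  set a : E3 → ℝ := fun x => (1 + ε * p x)⁻¹ - 1 with hadef
  set Ga : E3 → E3 := fun x => (-ε / (1 + ε * p x) ^ 2) • Gp x with hGadef
  have hab : ∀ x, |a x| ≤ 1 := by
    intro x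
    obtain ⟨h3, h4⟩ := final_w hN hε hεN x
    have h5 : (1 + ε * p x)⁻¹ ≤ 2 := by
      rw [inv_le_comm₀ (by linarith) (by norm_num)]
      linarith
    have h6 : 0 < (1 + ε * p x)⁻¹ := inv_pos.2 (by linarith)
    rw [abs_le]
    simp only [hadef]
    constructor <;> linarith
  have hψ0 : Test (Metric.ball 0 3) fun x => χ x * (φ x - k) :=
    Test.mul hB hχ (hφ.c1.sub contDiff_const).contDiffOn
  have hψ1 : Test (Metric.ball 0 3) fun x => χ x * φ x := Test.mul hB hχ hφ.c1.contDiffOn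
  have h1 := ha.mul_test hψ0
  have h2 := hh.mul_bdd (ha.mono (hEK.trans hKB)) (M := max N' 1)
    (hb.mono fun x hx => hx.trans (le_max_left _ _))
    (Eventually.of_forall fun x => (hab x).trans (le_max_right _ _))
  set G' : E3 → E3 := fun x => G x + a x • (∇ φ x + G x) + (φ x + h x - k) • Ga x with hG'
  have hh' := ((hh.add h1).add h2).congr (G' := G') (Eventually.of_forall fun _ => rfl) (by
    filter_upwards [ha.zero_off] with x hx
    by_cases hxE : x ∈ El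
    · obtain ⟨h3, h4⟩ := final_cut (f := fun y => φ y - k) hχ1 (hEK hxE)
      have h5 : ∇ (fun y => φ y - k) x = ∇ φ x := by
        simp only [sub_eq_neg_add]
        exact grad_const_add _ _ _
      simp only [hG', h3, h4, h5]
      module
    · simp only [hG', (hx hxE).1, (hx hxE).2, smul_zero, zero_smul, add_zero])
  set D : E3 → E3 := fun x => γ x • (p x • (∇ φ x + G x) - (φ x + h x - k) • Gp x) with hD
  have hflux : ∀ x, ((1 + ε * p x) ^ 2 * γ x) • (∇ φ x + G' x) = γ x • (∇ φ x + G x) + ε • D x := by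
    intro x
    have h0 : 1 + ε * p x ≠ 0 := by linarith [(final_w hN hε hεN x).1]
    simp only [hG', hD, hadef, hGadef]
    match_scalars <;> field_simp <;> ring
  have hGu : MemLp (fun x => ∇ φ x + G x) 2 volume := (hφ.memLp_grad 2).add hh.mG
  have hJ : MemLp (fun x => γ x • (∇ φ x + G x)) 2 volume := hγ.memLp_smul hGu
  have hDψ : ∀ ψ, Test (Metric.ball 0 3) ψ →
      Integrable (fun x => ⟪D x, ∇ ψ x⟫) volume ∧ ∫ x, ⟪D x, ∇ ψ x⟫ = 0 := by
    intro ψ hψ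
    have h3 := hp.mul_test hψ
    have h4 := hw.ext hJ Src.zero h3
    have h5 := final_int hJ h3.mG
    have h6 : MemLp (fun x => ψ x • (∇ φ x + G x) + (φ x + h x - k) • ∇ ψ x) 2 volume := by
      have := (hloc.h0 ψ hψ).mG.sub ((hψ.memLp_grad 2).const_smul k)
      refine this.ae_eq (Eventually.of_forall fun x => ?_)
      simp only [Pi.sub_apply, Pi.smul_apply]
      module
    have h7 := final_int (hγ.memLp_smul hp.mG) h6
    have h8 : (fun x => ⟪D x, ∇ ψ x⟫) = fun x =>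
        ⟪γ x • (∇ φ x + G x), ψ x • Gp x + p x • ∇ ψ x⟫ -
          ⟪γ x • Gp x, ψ x • (∇ φ x + G x) + (φ x + h x - k) • ∇ ψ x⟫ := by
      funext x
      simp only [hD]
      generalize ∇ φ x + G x = A
      simp only [inner_add_right, inner_smul_left, inner_smul_right, inner_sub_left, conj_trivial,
        real_inner_comm A (Gp x)]
      ring
    rw [h8]
    refine ⟨h5.sub h7, ?_⟩
    rw [integral_sub h5 h7, h4, hk ψ hψ]
    simp
  have hw' : WD (Metric.ball 0 3) (fun x => ((1 + ε * p x) ^ 2 * γ x) • (∇ φ x + G' x)) 0 := by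
    intro ψ hψ
    obtain ⟨h3, h4⟩ := hDψ ψ hψ
    simp only [hflux, inner_add_left, real_inner_smul_left (r := ε)]
    rw [integral_add (final_int hJ (hψ.memLp_grad 2)) (h3.const_mul ε), integral_const_mul, h4, hw ψ hψ]
    simp
  refine ⟨h, _, G, G', hh, hw, hh', hw', ?_⟩
  rw [energy_eq hγ' hφ.c1 hh' hw', energy_eq hγ hφ.c1 hh hw]
  obtain ⟨h3, h4⟩ := hDψ _ hψ1
  have h5 : ∫ x in Metric.ball (0 : E3) 3, ⟪D x, ∇ (fun x => χ x * φ x) x⟫ = 0 := by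
    rw [setIntegral_eq_integral_of_forall_compl_eq_zero, h4]
    intro x hx
    rw [(hψ1.eq_zero hx).2, inner_zero_right]
  have h6 : ∀ᵐ x, ⟪((1 + ε * p x) ^ 2 * γ x) • (∇ φ x + G' x), ∇ φ x⟫ =
      ⟪γ x • (∇ φ x + G x), ∇ φ x⟫ + ε * ⟪D x, ∇ (fun x => χ x * φ x) x⟫ := by
    filter_upwards [hp.zero_off] with x hx
    rw [hflux, inner_add_left, real_inner_smul_left (r := ε)]
    by_cases hxE : x ∈ El
    · rw [(final_cut (f := φ) hχ1 (hEK hxE)).2]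
    · simp [hD, (hx hxE).1, (hx hxE).2]
  rw [integral_congr_ae (ae_restrict_of_ae h6),
    integral_add (final_int hJ (hφ.memLp_grad 2)).integrableOn (h3.const_mul ε).integrableOn,
    integral_const_mul, h5, mul_zero, add_zero]


/-- Let `(h, G)` be from `exists_dirichlet`, `u = φ + h`, `Gu = ∇φ + G`, `k` from `hk`, `w = 1 + ε p`, `a = 1 / w - 1`
(`H0.comp_bdd`), `h' = h + (φ - k) a + h a` (`H0.mul_test` with a cut-off of `φ - k`, `H0.mul_bdd`), so that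
`w² γ (∇φ + G') = γ Gu + ε D`, `D = γ (p Gu - (u - k) Gp)`, which vanishes off `El`.  For every test function `ψ` of the
ball `∫ ⟪D, ∇ψ⟫ = ∫ ⟪γ Gu, p ∇ψ + ψ Gp⟫ - ∫ ⟪γ Gp, ψ Gu + (u - k) ∇ψ⟫ = 0`; use it also for a cut-off of `φ`
(`energy_eq`). -/
theorem same_energies {c C N ε : ℝ} {γ p : E3 → ℝ} {Gp : E3 → E3} (hc : 0 < c) (hγ : Ell c C γ)
    (hp : H0 El p Gp) (hm : Measurable p) (hN : ∀ x, |p x| ≤ N) (hε : 0 < ε) (hεN : ε * N ≤ 1 / 2)
    (hk : ∀ (u : E3 → ℝ) (G : E3 → E3) (N' : ℝ), Loc (Metric.ball 0 3) u G (fun x => γ x • G x) 0 →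
      (∀ᵐ x, x ∈ Metric.ball (0 : E3) 3 → |u x| ≤ N') → ∃ k : ℝ, ∀ ψ, Test (Metric.ball 0 3) ψ →
        ∫ x, ⟪γ x • Gp x, ψ x • G x + (u x - k) • ∇ ψ x⟫ = 0) :
    SameBoundaryEnergies γ fun x => (1 + ε * p x) ^ 2 * γ x := by
  intro φ hφ
  have hγ' := final_ell hc hγ hm hN hε hεN
  obtain ⟨χ, -, hχ, -, hχ1⟩ := exists_cutoff (isCompact_closedBall (0 : E3) 3) isOpen_univ (subset_univ _)
  have hφ' : Test univ fun x => χ x * φ x := Test.mul isOpen_univ hχ hφ.contDiffOn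
  have hcomp : ∀ u, IsCompetitor φ u ↔ IsCompetitor (fun x => χ x * φ x) u := by
    intro u
    have : ∀ x : E3, ‖x‖ = 3 → χ x * φ x = φ x := fun x hx =>
      (final_cut (f := φ) hχ1 (mem_closedBall_zero_iff.2 hx.le)).1
    exact ⟨fun h => ⟨h.1, fun x hx => (h.2 x hx).trans (this x hx).symm⟩,
      fun h => ⟨h.1, fun x hx => (h.2 x hx).trans (this x hx)⟩⟩
  obtain ⟨h, h', G, G', hh, hw, hh', hw', he⟩ := final_core hc hγ hp hm hN hε hεN hk hφ'
  refine ⟨fun u hu δ hδ => ?_, fun u hu δ hδ => ?_⟩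
  · obtain ⟨w, hw1, hw2⟩ := exists_competitor hγ' hφ'.c1 hh' hδ
    have := energy_le hc hγ hφ'.c1 hh hw ((hcomp u).1 hu)
    exact ⟨w, (hcomp w).2 hw1, by linarith⟩
  · obtain ⟨w, hw1, hw2⟩ := exists_competitor hγ hφ'.c1 hh hδ
    have := energy_le (by positivity) hγ' hφ'.c1 hh' hw' ((hcomp u).1 hu)
    exact ⟨w, (hcomp w).2 hw1, by linarith⟩

end Crest.Agent.R83
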