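import Crest.Agent.R83.IsoD

/-!
# R83 TASK Iso: isotropisation of a family of subsolutions, with `L¹`-compact conductivities
-/

set_option autoImplicit false

namespace Crest.Agent.R83

open MeasureTheory Set Filter Topology
open scoped Gradient RealInnerProductSpace ENNReal NNReal ContDiff

theorem iso_pt {κ : ℝ} (hκ : 0 < κ) {E J : E3} (h0 : dfc E J = 0) (h1 : omg E J ≤ 4 / κ * ⟪E, J⟫) :
    J = max (κ / 4) (min (4 / κ) (⟪E, J⟫ / ‖E‖ ^ 2)) • E := by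
  rw [omg, h0, mul_zero, add_zero] at h1
  by_cases hE : E = 0
  · subst hE
    rw [inner_zero_left, mul_zero, norm_zero] at h1
    rw [smul_zero, ← norm_eq_zero]
    nlinarith [norm_nonneg J]
  · have hJ := eq_smul_of_dfc h0 hE
    have hp : 0 < ‖E‖ ^ 2 := pow_pos (norm_pos_iff.2 hE) 2
    set t := ⟪E, J⟫ / ‖E‖ ^ 2 with ht
    have e1 : ⟪E, J⟫ = t * ‖E‖ ^ 2 := by rw [ht, div_mul_cancel₀ _ hp.ne']
    have e2 : ‖J‖ ^ 2 = t ^ 2 * ‖E‖ ^ 2 := by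
      rw [hJ, norm_smul, mul_pow, Real.norm_eq_abs, sq_abs]
    rw [e1, e2] at h1
    have e3 : 1 + t ^ 2 ≤ 4 / κ * t := by
      refine le_of_mul_le_mul_right ?_ hp
      linarith
    have hK : 0 < 4 / κ := by positivity
    have t0 : 0 < t := by
      by_contra h
      nlinarith [mul_nonneg hK.le (neg_nonneg.2 (not_lt.1 h)), sq_nonneg t]
    have t1 : t ≤ 4 / κ := by
      refine le_of_mul_le_mul_right ?_ t0
      nlinarith
    have t2 : κ / 4 ≤ t := by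
      have : 1 ≤ 4 / κ * t := by nlinarith [sq_nonneg t]
      rw [div_mul_eq_mul_div, le_div_iff₀ hκ] at this
      linarith
    rw [min_eq_right t1, max_eq_right t2]
    exact hJ

theorem iso_tri {μ : Measure E3} {w w' v v' : E3 → E3} (hw : AEStronglyMeasurable w μ)
    (hv : AEStronglyMeasurable v μ) (hv' : AEStronglyMeasurable v' μ) {δ : ℝ≥0∞}
    (h1 : ∫⁻ x, ‖v x - w x‖ₑ ∂μ ≤ δ) (h2 : ∫⁻ x, ‖v' x - w' x‖ₑ ∂μ ≤ δ)
    (h3 : ∫⁻ x, ‖v x - v' x‖ₑ ∂μ ≤ δ) : ∫⁻ x, ‖w x - w' x‖ₑ ∂μ ≤ 3 * δ := by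
  calc ∫⁻ x, ‖w x - w' x‖ₑ ∂μ
      ≤ ∫⁻ x, ‖v x - w x‖ₑ + (‖v x - v' x‖ₑ + ‖v' x - w' x‖ₑ) ∂μ := by
        refine lintegral_mono fun x => ?_
        have e : w x - w' x = -(v x - w x) + ((v x - v' x) + (v' x - w' x)) := by abel
        rw [e]
        refine (enorm_add_le _ _).trans ?_
        rw [enorm_neg]
        gcongr
        exact enorm_add_le _ _
    _ = ∫⁻ x, ‖v x - w x‖ₑ ∂μ + (∫⁻ x, ‖v x - v' x‖ₑ ∂μ + ∫⁻ x, ‖v' x - w' x‖ₑ ∂μ) := by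
        have m1 : AEMeasurable (fun x => ‖v x - w x‖ₑ) μ := (hv.sub hw).enorm
        have m2 : AEMeasurable (fun x => ‖v x - v' x‖ₑ) μ := (hv.sub hv').enorm
        rw [lintegral_add_left' m1, lintegral_add_left' m2]
    _ ≤ δ + (δ + δ) := by gcongr
    _ = 3 * δ := by ring

theorem iso_diff {a a' K η : ℝ} {E E' : E3} (hK : 0 < K) (hη : 0 < η) (ha : a ≤ K) (ha' : |a'| ≤ K)
    (h : η ≤ 2 * ⟪E, a • E⟫) :
    |a - a'| ≤ (√(η / (2 * K)))⁻¹ * (‖a • E - a' • E'‖ + K * ‖E - E'‖) := by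
  have hρ : 0 < √(η / (2 * K)) := Real.sqrt_pos.2 (by positivity)
  have h1 : √(η / (2 * K)) ≤ ‖E‖ := by
    rw [Real.sqrt_le_left (norm_nonneg _), div_le_iff₀ (by positivity)]
    rw [inner_smul_right, real_inner_self_eq_norm_sq] at h
    nlinarith [mul_le_mul_of_nonneg_right ha (sq_nonneg ‖E‖)]
  rw [← div_eq_inv_mul, le_div_iff₀ hρ]
  calc |a - a'| * √(η / (2 * K)) ≤ |a - a'| * ‖E‖ := mul_le_mul_of_nonneg_left h1 (abs_nonneg _)
    _ = ‖(a • E - a' • E') - a' • (E - E')‖ := by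
        rw [← Real.norm_eq_abs, ← norm_smul, sub_smul, smul_sub]
        congr 1
        abel
    _ ≤ ‖a • E - a' • E'‖ + ‖a' • (E - E')‖ := norm_sub_le _ _
    _ ≤ _ := by
        rw [norm_smul, Real.norm_eq_abs]
        gcongr

/-- `γ z` is a measurable version of `⟪E', J'⟫ / ‖E'‖²` clipped to `[κ/4, 4/κ]` (`eq_smul_of_dfc`:
`γ + 1/γ ≤ 4/κ` where `E' ≠ 0`; `J' = 0` where `E' = 0`).  Cauchy property:
`|γ z - γ z'| ‖E' z‖ ≤ ‖J' z - J' z'‖ + (4/κ) ‖E' z - E' z'‖`, and `‖E' z‖² ≥ κ η / 8` off a set of small measure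
(`hnd`); `Eqc.cauchy` for a late stage. -/
theorem iso {ι : Type} {U : Set E3} (hU : IsOpen U) (hfin : volume U ≠ ⊤) {E J : ι → E3 → E3}
    (hE : Eqc U E) (hJ : Eqc U J) {κ M : ℝ} (hκ : 0 < κ) (hκ1 : κ ≤ 1)
    (h : ∀ z, ∀ x ∈ U, cone κ (E z x) (J z x) ∧ ‖E z x‖ ≤ M ∧ ‖J z x‖ ≤ M)
    (hnd : ∀ ε : ℝ≥0∞, 0 < ε → ∃ η : ℝ, 0 < η ∧ ∀ z, volume {x | x ∈ U ∧ ⟪E z x, J z x⟫ < η} ≤ ε) :
    ∃ (dv γ : ι → E3 → ℝ) (dE dJ : ι → E3 → E3),
      (∀ z, H0 U (dv z) (dE z) ∧ MemLp (dJ z) 2 volume ∧ (∀ᵐ x, x ∉ U → dJ z x = 0) ∧ WD univ (dJ z) 0 ∧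
        Ell (κ / 4) (4 / κ) (γ z) ∧ ∀ᵐ x, x ∈ U → J z x + dJ z x = γ z x • (E z x + dE z x) ∧
          ⟪E z x + dE z x, J z x + dJ z x⟫ ≤ 2 * M ^ 2) ∧
      ∀ (𝒰 : Ultrafilter ι) (ε : ℝ≥0∞), 0 < ε →
        ∃ A ∈ 𝒰, ∀ z ∈ A, ∀ z' ∈ A, ∫⁻ x in U, ‖γ z x - γ z' x‖ₑ ≤ ε := by
  obtain ⟨En, Jn, dv, dE, dJ, M', h1, h2, h3⟩ := iso_iter hU hfin hE hJ hκ hκ1 h
  have hUm := hU.measurableSet
  have mE : ∀ z, AEStronglyMeasurable (fun x => E z x + dE z x) (volume.restrict U) := fun z =>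
    ((hE.continuousOn z).aestronglyMeasurable hUm).add (h3 z).1.mG.1.restrict
  have mJ : ∀ z, AEStronglyMeasurable (fun x => J z x + dJ z x) (volume.restrict U) := fun z =>
    ((hJ.continuousOn z).aestronglyMeasurable hUm).add (h3 z).2.1.1.restrict
  have mr : ∀ z, AEMeasurable (fun x => ⟪E z x + dE z x, J z x + dJ z x⟫ / ‖E z x + dE z x‖ ^ 2)
      (volume.restrict U) := fun z =>
    ((mE z).inner (mJ z)).aemeasurable.div ((mE z).norm.aemeasurable.pow_const 2)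
  have hK : 0 < 4 / κ := by positivity
  have hκK : κ / 4 ≤ 4 / κ := by
    rw [div_le_div_iff₀ (by norm_num) hκ]
    nlinarith
  set γ : ι → E3 → ℝ := fun z x => max (κ / 4) (min (4 / κ) ((mr z).mk _ x)) with hγ
  have hell : ∀ z, Ell (κ / 4) (4 / κ) (γ z) := fun z =>
    ⟨measurable_const.max (measurable_const.min (mr z).measurable_mk), fun x => le_max_left _ _,
      fun x => max_le hκK (min_le_left _ _)⟩
  have hae : ∀ z, ∀ᵐ x, x ∈ U → J z x + dJ z x = γ z x • (E z x + dE z x) := fun z => by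
    filter_upwards [(h3 z).2.2.2.2, (ae_restrict_iff' hUm).1 (mr z).ae_eq_mk] with x hx hx' hxU
    obtain ⟨e1, e2, -, -⟩ := hx hxU
    simp only [hγ]
    rw [← hx' hxU]
    exact iso_pt hκ e1 e2
  refine ⟨dv, γ, dE, dJ, fun z => ⟨(h3 z).1, (h3 z).2.1, (h3 z).2.2.1, (h3 z).2.2.2.1, hell z, ?_⟩,
    fun 𝒰 ε hε => ?_⟩
  · filter_upwards [(h3 z).2.2.2.2, hae z] with x hx hx' hxU
    refine ⟨hx' hxU, (hx hxU).2.2.2.trans ?_⟩
    obtain ⟨-, e1, e2⟩ := h z x hxU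
    have e3 := real_inner_le_norm (E z x) (J z x)
    have e4 := mul_le_mul e1 e2 (norm_nonneg _) ((norm_nonneg _).trans e1)
    nlinarith
  have hε2 : ε / 2 ≠ 0 := (ENNReal.half_pos hε.ne').ne'
  obtain ⟨δ₁, hδ₁, hδ₁'⟩ := ENNReal.exists_nnreal_pos_mul_lt
    (a := ENNReal.ofReal (4 / κ)) ENNReal.ofReal_ne_top hε2
  obtain ⟨η, hη, hη'⟩ := hnd δ₁ (by exact_mod_cast hδ₁)
  set ρ : ℝ := (√(η / (2 * (4 / κ))))⁻¹ with hρ
  have hρ0 : 0 ≤ ρ := inv_nonneg.2 (Real.sqrt_nonneg _)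
  obtain ⟨δ₂, hδ₂, hδ₂'⟩ := ENNReal.exists_nnreal_pos_mul_lt
    (a := ENNReal.ofReal ρ * (3 + ENNReal.ofReal (4 / κ) * 3))
    (by finiteness) hε2
  have hδ₂0 : (0 : ℝ≥0∞) < δ₂ := by exact_mod_cast hδ₂
  obtain ⟨n, hn⟩ := h2 δ₂ hδ₂0
  obtain ⟨A₁, hA₁, hA₁'⟩ := (h1 n).1.cauchy hU hfin (fun z x hx => ((h1 n).2.2 z x hx).1) 𝒰 hδ₂0
  obtain ⟨A₂, hA₂, hA₂'⟩ := (h1 n).2.1.cauchy hU hfin (fun z x hx => ((h1 n).2.2 z x hx).2) 𝒰 hδ₂0
  refine ⟨A₁ ∩ A₂, inter_mem hA₁ hA₂, fun z hz z' hz' => ?_⟩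
  have mEn := fun z => ((h1 n).1.continuousOn z).aestronglyMeasurable (μ := volume) hUm
  have mJn := fun z => ((h1 n).2.1.continuousOn z).aestronglyMeasurable (μ := volume) hUm
  have b1 := iso_tri (mE z) (mEn z) (mEn z') (hn z).1 (hn z').1 (hA₁' z hz.1 z' hz'.1)
  have b2 := iso_tri (mJ z) (mJn z) (mJn z') (hn z).2 (hn z').2 (hA₂' z hz.2 z' hz'.2)
  have m1 : AEMeasurable (fun x => ‖(E z x + dE z x) - (E z' x + dE z' x)‖ₑ) (volume.restrict U) :=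
    ((mE z).sub (mE z')).enorm
  have m2 : AEMeasurable (fun x => ‖(J z x + dJ z x) - (J z' x + dJ z' x)‖ₑ) (volume.restrict U) :=
    ((mJ z).sub (mJ z')).enorm
  have m3 : AEMeasurable (fun x => ENNReal.ofReal ρ * (‖(J z x + dJ z x) - (J z' x + dJ z' x)‖ₑ +
      ENNReal.ofReal (4 / κ) * ‖(E z x + dE z x) - (E z' x + dE z' x)‖ₑ)) (volume.restrict U) :=
    (m2.add (m1.const_mul _)).const_mul _
  calc ∫⁻ x in U, ‖γ z x - γ z' x‖ₑ
      ≤ ∫⁻ x in U, {x | x ∈ U ∧ ⟪E z x, J z x⟫ < η}.indicator (fun _ => ENNReal.ofReal (4 / κ)) x +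
          ENNReal.ofReal ρ * (‖(J z x + dJ z x) - (J z' x + dJ z' x)‖ₑ +
            ENNReal.ofReal (4 / κ) * ‖(E z x + dE z x) - (E z' x + dE z' x)‖ₑ) := by
        refine lintegral_mono_ae ((ae_restrict_iff' hUm).2 ?_)
        filter_upwards [(h3 z).2.2.2.2, hae z, hae z'] with x hx e1 e2 hxU
        have g1 := (hell z).le x
        have g2 := (hell z).ge x
        have g3 := (hell z').le x
        have g4 := (hell z').ge x
        by_cases hb : ⟪E z x, J z x⟫ < η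
        · rw [indicator_of_mem (show x ∈ {x | x ∈ U ∧ ⟪E z x, J z x⟫ < η} from ⟨hxU, hb⟩)]
          refine le_trans ?_ le_self_add
          rw [Real.enorm_eq_ofReal_abs]
          refine ENNReal.ofReal_le_ofReal (abs_le.2 ⟨?_, ?_⟩) <;> linarith
        · refine le_trans ?_ le_add_self
          have e3 := (not_lt.1 hb).trans (hx hxU).2.2.1
          rw [e1 hxU] at e3
          have e4 := iso_diff (a' := γ z' x) (E' := E z' x + dE z' x) hK hη g2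
            (abs_le.2 ⟨by linarith, g4⟩) e3
          rw [← e1 hxU, ← e2 hxU, ← hρ] at e4
          rw [Real.enorm_eq_ofReal_abs, ← ofReal_norm, ← ofReal_norm,
            ← ENNReal.ofReal_mul hK.le, ← ENNReal.ofReal_add (norm_nonneg _) (by positivity),
            ← ENNReal.ofReal_mul hρ0]
          exact ENNReal.ofReal_le_ofReal e4
    _ = (∫⁻ x in U, {x | x ∈ U ∧ ⟪E z x, J z x⟫ < η}.indicator (fun _ => ENNReal.ofReal (4 / κ)) x) +
          ENNReal.ofReal ρ * ((∫⁻ x in U, ‖(J z x + dJ z x) - (J z' x + dJ z' x)‖ₑ) +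
            ENNReal.ofReal (4 / κ) * ∫⁻ x in U, ‖(E z x + dE z x) - (E z' x + dE z' x)‖ₑ) := by
        rw [lintegral_add_right' _ m3,
          lintegral_const_mul' _ _ ENNReal.ofReal_ne_top, lintegral_add_left' m2,
          lintegral_const_mul' _ _ ENNReal.ofReal_ne_top]
    _ ≤ ENNReal.ofReal (4 / κ) * δ₁ +
          ENNReal.ofReal ρ * (3 * δ₂ + ENNReal.ofReal (4 / κ) * (3 * δ₂)) := by
        gcongr
        refine (lintegral_indicator_const_le _ _).trans ?_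
        gcongr
        exact (Measure.restrict_le_self _).trans (hη' z)
    _ ≤ ε / 2 + ε / 2 := by
        refine add_le_add ?_ ?_
        · rw [mul_comm]
          exact hδ₁'.le
        · refine le_trans (le_of_eq ?_) hδ₂'.le
          ring
    _ = ε := ENNReal.add_halves ε

end Crest.Agent.R83
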