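import Crest.Agent.R83.Tst

/-!
# R83 TASK IsoA: algebra of the laminates, the profile
-/

set_option autoImplicit false

namespace Crest.Agent.R83

open MeasureTheory Set Filter Topology
open scoped Gradient RealInnerProductSpace ENNReal NNReal ContDiff

theorem continuous_dfc : Continuous fun p : E3 × E3 => dfc p.1 p.2 := by
  unfold dfc
  fun_prop

theorem continuous_omg : Continuous fun p : E3 × E3 => omg p.1 p.2 := by
  unfold omg
  exact ((continuous_fst.norm.pow 2).add (continuous_snd.norm.pow 2)).add (continuous_const.mul continuous_dfc)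

theorem dfc_nonneg (E J : E3) : 0 ≤ dfc E J :=
  Real.sqrt_nonneg _

theorem two_dfc_le (E J : E3) : 2 * dfc E J ≤ ‖E‖ ^ 2 + ‖J‖ ^ 2 := by
  have h : dfc E J ≤ ‖E‖ * ‖J‖ :=
    Real.sqrt_le_iff.2 ⟨by positivity, by rw [mul_pow]; nlinarith [sq_nonneg ⟪E, J⟫]⟩
  nlinarith [sq_nonneg (‖E‖ - ‖J‖)]

theorem isoa_dfc_sq (E J : E3) : dfc E J ^ 2 = ‖E‖ ^ 2 * ‖J‖ ^ 2 - ⟪E, J⟫ ^ 2 := by
  refine Real.sq_sqrt (sub_nonneg.2 ?_)
  rw [← mul_pow, ← sq_abs ⟪E, J⟫]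
  exact pow_le_pow_left₀ (abs_nonneg _) (abs_real_inner_le_norm E J) 2

theorem isoa_comb (E J : E3) (α β γ δ : ℝ) : ⟪α • E + β • J, γ • E + δ • J⟫ =
    α * γ * ‖E‖ ^ 2 + (α * δ + β * γ) * ⟪E, J⟫ + β * δ * ‖J‖ ^ 2 := by
  simp only [inner_add_left, inner_add_right, real_inner_smul_left, real_inner_smul_right,
    real_inner_self_eq_norm_sq, real_inner_comm E J]
  ring

theorem eq_smul_of_dfc {E J : E3} (h : dfc E J = 0) (hE : E ≠ 0) : J = (⟪E, J⟫ / ‖E‖ ^ 2) • E := by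
  have h1 := isoa_dfc_sq E J
  have h2 : ‖E‖ ^ 2 ≠ 0 := pow_ne_zero 2 (norm_ne_zero_iff.2 hE)
  have h3 := isoa_comb E J (-(⟪E, J⟫ / ‖E‖ ^ 2)) 1 (-(⟪E, J⟫ / ‖E‖ ^ 2)) 1
  have h4 : ⟪-(⟪E, J⟫ / ‖E‖ ^ 2) • E + (1 : ℝ) • J, -(⟪E, J⟫ / ‖E‖ ^ 2) • E + (1 : ℝ) • J⟫ = 0 := by
    rw [h3]
    rw [h] at h1
    field_simp
    linear_combination -h1
  rw [inner_self_eq_zero, neg_smul, one_smul, neg_add_eq_zero] at h4
  exact h4.symm

theorem isoa_ab {E J : E3} (hD : 0 < dfc E J) : ∃ a b : E3, ⟪a, b⟫ = 0 ∧ ‖a‖ ^ 2 = omg E J ∧ ‖b‖ ^ 2 = omg E J ∧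
    ⟪E, a⟫ = -(‖E‖ ^ 2 + dfc E J) ∧ ⟪J, b⟫ = ‖J‖ ^ 2 + dfc E J ∧ ⟪E, b⟫ = ⟪E, J⟫ ∧ ⟪a, J⟫ = -⟪E, J⟫ := by
  have h := isoa_dfc_sq E J
  have e1 : E = (1 : ℝ) • E + (0 : ℝ) • J := by simp
  have e2 : J = (0 : ℝ) • E + (1 : ℝ) • J := by simp
  have c := isoa_comb E J
  unfold omg
  generalize dfc E J = D at *
  have hD' := hD.ne'
  refine ⟨(-(‖J‖ ^ 2 / D) - 1) • E + (⟪E, J⟫ / D) • J, (-(⟪E, J⟫ / D)) • E + (1 + ‖E‖ ^ 2 / D) • J, ?_, ?_, ?_,
    (congrArg (⟪·, _⟫) e1).trans ?_, (congrArg (⟪·, _⟫) e2).trans ?_, (congrArg (⟪·, _⟫) e1).trans ?_,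
    (congrArg (⟪_, ·⟫) e2).trans ?_⟩
  · rw [c]
    field_simp
    linear_combination (-⟪E, J⟫) * h
  · rw [← real_inner_self_eq_norm_sq, c]
    field_simp
    linear_combination (-(‖J‖ ^ 2) - 2 * D) * h
  · rw [← real_inner_self_eq_norm_sq, c]
    field_simp
    linear_combination (-(‖E‖ ^ 2) - 2 * D) * h
  · rw [c]
    field_simp
    linear_combination h
  · rw [c]
    field_simp
    linear_combination -h
  · rw [c]
    field_simp
    ring
  · rw [c]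
    field_simp
    ring

theorem isoa_roots {A B D W : ℝ} (hA : 0 ≤ A) (hB : 0 ≤ B) (hD : 0 < D) (hW : W = A + B + 2 * D) :
    ∃ t₁ t₂ : ℝ, -1 ≤ t₁ ∧ t₁ ≤ 0 ∧ 0 ≤ t₂ ∧ t₂ ≤ 1 ∧ (t₁ + t₂) * W = A - B ∧ -(t₁ * t₂) * W = D := by
  have hW0 : 0 < W := by linarith
  have h0 : 0 ≤ (A - B) ^ 2 + 4 * W * D := by positivity
  set s := √((A - B) ^ 2 + 4 * W * D) with hs
  have hs2 : s ^ 2 = (A - B) ^ 2 + 4 * W * D := Real.sq_sqrt h0
  have h1 : |A - B| ≤ s := Real.abs_le_sqrt (by nlinarith [mul_pos hW0 hD])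
  have h2 : s ≤ 2 * W + (A - B) := Real.sqrt_le_iff.2 ⟨by linarith, by
    nlinarith [mul_nonneg hW0.le (show 0 ≤ 2 * A + D by linarith)]⟩
  have h3 : s ≤ 2 * W - (A - B) := Real.sqrt_le_iff.2 ⟨by linarith, by
    nlinarith [mul_nonneg hW0.le (show 0 ≤ 2 * B + D by linarith)]⟩
  obtain ⟨h4, h5⟩ := abs_le.1 h1
  have h2W : 0 < 2 * W := by linarith
  refine ⟨(A - B - s) / (2 * W), (A - B + s) / (2 * W), ?_, ?_, ?_, ?_, ?_, ?_⟩
  · rw [le_div_iff₀ h2W]; linarith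
  · exact div_nonpos_of_nonpos_of_nonneg (by linarith) h2W.le
  · exact div_nonneg (by linarith) h2W.le
  · rw [div_le_iff₀ h2W]; linarith
  · field_simp
    ring
  · field_simp
    linear_combination hs2

/-- For `D = dfc E J > 0`, `π = ⟪E, J⟫`: `iE = (‖E‖² J - π E) / D`, `iJ = (π J - ‖J‖² E) / D`, `a = iJ - E`,
`b = J + iE`.  Along the line `π` is constant, `‖E_t‖² ‖J_t‖² - π² = D_t²` and `‖E_t‖² + ‖J_t‖² + 2 D_t = omg E J` with
`D_t = D + t (‖E‖² - ‖J‖²) - t² omg E J`; `t₁ < 0 < t₂` are the roots (`D_{±1} < 0`).  For `D = 0` take `t₁ = t₂ = 0`. -/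
theorem seg (E J : E3) : ∃ (a b : E3) (t₁ t₂ : ℝ), -1 ≤ t₁ ∧ t₁ ≤ 0 ∧ 0 ≤ t₂ ∧ t₂ ≤ 1 ∧ ⟪a, b⟫ = 0 ∧
    ‖a‖ ^ 2 = omg E J ∧ ‖b‖ ^ 2 = omg E J ∧ -(t₁ * t₂) * omg E J = dfc E J ∧
    ∀ t ∈ Icc t₁ t₂, ⟪E + t • a, J + t • b⟫ = ⟪E, J⟫ ∧ omg (E + t • a) (J + t • b) = omg E J ∧
      dfc (E + t • a) (J + t • b) = omg E J * ((t₂ - t) * (t - t₁)) := by
  rcases (dfc_nonneg E J).eq_or_lt with hD | hD
  · have h0 : 0 ≤ omg E J := by unfold omg; have := dfc_nonneg E J; positivity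
    refine ⟨√(omg E J) • e 0, √(omg E J) • e 1, 0, 0, by norm_num, le_rfl, le_rfl, by norm_num, ?_, ?_, ?_,
      by simp [← hD], fun t ht => ?_⟩
    · simp [real_inner_smul_left, real_inner_smul_right, EuclideanSpace.inner_single_left]
    · simp [norm_smul, Real.sq_sqrt h0]
    · simp [norm_smul, Real.sq_sqrt h0]
    · obtain rfl : t = 0 := le_antisymm ht.2 ht.1
      simp [← hD]
  · obtain ⟨a, b, hab, ha, hb, h1, h2, h3, h4⟩ := isoa_ab hD
    obtain ⟨t₁, t₂, k1, k2, k3, k4, k5, k6⟩ :=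
      isoa_roots (W := omg E J) (sq_nonneg ‖E‖) (sq_nonneg ‖J‖) hD rfl
    refine ⟨a, b, t₁, t₂, k1, k2, k3, k4, hab, ha, hb, k6, fun t ht => ?_⟩
    have hW : omg E J = ‖E‖ ^ 2 + ‖J‖ ^ 2 + 2 * dfc E J := rfl
    have hsq := isoa_dfc_sq E J
    have i1 : ⟪E + t • a, J + t • b⟫ = ⟪E, J⟫ := by
      simp only [inner_add_left, inner_add_right, real_inner_smul_left, real_inner_smul_right, hab, h3, h4]
      ring
    have i2 : ‖E + t • a‖ ^ 2 = ‖E‖ ^ 2 - 2 * t * (‖E‖ ^ 2 + dfc E J) + t ^ 2 * omg E J := by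
      rw [norm_add_sq_real, real_inner_smul_right, h1, norm_smul, mul_pow, ha, Real.norm_eq_abs, sq_abs]
      ring
    have i3 : ‖J + t • b‖ ^ 2 = ‖J‖ ^ 2 + 2 * t * (‖J‖ ^ 2 + dfc E J) + t ^ 2 * omg E J := by
      rw [norm_add_sq_real, real_inner_smul_right, h2, norm_smul, mul_pow, hb, Real.norm_eq_abs, sq_abs]
      ring
    have i4 : omg E J * ((t₂ - t) * (t - t₁)) = dfc E J + t * (‖E‖ ^ 2 - ‖J‖ ^ 2) - t ^ 2 * omg E J := by
      linear_combination t * k5 + k6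
    have i5 : dfc (E + t • a) (J + t • b) = omg E J * ((t₂ - t) * (t - t₁)) := by
      have h0 : 0 ≤ omg E J * ((t₂ - t) * (t - t₁)) :=
        mul_nonneg (ha ▸ sq_nonneg _) (mul_nonneg (sub_nonneg.2 ht.2) (sub_nonneg.2 ht.1))
      rw [← Real.sqrt_sq h0, i4, dfc, i1, i2, i3, hW]
      congr 1
      linear_combination (-1 : ℝ) * hsq
    refine ⟨i1, ?_, i5⟩
    rw [omg, i5, i4, i2, i3]
    linear_combination -hW

theorem isoa_atan {c : ℝ} (hc : c ≠ 0) (d a b : ℝ) :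
    ∫ s in a..b, (1 + (c * s + d) ^ 2)⁻¹ ≤ 4 / |c| := by
  rw [intervalIntegral.integral_comp_mul_add (fun x : ℝ => (1 + x ^ 2)⁻¹) hc, integral_inv_one_add_sq, smul_eq_mul]
  refine (le_abs_self _).trans ?_
  rw [abs_mul, abs_inv, div_eq_inv_mul]
  refine mul_le_mul_of_nonneg_left (abs_le.2 ⟨?_, ?_⟩) (by positivity)
  · linarith [Real.neg_pi_div_two_lt_arctan (c * b + d), Real.arctan_lt_pi_div_two (c * a + d), Real.pi_le_four]
  · linarith [Real.neg_pi_div_two_lt_arctan (c * a + d), Real.arctan_lt_pi_div_two (c * b + d), Real.pi_le_four]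

theorem isoa_clamp {t₁ t₂ : ℝ} (h1 : -1 ≤ t₁) (h2 : t₁ ≤ t₂) (h4 : t₂ ≤ 1) (x : ℝ) :
    (t₂ - max t₁ (min t₂ x)) * (max t₁ (min t₂ x) - t₁) ≤ 2 * (1 + x ^ 2)⁻¹ := by
  rcases le_total t₂ x with h | h
  · rw [min_eq_left h, max_eq_right h2, sub_self, zero_mul]
    positivity
  rw [min_eq_right h]
  rcases le_total x t₁ with h' | h'
  · rw [max_eq_left h', sub_self, mul_zero]
    positivity
  rw [max_eq_right h', ← div_eq_mul_inv, le_div_iff₀ (by positivity)]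
  have h5 : (t₂ - x) * (x - t₁) ≤ 1 := by nlinarith [sq_nonneg (t₂ - x - (x - t₁))]
  have h6 : x ^ 2 ≤ 1 := by nlinarith
  nlinarith [mul_nonneg (sub_nonneg.2 h) (sub_nonneg.2 h')]

theorem isoa_wave : ∃ w : ℝ → ℝ, LipschitzWith 1 w ∧ Function.Periodic w 1 ∧ (∀ s, 0 ≤ w s ∧ w s ≤ 1) ∧
    ∀ s, |s| ≤ 1 / 2 → w s = |s| := by
  refine ⟨fun s => ‖(s : UnitAddCircle)‖, LipschitzWith.of_dist_le_mul fun x y => ?_,
    fun s => congrArg norm (AddCircle.coe_add_period 1 s), fun s => ⟨norm_nonneg _, ?_⟩, fun s hs => ?_⟩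
  · rw [NNReal.coe_one, one_mul, Real.dist_eq, dist_eq_norm]
    refine (abs_norm_sub_norm_le _ _).trans ?_
    rw [← AddCircle.coe_sub]
    exact QuotientAddGroup.norm_mk_le_norm
  · have := AddCircle.norm_le_half_period 1 (x := (s : UnitAddCircle)) one_ne_zero
    rw [abs_one] at this
    linarith
  · exact (AddCircle.norm_coe_eq_abs_iff 1 one_ne_zero).2 (by rwa [abs_one])

/-- `τ s = max t₁ (min t₂ (Λ ‖(s : UnitAddCircle)‖ + b))`, `Λ` large, `b` chosen by the intermediate value theorem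
so that the mean vanishes; `‖(s : UnitAddCircle)‖ = |s|` on `[-1/2, 1/2]`; `Tt s = ∫ 0..s, τ` is periodic.
The last inequality: integrate `(t₂ - τ) (τ - t₁) ≥ 0`. -/
theorem prof {η : ℝ} (hη : 0 < η) : ∃ L : ℝ≥0, ∀ t₁ t₂ : ℝ, -1 ≤ t₁ → t₁ ≤ 0 → 0 ≤ t₂ → t₂ ≤ 1 →
    ∃ τ Tt : ℝ → ℝ, (∀ s, HasDerivAt Tt (τ s) s) ∧ LipschitzWith L τ ∧ (∀ s, τ s ∈ Icc t₁ t₂) ∧
      (∀ s, |Tt s| ≤ 1) ∧ Function.Periodic τ 1 ∧ ∫ s in (0 : ℝ)..1, (t₂ - τ s) * (τ s - t₁) ≤ η ∧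
      ∫ s in (0 : ℝ)..1, τ s ^ 2 ≤ -(t₁ * t₂) := by
  obtain ⟨w, hwL, hwp, hw, hwa⟩ := isoa_wave
  have hwc := hwL.continuous
  set Λ : ℝ := 16 / η with hΛ
  have hΛ0 : 0 < Λ := by positivity
  refine ⟨⟨Λ, hΛ0.le⟩, fun t₁ t₂ h1 h2 h3 h4 => ?_⟩
  have h12 : t₁ ≤ t₂ := h2.trans h3
  have hc : Continuous fun b : ℝ => ∫ s in (0 : ℝ)..1, max t₁ (min t₂ (Λ * w s + b)) :=
    intervalIntegral.continuous_parametric_intervalIntegral_of_continuous' (by
      unfold Function.uncurry; fun_prop) _ _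
  obtain ⟨b, hb⟩ : ∃ b : ℝ, ∫ s in (0 : ℝ)..1, max t₁ (min t₂ (Λ * w s + b)) = 0 := by
    refine mem_range_of_exists_le_of_exists_ge hc ⟨t₁ - Λ, ?_⟩ ⟨t₂, ?_⟩
    · have : ∀ s, max t₁ (min t₂ (Λ * w s + (t₁ - Λ))) = t₁ := fun s =>
        max_eq_left ((min_le_right _ _).trans (by nlinarith [(hw s).2]))
      simpa [this] using h2
    · have : ∀ s, max t₁ (min t₂ (Λ * w s + t₂)) = t₂ := fun s => by
        rw [min_eq_left (by nlinarith [(hw s).1]), max_eq_right h12]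
      simpa [this] using h3
  set τ : ℝ → ℝ := fun s => max t₁ (min t₂ (Λ * w s + b)) with hτ
  have hτc : Continuous τ := by rw [hτ]; fun_prop
  have hτm : ∀ s, τ s ∈ Icc t₁ t₂ := fun s => ⟨le_max_left _ _, max_le h12 (min_le_left _ _)⟩
  have hτp : Function.Periodic τ 1 := fun s => by simp only [hτ, hwp s]
  have hT : Function.Periodic (fun s => ∫ x in (0 : ℝ)..s, τ x) 1 := fun s => by
    dsimp only
    rw [hτp.intervalIntegral_add_eq_add 0 s fun _ _ => hτc.intervalIntegrable _ _, zero_add, hb, add_zero]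
  refine ⟨τ, fun s => ∫ x in (0 : ℝ)..s, τ x, fun s => (hτc.integral_hasStrictDerivAt 0 s).hasDerivAt, ?_, hτm,
    fun s => ?_, hτp, ?_, ?_⟩
  · refine LipschitzWith.const_max (LipschitzWith.const_min (LipschitzWith.of_dist_le_mul fun x y => ?_) _) _
    have := hwL.dist_le_mul x y
    rw [NNReal.coe_one, one_mul, Real.dist_eq] at this
    rw [Real.dist_eq, add_sub_add_right_eq_sub, ← mul_sub, abs_mul, abs_of_pos hΛ0]
    exact mul_le_mul_of_nonneg_left this hΛ0.le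
  · obtain ⟨y, hy, e⟩ := hT.exists_mem_Ico₀ one_pos s
    dsimp only
    rw [e, ← Real.norm_eq_abs]
    refine (intervalIntegral.norm_integral_le_of_norm_le_const (C := 1) fun x _ =>
      abs_le.2 ⟨h1.trans (hτm x).1, (hτm x).2.trans h4⟩).trans ?_
    rw [one_mul, sub_zero, abs_of_nonneg hy.1]
    exact hy.2.le
  · have hp : Function.Periodic (fun s => (t₂ - τ s) * (τ s - t₁)) 1 := fun s => by simp only [hτp s]
    have e := hp.intervalIntegral_add_eq 0 (-(1 / 2))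
    rw [zero_add] at e
    have c1 : Continuous fun s : ℝ => (1 + (Λ * s + b) ^ 2)⁻¹ :=
      Continuous.inv₀ (by fun_prop) fun s => by positivity
    have c2 : Continuous fun s : ℝ => (1 + (-Λ * s + b) ^ 2)⁻¹ :=
      Continuous.inv₀ (by fun_prop) fun s => by positivity
    have k1 := isoa_atan hΛ0.ne' b (-(1 / 2)) (-(1 / 2) + 1)
    have k2 := isoa_atan (neg_ne_zero.2 hΛ0.ne') b (-(1 / 2)) (-(1 / 2) + 1)
    rw [abs_neg] at k2
    rw [abs_of_pos hΛ0] at k1 k2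
    have k3 : 4 / Λ = η / 4 := by rw [hΛ]; field_simp; norm_num
    rw [e]
    calc _ ≤ ∫ s in (-(1 / 2) : ℝ)..(-(1 / 2) + 1), (2 * (1 + (Λ * s + b) ^ 2)⁻¹ + 2 * (1 + (-Λ * s + b) ^ 2)⁻¹) := by
          refine intervalIntegral.integral_mono_on (by norm_num) (Continuous.intervalIntegrable (by fun_prop) _ _)
            (Continuous.intervalIntegrable (by fun_prop) _ _) fun s hs => ?_
          refine (isoa_clamp h1 h12 h4 _).trans ?_
          rw [hwa s (abs_le.2 ⟨hs.1, by linarith [hs.2]⟩)]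
          rcases le_total 0 s with h | h
          · rw [abs_of_nonneg h]
            exact le_add_of_nonneg_right (by positivity)
          · rw [abs_of_nonpos h, mul_neg, ← neg_mul]
            exact le_add_of_nonneg_left (by positivity)
      _ ≤ η := by
          rw [intervalIntegral.integral_add ((c1.const_mul 2).intervalIntegrable _ _)
            ((c2.const_mul 2).intervalIntegrable _ _), intervalIntegral.integral_const_mul,
            intervalIntegral.integral_const_mul]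
          linarith
  · calc _ ≤ ∫ s in (0 : ℝ)..1, ((t₁ + t₂) * τ s - t₁ * t₂) := by
          refine intervalIntegral.integral_mono_on zero_le_one (Continuous.intervalIntegrable (by fun_prop) _ _)
            (Continuous.intervalIntegrable (by fun_prop) _ _) fun s _ => ?_
          nlinarith [mul_nonneg (sub_nonneg.2 (hτm s).1) (sub_nonneg.2 (hτm s).2)]
      _ = -(t₁ * t₂) := by
          rw [intervalIntegral.integral_sub (Continuous.intervalIntegrable (by fun_prop) _ _)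
            (Continuous.intervalIntegrable (by fun_prop) _ _), intervalIntegral.integral_const_mul, hb]
          simp

end Crest.Agent.R83
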