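import Crest.Agent.R83.Tst

/-!
# R83 TASK IsoP: phases, coverings, equicontinuous families
-/

set_option autoImplicit false

namespace Crest.Agent.R83

open MeasureTheory Set Filter Topology
open scoped Gradient RealInnerProductSpace ENNReal NNReal ContDiff

/-- average over `s₀ ∈ [0, 1]` (Fubini, `Function.Periodic.intervalIntegral_add_eq`) -/
theorem exists_phase {Θ : ℝ → ℝ} (hΘ : Continuous Θ) (hp : Function.Periodic Θ 1) {A : Set E3}
    (_hA : MeasurableSet A) (hfin : volume A ≠ ⊤) (a : E3) :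
    ∃ s₀ : ℝ, ∫ x in A, Θ (⟪a, x⟫ + s₀) ≤ volume.real A * ∫ s in (0 : ℝ)..1, Θ s := by
  obtain ⟨B, hB⟩ : ∃ B : ℝ, ∀ s, ‖Θ s‖ ≤ B := by
    have hb := (hp.isBounded_of_continuous one_ne_zero hΘ).exists_norm_le
    obtain ⟨B, hB⟩ := hb
    exact ⟨B, fun s => hB _ ⟨s, rfl⟩⟩
  have hfA : IsFiniteMeasure (volume.restrict A) := isFiniteMeasure_restrict.2 hfin
  have hP : IsProbabilityMeasure (volume.restrict (Ioc (0 : ℝ) 1)) := ⟨by simp⟩
  have hc : Continuous fun q : ℝ × E3 => Θ (⟪a, q.2⟫ + q.1) := by fun_prop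
  have hint : Integrable (Function.uncurry fun (s : ℝ) (x : E3) => Θ (⟪a, x⟫ + s))
      ((volume.restrict (Ioc (0 : ℝ) 1)).prod (volume.restrict A)) :=
    Integrable.of_bound hc.aestronglyMeasurable B (Eventually.of_forall fun q => hB _)
  obtain ⟨s₀, hs₀⟩ := exists_le_integral hint.integral_prod_left
  refine ⟨s₀, hs₀.trans (le_of_eq ?_)⟩
  have h1 := integral_integral_swap hint
  have h2 : ∀ x : E3, ∫ s in Ioc (0 : ℝ) 1, Θ (⟪a, x⟫ + s) = ∫ s in (0 : ℝ)..1, Θ s := by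
    intro x
    rw [← intervalIntegral.integral_of_le zero_le_one, intervalIntegral.integral_comp_add_left,
      add_zero]
    have := hp.intervalIntegral_add_eq ⟪a, x⟫ 0
    rwa [zero_add] at this
  simp only [Function.uncurry_apply_pair] at h1 ⊢
  rw [h1]
  simp only [h2, integral_const, smul_eq_mul]
  rw [measureReal_restrict_apply_univ]

/-- `Besicovitch.exists_disjoint_closedBall_covering_ae`, then a finite subfamily; spheres are null -/
theorem exists_balls {U : Set E3} (hU : IsOpen U) (hfin : volume U ≠ ⊤) {R : E3 → ℝ}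
    (hR : ∀ x ∈ U, 0 < R x) {η : ℝ≥0∞} (hη : 0 < η) : ∃ (t : Finset E3) (r : E3 → ℝ),
      (∀ x ∈ t, x ∈ U ∧ 0 < r x ∧ r x < R x ∧ Metric.closedBall x (r x) ⊆ U) ∧
      (t : Set E3).PairwiseDisjoint (fun x => Metric.closedBall x (r x)) ∧
      volume (U \ ⋃ x ∈ t, Metric.ball x (r x)) ≤ η := by
  classical
  have hf : ∀ x ∈ U, ∀ δ > (0 : ℝ), ({r : ℝ | Metric.closedBall x r ⊆ U} ∩ Ioo 0 δ).Nonempty := by
    intro x hx δ hδ
    obtain ⟨ρ, hρ, hsub⟩ := Metric.isOpen_iff.1 hU x hx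
    refine ⟨min δ ρ / 2, ?_, ?_, ?_⟩
    · refine (Metric.closedBall_subset_ball ?_).trans hsub
      have := min_le_right δ ρ
      linarith
    · have := lt_min hδ hρ
      linarith
    · have := min_le_left δ ρ
      linarith
  obtain ⟨t, r, htc, htU, hr, hnull, hdis⟩ :=
    Besicovitch.exists_disjoint_closedBall_covering_ae volume
      (fun x => {r : ℝ | Metric.closedBall x r ⊆ U}) U hf R hR
  have : Countable t := htc.to_subtype
  set s : Finset t → Set E3 := fun F => U \ ⋃ x ∈ F, Metric.ball (x : E3) (r x) with hs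
  have hanti : Antitone s := by
    intro F F' hFF'
    exact sdiff_subset_sdiff_right (biUnion_subset_biUnion_left hFF')
  have hmeas : ∀ F, NullMeasurableSet (s F) volume := fun F =>
    (hU.measurableSet.diff
      (isOpen_biUnion fun x _ => Metric.isOpen_ball).measurableSet).nullMeasurableSet
  have hlim := tendsto_measure_iInter_atTop hmeas hanti
    ⟨∅, ne_top_of_le_ne_top hfin (measure_mono sdiff_subset)⟩
  have h0 : volume (⋂ F, s F) = 0 := by
    have hsph : volume (⋃ x ∈ t, Metric.sphere x (r x)) = 0 :=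
      (measure_biUnion_null_iff htc).2 fun x _ => Measure.addHaar_sphere _ _ _
    refine measure_mono_null ?_ (measure_union_null hnull hsph)
    intro y hy
    rw [mem_iInter] at hy
    by_cases hy' : y ∈ ⋃ x ∈ t, Metric.closedBall x (r x)
    · right
      obtain ⟨x, hx, hyx⟩ := mem_iUnion₂.1 hy'
      refine mem_iUnion₂.2 ⟨x, hx, ?_⟩
      have h1 := (hy {⟨x, hx⟩}).2
      have h2 : y ∉ Metric.ball x (r x) := fun h =>
        h1 (mem_iUnion₂.2 ⟨⟨x, hx⟩, Finset.mem_singleton_self _, h⟩)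
      rw [Metric.mem_ball, not_lt] at h2
      exact le_antisymm (Metric.mem_closedBall.1 hyx) h2
    · exact Or.inl ⟨(hy ∅).1, hy'⟩
  rw [h0] at hlim
  obtain ⟨F, hF⟩ := (hlim.eventually (ge_mem_nhds hη)).exists
  refine ⟨F.image Subtype.val, r, ?_, ?_, ?_⟩
  · intro x hx
    obtain ⟨y, -, rfl⟩ := Finset.mem_image.1 hx
    exact ⟨htU y.2, (hr _ y.2).2.1, (hr _ y.2).2.2, (hr _ y.2).1⟩
  · refine hdis.subset ?_
    intro x hx
    obtain ⟨y, -, rfl⟩ := Finset.mem_image.1 (Finset.mem_coe.1 hx)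
    exact y.2
  · rw [Finset.set_biUnion_finset_image]
    exact hF

/-- `exists_balls`; the values at the finitely many centres converge along the ultrafilter -/
theorem Eqc.cauchy {ι : Type} {U : Set E3} (hU : IsOpen U) (hfin : volume U ≠ ⊤) {w : ι → E3 → E3}
    (hw : Eqc U w) {M : ℝ} (hM : ∀ z, ∀ x ∈ U, ‖w z x‖ ≤ M) (𝒰 : Ultrafilter ι) {ε : ℝ≥0∞} (hε : 0 < ε) :
    ∃ A ∈ 𝒰, ∀ z ∈ A, ∀ z' ∈ A, ∫⁻ x in U, ‖w z x - w z' x‖ₑ ≤ ε := by
  have hε2 : ε / 2 ≠ 0 := (ENNReal.half_pos hε.ne').ne'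
  obtain ⟨δ, hδ, hδε⟩ := ENNReal.exists_nnreal_pos_mul_lt hfin hε2
  obtain ⟨η, hη, hηε⟩ :=
    ENNReal.exists_nnreal_pos_mul_lt (a := ENNReal.ofReal (2 * M)) ENNReal.ofReal_ne_top hε2
  have hδ' : (0 : ℝ) < δ / 4 := by
    have : (0 : ℝ) < δ := hδ
    linarith
  have hch : ∀ x : E3, ∃ ρ : ℝ, x ∈ U →
      0 < ρ ∧ ∀ z x', dist x' x < ρ → ‖w z x' - w z x‖ ≤ δ / 4 := by
    intro x
    by_cases hx : x ∈ U
    · obtain ⟨ρ, h1, h2⟩ := hw x hx _ hδ'
      exact ⟨ρ, fun _ => ⟨h1, h2⟩⟩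
    · exact ⟨1, fun h => absurd h hx⟩
  choose R hR using hch
  obtain ⟨t, r, ht, -, hvol⟩ := exists_balls hU hfin (R := R) (fun x hx => (hR x hx).1)
    (η := η) (by exact_mod_cast hη)
  have hc : ∀ c ∈ t, ∃ p : E3, {z | ‖w z c - p‖ ≤ δ / 4} ∈ 𝒰 := by
    intro c hc
    have hle : (↑(𝒰.map fun z => w z c) : Filter E3) ≤ 𝓟 (Metric.closedBall (0 : E3) M) := by
      rw [le_principal_iff, Ultrafilter.coe_map, mem_map]
      refine univ_mem' fun z => ?_
      simpa using hM z c (ht c hc).1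
    obtain ⟨p, -, hp⟩ := (isCompact_closedBall (0 : E3) M).ultrafilter_le_nhds _ hle
    refine ⟨p, ?_⟩
    have h1 := hp (Metric.closedBall_mem_nhds p hδ')
    rw [Ultrafilter.coe_map, mem_map] at h1
    refine Filter.mem_of_superset h1 fun z hz => ?_
    simpa [dist_eq_norm] using hz
  choose! p hp using hc
  refine ⟨⋂ c ∈ t, {z | ‖w z c - p c‖ ≤ δ / 4}, (Filter.biInter_finset_mem t).2 hp, ?_⟩
  intro z hz z' hz'
  set B : Set E3 := ⋃ x ∈ t, Metric.ball x (r x) with hB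
  have hBo : IsOpen B := isOpen_biUnion fun x _ => Metric.isOpen_ball
  have h1 : ∫⁻ x in U ∩ B, ‖w z x - w z' x‖ₑ ≤ ε / 2 := by
    calc ∫⁻ x in U ∩ B, ‖w z x - w z' x‖ₑ ≤ ∫⁻ _ in U ∩ B, (δ : ℝ≥0∞) := by
          refine setLIntegral_mono' (hU.inter hBo).measurableSet fun x hx => ?_
          obtain ⟨c, hc, hxc⟩ := mem_iUnion₂.1 hx.2
          have hd : dist x c < R c := (Metric.mem_ball.1 hxc).trans (ht c hc).2.2.1
          have e1 := (hR c (ht c hc).1).2 z x hd
          have e2 := (hR c (ht c hc).1).2 z' x hd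
          have e3 : ‖w z c - p c‖ ≤ δ / 4 := mem_iInter₂.1 hz c hc
          have e4 : ‖w z' c - p c‖ ≤ δ / 4 := mem_iInter₂.1 hz' c hc
          have e5 : w z x - w z' x
              = (w z x - w z c) + (w z c - p c) - (w z' c - p c) - (w z' x - w z' c) := by abel
          have e6 : ‖w z x - w z' x‖ ≤ δ := by
            rw [e5]
            have f1 := norm_sub_le ((w z x - w z c) + (w z c - p c) - (w z' c - p c)) (w z' x - w z' c)
            have f2 := norm_sub_le ((w z x - w z c) + (w z c - p c)) (w z' c - p c)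
            have f3 := norm_add_le (w z x - w z c) (w z c - p c)
            linarith
          rw [← ofReal_norm, ← ENNReal.ofReal_coe_nnreal]
          exact ENNReal.ofReal_le_ofReal e6
      _ = δ * volume (U ∩ B) := setLIntegral_const _ _
      _ ≤ δ * volume U := by gcongr; exact inter_subset_left
      _ ≤ ε / 2 := hδε.le
  have h2 : ∫⁻ x in U \ B, ‖w z x - w z' x‖ₑ ≤ ε / 2 := by
    calc ∫⁻ x in U \ B, ‖w z x - w z' x‖ₑ ≤ ∫⁻ _ in U \ B, ENNReal.ofReal (2 * M) := by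
          refine setLIntegral_mono' (hU.measurableSet.diff hBo.measurableSet) fun x hx => ?_
          rw [← ofReal_norm]
          refine ENNReal.ofReal_le_ofReal ?_
          have f1 := norm_sub_le (w z x) (w z' x)
          have f2 := hM z x hx.1
          have f3 := hM z' x hx.1
          linarith
      _ = ENNReal.ofReal (2 * M) * volume (U \ B) := setLIntegral_const _ _
      _ ≤ ENNReal.ofReal (2 * M) * η := by gcongr
      _ ≤ ε / 2 := by rw [mul_comm]; exact hηε.le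
  calc ∫⁻ x in U, ‖w z x - w z' x‖ₑ = ∫⁻ x in (U ∩ B) ∪ (U \ B), ‖w z x - w z' x‖ₑ := by
        rw [inter_union_sdiff]
    _ ≤ (∫⁻ x in U ∩ B, ‖w z x - w z' x‖ₑ) + ∫⁻ x in U \ B, ‖w z x - w z' x‖ₑ :=
        lintegral_union_le _ _ _
    _ ≤ ε / 2 + ε / 2 := add_le_add h1 h2
    _ = ε := ENNReal.add_halves ε

theorem Eqc.continuousOn {ι V : Type} [NormedAddCommGroup V] {U : Set E3} {w : ι → E3 → V} (hw : Eqc U w)
    (z : ι) : ContinuousOn (w z) U := by
  intro x hx
  refine ContinuousAt.continuousWithinAt ?_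
  rw [Metric.continuousAt_iff]
  intro ε hε
  obtain ⟨δ, hδ, h⟩ := hw x hx (ε / 2) (half_pos hε)
  refine ⟨δ, hδ, fun x' hx' => ?_⟩
  rw [dist_eq_norm]
  exact (h z x' hx').trans_lt (half_lt_self hε)

end Crest.Agent.R83
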