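import Crest.Agent.R83.IsoA
import Crest.Agent.R83.IsoP
import Crest.Agent.R83.Sym

/-!
# R83 TASK IsoB: one laminate in a ball
-/

set_option autoImplicit false

namespace Crest.Agent.R83

open MeasureTheory Set Filter Topology
open scoped Gradient RealInnerProductSpace ENNReal NNReal ContDiff

/-- the rotation `a ↦ b`, `b ↦ -a` -/
noncomputable def isob_rot (a b : E3) (W : ℝ) (v : E3) : E3 := W⁻¹ • (⟪v, a⟫ • b - ⟪v, b⟫ • a)

theorem isob_rot_sub (a b : E3) (W : ℝ) (v v' : E3) :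
    isob_rot a b W v - isob_rot a b W v' = isob_rot a b W (v - v') := by
  simp only [isob_rot, inner_sub_left, sub_smul, smul_sub]
  abel

theorem isob_rot_le {a b : E3} {W : ℝ} (hW : 0 < W) (ha : ‖a‖ ^ 2 = W) (hb : ‖b‖ ^ 2 = W) (v : E3) :
    ‖isob_rot a b W v‖ ≤ 2 * ‖v‖ := by
  have hab : ‖a‖ * ‖b‖ = W := by
    rw [← (sq_eq_sq₀ (norm_nonneg a) (norm_nonneg b)).1 (ha.trans hb.symm), ← sq, ha]
  have h1 : ‖⟪v, a⟫ • b‖ ≤ ‖v‖ * W := by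
    rw [norm_smul, ← hab, ← mul_assoc]
    exact mul_le_mul_of_nonneg_right (norm_inner_le_norm _ _) (norm_nonneg _)
  have h2 : ‖⟪v, b⟫ • a‖ ≤ ‖v‖ * W := by
    rw [norm_smul, ← hab, mul_comm ‖a‖, ← mul_assoc]
    exact mul_le_mul_of_nonneg_right (norm_inner_le_norm _ _) (norm_nonneg _)
  rw [isob_rot, norm_smul, norm_inv, Real.norm_of_nonneg hW.le, inv_mul_le_iff₀ hW]
  linarith [norm_sub_le (⟪v, a⟫ • b) (⟪v, b⟫ • a)]

theorem isob_rot_a {a b : E3} {W : ℝ} (hW : 0 < W) (ha : ‖a‖ ^ 2 = W) (hab : ⟪a, b⟫ = 0) (t : ℝ) :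
    isob_rot a b W (t • a) = t • b := by
  rw [isob_rot, real_inner_smul_left, real_inner_smul_left, hab, real_inner_self_eq_norm_sq, ha, mul_zero,
    zero_smul, sub_zero, smul_smul, mul_comm t, inv_mul_cancel_left₀ hW.ne']

theorem isob_wd {Ω : Set E3} {f : E3 → ℝ} (hf : Test Ω f) (a b : E3) (W : ℝ) :
    WD univ (fun x => isob_rot a b W (∇ f x)) 0 := by
  intro ψ hψ
  have hf' := hf.mono (subset_univ _)
  have hi : ∀ a b : E3, Integrable (fun x => ⟪∇ f x, a⟫ * ⟪∇ ψ x, b⟫) volume := fun a b =>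
    (hf'.integrable_inner isOpen_univ (J := fun x => ⟪∇ ψ x, b⟫ • a)
      (by have := hψ.continuous_grad; fun_prop)).congr
      (Eventually.of_forall fun x => by
        dsimp only
        rw [real_inner_smul_left, mul_comm, real_inner_comm])
  have e : ∀ x, ⟪isob_rot a b W (∇ f x), ∇ ψ x⟫ =
      W⁻¹ * (⟪∇ f x, a⟫ * ⟪∇ ψ x, b⟫ - ⟪∇ f x, b⟫ * ⟪∇ ψ x, a⟫) := fun x => by
    rw [isob_rot, real_inner_smul_left, inner_sub_left, real_inner_smul_left, real_inner_smul_left,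
      real_inner_comm (∇ ψ x), real_inner_comm (∇ ψ x)]
  simp only [e, Pi.zero_apply, zero_mul, integral_zero]
  rw [integral_const_mul, integral_sub (hi a b) (hi b a), integral_sym isOpen_univ hf' hψ.c1.contDiffOn a b,
    sub_self, mul_zero]

theorem isob_lip {p : E3 → ℝ} {q : E3 → E3} {A B P Q : ℝ} {x y : E3} {d : ℝ} (hp : |p x - p y| ≤ A * d)
    (hq : ‖q x - q y‖ ≤ B * d) (hP : |p y| ≤ P) (hQ : ‖q x‖ ≤ Q) :
    ‖p x • q x - p y • q y‖ ≤ (A * Q + P * B) * d := by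
  rw [show p x • q x - p y • q y = (p x - p y) • q x + p y • (q x - q y) by
    rw [sub_smul, smul_sub]; abel]
  refine (norm_add_le _ _).trans ?_
  rw [norm_smul, norm_smul, Real.norm_eq_abs, Real.norm_eq_abs]
  have h1 := mul_le_mul hp hQ (norm_nonneg _) ((abs_nonneg _).trans hp)
  have h2 := mul_le_mul hP hq (norm_nonneg _) ((abs_nonneg _).trans hP)
  linarith

theorem isob_sq {v w : E3} {θ : ℝ} (h : ‖v - w‖ ≤ θ) : ‖v‖ ^ 2 ≤ 2 * ‖w‖ ^ 2 + 2 * θ ^ 2 := by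
  have h1 : ‖v‖ ≤ ‖w‖ + θ := by linarith [norm_sub_norm_le v w]
  nlinarith [pow_le_pow_left₀ (norm_nonneg _) h1 2, sq_nonneg (‖w‖ - θ)]

theorem isob_mem {c p t₁ t₂ : ℝ} (hc : 0 ≤ c ∧ c ≤ 1) (hp : p ∈ Icc t₁ t₂) (h1 : t₁ ≤ 0) (h2 : 0 ≤ t₂) :
    c * p ∈ Icc t₁ t₂ := by
  obtain ⟨u1, u2⟩ := hc
  obtain ⟨u3, u4⟩ := hp
  constructor <;> nlinarith

theorem isob_grad {χ : E3 → ℝ} (hχ : Differentiable ℝ χ) {τ Tt : ℝ → ℝ} (hT : ∀ s, HasDerivAt Tt (τ s) s)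
    {ε : ℝ} (hε : 0 < ε) (a : E3) (s₀ : ℝ) (x : E3) :
    ∇ (fun x => χ x * (ε * Tt (⟪ε⁻¹ • a, x⟫ + s₀))) x =
      (χ x * τ (⟪ε⁻¹ • a, x⟫ + s₀)) • a + (ε * Tt (⟪ε⁻¹ • a, x⟫ + s₀)) • ∇ χ x := by
  have hl : DifferentiableAt ℝ (fun x : E3 => ⟪ε⁻¹ • a, x⟫ + s₀) x :=
    ((differentiableAt_const _).inner ℝ differentiableAt_id).add_const _
  have hl' : ∇ (fun x : E3 => ⟪ε⁻¹ • a, x⟫ + s₀) x = ε⁻¹ • a := by
    simp only [add_comm _ s₀]
    rw [grad_const_add, grad_inner]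
  have h1 : DifferentiableAt ℝ (fun x : E3 => Tt (⟪ε⁻¹ • a, x⟫ + s₀)) x :=
    (hT _).differentiableAt.comp x hl
  rw [grad_mul (hχ x) (h1.const_mul ε), grad_const_mul ε h1,
    grad_comp (f := fun x : E3 => ⟪ε⁻¹ • a, x⟫ + s₀) (hT _) hl, hl', smul_smul, smul_smul, smul_smul]
  congr 2
  field_simp

theorem isob_int {g : E3 → ℝ} (hg : Continuous g) (x₀ : E3) (r : ℝ) : IntegrableOn g (Metric.ball x₀ r) volume :=
  (hg.continuousOn.integrableOn_compact (isCompact_closedBall x₀ r)).mono_set Metric.ball_subset_closedBall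

/-- a phase that is good for two functions -/
theorem isob_phase {φ₁ φ₂ : ℝ → ℝ} (c₁ : Continuous φ₁) (c₂ : Continuous φ₂) (p₁ : Function.Periodic φ₁ 1)
    (p₂ : Function.Periodic φ₂ 1) (n₁ : ∀ s, 0 ≤ φ₁ s) (n₂ : ∀ s, 0 ≤ φ₂ s) {m₁ m₂ : ℝ} (h₁ : 0 < m₁) (h₂ : 0 < m₂)
    (i₁ : ∫ s in (0 : ℝ)..1, φ₁ s ≤ m₁) (i₂ : ∫ s in (0 : ℝ)..1, φ₂ s ≤ m₂) (x₀ : E3) (r : ℝ) (a : E3) :
    ∃ s₀ : ℝ, ∫ x in Metric.ball x₀ r, φ₁ (⟪a, x⟫ + s₀) ≤ 2 * m₁ * volume.real (Metric.ball x₀ r) ∧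
      ∫ x in Metric.ball x₀ r, φ₂ (⟪a, x⟫ + s₀) ≤ 2 * m₂ * volume.real (Metric.ball x₀ r) := by
  obtain ⟨s₀, h⟩ := exists_phase (Θ := fun s => φ₁ s / m₁ + φ₂ s / m₂) (by fun_prop)
    (fun s => by simp only [p₁ s, p₂ s]) Metric.isOpen_ball.measurableSet
    (measure_ball_lt_top (x := x₀) (r := r)).ne a
  rw [integral_add (isob_int (by fun_prop) x₀ r) (isob_int (by fun_prop) x₀ r), integral_div, integral_div,
    intervalIntegral.integral_add (Continuous.intervalIntegrable (by fun_prop) _ _)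
      (Continuous.intervalIntegrable (by fun_prop) _ _), intervalIntegral.integral_div,
    intervalIntegral.integral_div] at h
  have k : _ ≤ volume.real (Metric.ball x₀ r) * (1 + 1) := h.trans (mul_le_mul_of_nonneg_left
    (add_le_add ((div_le_one h₁).2 i₁) ((div_le_one h₂).2 i₂)) measureReal_nonneg)
  have k₁ : 0 ≤ (∫ x in Metric.ball x₀ r, φ₁ (⟪a, x⟫ + s₀)) / m₁ := div_nonneg (integral_nonneg fun x => n₁ _) h₁.le
  have k₂ : 0 ≤ (∫ x in Metric.ball x₀ r, φ₂ (⟪a, x⟫ + s₀)) / m₂ := div_nonneg (integral_nonneg fun x => n₂ _) h₂.le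
  refine ⟨s₀, ?_, ?_⟩
  · have := (div_le_iff₀ h₁).1 (show _ ≤ volume.real (Metric.ball x₀ r) * (1 + 1) by linarith only [k, k₂] :
      (∫ x in Metric.ball x₀ r, φ₁ (⟪a, x⟫ + s₀)) / m₁ ≤ _)
    linarith
  · have := (div_le_iff₀ h₂).1 (show _ ≤ volume.real (Metric.ball x₀ r) * (1 + 1) by linarith only [k, k₁] :
      (∫ x in Metric.ball x₀ r, φ₂ (⟪a, x⟫ + s₀)) / m₂ ≤ _)
    linarith

theorem isob_cut (x₀ : E3) {r δ : ℝ} (hr : 0 < r) (hδ : 0 < δ) : ∃ (χ : E3 → ℝ) (N : ℝ) (Z : Set E3), 0 ≤ N ∧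
    Test (Metric.ball x₀ r) χ ∧ (∀ x, 0 ≤ χ x ∧ χ x ≤ 1) ∧ (∀ x, ‖∇ χ x‖ ≤ N) ∧
    (∀ x y, |χ x - χ y| ≤ N * ‖x - y‖) ∧ (∀ x y, ‖∇ χ x - ∇ χ y‖ ≤ N * ‖x - y‖) ∧ MeasurableSet Z ∧
    Z ⊆ Metric.ball x₀ r ∧ volume.real Z ≤ δ * volume.real (Metric.ball x₀ r) ∧
    ∀ x ∈ Metric.ball x₀ r, x ∉ Z → χ x = 1 := by
  have hV : 0 < volume.real (Metric.ball x₀ r) :=
    ENNReal.toReal_pos (Metric.measure_ball_pos volume x₀ hr).ne' measure_ball_lt_top.ne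
  obtain ⟨K, hK, hKc, hKv⟩ := Metric.isOpen_ball.measurableSet.exists_isCompact_sdiff_lt
    (measure_ball_lt_top (μ := volume) (x := x₀) (r := r)).ne
    (ENNReal.ofReal_pos.2 (mul_pos hδ hV)).ne'
  obtain ⟨χ, h1, h2, h3, h4⟩ := exists_cutoff hKc Metric.isOpen_ball hK
  obtain ⟨M, hM, hM'⟩ := h2.bdd
  obtain ⟨L₁, hL₁⟩ := h2.c1.lipschitzWith_of_hasCompactSupport h2.cpt one_ne_zero
  have h5 : ContDiff ℝ 1 (∇ χ) := contDiffOn_univ.1 (contDiffOn_grad isOpen_univ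
    (contDiff_infty.1 h1 2).contDiffOn)
  obtain ⟨L₂, hL₂⟩ := h5.lipschitzWith_of_hasCompactSupport h2.hasCompactSupport_grad one_ne_zero
  have l1 := L₁.coe_nonneg
  have l2 := L₂.coe_nonneg
  refine ⟨χ, M + L₁ + L₂, Metric.ball x₀ r \ K, by positivity, h2, h3, fun x => by linarith [(hM' x).2],
    fun x y => ?_, fun x y => ?_, Metric.isOpen_ball.measurableSet.diff hKc.measurableSet, sdiff_subset,
    ENNReal.toReal_le_of_le_ofReal (mul_pos hδ hV).le hKv.le, fun x hx hx' => ?_⟩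
  · have := hL₁.dist_le_mul x y
    rw [Real.dist_eq, dist_eq_norm] at this
    exact this.trans (mul_le_mul_of_nonneg_right (by linarith) (norm_nonneg _))
  · have := hL₂.dist_le_mul x y
    rw [dist_eq_norm, dist_eq_norm] at this
    exact this.trans (mul_le_mul_of_nonneg_right (by linarith) (norm_nonneg _))
  · exact h4.self_of_nhdsSet x (by_contra fun h => hx' ⟨hx, h⟩)

theorem isob_I1 {x₀ : E3} {r t₁ t₂ W m η' : ℝ} {g χ p : E3 → ℝ} {Z : Set E3} (hg : Continuous g) (hp : Continuous p)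
    (k1 : -1 ≤ t₁) (k4 : t₂ ≤ 1) (ht : ∀ x, χ x * p x ∈ Icc t₁ t₂) (hm' : ∀ x, p x ∈ Icc t₁ t₂) (hW0 : 0 ≤ W)
    (hWm : W ≤ m) (hZ : MeasurableSet Z) (hZB : Z ⊆ Metric.ball x₀ r)
    (hZv : volume.real Z ≤ η' * volume.real (Metric.ball x₀ r)) (hZ1 : ∀ x ∈ Metric.ball x₀ r, x ∉ Z → χ x = 1)
    (he : ∀ x, g x = W * ((t₂ - χ x * p x) * (χ x * p x - t₁)))
    (j2 : ∫ x in Metric.ball x₀ r, (t₂ - p x) * (p x - t₁) ≤ 2 * η' * volume.real (Metric.ball x₀ r)) :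
    ∫ x in Metric.ball x₀ r, g x ≤ 3 * (m * η') * volume.real (Metric.ball x₀ r) := by
  have hm : 0 ≤ m := hW0.trans hWm
  have hφ : ∀ t ∈ Icc t₁ t₂, 0 ≤ (t₂ - t) * (t - t₁) := fun t ht =>
    mul_nonneg (sub_nonneg.2 ht.2) (sub_nonneg.2 ht.1)
  have iZ : Integrable (Z.indicator fun _ => m) (volume.restrict (Metric.ball x₀ r)) :=
    (isob_int continuous_const x₀ r).integrable.indicator hZ
  have i3 : IntegrableOn (fun x => m * ((t₂ - p x) * (p x - t₁))) (Metric.ball x₀ r) volume :=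
    isob_int (by fun_prop) x₀ r
  calc _ ≤ ∫ x in Metric.ball x₀ r, (m * ((t₂ - p x) * (p x - t₁)) + Z.indicator (fun _ => m) x) := by
        refine setIntegral_mono_on (isob_int hg x₀ r) (i3.integrable.add iZ) Metric.isOpen_ball.measurableSet
          fun x hx => ?_
        rw [he]
        by_cases hxZ : x ∈ Z
        · rw [indicator_of_mem hxZ]
          have u1 : (t₂ - χ x * p x) * (χ x * p x - t₁) ≤ 1 := by
            have := ht x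
            generalize χ x * p x = t at this
            nlinarith [sq_nonneg (t₂ - t - (t - t₁)), this.1, this.2]
          have u2 := mul_le_mul hWm u1 (hφ _ (ht x)) hm
          have u3 := mul_nonneg hm (hφ _ (hm' x))
          linarith
        · rw [indicator_of_notMem hxZ, hZ1 x hx hxZ, one_mul, add_zero]
          exact mul_le_mul_of_nonneg_right hWm (hφ _ (hm' x))
    _ ≤ m * (2 * η' * volume.real (Metric.ball x₀ r)) + η' * volume.real (Metric.ball x₀ r) * m := by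
        rw [integral_add i3 iZ, integral_const_mul, integral_indicator_const _ hZ, smul_eq_mul,
          measureReal_restrict_apply hZ, inter_eq_left.2 hZB]
        gcongr
    _ = _ := by ring

theorem isob_I2 {x₀ a b : E3} {r W θ η D : ℝ} {v w : E3 → E3} {χ p : E3 → ℝ} (hv : Continuous v) (hw : Continuous w)
    (hp : Continuous p) (c0 : ∀ x, 0 ≤ χ x ∧ χ x ≤ 1) (ha : ‖a‖ ^ 2 = W) (hb : ‖b‖ ^ 2 = W) (h0 : 0 ≤ θ)
    (h1 : θ ≤ 1) (h2 : θ ≤ η / 20) (hR : ∀ x, ‖v x - (χ x * p x) • a‖ ≤ θ)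
    (hR' : ∀ x, ‖w x - (χ x * p x) • b‖ ≤ 2 * θ)
    (j1 : ∫ x in Metric.ball x₀ r, W * p x ^ 2 ≤ 2 * D * volume.real (Metric.ball x₀ r)) :
    ∫ x in Metric.ball x₀ r, (‖v x‖ ^ 2 + ‖w x‖ ^ 2) ≤ (8 * D + η / 2) * volume.real (Metric.ball x₀ r) := by
  have i3 : IntegrableOn (fun x => 4 * (W * p x ^ 2)) (Metric.ball x₀ r) volume := isob_int (by fun_prop) x₀ r
  calc _ ≤ ∫ x in Metric.ball x₀ r, (4 * (W * p x ^ 2) + η / 2) := by
        refine setIntegral_mono_on (isob_int (by fun_prop) x₀ r)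
          (i3.add (isob_int continuous_const x₀ r)) Metric.isOpen_ball.measurableSet fun x _ => ?_
        have u0 : (χ x * p x) ^ 2 * W ≤ W * p x ^ 2 := by
          rw [mul_pow, mul_comm]
          exact mul_le_mul_of_nonneg_left (mul_le_of_le_one_left (sq_nonneg _)
            (pow_le_one₀ (c0 x).1 (c0 x).2)) (ha ▸ sq_nonneg _)
        have u1 := isob_sq (hR x)
        have u2 := isob_sq (hR' x)
        rw [norm_smul, mul_pow, Real.norm_eq_abs, sq_abs] at u1 u2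
        rw [ha] at u1
        rw [hb] at u2
        have u3 : θ ^ 2 ≤ θ := by nlinarith
        linarith
    _ ≤ 4 * (2 * D * volume.real (Metric.ball x₀ r)) + volume.real (Metric.ball x₀ r) * (η / 2) := by
        rw [integral_add i3 (isob_int continuous_const x₀ r), integral_const_mul, setIntegral_const, smul_eq_mul]
        gcongr
    _ = _ := by ring

theorem isob_lipg {χ : E3 → ℝ} {N m ε s₀ : ℝ} {Lτ : ℝ≥0} {τ Tt : ℝ → ℝ} {a : E3} (hε : 0 < ε)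
    (h0 : ∀ x, 0 ≤ χ x ∧ χ x ≤ 1) (h1 : ∀ x, ‖∇ χ x‖ ≤ N) (h2 : ∀ x y, |χ x - χ y| ≤ N * ‖x - y‖)
    (h3 : ∀ x y, ‖∇ χ x - ∇ χ y‖ ≤ N * ‖x - y‖) (hT : ∀ s, HasDerivAt Tt (τ s) s) (hτ : LipschitzWith Lτ τ)
    (hτ1 : ∀ s, |τ s| ≤ 1) (hT1 : ∀ s, |Tt s| ≤ 1) (ha : ‖a‖ ≤ m) (x y : E3) :
    ‖((χ x * τ (⟪ε⁻¹ • a, x⟫ + s₀)) • a + (ε * Tt (⟪ε⁻¹ • a, x⟫ + s₀)) • ∇ χ x) -
      ((χ y * τ (⟪ε⁻¹ • a, y⟫ + s₀)) • a + (ε * Tt (⟪ε⁻¹ • a, y⟫ + s₀)) • ∇ χ y)‖ ≤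
      (N * m + 1 * (Lτ * (ε⁻¹ * m) * m) + (m * N + ε * N)) * ‖x - y‖ := by
  have hl : |⟪ε⁻¹ • a, x⟫ + s₀ - (⟪ε⁻¹ • a, y⟫ + s₀)| ≤ ε⁻¹ * m * ‖x - y‖ := by
    rw [add_sub_add_right_eq_sub, ← inner_sub_right]
    refine (abs_real_inner_le_norm _ _).trans (mul_le_mul_of_nonneg_right ?_ (norm_nonneg _))
    rw [norm_smul, norm_inv, Real.norm_of_nonneg hε.le]
    gcongr
  have hTL : LipschitzWith 1 Tt := lipschitzWith_of_nnnorm_deriv_le (fun s => (hT s).differentiableAt) fun s => by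
    rw [(hT s).deriv]
    exact_mod_cast hτ1 s
  have k1 := hτ.dist_le_mul (⟪ε⁻¹ • a, x⟫ + s₀) (⟪ε⁻¹ • a, y⟫ + s₀)
  have k2 := hTL.dist_le_mul (⟪ε⁻¹ • a, x⟫ + s₀) (⟪ε⁻¹ • a, y⟫ + s₀)
  rw [Real.dist_eq, Real.dist_eq] at k1 k2
  rw [NNReal.coe_one, one_mul] at k2
  have q1 := isob_lip (p := χ) (q := fun x => τ (⟪ε⁻¹ • a, x⟫ + s₀) • a) (B := Lτ * (ε⁻¹ * m) * m) (P := 1) (Q := m)
    (h2 x y) (by
      rw [← sub_smul, norm_smul, Real.norm_eq_abs, mul_right_comm, mul_assoc (Lτ : ℝ)]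
      exact mul_le_mul (k1.trans (mul_le_mul_of_nonneg_left hl Lτ.coe_nonneg)) ha (norm_nonneg _)
        (mul_nonneg Lτ.coe_nonneg ((abs_nonneg _).trans hl)))
    (abs_le.2 ⟨by linarith [(h0 y).1], (h0 y).2⟩) (by
      rw [norm_smul, Real.norm_eq_abs, ← one_mul m]
      exact mul_le_mul (hτ1 _) ha (norm_nonneg _) zero_le_one)
  have q2 := isob_lip (p := fun x => ε * Tt (⟪ε⁻¹ • a, x⟫ + s₀)) (q := ∇ χ) (A := m) (P := ε) (by
      rw [← mul_sub, abs_mul, abs_of_pos hε, ← le_inv_mul_iff₀ hε, ← mul_assoc]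
      exact k2.trans hl) (h3 x y) (by
      rw [abs_mul, abs_of_pos hε]
      exact mul_le_of_le_one_right hε.le (hT1 _)) (h1 x)
  rw [add_sub_add_comm, add_mul _ (m * N + ε * N), mul_smul, mul_smul]
  exact (norm_add_le _ _).trans (add_le_add q1 q2)

/-- Take `a, b, t₁, t₂` from `seg`, `τ, Tt` from `prof`, a bump `χ` (`ContDiffBump x₀`, `rOut < r`, `rIn` close to `r`),
`f x = ε χ x * Tt (⟪a, x⟫ / ε + s₀)`, `dJ = (⟪∇f, a⟫ • b - ⟪∇f, b⟫ • a) / omg E₀ J₀` (`integral_sym`),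
`E' = E₀ + χ τ a`, `J' = J₀ + χ τ b`.  `ε` depends only on `η`, `χ`, `w₀`, `w₁`.  The phase `s₀` comes from
`exists_phase` for `Θ = omg τ² / (dfc + η') + (t₂ - τ) (τ - t₁) / η'` (mean `≤ 2`). -/
theorem ball_step (x₀ : E3) {r η w₀ w₁ : ℝ} (hr : 0 < r) (hη : 0 < η) (hw₀ : 0 < w₀) :
    ∃ L : ℝ≥0, ∀ E₀ J₀ : E3, w₀ ≤ omg E₀ J₀ → omg E₀ J₀ ≤ w₁ →
      ∃ (f : E3 → ℝ) (dJ E' J' : E3 → E3), Test (Metric.ball x₀ r) f ∧ LipschitzWith L (∇ f) ∧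
        LipschitzWith L dJ ∧ (∀ x, x ∉ Metric.ball x₀ r → dJ x = 0) ∧ WD univ dJ 0 ∧ Continuous E' ∧
        Continuous J' ∧ (∀ x, ‖E₀ + ∇ f x - E' x‖ ≤ η ∧ ‖J₀ + dJ x - J' x‖ ≤ η ∧
          ⟪E' x, J' x⟫ = ⟪E₀, J₀⟫ ∧ omg (E' x) (J' x) = omg E₀ J₀) ∧
        ∫ x in Metric.ball x₀ r, dfc (E' x) (J' x) ≤ η * volume.real (Metric.ball x₀ r) ∧
        ∫ x in Metric.ball x₀ r, (‖∇ f x‖ ^ 2 + ‖dJ x‖ ^ 2) ≤
          (8 * dfc E₀ J₀ + η) * volume.real (Metric.ball x₀ r) := by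
  set m := |w₁| + 1 with hm
  have hm1 : 1 ≤ m := le_add_of_nonneg_left (abs_nonneg _)
  set η' := η / (16 * m) with hη'
  have hη0 : 0 < η' := by positivity
  have hη1 : m * η' = η / 16 := by rw [hη']; field_simp
  have hη2 : η' ≤ η / 16 := by nlinarith
  obtain ⟨χ, N, Z, hN, hχ, c0, c1, c2, c3, hZ, hZB, hZv, hZ1⟩ := isob_cut x₀ hr hη0
  obtain ⟨Lτ, hprof⟩ := prof hη0
  set θ := min 1 (η / 20) with hθ
  have hθ0 : 0 < θ := lt_min one_pos (by positivity)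
  set ε := θ / (N + 1) with hε
  have hε0 : 0 < ε := by positivity
  have hεN : ε * N ≤ θ := by
    rw [hε, div_mul_eq_mul_div, div_le_iff₀ (by positivity)]
    nlinarith
  set L := N * m + 1 * (Lτ * (ε⁻¹ * m) * m) + (m * N + ε * N) with hL
  have hL0 : 0 ≤ L := by positivity
  refine ⟨NNReal.mk (2 * L) (by positivity), fun E₀ J₀ hw hw' => ?_⟩
  obtain ⟨a, b, t₁, t₂, k1, k2, k3, k4, hab, ha, hb, hD, hseg⟩ := seg E₀ J₀
  obtain ⟨τ, Tt, hT, hτL, hτm, hT1, hτp, i1, i2⟩ := hprof t₁ t₂ k1 k2 k3 k4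
  have hD0 := dfc_nonneg E₀ J₀
  set W := omg E₀ J₀ with hW
  have hW0 : 0 < W := hw₀.trans_le hw
  have hWm : W ≤ m := by linarith [le_abs_self w₁]
  have ham : ‖a‖ ≤ m := abs_le_of_sq_le_sq' (show ‖a‖ ^ 2 ≤ m ^ 2 by nlinarith) (by linarith) |>.2
  have hτc := hτL.continuous
  have hτ1 : ∀ s, |τ s| ≤ 1 := fun s => abs_le.2 ⟨k1.trans (hτm s).1, (hτm s).2.trans k4⟩
  have hφ : ∀ t ∈ Icc t₁ t₂, 0 ≤ (t₂ - t) * (t - t₁) := fun t ht =>
    mul_nonneg (sub_nonneg.2 ht.2) (sub_nonneg.2 ht.1)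
  obtain ⟨s₀, j1, j2⟩ := isob_phase (φ₁ := fun s => W * τ s ^ 2) (φ₂ := fun s => (t₂ - τ s) * (τ s - t₁))
    (by fun_prop) (by fun_prop) (fun s => by simp only [hτp s]) (fun s => by simp only [hτp s])
    (fun s => by positivity) (fun s => hφ _ (hτm s)) (m₁ := dfc E₀ J₀ + η') (by positivity) hη0 (by
      rw [intervalIntegral.integral_const_mul]
      nlinarith [mul_le_mul_of_nonneg_left i2 hW0.le]) i1 x₀ r (ε⁻¹ • a)
  have hTc : ContDiff ℝ 1 Tt := contDiff_one_iff_deriv.2 ⟨fun s => (hT s).differentiableAt,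
    (funext fun s => (hT s).deriv : deriv Tt = τ).symm ▸ hτc⟩
  have hg := isob_grad hχ.differentiable hT hε0 a s₀
  have hlip := isob_lipg (s₀ := s₀) hε0 c0 c1 c2 c3 hT hτL hτ1 hT1 ham
  simp only [← hg] at hlip
  rw [← hL] at hlip
  have hf : Test (Metric.ball x₀ r) fun x => χ x * (ε * Tt (⟪ε⁻¹ • a, x⟫ + s₀)) :=
    hχ.mul Metric.isOpen_ball (contDiff_const.mul (hTc.comp
      ((contDiff_const.inner ℝ contDiff_id).add contDiff_const))).contDiffOn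
  generalize (fun x => χ x * (ε * Tt (⟪ε⁻¹ • a, x⟫ + s₀))) = f at hg hlip hf
  have hχc := hχ.c1.continuous
  have hlc : Continuous fun x : E3 => τ (⟪ε⁻¹ • a, x⟫ + s₀) := by fun_prop
  have hR : ∀ x, ‖∇ f x - (χ x * τ (⟪ε⁻¹ • a, x⟫ + s₀)) • a‖ ≤ θ := fun x => by
    rw [hg, add_sub_cancel_left, norm_smul, Real.norm_eq_abs, abs_mul, abs_of_pos hε0]
    exact (mul_le_mul (mul_le_of_le_one_right hε0.le (hT1 _)) (c1 x) (norm_nonneg _) hε0.le).trans hεN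
  have hm' : ∀ x, τ (⟪ε⁻¹ • a, x⟫ + s₀) ∈ Icc t₁ t₂ := fun x => hτm _
  obtain ⟨p, hp⟩ : ∃ p : E3 → ℝ, ∀ x, τ (⟪ε⁻¹ • a, x⟫ + s₀) = p x := ⟨_, fun _ => rfl⟩
  simp only [hp] at hlc hR hm' j1 j2
  have hθ1 : θ ≤ 1 := min_le_left _ _
  have hθ2 : θ ≤ η / 20 := min_le_right _ _
  have ht : ∀ x, χ x * p x ∈ Icc t₁ t₂ := fun x => isob_mem (c0 x) (hm' x) k2 k3
  have hR' : ∀ x, ‖isob_rot a b W (∇ f x) - (χ x * p x) • b‖ ≤ 2 * θ := fun x => by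
    rw [← isob_rot_a hW0 ha hab, isob_rot_sub]
    exact (isob_rot_le hW0 ha hb _).trans (by linarith [hR x])
  have hE : Continuous fun x => E₀ + (χ x * p x) • a := by fun_prop
  have hJ : Continuous fun x => J₀ + (χ x * p x) • b := by fun_prop
  have hL2 : LipschitzWith (NNReal.mk (2 * L) (by positivity)) fun x => isob_rot a b W (∇ f x) :=
    LipschitzWith.of_dist_le_mul fun x y => by
      rw [dist_eq_norm, dist_eq_norm, isob_rot_sub, NNReal.coe_mk, mul_assoc]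
      exact (isob_rot_le hW0 ha hb _).trans (by linarith [hlip x y])
  have hV : 0 ≤ volume.real (Metric.ball x₀ r) := measureReal_nonneg
  refine ⟨f, fun x => isob_rot a b W (∇ f x), fun x => E₀ + (χ x * p x) • a, fun x => J₀ + (χ x * p x) • b, hf,
    LipschitzWith.of_dist_le_mul fun x y => ?_, hL2, fun x hx => ?_, isob_wd hf a b W, hE, hJ,
    fun x => ⟨?_, ?_, (hseg _ (ht x)).1, (hseg _ (ht x)).2.1⟩, ?_, ?_⟩
  · rw [dist_eq_norm, dist_eq_norm, NNReal.coe_mk]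
    linarith [hlip x y, mul_nonneg hL0 (norm_nonneg (x - y))]
  · simp [isob_rot, (hf.eq_zero hx).2]
  · rw [add_sub_add_left_eq_sub]
    linarith [hR x]
  · rw [add_sub_add_left_eq_sub]
    linarith [hR' x]
  · refine (isob_I1 (continuous_dfc.comp (hE.prodMk hJ)) hlc k1 k4 ht hm' hW0.le hWm hZ hZB hZv hZ1
      (fun x => (hseg _ (ht x)).2.2) j2).trans (mul_le_mul_of_nonneg_right (by linarith) hV)
  · refine (isob_I2 hf.continuous_grad hL2.continuous hlc c0 ha hb hθ0.le hθ1 hθ2 hR hR' j1).trans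
      (mul_le_mul_of_nonneg_right (by linarith) hV)

end Crest.Agent.R83
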