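import Crest.Agent.R83.IsoB

/-!
# R83 TASK IsoC: one step of the convex integration for an equicontinuous family
-/

set_option autoImplicit false

namespace Crest.Agent.R83

open MeasureTheory Set Filter Topology
open scoped Gradient RealInnerProductSpace ENNReal NNReal ContDiff

theorem isoc_uc {g : E3 × E3 → ℝ} (hg : Continuous g) (ρ : ℝ) {θ : ℝ} (hθ : 0 < θ) :
    ∃ δ : ℝ, 0 < δ ∧ ∀ E J E' J' : E3, ‖E‖ ≤ ρ → ‖J‖ ≤ ρ → ‖E' - E‖ ≤ δ → ‖J' - J‖ ≤ δ →
      |g (E', J') - g (E, J)| ≤ θ := by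
  obtain ⟨δ, hδ, h⟩ := Metric.uniformContinuousOn_iff_le.1
    ((isCompact_closedBall (0 : E3 × E3) (ρ + 1)).uniformContinuousOn_of_continuous hg.continuousOn) θ hθ
  refine ⟨min δ 1, by positivity, fun E J E' J' hE hJ hE' hJ' => h _ ?_ _ ?_ ?_⟩
  · rw [mem_closedBall_zero_iff, Prod.norm_mk, max_le_iff]
    constructor
    · linarith [norm_le_norm_add_norm_sub' E' E, min_le_right δ 1]
    · linarith [norm_le_norm_add_norm_sub' J' J, min_le_right δ 1]
  · rw [mem_closedBall_zero_iff, Prod.norm_mk, max_le_iff]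
    constructor <;> linarith
  · rw [Prod.dist_eq, dist_eq_norm, dist_eq_norm, max_le_iff]
    exact ⟨hE'.trans (min_le_left _ _), hJ'.trans (min_le_left _ _)⟩

theorem isoc_norm {E J : E3} {B : ℝ} (h : omg E J ≤ B) : ‖E‖ ≤ √B ∧ ‖J‖ ≤ √B := by
  have h1 := dfc_nonneg E J
  rw [omg] at h
  exact ⟨Real.le_sqrt_of_sq_le (by nlinarith [sq_nonneg ‖J‖]),
    Real.le_sqrt_of_sq_le (by nlinarith [sq_nonneg ‖E‖])⟩

theorem isoc_dfc_le (E J : E3) : 2 * dfc E J ≤ omg E J := by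
  rw [omg]
  nlinarith [sq_nonneg ‖E‖, sq_nonneg ‖J‖]

theorem isoc_le_omg (E J : E3) : ⟪E, J⟫ ≤ omg E J := by
  have h1 := dfc_nonneg E J
  have h2 := real_inner_le_norm E J
  rw [omg]
  nlinarith [sq_nonneg (‖E‖ - ‖J‖), norm_nonneg E, norm_nonneg J]

theorem isoc_int {A : Set E3} (hA : MeasurableSet A) (hfin : volume A ≠ ⊤) {E J : E3 → E3}
    (hE : ContinuousOn E A) (hJ : ContinuousOn J A) {B : ℝ} (h : ∀ x ∈ A, omg (E x) (J x) ≤ B) :
    IntegrableOn (fun x => dfc (E x) (J x)) A volume := by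
  refine Integrable.mono' (integrableOn_const (C := B) hfin)
    ((continuous_dfc.comp_continuousOn (hE.prodMk hJ)).aestronglyMeasurable hA) ?_
  filter_upwards [ae_restrict_mem hA] with x hx
  rw [Real.norm_eq_abs, abs_of_nonneg (dfc_nonneg _ _)]
  linarith [isoc_dfc_le (E x) (J x), h x hx, dfc_nonneg (E x) (J x)]

/-- the step in one ball -/
theorem isoc_ball {R P η ϑ θ δ : ℝ} (hR : 0 < R) (hη : 0 < η) (hϑ : 0 < ϑ) (hθ : 0 < θ) (hδ : 0 < δ)
    (h1 : θ ≤ ϑ / 2) (h2 : (R + 2) * θ ≤ η * ϑ / 2) (hδθ : δ ≤ θ)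
    (hu : ∀ E J E' J' : E3, omg E J ≤ R * P → ‖E' - E‖ ≤ 2 * δ → ‖J' - J‖ ≤ 2 * δ →
      |⟪E', J'⟫ - ⟪E, J⟫| ≤ θ ∧ |dfc E' J' - dfc E J| ≤ θ ∧ |omg E' J' - omg E J| ≤ θ)
    (x₀ : E3) {r : ℝ} (hr : 0 < r) : ∃ L : ℝ≥0, ∀ E J : E3 → E3, ContinuousOn E (Metric.ball x₀ r) →
      ContinuousOn J (Metric.ball x₀ r) → (∀ x ∈ Metric.ball x₀ r, ‖E x - E x₀‖ ≤ δ ∧ ‖J x - J x₀‖ ≤ δ ∧
        omg (E x) (J x) ≤ R * ⟪E x, J x⟫ ∧ ⟪E x, J x⟫ ≤ P) →
      ∃ (f : E3 → ℝ) (dJ : E3 → E3), Test (Metric.ball x₀ r) f ∧ LipschitzWith L (∇ f) ∧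
        LipschitzWith L dJ ∧ (∀ x, x ∉ Metric.ball x₀ r → dJ x = 0) ∧ WD univ dJ 0 ∧
        (∀ x ∈ Metric.ball x₀ r, omg (E x + ∇ f x) (J x + dJ x) ≤ (R + η) * ⟪E x + ∇ f x, J x + dJ x⟫ ∧
          |⟪E x + ∇ f x, J x + dJ x⟫ - ⟪E x, J x⟫| ≤ η * ⟪E x, J x⟫) ∧
        ∫ x in Metric.ball x₀ r, dfc (E x + ∇ f x) (J x + dJ x) ≤
          (2 * θ + R * ϑ) * volume.real (Metric.ball x₀ r) ∧
        ∫ x in Metric.ball x₀ r, (‖∇ f x‖ ^ 2 + ‖dJ x‖ ^ 2) ≤
          8 * (∫ x in Metric.ball x₀ r, dfc (E x) (J x)) + 9 * θ * volume.real (Metric.ball x₀ r) := by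
  obtain ⟨L, hL⟩ := ball_step x₀ (w₁ := R * P) hr hδ hϑ
  refine ⟨L, fun E J hE hJ h => ?_⟩
  have hB : MeasurableSet (Metric.ball x₀ r) := measurableSet_ball
  have hfin : volume (Metric.ball x₀ r) ≠ ⊤ := measure_ball_ne_top
  have hV : 0 ≤ volume.real (Metric.ball x₀ r) := measureReal_nonneg
  have hRP : ∀ x ∈ Metric.ball x₀ r, omg (E x) (J x) ≤ R * P := fun x hx =>
    (h x hx).2.2.1.trans (mul_le_mul_of_nonneg_left (h x hx).2.2.2 hR.le)
  have h0 := h x₀ (Metric.mem_ball_self hr)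
  have h0' := hRP x₀ (Metric.mem_ball_self hr)
  have hx0 : ∀ x ∈ Metric.ball x₀ r, _ := fun x hx =>
    hu (E x₀) (J x₀) (E x) (J x) h0' (by linarith [(h x hx).1]) (by linarith [(h x hx).2.1])
  have hI := isoc_int hB hfin hE hJ hRP
  by_cases hc : ϑ ≤ ⟪E x₀, J x₀⟫
  · obtain ⟨f, dJ, E', J', hf, hf', hd, hd0, hw, hE', hJ', hp, hi1, hi2⟩ :=
      hL (E x₀) (J x₀) (hc.trans (isoc_le_omg _ _)) h0'
    have hx1 : ∀ x ∈ Metric.ball x₀ r, _ := fun x hx =>
      hu (E' x) (J' x) (E x + ∇ f x) (J x + dJ x) ((hp x).2.2.2.trans_le h0')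
        (by
          have := norm_add_le (E x - E x₀) (E x₀ + ∇ f x - E' x)
          rw [show E x - E x₀ + (E x₀ + ∇ f x - E' x) = E x + ∇ f x - E' x by abel] at this
          linarith [(h x hx).1, (hp x).1])
        (by
          have := norm_add_le (J x - J x₀) (J x₀ + dJ x - J' x)
          rw [show J x - J x₀ + (J x₀ + dJ x - J' x) = J x + dJ x - J' x by abel] at this
          linarith [(h x hx).2.1, (hp x).2.1])
    refine ⟨f, dJ, hf, hf', hd, hd0, hw, fun x hx => ?_, ?_, ?_⟩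
    · obtain ⟨a1, -, a2⟩ := hx1 x hx
      obtain ⟨a3, -, -⟩ := hx0 x hx
      rw [(hp x).2.2.1] at a1
      rw [(hp x).2.2.2] at a2
      obtain ⟨a4, a5⟩ := abs_le.1 a1
      obtain ⟨a6, a7⟩ := abs_le.1 a3
      have a8 := (abs_le.1 a2).2
      have a9 := h0.2.2.1
      have b1 : η * (ϑ / 2) ≤ η * ⟪E x + ∇ f x, J x + dJ x⟫ :=
        mul_le_mul_of_nonneg_left (by linarith) hη.le
      have b2 : η * (ϑ / 2) ≤ η * ⟪E x, J x⟫ := mul_le_mul_of_nonneg_left (by linarith) hη.le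
      have b3 : R * ⟪E x₀, J x₀⟫ ≤ R * (⟪E x + ∇ f x, J x + dJ x⟫ + θ) :=
        mul_le_mul_of_nonneg_left (by linarith) hR.le
      have b4 : 0 < R * θ := by positivity
      refine ⟨by linarith, abs_le.2 ⟨by linarith, by linarith⟩⟩
    · have hI' := isoc_int hB hfin hE'.continuousOn hJ'.continuousOn
        fun x _ => (hp x).2.2.2.trans_le h0'
      have hI'' := isoc_int hB hfin (hE.add hf'.continuous.continuousOn) (hJ.add hd.continuous.continuousOn)
        (B := R * P + θ) fun x hx => by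
          have := (abs_le.1 (hx1 x hx).2.2).2
          rw [(hp x).2.2.2] at this
          simp only [Pi.add_apply]
          linarith
      have h3 := setIntegral_mono_on hI'' (hI'.add (integrableOn_const (C := θ) hfin)) hB fun x hx => by
        have := (abs_le.1 (hx1 x hx).2.1).2
        simp only [Pi.add_apply]
        linarith
      simp only [Pi.add_apply] at h3
      rw [integral_add hI' (integrableOn_const hfin), setIntegral_const, smul_eq_mul] at h3
      nlinarith [mul_nonneg (mul_pos hR hϑ).le hV, mul_le_mul_of_nonneg_right hδθ hV]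
    · have h3 := setIntegral_mono_on (integrableOn_const (C := dfc (E x₀) (J x₀) - θ) hfin) hI hB
        fun x hx => by linarith [(abs_le.1 (hx0 x hx).2.1).1]
      rw [setIntegral_const, smul_eq_mul] at h3
      nlinarith [mul_le_mul_of_nonneg_right hδθ hV]
  · have hg : ∇ (fun _ : E3 => (0 : ℝ)) = fun _ => 0 := funext fun x => gradient_fun_const x 0
    refine ⟨fun _ => 0, fun _ => 0, Test.zero _, ?_, (LipschitzWith.const' _), fun _ _ => rfl,
      fun ψ _ => by simp, fun x hx => ?_, ?_, ?_⟩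
    · rw [hg]
      exact LipschitzWith.const' _
    · have a1 := (h x hx).2.2.1
      have a2 : 0 ≤ ⟪E x, J x⟫ := by
        refine nonneg_of_mul_nonneg_right (le_trans ?_ a1) hR
        linarith [isoc_dfc_le (E x) (J x), dfc_nonneg (E x) (J x)]
      simp only [hg, add_zero, sub_self, abs_zero]
      exact ⟨by nlinarith, by positivity⟩
    · simp only [hg, add_zero]
      have h3 := setIntegral_mono_on hI (integrableOn_const (C := R * ϑ) hfin) hB fun x hx => by
        have a1 := (abs_le.1 (hx0 x hx).1).2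
        have a2 := (h x hx).2.2.1
        have a3 : R * ⟪E x, J x⟫ ≤ R * (2 * ϑ) := mul_le_mul_of_nonneg_left (by linarith) hR.le
        linarith [isoc_dfc_le (E x) (J x)]
      rw [setIntegral_const, smul_eq_mul] at h3
      nlinarith [mul_nonneg hθ.le hV]
    · simp only [hg, norm_zero, ne_eq, OfNat.ofNat_ne_zero, not_false_eq_true, zero_pow, add_zero,
        integral_zero]
      have := setIntegral_nonneg (μ := volume) hB fun x _ => dfc_nonneg (E x) (J x)
      positivity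

theorem isoc_test_sum {κ : Type} (s : Finset κ) {U : Set E3} {f : κ → E3 → ℝ} (h : ∀ i, Test U (f i)) :
    Test U (fun x => ∑ i ∈ s, f i x) ∧ ∀ x, ∇ (fun x => ∑ i ∈ s, f i x) x = ∑ i ∈ s, ∇ (f i) x := by
  classical
  induction s using Finset.induction_on with
  | empty => exact ⟨by simpa using Test.zero U, fun x => by simp⟩
  | insert a s ha ih =>
    simp only [Finset.sum_insert ha]
    exact ⟨(h a).add ih.1, fun x => by
      rw [grad_add ((h a).differentiable x) (ih.1.differentiable x), ih.2]⟩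

theorem isoc_wd_sum {κ : Type} (s : Finset κ) {g : κ → E3 → E3} (h : ∀ i, WD univ (g i) 0)
    (hc : ∀ i, Continuous (g i)) : WD univ (fun x => ∑ i ∈ s, g i x) 0 := by
  classical
  induction s using Finset.induction_on with
  | empty => exact fun ψ _ => by simp
  | insert a s ha ih =>
    simp only [Finset.sum_insert ha]
    exact WD.add_cont isOpen_univ (h a) ih (hc a).continuousOn
      (continuous_finsetSum s fun i _ => hc i).continuousOn

theorem isoc_eqc {ι κ : Type} [Fintype κ] {U : Set E3} {w : ι → E3 → E3} (hw : Eqc U w) {L : κ → ℝ≥0}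
    {g : ι → κ → E3 → E3} (hg : ∀ z i, LipschitzWith (L i) (g z i)) :
    Eqc U fun z x => w z x + ∑ i, g z i x := by
  intro x hx ε hε
  obtain ⟨δ, hδ, h⟩ := hw x hx (ε / 2) (by positivity)
  have hS : 0 ≤ ∑ i, (L i : ℝ) := Finset.sum_nonneg fun i _ => (L i).2
  refine ⟨min δ (ε / 2 / (∑ i, (L i : ℝ) + 1)), by positivity, fun z x' hx' => ?_⟩
  have h1 := h z x' (hx'.trans_le (min_le_left _ _))
  have h2 : ‖∑ i, g z i x' - ∑ i, g z i x‖ ≤ (∑ i, (L i : ℝ)) * dist x' x := by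
    rw [← Finset.sum_sub_distrib, Finset.sum_mul]
    refine (norm_sum_le _ _).trans (Finset.sum_le_sum fun i _ => ?_)
    rw [← dist_eq_norm]
    exact (hg z i).dist_le_mul _ _
  have h3 := (lt_div_iff₀ (by positivity)).1 (hx'.trans_le (min_le_right _ _))
  have h4 := norm_add_le (w z x' - w z x) (∑ i, g z i x' - ∑ i, g z i x)
  rw [show w z x' - w z x + (∑ i, g z i x' - ∑ i, g z i x) =
    w z x' + ∑ i, g z i x' - (w z x + ∑ i, g z i x) by abel] at h4
  nlinarith [dist_nonneg (x := x') (y := x)]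

/-- All states lie in the compact set `‖E‖² + ‖J‖² ≤ R P + 1`, where `⟪·,·⟫`, `dfc`, `omg` are uniformly continuous.
Fix a threshold `ϑ` with `R ϑ |U|` small, then a small `η'`, radii `R x` from `Eqc` for `η'`, balls from
`exists_balls`.  In a ball with centre `x₀` and `⟪E z x₀, J z x₀⟫ ≥ ϑ` use `ball_step` (`2 ϑ ≤ omg ≤ R P`); in the
other balls and off the balls do nothing (`2 dfc ≤ omg ≤ R ⟪E, J⟫`). -/
theorem iso_step {ι : Type} {U : Set E3} (hU : IsOpen U) (hfin : volume U ≠ ⊤) {E J : ι → E3 → E3}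
    (hE : Eqc U E) (hJ : Eqc U J) {R P η : ℝ} (hR : 0 < R) (hη : 0 < η)
    (h : ∀ z, ∀ x ∈ U, omg (E z x) (J z x) ≤ R * ⟪E z x, J z x⟫ ∧ ⟪E z x, J z x⟫ ≤ P) :
    ∃ (dv : ι → E3 → ℝ) (dJ : ι → E3 → E3), Eqc U (fun z x => E z x + ∇ (dv z) x) ∧
      Eqc U (fun z x => J z x + dJ z x) ∧ ∀ z, Test U (dv z) ∧ MemLp (dJ z) 2 volume ∧
        (∀ x, x ∉ U → dJ z x = 0) ∧ WD univ (dJ z) 0 ∧
        (∀ x ∈ U, omg (E z x + ∇ (dv z) x) (J z x + dJ z x) ≤
            (R + η) * ⟪E z x + ∇ (dv z) x, J z x + dJ z x⟫ ∧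
          |⟪E z x + ∇ (dv z) x, J z x + dJ z x⟫ - ⟪E z x, J z x⟫| ≤ η * ⟪E z x, J z x⟫) ∧
        ∫ x in U, dfc (E z x + ∇ (dv z) x) (J z x + dJ z x) ≤ η ∧
        ∫ x, (‖∇ (dv z) x‖ ^ 2 + ‖dJ z x‖ ^ 2) ≤ 8 * (∫ x in U, dfc (E z x) (J z x)) + η := by
  classical
  set V := volume.real U with hV
  have hV0 : 0 ≤ V := measureReal_nonneg
  set ϑ := η / (4 * R * (V + 1)) with hϑ
  have hϑ0 : 0 < ϑ := by positivity
  set θ := min (min (ϑ / 2) (η * ϑ / 2 / (R + 2))) (η / (9 * (V + 1))) with hθ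
  have hθ0 : 0 < θ := by positivity
  have hθV : 9 * θ * V ≤ η := by
    have := (le_div_iff₀ (by positivity)).1 (min_le_right _ _ : θ ≤ η / (9 * (V + 1)))
    nlinarith
  have hϑV : R * ϑ * V ≤ η / 4 := by
    have : ϑ * (4 * R * (V + 1)) = η := div_mul_cancel₀ _ (by positivity)
    nlinarith [mul_pos hR hϑ0]
  obtain ⟨δ₁, hδ₁, hu₁⟩ := isoc_uc (g := fun p => ⟪p.1, p.2⟫) continuous_inner √(R * P) hθ0
  obtain ⟨δ₂, hδ₂, hu₂⟩ := isoc_uc continuous_dfc √(R * P) hθ0
  obtain ⟨δ₃, hδ₃, hu₃⟩ := isoc_uc continuous_omg √(R * P) hθ0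
  set δ := min (min δ₁ (min δ₂ δ₃) / 2) θ with hδ
  have hδ0 : 0 < δ := by positivity
  have hδ' : 2 * δ ≤ δ₁ ∧ 2 * δ ≤ δ₂ ∧ 2 * δ ≤ δ₃ := by
    have a1 : δ ≤ min δ₁ (min δ₂ δ₃) / 2 := min_le_left _ _
    have a2 := min_le_left δ₁ (min δ₂ δ₃)
    have a3 := min_le_right δ₁ (min δ₂ δ₃)
    exact ⟨by linarith, by linarith [min_le_left δ₂ δ₃], by linarith [min_le_right δ₂ δ₃]⟩
  have hball := isoc_ball (P := P) hR hη hϑ0 hθ0 hδ0 ((min_le_left _ _).trans (min_le_left _ _))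
    (by
      have := (le_div_iff₀ (by positivity)).1
        ((min_le_left _ _).trans (min_le_right _ _) : θ ≤ η * ϑ / 2 / (R + 2))
      linarith) (min_le_right _ _) fun E J E' J' h0 h1 h2 =>
      ⟨hu₁ E J E' J' (isoc_norm h0).1 (isoc_norm h0).2 (h1.trans hδ'.1) (h2.trans hδ'.1),
        hu₂ E J E' J' (isoc_norm h0).1 (isoc_norm h0).2 (h1.trans hδ'.2.1) (h2.trans hδ'.2.1),
        hu₃ E J E' J' (isoc_norm h0).1 (isoc_norm h0).2 (h1.trans hδ'.2.2) (h2.trans hδ'.2.2)⟩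
  choose! r₁ hr₁ hE' using fun x hx => hE x hx δ hδ0
  choose! r₂ hr₂ hJ' using fun x hx => hJ x hx δ hδ0
  obtain ⟨t, r, ht, hdisj, hvol⟩ := exists_balls hU hfin (R := fun x => min (r₁ x) (r₂ x))
    (fun x hx => lt_min (hr₁ x hx) (hr₂ x hx)) (η := ENNReal.ofReal (η / (2 * (|R * P| + 1))))
    (ENNReal.ofReal_pos.2 (by positivity))
  let b : t → Set E3 := fun i => Metric.ball i.1 (r i.1)
  have hbU : ∀ i, b i ⊆ U := fun i => Metric.ball_subset_closedBall.trans (ht _ i.2).2.2.2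
  have hbd : Pairwise (Function.onFun Disjoint b) := fun i j hij =>
    (hdisj i.2 j.2 fun h' => hij (Subtype.ext h')).mono Metric.ball_subset_closedBall
      Metric.ball_subset_closedBall
  have hbm : ∀ i, MeasurableSet (b i) := fun i => measurableSet_ball
  choose L hL using fun i : t => hball i.1 (ht _ i.2).2.1
  choose f g hf hf' hg hg0 hw hp hi1 hi2 using fun z (i : t) => hL i (E z) (J z)
    ((hE.continuousOn z).mono (hbU i)) ((hJ.continuousOn z).mono (hbU i)) fun x hx =>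
      ⟨hE' _ (ht _ i.2).1 z x ((hx.trans (ht _ i.2).2.2.1).trans_le (min_le_left _ _)),
        hJ' _ (ht _ i.2).1 z x ((hx.trans (ht _ i.2).2.2.1).trans_le (min_le_right _ _)),
        h z x (hbU i hx)⟩
  have hs := fun z => isoc_test_sum Finset.univ fun i => (hf z i).mono (hbU i)
  have hin : ∀ z i, ∀ x ∈ b i, ∇ (fun x => ∑ j, f z j x) x = ∇ (f z i) x ∧ ∑ j, g z j x = g z i x := by
    intro z i x hx
    have h1 : ∀ j, j ≠ i → x ∉ b j := fun j hj h' => Set.disjoint_left.1 (hbd hj) h' hx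
    rw [(hs z).2]
    exact ⟨Finset.sum_eq_single i (fun j _ hj => ((hf z j).eq_zero (h1 j hj)).2) (by simp),
      Finset.sum_eq_single i (fun j _ hj => hg0 z j x (h1 j hj)) (by simp)⟩
  have hout : ∀ z x, x ∉ ⋃ i, b i → ∇ (fun x => ∑ j, f z j x) x = 0 ∧ ∑ j, g z j x = 0 := by
    intro z x hx
    rw [mem_iUnion, not_exists] at hx
    rw [(hs z).2]
    exact ⟨Finset.sum_eq_zero fun j _ => ((hf z j).eq_zero (hx j)).2,
      Finset.sum_eq_zero fun j _ => hg0 z j x (hx j)⟩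
  have hAU : (⋃ i, b i) ⊆ U := iUnion_subset hbU
  have hA : MeasurableSet (⋃ i, b i) := MeasurableSet.iUnion hbm
  have hsum : ∑ i, volume.real (b i) ≤ V := by
    rw [← measureReal_iUnion_fintype hbd hbm fun i => measure_ball_ne_top]
    exact measureReal_mono hAU hfin
  have hE1 : Eqc U fun z x => E z x + ∇ (fun x => ∑ j, f z j x) x := by
    simp only [fun z => (hs z).2]
    exact isoc_eqc hE hf'
  have hJ1 := isoc_eqc hJ hg
  have hRP : ∀ z, ∀ x ∈ U, omg (E z x) (J z x) ≤ R * P := fun z x hx =>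
    (h z x hx).1.trans (mul_le_mul_of_nonneg_left (h z x hx).2 hR.le)
  have hnn : ∀ z, ∀ x ∈ U, 0 ≤ ⟪E z x, J z x⟫ := fun z x hx => by
    refine nonneg_of_mul_nonneg_right (le_trans ?_ (h z x hx).1) hR
    linarith [isoc_dfc_le (E z x) (J z x), dfc_nonneg (E z x) (J z x)]
  have hgc : ∀ z, Continuous fun x => ∑ j, g z j x := fun z =>
    continuous_finsetSum _ fun i _ => (hg z i).continuous
  refine ⟨fun z x => ∑ j, f z j x, fun z x => ∑ j, g z j x, hE1, hJ1, fun z => ?_⟩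
  have hpt : ∀ x ∈ U, omg (E z x + ∇ (fun x => ∑ j, f z j x) x) (J z x + ∑ j, g z j x) ≤
      (R + η) * ⟪E z x + ∇ (fun x => ∑ j, f z j x) x, J z x + ∑ j, g z j x⟫ ∧
      |⟪E z x + ∇ (fun x => ∑ j, f z j x) x, J z x + ∑ j, g z j x⟫ - ⟪E z x, J z x⟫| ≤
        η * ⟪E z x, J z x⟫ := by
    intro x hx
    by_cases hx' : x ∈ ⋃ i, b i
    · obtain ⟨i, hi⟩ := mem_iUnion.1 hx'
      rw [(hin z i x hi).1, (hin z i x hi).2]
      exact hp z i x hi
    · rw [(hout z x hx').1, (hout z x hx').2, add_zero, add_zero, sub_self, abs_zero]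
      have := hnn z x hx
      exact ⟨by nlinarith [(h z x hx).1], by positivity⟩
  have hI := isoc_int hU.measurableSet hfin (hE.continuousOn z) (hJ.continuousOn z) (hRP z)
  refine ⟨(hs z).1, ?_, fun x hx => (hout z x fun h' => hx (hAU h')).2,
    isoc_wd_sum _ (hw z) fun i => (hg z i).continuous, hpt, ?_, ?_⟩
  · refine (hgc z).memLp_of_hasCompactSupport (HasCompactSupport.intro
      (K := ⋃ i : t, Metric.closedBall i.1 (r i.1)) (isCompact_iUnion fun i => isCompact_closedBall _ _)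
      fun x hx => (hout z x fun h' => hx (iUnion_mono (fun i => Metric.ball_subset_closedBall) h')).2)
  · have hI' := isoc_int hU.measurableSet hfin (hE1.continuousOn z) (hJ1.continuousOn z)
      (B := (R + η) * ((1 + η) * P)) fun x hx => (hpt x hx).1.trans (mul_le_mul_of_nonneg_left
        (by nlinarith [(abs_le.1 (hpt x hx).2).2, (h z x hx).2]) (by positivity))
    rw [← integral_inter_add_sdiff hA hI', inter_eq_right.2 hAU,
      integral_iUnion_fintype hbm hbd fun i => hI'.mono_set (hbU i)]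
    have a1 : ∑ i, ∫ x in b i, dfc (E z x + ∇ (fun x => ∑ j, f z j x) x) (J z x + ∑ j, g z j x) ≤
        (2 * θ + R * ϑ) * V := by
      refine le_trans (Finset.sum_le_sum fun i _ => ?_)
        ((Finset.mul_sum _ _ _).symm.trans_le (mul_le_mul_of_nonneg_left hsum (by positivity)))
      refine le_of_eq_of_le (setIntegral_congr_fun (hbm i) fun x hx => ?_) (hi1 z i)
      simp only [(hin z i x hx).1, (hin z i x hx).2]
    have a2 := norm_setIntegral_le_of_norm_le_const (μ := volume) (s := U \ ⋃ i, b i) (C := |R * P|)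
      (f := fun x => dfc (E z x + ∇ (fun x => ∑ j, f z j x) x) (J z x + ∑ j, g z j x))
      ((measure_mono sdiff_subset).trans_lt hfin.lt_top) fun x hx => by
        rw [(hout z x hx.2).1, (hout z x hx.2).2, add_zero, add_zero, Real.norm_eq_abs,
          abs_of_nonneg (dfc_nonneg _ _)]
        linarith [isoc_dfc_le (E z x) (J z x), dfc_nonneg (E z x) (J z x), hRP z x hx.1,
          le_abs_self (R * P)]
    have a3 : volume.real (U \ ⋃ i, b i) ≤ η / (2 * (|R * P| + 1)) := by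
      refine ENNReal.toReal_le_of_le_ofReal (by positivity) (le_of_eq_of_le ?_ hvol)
      simp only [b, iUnion_subtype]
    have a4 := (le_div_iff₀ (by positivity)).1 a3
    have a5 := (le_abs_self _).trans a2
    nlinarith [measureReal_nonneg (μ := volume) (s := U \ ⋃ i, b i)]
  · have hc : Continuous fun x => ‖∇ (fun x => ∑ j, f z j x) x‖ ^ 2 + ‖∑ j, g z j x‖ ^ 2 :=
      ((hs z).1.continuous_grad.norm.pow 2).add ((hgc z).norm.pow 2)
    rw [← setIntegral_eq_integral_of_forall_compl_eq_zero (s := ⋃ i, b i) fun x hx => by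
      beta_reduce; rw [(hout z x hx).1, (hout z x hx).2]; simp, integral_iUnion_fintype hbm hbd fun i =>
        (hc.continuousOn.integrableOn_compact (isCompact_closedBall _ _)).mono_set
          Metric.ball_subset_closedBall]
    have a1 : ∑ i, ∫ x in b i, dfc (E z x) (J z x) ≤ ∫ x in U, dfc (E z x) (J z x) := by
      rw [← integral_iUnion_fintype hbm hbd fun i => hI.mono_set (hbU i)]
      exact setIntegral_mono_set hI (Eventually.of_forall fun x => dfc_nonneg _ _) hAU.eventuallyLE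
    have a2 : ∑ i, ∫ x in b i, (‖∇ (fun x => ∑ j, f z j x) x‖ ^ 2 + ‖∑ j, g z j x‖ ^ 2) ≤
        ∑ i, (8 * (∫ x in b i, dfc (E z x) (J z x)) + 9 * θ * volume.real (b i)) := by
      refine Finset.sum_le_sum fun i _ => ?_
      refine le_of_eq_of_le (setIntegral_congr_fun (hbm i) fun x hx => ?_) (hi2 z i)
      simp only [(hin z i x hx).1, (hin z i x hx).2]
    rw [Finset.sum_add_distrib, ← Finset.mul_sum, ← Finset.mul_sum] at a2
    nlinarith [mul_le_mul_of_nonneg_left hsum hθ0.le]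

end Crest.Agent.R83
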