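import Crest.Agent.R83.IsoC
import Crest.Agent.R83.H0a

/-!
# R83 TASK IsoD: iteration of the convex integration step
-/

set_option autoImplicit false

namespace Crest.Agent.R83

open MeasureTheory Set Filter Topology
open scoped Gradient RealInnerProductSpace ENNReal NNReal ContDiff

theorem isod_tel {f : ℕ → E3 → E3} (hf : ∀ n, AEStronglyMeasurable (f n) volume) {C : ℝ} (hC : 0 ≤ C)
    (hb : ∀ n, eLpNorm (fun x => f (n + 1) x - f n x) 2 volume ≤ ENNReal.ofReal (C * (1 / 2) ^ n))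
    {n m : ℕ} (hnm : n ≤ m) :
    eLpNorm (fun x => f m x - f n x) 2 volume ≤
      ENNReal.ofReal (2 * C * ((1 / 2) ^ n - (1 / 2) ^ m)) := by
  induction m, hnm using Nat.le_induction with
  | base => simp
  | succ m hnm ih =>
    have h1 : (fun x => f (m + 1) x - f n x) =
        (fun x => f (m + 1) x - f m x) + fun x => f m x - f n x := by
      funext x; simp
    rw [h1]
    refine (eLpNorm_add_le ((hf _).sub (hf _)) ((hf _).sub (hf _)) one_le_two).trans ?_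
    refine (add_le_add (hb m) ih).trans ?_
    have h2 : (1 / 2 : ℝ) ^ m ≤ (1 / 2) ^ n := pow_le_pow_of_le_one (by norm_num) (by norm_num) hnm
    rw [← ENNReal.ofReal_add (by positivity) (mul_nonneg (by positivity) (by linarith))]
    refine ENNReal.ofReal_le_ofReal (le_of_eq ?_)
    ring

theorem isod_tel' {f : ℕ → E3 → E3} (hf : ∀ n, AEStronglyMeasurable (f n) volume) {C : ℝ} (hC : 0 ≤ C)
    (hb : ∀ n, eLpNorm (fun x => f (n + 1) x - f n x) 2 volume ≤ ENNReal.ofReal (C * (1 / 2) ^ n))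
    {n m : ℕ} (hnm : n ≤ m) :
    eLpNorm (fun x => f m x - f n x) 2 volume ≤ ENNReal.ofReal (2 * C * (1 / 2) ^ n) := by
  refine (isod_tel hf hC hb hnm).trans (ENNReal.ofReal_le_ofReal ?_)
  have : (0 : ℝ) ≤ (1 / 2) ^ m := by positivity
  nlinarith

theorem isod_lim {f : ℕ → E3 → E3} (hf : ∀ n, MemLp (f n) 2 volume) {C : ℝ} (hC : 0 ≤ C)
    (hb : ∀ n, eLpNorm (fun x => f (n + 1) x - f n x) 2 volume ≤ ENNReal.ofReal (C * (1 / 2) ^ n)) :
    ∃ g : E3 → E3, MemLp g 2 volume ∧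
      (∀ n, eLpNorm (fun x => g x - f n x) 2 volume ≤ ENNReal.ofReal (2 * C * (1 / 2) ^ n)) ∧
      ∀ᵐ x, Tendsto (fun n => f n x) atTop (𝓝 (g x)) := by
  have hm : ∀ n, AEStronglyMeasurable (f n) volume := fun n => (hf n).1
  set B : ℕ → ℝ≥0∞ := fun n => ENNReal.ofReal ((2 * C + 1) * (1 / 2) ^ n) with hB
  have hBs : ∑' i, B i ≠ ⊤ := by
    rw [hB, ← ENNReal.ofReal_tsum_of_nonneg (fun n => by positivity)
      (summable_geometric_two.mul_left _)]
    exact ENNReal.ofReal_ne_top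
  have hlt : ∀ N n m : ℕ, N ≤ n → n ≤ m → eLpNorm (f m - f n) 2 volume < B N := by
    intro N n m hn hnm
    refine (isod_tel' hm hC hb hnm).trans_lt ?_
    have h2 : (1 / 2 : ℝ) ^ n ≤ (1 / 2) ^ N := pow_le_pow_of_le_one (by norm_num) (by norm_num) hn
    have h3 : (0 : ℝ) < (1 / 2) ^ N := by positivity
    refine (ENNReal.ofReal_lt_ofReal_iff (by positivity)).2 ?_
    nlinarith
  have hcau : ∀ N n m : ℕ, N ≤ n → N ≤ m → eLpNorm (f n - f m) 2 volume < B N := by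
    intro N n m hn hm'
    rcases le_total n m with h | h
    · rw [← eLpNorm_neg, neg_sub]
      exact hlt N n m hn h
    · exact hlt N m n hm' h
  obtain ⟨g, hgm, hl⟩ : ∃ g : E3 → E3, StronglyMeasurable g ∧
      ∀ᵐ x, Tendsto (fun n => f n x) atTop (𝓝 (g x)) :=
    exists_stronglyMeasurable_limit_of_tendsto_ae hm
      (Lp.ae_tendsto_of_cauchy_eLpNorm hm one_le_two hBs hcau)
  refine ⟨g, Lp.memLp_of_cauchy_tendsto one_le_two hf g hgm.aestronglyMeasurable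
    (Lp.cauchy_tendsto_of_tendsto hm g hBs hcau hl), fun n => ?_, hl⟩
  refine Lp.eLpNorm_le_of_ae_tendsto (u := atTop) (f := fun m x => f m x - f n x) ?_
    (fun m => (hm m).sub (hm n)) ?_
  · filter_upwards [eventually_ge_atTop n] with m hnm
    exact isod_tel' hm hC hb hnm
  · filter_upwards [hl] with x hx
    exact hx.sub_const _

theorem isod_geo (C : ℝ) :
    Tendsto (fun n : ℕ => ENNReal.ofReal (2 * C * (1 / 2) ^ n)) atTop (𝓝 0) := by
  have h : Tendsto (fun n : ℕ => 2 * C * (1 / 2 : ℝ) ^ n) atTop (𝓝 (2 * C * 0)) :=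
    (tendsto_pow_atTop_nhds_zero_of_lt_one (by norm_num) (by norm_num)).const_mul _
  rw [mul_zero] at h
  simpa using ENNReal.tendsto_ofReal h

theorem isod_norm {a : E3 → E3} (ha : MemLp a 2 volume) {c : ℝ} (hc : 0 ≤ c)
    (h : ∫ x, ‖a x‖ ^ 2 ≤ c ^ 2) : eLpNorm a 2 volume ≤ ENNReal.ofReal c := by
  rw [ha.eLpNorm_eq_integral_rpow_norm two_ne_zero ENNReal.ofNat_ne_top]
  refine ENNReal.ofReal_le_ofReal ?_
  have h2 : (2 : ℝ≥0∞).toReal = 2 := by norm_num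
  rw [h2]
  have h3 : ∫ x, ‖a x‖ ^ (2 : ℝ) = ∫ x, ‖a x‖ ^ 2 := by
    simp only [Real.rpow_two]
  rw [h3]
  have h4 : 0 ≤ ∫ x, ‖a x‖ ^ 2 := integral_nonneg fun x => by positivity
  calc (∫ x, ‖a x‖ ^ 2) ^ (2 : ℝ)⁻¹ ≤ (c ^ 2) ^ (2 : ℝ)⁻¹ := Real.rpow_le_rpow h4 h (by norm_num)
    _ = c := by
      rw [show (2 : ℝ)⁻¹ = ((2 : ℕ) : ℝ)⁻¹ by norm_num]
      exact Real.pow_rpow_inv_natCast hc two_ne_zero

theorem isod_norm2 {a b : E3 → E3} (ha : MemLp a 2 volume) (hb : MemLp b 2 volume) {c : ℝ} (hc : 0 ≤ c)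
    (h : ∫ x, (‖a x‖ ^ 2 + ‖b x‖ ^ 2) ≤ c ^ 2) :
    eLpNorm a 2 volume ≤ ENNReal.ofReal c ∧ eLpNorm b 2 volume ≤ ENNReal.ofReal c := by
  have ia : Integrable (fun x => ‖a x‖ ^ 2) volume := (memLp_two_iff_integrable_sq_norm ha.1).1 ha
  have ib : Integrable (fun x => ‖b x‖ ^ 2) volume := (memLp_two_iff_integrable_sq_norm hb.1).1 hb
  rw [integral_add ia ib] at h
  have h1 : 0 ≤ ∫ x, ‖a x‖ ^ 2 := integral_nonneg fun x => by positivity
  have h2 : 0 ≤ ∫ x, ‖b x‖ ^ 2 := integral_nonneg fun x => by positivity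
  exact ⟨isod_norm ha hc (by linarith), isod_norm hb hc (by linarith)⟩

theorem isod_L1 {U : Set E3} {g : E3 → E3} (hg : AEStronglyMeasurable g volume) :
    ∫⁻ x in U, ‖g x‖ₑ ≤ eLpNorm g 2 volume * volume U ^ (1 / 2 : ℝ) := by
  rw [← eLpNorm_one_eq_lintegral_enorm]
  refine (eLpNorm_le_eLpNorm_mul_rpow_measure_univ (p := 1) (q := 2) one_le_two hg.restrict).trans ?_
  have h1 : (1 / (1 : ℝ≥0∞).toReal - 1 / (2 : ℝ≥0∞).toReal : ℝ) = 1 / 2 := by norm_num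
  rw [h1, Measure.restrict_apply_univ]
  gcongr
  exact Measure.restrict_le_self

theorem isod_wd {B : ℕ → E3 → E3} {g : E3 → E3} (hB : ∀ n, MemLp (B n) 2 volume) (hg : MemLp g 2 volume)
    (hw : ∀ n, WD univ (B n) 0)
    (ht : Tendsto (fun n => eLpNorm (fun x => g x - B n x) 2 volume) atTop (𝓝 0)) : WD univ g 0 := by
  intro ψ hψ
  have hm := hψ.memLp_grad 2
  have key : ∀ (a : E3 → E3) (ha : MemLp a 2 volume),
      ⟪ha.toLp a, hm.toLp (∇ ψ)⟫ = ∫ x, ⟪a x, ∇ ψ x⟫ := by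
    intro a ha
    rw [L2.inner_def]
    apply integral_congr_ae
    filter_upwards [ha.coeFn_toLp, hm.coeFn_toLp] with x h1 h2
    rw [h1, h2]
  have h1 : Tendsto (fun n => (hB n).toLp (B n)) atTop (𝓝 (hg.toLp g)) := by
    refine (Lp.tendsto_Lp_iff_tendsto_eLpNorm'' B hB g hg).2 (ht.congr fun n => ?_)
    rw [← eLpNorm_neg]
    congr 1
    funext x
    simp
  have h2 := h1.inner (𝕜 := ℝ) (tendsto_const_nhds (x := hm.toLp (∇ ψ)))
  simp only [key] at h2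
  have h3 : (fun n => ∫ x, ⟪B n x, ∇ ψ x⟫) = fun _ => ∫ x, (0 : E3 → ℝ) x * ψ x := by
    funext n
    exact hw n ψ hψ
  rw [h3] at h2
  exact tendsto_nhds_unique h2 tendsto_const_nhds ▸ rfl

theorem isod_zero {μ : Measure E3} [IsFiniteMeasure μ] {F : ℕ → E3 → ℝ} {g : E3 → ℝ} {b K : ℝ}
    (hm : ∀ n, AEStronglyMeasurable (F n) μ) (h0 : ∀ x, 0 ≤ g x) (hb : ∀ n, ∀ᵐ x ∂μ, ‖F n x‖ ≤ b)
    (hl : ∀ᵐ x ∂μ, Tendsto (fun n => F n x) atTop (𝓝 (g x)))
    (hK : ∀ n, ∫ x, F n x ∂μ ≤ K * (1 / 4) ^ n) : ∀ᵐ x ∂μ, g x = 0 := by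
  have h1 := tendsto_integral_of_dominated_convergence (fun _ => b) hm (integrable_const b) hb hl
  have h2 : Tendsto (fun n : ℕ => K * (1 / 4 : ℝ) ^ n) atTop (𝓝 (K * 0)) :=
    (tendsto_pow_atTop_nhds_zero_of_lt_one (by norm_num) (by norm_num)).const_mul _
  have h3 : ∫ x, g x ∂μ ≤ 0 := by
    simpa using le_of_tendsto_of_tendsto' h1 h2 hK
  have hgm : AEStronglyMeasurable g μ := aestronglyMeasurable_of_tendsto_ae atTop hm hl
  have hgi : Integrable g μ := by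
    refine Integrable.of_bound hgm b ?_
    filter_upwards [hl, ae_all_iff.2 hb] with x hx hxb
    exact le_of_tendsto' hx.norm hxb
  exact (integral_eq_zero_iff_of_nonneg (fun x => h0 x) hgi).1
    (le_antisymm h3 (integral_nonneg fun x => h0 x))

/-- the invariant of the iteration -/
def isod_Inv {ι : Type} (U : Set E3) (E J : ι → E3 → E3) (κ K : ℝ) (n : ℕ)
    (p : (ι → E3 → E3) × (ι → E3 → E3)) : Prop :=
  Eqc U p.1 ∧ Eqc U p.2 ∧ ∀ z, (∀ x ∈ U,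
    omg (p.1 z x) (p.2 z x) ≤ (2 / κ + (1 - (1 / 4) ^ n) / 6) * ⟪p.1 z x, p.2 z x⟫ ∧
    (1 - (1 - (1 / 4) ^ n) / 6) * ⟪E z x, J z x⟫ ≤ ⟪p.1 z x, p.2 z x⟫ ∧
    ⟪p.1 z x, p.2 z x⟫ ≤ (1 + 2 * ((1 - (1 / 4) ^ n) / 6)) * ⟪E z x, J z x⟫) ∧
    ∫ x in U, dfc (p.1 z x) (p.2 z x) ≤ K * (1 / 4) ^ n

theorem isod_step {ι : Type} {U : Set E3} (hU : IsOpen U) (hfin : volume U ≠ ⊤) {E J : ι → E3 → E3}
    {κ K P : ℝ} (hκ : 0 < κ) (hK : 1 ≤ K)
    (h : ∀ z, ∀ x ∈ U, 0 ≤ ⟪E z x, J z x⟫ ∧ ⟪E z x, J z x⟫ ≤ P) (n : ℕ)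
    (p : (ι → E3 → E3) × (ι → E3 → E3)) (hp : isod_Inv U E J κ K n p) :
    ∃ (dv : ι → E3 → ℝ) (dJ : ι → E3 → E3),
      isod_Inv U E J κ K (n + 1) (fun z x => p.1 z x + ∇ (dv z) x, fun z x => p.2 z x + dJ z x) ∧
      ∀ z, Test U (dv z) ∧ MemLp (dJ z) 2 volume ∧ (∀ x, x ∉ U → dJ z x = 0) ∧ WD univ (dJ z) 0 ∧
        eLpNorm (∇ (dv z)) 2 volume ≤ ENNReal.ofReal (√(8 * K + 1) * (1 / 2) ^ n) ∧
        eLpNorm (dJ z) 2 volume ≤ ENNReal.ofReal (√(8 * K + 1) * (1 / 2) ^ n) := by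
  obtain ⟨hE, hJ, hz⟩ := hp
  set q : ℝ := (1 / 4) ^ n with hq
  have hq0 : 0 < q := by positivity
  have hq1 : q ≤ 1 := pow_le_one₀ (by norm_num) (by norm_num)
  have hR : 0 < 2 / κ + (1 - q) / 6 := by
    have : 0 < 2 / κ := by positivity
    linarith
  obtain ⟨dv, dJ, h1, h2, h3⟩ := iso_step hU hfin hE hJ (R := 2 / κ + (1 - q) / 6) (P := 2 * P)
    (η := q / 8) hR (by positivity) (fun z x hx => by
      obtain ⟨a1, -, a3⟩ := (hz z).1 x hx
      obtain ⟨b1, b2⟩ := h z x hx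
      exact ⟨a1, by nlinarith⟩)
  have hq' : (1 / 4 : ℝ) ^ (n + 1) = q / 4 := by rw [pow_succ]; ring
  refine ⟨dv, dJ, ⟨h1, h2, fun z => ⟨fun x hx => ?_, ?_⟩⟩, fun z => ?_⟩
  · obtain ⟨-, -, -, -, c, -⟩ := h3 z
    obtain ⟨c1, c2⟩ := c x hx
    obtain ⟨-, a2, a3⟩ := (hz z).1 x hx
    obtain ⟨b1, -⟩ := h z x hx
    obtain ⟨c3, c4⟩ := abs_le.1 c2
    dsimp only
    rw [hq']
    generalize ⟪p.1 z x + ∇ (dv z) x, p.2 z x + dJ z x⟫ = π' at *
    generalize ⟪p.1 z x, p.2 z x⟫ = π at *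
    generalize ⟪E z x, J z x⟫ = π₀ at *
    have e1 : (1 - q / 8) * ((1 - (1 - q) / 6) * π₀) ≤ (1 - q / 8) * π :=
      mul_le_mul_of_nonneg_left a2 (by linarith)
    have e2 : (1 + q / 8) * π ≤ (1 + q / 8) * ((1 + 2 * ((1 - q) / 6)) * π₀) :=
      mul_le_mul_of_nonneg_left a3 (by linarith)
    have e3 : 0 ≤ q * (1 - q) * π₀ := mul_nonneg (mul_nonneg hq0.le (by linarith)) b1
    have e4 : 0 ≤ q * π₀ := mul_nonneg hq0.le b1
    have e5 : 0 ≤ q * q * π₀ := mul_nonneg (mul_nonneg hq0.le hq0.le) b1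
    refine ⟨c1.trans_eq (by ring), by nlinarith, by nlinarith⟩
  · obtain ⟨-, -, -, -, -, c, -⟩ := h3 z
    dsimp only
    rw [hq']
    nlinarith
  · obtain ⟨c1, c2, c3, c4, -, -, c⟩ := h3 z
    refine ⟨c1, c2, c3, c4, isod_norm2 (c1.memLp_grad 2) c2 (by positivity) (c.trans ?_)⟩
    have e1 : (√(8 * K + 1) * (1 / 2) ^ n) ^ 2 = (8 * K + 1) * q := by
      rw [mul_pow, Real.sq_sqrt (by linarith), ← pow_mul, mul_comm n 2, pow_mul, hq]
      norm_num
    rw [e1]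
    have := (hz z).2
    nlinarith

theorem isod_seq {ι : Type} {U : Set E3} (hU : IsOpen U) (hfin : volume U ≠ ⊤) {E J : ι → E3 → E3}
    {κ K P : ℝ} (hκ : 0 < κ) (hK : 1 ≤ K)
    (h : ∀ z, ∀ x ∈ U, 0 ≤ ⟪E z x, J z x⟫ ∧ ⟪E z x, J z x⟫ ≤ P) (h0 : isod_Inv U E J κ K 0 (E, J)) :
    ∃ (En Jn : ℕ → ι → E3 → E3) (dv : ℕ → ι → E3 → ℝ) (dJ : ℕ → ι → E3 → E3), En 0 = E ∧ Jn 0 = J ∧
      (∀ n, isod_Inv U E J κ K n (En n, Jn n)) ∧
      ∀ n z, (∀ x, En (n + 1) z x = En n z x + ∇ (dv n z) x) ∧ (∀ x, Jn (n + 1) z x = Jn n z x + dJ n z x) ∧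
        Test U (dv n z) ∧ MemLp (dJ n z) 2 volume ∧ (∀ x, x ∉ U → dJ n z x = 0) ∧ WD univ (dJ n z) 0 ∧
        eLpNorm (∇ (dv n z)) 2 volume ≤ ENNReal.ofReal (√(8 * K + 1) * (1 / 2) ^ n) ∧
        eLpNorm (dJ n z) 2 volume ≤ ENNReal.ofReal (√(8 * K + 1) * (1 / 2) ^ n) := by
  choose dv dJ h1 h2 using isod_step hU hfin hκ hK h
  let s : (n : ℕ) → {p // isod_Inv U E J κ K n p} := fun n =>
    Nat.rec (motive := fun n => {p // isod_Inv U E J κ K n p}) ⟨(E, J), h0⟩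
      (fun n q => ⟨_, h1 n q.1 q.2⟩) n
  exact ⟨fun n => (s n).1.1, fun n => (s n).1.2, fun n => dv n (s n).1 (s n).2,
    fun n => dJ n (s n).1 (s n).2, rfl, rfl, fun n => (s n).2,
    fun n z => ⟨fun x => rfl, fun x => rfl, h2 n (s n).1 (s n).2 z⟩⟩

theorem isod_tend {a b : ℕ → E3} {A B : E3} (h : Tendsto (fun n => (a n, b n)) atTop (𝓝 (A, B))) :
    Tendsto (fun n => dfc (a n) (b n)) atTop (𝓝 (dfc A B)) ∧
    Tendsto (fun n => omg (a n) (b n)) atTop (𝓝 (omg A B)) ∧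
    Tendsto (fun n => ⟪a n, b n⟫) atTop (𝓝 ⟪A, B⟫) := by
  have h1 := (continuous_dfc.tendsto (A, B)).comp h
  have h2 := (continuous_omg.tendsto (A, B)).comp h
  have h3 := ((continuous_inner (𝕜 := ℝ) (E := E3)).tendsto (A, B)).comp h
  simp only [Function.comp_def] at h1 h2 h3
  exact ⟨h1, h2, h3⟩

theorem isod_meas {U : Set E3} (hU : IsOpen U) {a b : E3 → E3} (ha : ContinuousOn a U)
    (hb : ContinuousOn b U) : AEStronglyMeasurable (fun x => dfc (a x) (b x)) (volume.restrict U) := by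
  have h := continuous_dfc.comp_continuousOn (ha.prodMk hb)
  simp only [Function.comp_def] at h
  exact h.aestronglyMeasurable hU.measurableSet

/-- Iterate `iso_step` with `η n = 4 ^ (-n) / 8` (recursion on the subtype of admissible families), `R 0 = 2 / κ`
(`omg ≤ 2 (‖E‖² + ‖J‖²)`), `R n ≤ 4 / κ`, `∏ (1 ± η n) ∈ [1/2, 2]`.  The `L²` norms of the increments are
`≤ C 2 ^ (-n)` uniformly in `z`, so the partial sums converge in `L²` and a.e. (`H0.exists_lim`); Fatou for `dfc`. -/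
theorem iso_iter {ι : Type} {U : Set E3} (hU : IsOpen U) (hfin : volume U ≠ ⊤) {E J : ι → E3 → E3}
    (hE : Eqc U E) (hJ : Eqc U J) {κ M : ℝ} (hκ : 0 < κ) (hκ1 : κ ≤ 1)
    (h : ∀ z, ∀ x ∈ U, cone κ (E z x) (J z x) ∧ ‖E z x‖ ≤ M ∧ ‖J z x‖ ≤ M) :
    ∃ (En Jn : ℕ → ι → E3 → E3) (dv : ι → E3 → ℝ) (dE dJ : ι → E3 → E3) (M' : ℝ),
      (∀ n, Eqc U (En n) ∧ Eqc U (Jn n) ∧ ∀ z, ∀ x ∈ U, ‖En n z x‖ ≤ M' ∧ ‖Jn n z x‖ ≤ M') ∧
      (∀ ε : ℝ≥0∞, 0 < ε → ∃ n, ∀ z, ∫⁻ x in U, ‖En n z x - (E z x + dE z x)‖ₑ ≤ ε ∧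
        ∫⁻ x in U, ‖Jn n z x - (J z x + dJ z x)‖ₑ ≤ ε) ∧
      ∀ z, H0 U (dv z) (dE z) ∧ MemLp (dJ z) 2 volume ∧ (∀ᵐ x, x ∉ U → dJ z x = 0) ∧ WD univ (dJ z) 0 ∧
        ∀ᵐ x, x ∈ U → dfc (E z x + dE z x) (J z x + dJ z x) = 0 ∧
          omg (E z x + dE z x) (J z x + dJ z x) ≤ 4 / κ * ⟪E z x + dE z x, J z x + dJ z x⟫ ∧
          ⟪E z x, J z x⟫ ≤ 2 * ⟪E z x + dE z x, J z x + dJ z x⟫ ∧
          ⟪E z x + dE z x, J z x + dJ z x⟫ ≤ 2 * ⟪E z x, J z x⟫ := by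
  have hπ : ∀ z, ∀ x ∈ U, 0 ≤ ⟪E z x, J z x⟫ ∧ ⟪E z x, J z x⟫ ≤ M ^ 2 := by
    intro z x hx
    obtain ⟨h1, h2, h3⟩ := h z x hx
    refine ⟨le_trans (by positivity) h1, (real_inner_le_norm _ _).trans ?_⟩
    rw [sq]
    exact mul_le_mul h2 h3 (norm_nonneg _) ((norm_nonneg _).trans h2)
  set K : ℝ := M ^ 2 * volume.real U + 1 with hKd
  have hK : 1 ≤ K := by
    have : 0 ≤ M ^ 2 * volume.real U := by positivity
    linarith
  have h0 : isod_Inv U E J κ K 0 (E, J) := by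
    refine ⟨hE, hJ, fun z => ⟨fun x hx => ⟨?_, by simp, by simp⟩, ?_⟩⟩
    · obtain ⟨h1, -, -⟩ := h z x hx
      have h2 := two_dfc_le (E z x) (J z x)
      have h3 : ‖E z x‖ ^ 2 + ‖J z x‖ ^ 2 ≤ ⟪E z x, J z x⟫ / κ := by
        rw [le_div_iff₀ hκ, mul_comm]
        exact h1
      have h4 : (2 / κ + (1 - (1 / 4 : ℝ) ^ 0) / 6) * ⟪E z x, J z x⟫ = 2 * (⟪E z x, J z x⟫ / κ) := by
        ring
      dsimp only
      rw [h4, omg]
      linarith
    · have h1 := norm_setIntegral_le_of_norm_le_const (μ := volume) (s := U) (C := M ^ 2)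
        (f := fun x => dfc (E z x) (J z x)) hfin.lt_top (fun x hx => by
          obtain ⟨-, h2, h3⟩ := h z x hx
          have h4 := two_dfc_le (E z x) (J z x)
          have h5 := pow_le_pow_left₀ (norm_nonneg _) h2 2
          have h6 := pow_le_pow_left₀ (norm_nonneg _) h3 2
          rw [Real.norm_of_nonneg (dfc_nonneg _ _)]
          linarith)
      have h2 := (le_abs_self _).trans h1
      dsimp only
      rw [pow_zero, mul_one]
      linarith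
  obtain ⟨En, Jn, dv, dJ, hE0, hJ0, hI, hs⟩ := isod_seq hU hfin hκ hK hπ h0
  set C : ℝ := √(8 * K + 1) with hCd
  have hC : 0 ≤ C := Real.sqrt_nonneg _
  -- pointwise consequences of the invariant
  have hpt : ∀ n z, ∀ x ∈ U, omg (En n z x) (Jn n z x) ≤ 4 / κ * ⟪En n z x, Jn n z x⟫ ∧
      ⟪E z x, J z x⟫ ≤ 2 * ⟪En n z x, Jn n z x⟫ ∧ ⟪En n z x, Jn n z x⟫ ≤ 2 * ⟪E z x, J z x⟫ := by
    intro n z x hx
    obtain ⟨a1, a2, a3⟩ := ((hI n).2.2 z).1 x hx
    obtain ⟨b1, -⟩ := hπ z x hx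
    dsimp only at a1 a2 a3
    have hq0 : (0 : ℝ) < (1 / 4) ^ n := by positivity
    have hq1 : (1 / 4 : ℝ) ^ n ≤ 1 := pow_le_one₀ (by norm_num) (by norm_num)
    generalize (1 / 4 : ℝ) ^ n = q at *
    have e1 : 0 ≤ q * ⟪E z x, J z x⟫ := mul_nonneg hq0.le b1
    have e2 : 0 ≤ ⟪En n z x, Jn n z x⟫ := by nlinarith
    have e3 : 2 ≤ 2 / κ := by
      rw [le_div_iff₀ hκ]
      linarith
    have e4 : 4 / κ = 2 / κ + 2 / κ := by ring
    refine ⟨a1.trans (mul_le_mul_of_nonneg_right (by linarith) e2), by nlinarith, by nlinarith⟩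
  set M' : ℝ := 8 * M ^ 2 / κ + 1 with hM'
  have hbd : ∀ n z, ∀ x ∈ U, ‖En n z x‖ ≤ M' ∧ ‖Jn n z x‖ ≤ M' := by
    intro n z x hx
    obtain ⟨a1, -, a3⟩ := hpt n z x hx
    obtain ⟨-, b2⟩ := hπ z x hx
    have e1 : 4 / κ * ⟪En n z x, Jn n z x⟫ ≤ 4 / κ * (2 * M ^ 2) :=
      mul_le_mul_of_nonneg_left (by linarith) (by positivity)
    have e2 : 4 / κ * (2 * M ^ 2) = 8 * M ^ 2 / κ := by ring
    have e3 := dfc_nonneg (En n z x) (Jn n z x)
    rw [omg] at a1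
    constructor
    · nlinarith [sq_nonneg (‖En n z x‖ - 1), sq_nonneg ‖Jn n z x‖, sq_nonneg ‖En n z x‖]
    · nlinarith [sq_nonneg (‖Jn n z x‖ - 1), sq_nonneg ‖Jn n z x‖, sq_nonneg ‖En n z x‖]
  -- partial sums
  have hG : ∀ z n, ∃ V, H0 U V fun x => En n z x - E z x := by
    intro z n
    induction n with
    | zero => exact ⟨_, by simpa [hE0] using H0.zero U⟩
    | succ n ih =>
      obtain ⟨V, hV⟩ := ih
      refine ⟨_, (hV.add (hs n z).2.2.1.h0).congr (ae_eq_refl _) (ae_of_all _ fun x => ?_)⟩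
      dsimp only
      rw [(hs n z).1 x]
      abel
  have hB : ∀ z n, MemLp (fun x => Jn n z x - J z x) 2 volume ∧ (∀ x, x ∉ U → Jn n z x - J z x = 0) ∧
      WD univ (fun x => Jn n z x - J z x) 0 := by
    intro z n
    induction n with
    | zero =>
      simp only [hJ0, sub_self]
      refine ⟨MemLp.zero', fun _ _ => trivial, fun ψ _ => by simp⟩
    | succ n ih =>
      obtain ⟨a1, a2, a3⟩ := ih
      obtain ⟨-, b0, -, b1, b2, b3, -⟩ := hs n z
      have e : (fun x => Jn (n + 1) z x - J z x) = fun x => (Jn n z x - J z x) + dJ n z x := by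
        funext x
        rw [b0 x]
        abel
      refine ⟨e ▸ a1.add b1, fun x hx => ?_, ?_⟩
      · rw [congrFun e x, a2 x hx, b2 x hx, add_zero]
      · rw [e]
        exact (a3.add b3 a1 b1 Src.zero Src.zero).congr (ae_of_all _ fun _ _ => rfl)
          (ae_of_all _ fun _ _ => by simp)
  choose V hV using hG
  have l1 := fun z => isod_lim (f := fun n x => En n z x - E z x) (fun n => (hV z n).mG) hC (fun n => by
    refine le_trans (le_of_eq ?_) (hs n z).2.2.2.2.2.2.1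
    congr 1
    funext x
    rw [(hs n z).1 x]
    abel)
  have l2 := fun z => isod_lim (f := fun n x => Jn n z x - J z x) (fun n => (hB z n).1) hC (fun n => by
    refine le_trans (le_of_eq ?_) (hs n z).2.2.2.2.2.2.2
    congr 1
    funext x
    rw [(hs n z).2.1 x]
    abel)
  choose dE dE1 dE2 dE3 using l1
  choose dB dB1 dB2 dB3 using l2
  have tE : ∀ z, Tendsto (fun n => eLpNorm (fun x => dE z x - (En n z x - E z x)) 2 volume) atTop (𝓝 0) :=
    fun z => tendsto_of_tendsto_of_tendsto_of_le_of_le tendsto_const_nhds (isod_geo C)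
      (fun _ => zero_le) (dE2 z)
  have tB : ∀ z, Tendsto (fun n => eLpNorm (fun x => dB z x - (Jn n z x - J z x)) 2 volume) atTop (𝓝 0) :=
    fun z => tendsto_of_tendsto_of_tendsto_of_le_of_le tendsto_const_nhds (isod_geo C)
      (fun _ => zero_le) (dB2 z)
  have l3 := fun z => H0.exists_lim (hV z) (dE1 z) (tE z)
  choose w hw _ using l3
  refine ⟨En, Jn, w, dE, dB, M', fun n => ⟨(hI n).1, (hI n).2.1, hbd n⟩, fun ε hε => ?_, fun z => ?_⟩
  · have t1 : Tendsto (fun n : ℕ => ENNReal.ofReal (2 * C * (1 / 2) ^ n) * volume U ^ (1 / 2 : ℝ)) atTop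
        (𝓝 (0 * volume U ^ (1 / 2 : ℝ))) :=
      ENNReal.Tendsto.mul_const (isod_geo C)
        (Or.inr (ENNReal.rpow_ne_top_of_nonneg (by norm_num) hfin))
    rw [zero_mul] at t1
    obtain ⟨n, hn⟩ := (t1.eventually (ge_mem_nhds hε)).exists
    refine ⟨n, fun z => ⟨le_trans ?_ hn, le_trans ?_ hn⟩⟩
    · refine le_trans (le_of_eq ?_) ((isod_L1 (U := U) ((dE1 z).1.sub (hV z n).mG.1)).trans ?_)
      · refine lintegral_congr fun x => ?_
        rw [← enorm_neg]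
        congr 1
        simp only [Pi.sub_apply]
        abel
      · gcongr
        exact dE2 z n
    · refine le_trans (le_of_eq ?_) ((isod_L1 (U := U) ((dB1 z).1.sub (hB z n).1.1)).trans ?_)
      · refine lintegral_congr fun x => ?_
        rw [← enorm_neg]
        congr 1
        simp only [Pi.sub_apply]
        abel
      · gcongr
        exact dB2 z n
  · have tp : ∀ᵐ x, Tendsto (fun n => (En n z x, Jn n z x)) atTop
        (𝓝 (E z x + dE z x, J z x + dB z x)) := by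
      filter_upwards [dE3 z, dB3 z] with x h1 h2
      refine Tendsto.prodMk_nhds ?_ ?_
      · simpa using h1.const_add (E z x)
      · simpa using h2.const_add (J z x)
    refine ⟨hw z, dB1 z, ?_, isod_wd (fun n => (hB z n).1) (dB1 z) (fun n => (hB z n).2.2) (tB z), ?_⟩
    · filter_upwards [dB3 z] with x hx hxU
      have e : (fun n => Jn n z x - J z x) = fun _ => 0 := funext fun n => (hB z n).2.1 x hxU
      rw [e] at hx
      exact tendsto_nhds_unique hx tendsto_const_nhds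
    · have : IsFiniteMeasure (volume.restrict U) := isFiniteMeasure_restrict.2 hfin
      have hz : ∀ᵐ x ∂(volume.restrict U), dfc (E z x + dE z x) (J z x + dB z x) = 0 := by
        refine isod_zero (F := fun n x => dfc (En n z x) (Jn n z x)) (b := M' ^ 2) (K := K)
          (fun n => ?_) (fun x => dfc_nonneg _ _) (fun n => ?_) ?_ fun n => ((hI n).2.2 z).2
        · exact isod_meas hU ((hI n).1.continuousOn z) ((hI n).2.1.continuousOn z)
        · filter_upwards [ae_restrict_mem hU.measurableSet] with x hx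
          obtain ⟨h2, h3⟩ := hbd n z x hx
          have h4 := two_dfc_le (En n z x) (Jn n z x)
          have h5 := pow_le_pow_left₀ (norm_nonneg _) h2 2
          have h6 := pow_le_pow_left₀ (norm_nonneg _) h3 2
          rw [Real.norm_of_nonneg (dfc_nonneg _ _)]
          linarith
        · filter_upwards [ae_restrict_of_ae tp] with x hx
          exact (isod_tend hx).1
      filter_upwards [(ae_restrict_iff' hU.measurableSet).1 hz, tp] with x h1 h2 hx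
      obtain ⟨-, t1, t2⟩ := isod_tend h2
      exact ⟨h1 hx, le_of_tendsto_of_tendsto' t1 (t2.const_mul _) fun n => (hpt n z x hx).1,
        ge_of_tendsto' (t2.const_mul _) fun n => (hpt n z x hx).2.1,
        le_of_tendsto' t2 fun n => (hpt n z x hx).2.2⟩

end Crest.Agent.R83
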