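import Crest.Agent.R83.Chain
import Crest.Agent.R83.Solve
import Crest.Agent.R83.Geo

/-!
# R83 TASK Limit: an infinite tower of clusters
-/

set_option autoImplicit false

namespace Crest.Agent.R83

open MeasureTheory Set Filter Topology
open scoped Gradient RealInnerProductSpace ENNReal NNReal ContDiff

theorem lim_src_sub_one {c C : ℝ} {γ : E3 → ℝ} (h : Ell c C γ) (h1 : ∀ x, x ∉ El → γ x = 1) :
    Bd El (|C| + |c| + 1) fun x => γ x - 1 := by
  refine ⟨h.meas.sub_const 1, fun x => ?_, fun x hx => by rw [h1 x hx, sub_self]⟩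
  have h2 := h.le x
  have h3 := h.ge x
  have h4 := le_abs_self C
  have h5 := neg_abs_le c
  have h6 := abs_nonneg C
  have h7 := abs_nonneg c
  rw [abs_le]
  constructor <;> linarith

theorem lim_bdd_El : Bornology.IsBounded El := Metric.isBounded_ball.subset El_subset_ball

theorem lim_clip {c C a b : ℝ} (ha : c ≤ a) (ha' : a ≤ C) : |a - max c (min C b)| ≤ |a - b| := by
  rcases le_total C b with h | h
  · rw [min_eq_left h, max_eq_right (ha.trans ha'), abs_of_nonpos (by linarith), abs_of_nonpos (by linarith)]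
    linarith
  · rw [min_eq_right h]
    rcases le_total c b with h' | h'
    · rw [max_eq_right h']
    · rw [max_eq_left h', abs_of_nonneg (by linarith), abs_of_nonneg (by linarith)]
      linarith

/-- Families that are Cauchy in `L¹` along an ultrafilter converge (completeness of `Lp ℝ 1` applied to `γ n - 1`);
clip and cut off a measurable representative. -/
theorem exists_L1_lim {c C : ℝ} (hc : c ≤ 1) (hC : 1 ≤ C) (𝒰 : Ultrafilter ℕ) {γ : ℕ → E3 → ℝ}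
    (h : ∀ n, Ell c C (γ n) ∧ ∀ x, x ∉ El → γ n x = 1)
    (hc' : ∀ ε : ℝ≥0∞, 0 < ε → ∃ A ∈ 𝒰, ∀ n ∈ A, ∀ n' ∈ A, ∫⁻ x, ‖γ n x - γ n' x‖ₑ ≤ ε) :
    ∃ γ', Ell c C γ' ∧ (∀ x, x ∉ El → γ' x = 1) ∧
      Tendsto (fun n => ∫⁻ x, ‖γ n x - γ' x‖ₑ) 𝒰 (𝓝 0) := by
  classical
  have hm : ∀ n, MemLp (fun x => γ n x - 1) 1 volume := fun n =>
    ((lim_src_sub_one (h n).1 (h n).2).src lim_bdd_El).memLp 1
  set F : ℕ → Lp ℝ 1 (volume : Measure E3) := fun n => (hm n).toLp _ with hF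
  have hcau : Cauchy (Filter.map F 𝒰) := by
    rw [EMetric.cauchy_iff]
    refine ⟨(Filter.map_neBot (f := (𝒰 : Filter ℕ))).ne, fun ε hε => ?_⟩
    obtain ⟨δ, hδ, hδε⟩ := exists_between hε
    obtain ⟨A, hA, hAA⟩ := hc' δ hδ
    refine ⟨F '' A, Filter.image_mem_map hA, ?_⟩
    rintro _ ⟨n, hn, rfl⟩ _ ⟨n', hn', rfl⟩
    refine lt_of_le_of_lt ?_ hδε
    rw [hF]
    simp only
    rw [Lp.edist_toLp_toLp, eLpNorm_one_eq_lintegral_enorm]
    refine le_trans (le_of_eq ?_) (hAA n hn n' hn')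
    refine lintegral_congr fun x => ?_
    simp only [Pi.sub_apply, sub_sub_sub_cancel_right]
  obtain ⟨L, hL⟩ := CompleteSpace.complete hcau
  have hL' : Tendsto F 𝒰 (𝓝 L) := hL
  have hLm : Measurable L := (Lp.stronglyMeasurable L).measurable
  refine ⟨fun x => if x ∈ El then max c (min C (1 + L x)) else 1, ⟨?_, fun x => ?_, fun x => ?_⟩,
    fun x hx => if_neg hx, ?_⟩
  · exact Measurable.ite isOpen_El.measurableSet
      (measurable_const.max (measurable_const.min (hLm.const_add 1))) measurable_const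
  · split_ifs
    · exact le_max_left _ _
    · exact hc
  · split_ifs
    · exact max_le (hc.trans hC) (min_le_left _ _)
    · exact hC
  · have h0 : Tendsto (fun n => edist (F n) L) 𝒰 (𝓝 0) := tendsto_iff_edist_tendsto_0.1 hL'
    refine tendsto_of_tendsto_of_tendsto_of_le_of_le tendsto_const_nhds h0 (fun n => zero_le) fun n => ?_
    simp only
    rw [Lp.edist_def, eLpNorm_one_eq_lintegral_enorm]
    refine lintegral_mono_ae ?_
    filter_upwards [(hm n).coeFn_toLp] with x hx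
    rw [Pi.sub_apply, hF]
    simp only
    rw [hx, Real.enorm_eq_ofReal_abs, Real.enorm_eq_ofReal_abs]
    refine ENNReal.ofReal_le_ofReal ?_
    split_ifs with hxE
    · rw [sub_sub]
      exact lim_clip ((h n).1.le x) ((h n).1.ge x)
    · rw [(h n).2 x hxE, sub_self, abs_zero]
      exact abs_nonneg _

theorem lim_abs_integral_inner_le {G H : E3 → E3} (hG : MemLp G 2 volume) (hH : MemLp H 2 volume) :
    ‖∫ x, ⟪G x, H x⟫‖ₑ ≤ eLpNorm G 2 volume * eLpNorm H 2 volume := by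
  have h1 : ∫ x, ⟪G x, H x⟫ = ⟪hG.toLp G, hH.toLp H⟫ := by
    rw [L2.inner_def]
    refine integral_congr_ae ?_
    filter_upwards [hG.coeFn_toLp, hH.coeFn_toLp] with x hx hx'
    rw [hx, hx']
  rw [h1, ← Lp.enorm_toLp hG, ← Lp.enorm_toLp hH, ← ofReal_norm, ← ofReal_norm,
    ← ofReal_norm, ← ENNReal.ofReal_mul (norm_nonneg _)]
  exact ENNReal.ofReal_le_ofReal (norm_inner_le_norm _ _)

theorem lim_integrable_inner {G H : E3 → E3} (hG : MemLp G 2 volume) (hH : MemLp H 2 volume) :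
    Integrable (fun x => ⟪G x, H x⟫) volume := by
  refine (L2.integrable_inner (𝕜 := ℝ) (hG.toLp G) (hH.toLp H)).congr ?_
  filter_upwards [hG.coeFn_toLp, hH.coeFn_toLp] with x hx hx'
  rw [hx, hx']

theorem lim_tendsto_eLpNorm {c C B : ℝ} {l : Filter ℕ} {γ : ℕ → E3 → ℝ} {γ' : E3 → ℝ} {H : E3 → E3}
    (hγ : ∀ n, Ell c C (γ n)) (hγ' : Ell c C γ') (hH : ∀ x, ‖H x‖ ≤ B)
    (ht : Tendsto (fun n => ∫⁻ x, ‖γ n x - γ' x‖ₑ) l (𝓝 0)) :
    Tendsto (fun n => eLpNorm (fun x => γ n x • H x - γ' x • H x) 2 volume) l (𝓝 0) := by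
  have hb : ∀ n, eLpNorm (fun x => γ n x • H x - γ' x • H x) 2 volume ≤
      (ENNReal.ofReal ((C - c) * B ^ 2) * ∫⁻ x, ‖γ n x - γ' x‖ₑ) ^ (1 / 2 : ℝ) := by
    intro n
    rw [eLpNorm_eq_lintegral_rpow_enorm_toReal (by norm_num) (by norm_num)]
    simp only [ENNReal.toReal_ofNat]
    refine ENNReal.rpow_le_rpow ?_ (by norm_num)
    rw [← lintegral_const_mul' _ _ ENNReal.ofReal_ne_top]
    refine lintegral_mono fun x => ?_
    have h1 := (hγ n).le x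
    have h2 := (hγ n).ge x
    have h3 := hγ'.le x
    have h4 := hγ'.ge x
    have h5 : |γ n x - γ' x| ≤ C - c := abs_le.2 ⟨by linarith, by linarith⟩
    have h6 : 0 ≤ C - c := by linarith
    simp only
    rw [← sub_smul, ← ofReal_norm, ← ofReal_norm,
      ENNReal.ofReal_rpow_of_nonneg (norm_nonneg _) (by norm_num), ← ENNReal.ofReal_mul (by positivity)]
    refine ENNReal.ofReal_le_ofReal ?_
    rw [Real.rpow_two, norm_smul, Real.norm_eq_abs, mul_pow]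
    have h7 : ‖H x‖ ^ 2 ≤ B ^ 2 := pow_le_pow_left₀ (norm_nonneg _) (hH x) 2
    calc |γ n x - γ' x| ^ 2 * ‖H x‖ ^ 2 = (|γ n x - γ' x| * ‖H x‖ ^ 2) * |γ n x - γ' x| := by ring
      _ ≤ ((C - c) * B ^ 2) * |γ n x - γ' x| := by gcongr
  have h1 : Tendsto (fun n => ENNReal.ofReal ((C - c) * B ^ 2) * ∫⁻ x, ‖γ n x - γ' x‖ₑ) l (𝓝 0) := by
    have := ENNReal.Tendsto.const_mul (a := ENNReal.ofReal ((C - c) * B ^ 2)) ht
      (Or.inr ENNReal.ofReal_ne_top)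
    simpa using this
  have h2 : Tendsto (fun n => (ENNReal.ofReal ((C - c) * B ^ 2) * ∫⁻ x, ‖γ n x - γ' x‖ₑ) ^ (1 / 2 : ℝ)) l
      (𝓝 0) := by
    have := (ENNReal.continuous_rpow_const (y := (1 / 2 : ℝ))).tendsto 0 |>.comp h1
    rwa [ENNReal.zero_rpow_of_pos (by norm_num)] at this
  exact tendsto_of_tendsto_of_tendsto_of_le_of_le tendsto_const_nhds h2 (fun n => zero_le) hb

/-- `energy_bound`, `H0.weak_lim`; `∫ ⟪γ n • G n, ∇ψ⟫ = ∫ ⟪G n, γ' • ∇ψ⟫ + ∫ ⟪G n, (γ n - γ') • ∇ψ⟫` and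
`‖(γ n - γ') ∇ψ‖₂² ≤ C ‖γ n - γ'‖₁` -/
theorem sol_lim {c C R M : ℝ} (hc : 0 < c) (𝒰 : Ultrafilter ℕ) {γ f : ℕ → E3 → ℝ} {γ' f' : E3 → ℝ}
    (hγ : ∀ n, Ell c C (γ n)) (hγ' : Ell c C γ') (hf : ∀ n, Bd (Metric.ball 0 R) M (f n))
    (ht : Tendsto (fun n => ∫⁻ x, ‖γ n x - γ' x‖ₑ) 𝒰 (𝓝 0))
    (hft : ∀ w : E3 → ℝ, Continuous w → Tendsto (fun n => ∫ x, f n x * w x) 𝒰 (𝓝 (∫ x, f' x * w x)))
    (h : ∀ᶠ n in 𝒰, ∃ v G, H0 El v G ∧ WD univ (fun x => γ n x • G x) (f n)) :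
    ∃ v G, H0 El v G ∧ WD univ (fun x => γ' x • G x) f' := by
  classical
  obtain ⟨N, hN⟩ := energy_bound hc R M
  have hex : ∀ n, ∃ v G, H0 El v G ∧ eLpNorm G 2 volume ≤ N ∧
      ((∃ v G, H0 El v G ∧ WD univ (fun x => γ n x • G x) (f n)) → WD univ (fun x => γ n x • G x) (f n)) := by
    intro n
    by_cases hn : ∃ v G, H0 El v G ∧ WD univ (fun x => γ n x • G x) (f n)
    · obtain ⟨v, G, h1, h2⟩ := hn
      exact ⟨v, G, h1, hN (hγ n) h1 (h2.mono (subset_univ _)) (hf n), fun _ => h2⟩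
    · exact ⟨fun _ => 0, fun _ => 0, H0.zero El, by simp, fun h' => absurd h' hn⟩
  choose v G hv hGN hw using hex
  obtain ⟨v', G', hv', hlim⟩ := H0.weak_lim 𝒰 hv hGN
  refine ⟨v', G', hv', fun ψ hψ => ?_⟩
  obtain ⟨B, -, hB⟩ := hψ.bdd
  have hg : MemLp (∇ ψ) 2 volume := hψ.memLp_grad 2
  have h1 := hlim _ (hγ'.memLp_smul hg)
  have h2 := hft ψ hψ.c1.continuous
  have h3 : Tendsto (fun n => ∫ x, ⟪G n x, γ n x • ∇ ψ x - γ' x • ∇ ψ x⟫) 𝒰 (𝓝 0) := by
    rw [tendsto_zero_iff_enorm_tendsto_zero]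
    have h4 := lim_tendsto_eLpNorm hγ hγ' (fun x => (hB x).2) ht
    have h5 := ENNReal.Tendsto.const_mul (a := (N : ℝ≥0∞)) h4 (Or.inr ENNReal.coe_ne_top)
    rw [mul_zero] at h5
    refine tendsto_of_tendsto_of_tendsto_of_le_of_le tendsto_const_nhds h5 (fun n => zero_le) fun n => ?_
    refine (lim_abs_integral_inner_le (hv n).mG
      (((hγ n).memLp_smul hg).sub (hγ'.memLp_smul hg))).trans ?_
    exact mul_le_mul_left (hGN n) _
  have h6 := h1.add h3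
  rw [add_zero] at h6
  have h7 : (fun n => (∫ x, ⟪G n x, γ' x • ∇ ψ x⟫) + ∫ x, ⟪G n x, γ n x • ∇ ψ x - γ' x • ∇ ψ x⟫) =ᶠ[𝒰]
      fun n => ∫ x, f n x * ψ x := by
    filter_upwards [h] with n hn
    have hi : Integrable (fun x => ⟪G n x, γ n x • ∇ ψ x - γ' x • ∇ ψ x⟫) volume :=
      lim_integrable_inner (hv n).mG (((hγ n).memLp_smul hg).sub (hγ'.memLp_smul hg))
    rw [← hw n hn ψ hψ, ← integral_add (lim_integrable_inner (hv n).mG (hγ'.memLp_smul hg)) hi]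
    refine integral_congr_ae (Eventually.of_forall fun x => ?_)
    simp only [inner_sub_right, inner_smul_right, inner_smul_left, conj_trivial]
    ring
  rw [← tendsto_nhds_unique (h6.congr' h7) h2]
  refine integral_congr_ae (Eventually.of_forall fun x => ?_)
  simp only [inner_smul_right, inner_smul_left, conj_trivial]

theorem lim_bd_mono {K K' : Set E3} {M M' : ℝ} {f : E3 → ℝ} (h : Bd K M f) (hK : K ⊆ K') (hM : M ≤ M') :
    Bd K' M' f :=
  ⟨h.meas, fun x => (h.bdd x).trans hM, fun x hx => h.off x fun hx' => hx (hK hx')⟩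

theorem lim_bd_sub {K : Set E3} {M M' : ℝ} {f g : E3 → ℝ} (h : Bd K M f) (h' : Bd K M' g) :
    Bd K (M + M') fun x => f x - g x :=
  ⟨h.meas.sub h'.meas, fun x => (abs_sub _ _).trans (add_le_add (h.bdd x) (h'.bdd x)),
    fun x hx => by rw [h.off x hx, h'.off x hx, sub_self]⟩

theorem lim_bd_hat {M : ℝ} {f : E3 → ℝ} (h : Bd El M f) (i : Bool) :
    Bd (Metric.ball 0 (3 / 2)) ((σ ^ 3)⁻¹ * M) (hat i f) := by
  refine lim_bd_mono (h.hat i) (fun x hx => El_subset_ball ?_) le_rfl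
  have h1 : Q (S i x) < 1 := hx
  have h2 := Q_le_of_S (i := i) (x := x) (by linarith)
  show Q x < 1
  linarith

theorem lim_integrable_mul {R M : ℝ} {f w : E3 → ℝ} (h : Bd (Metric.ball 0 R) M f) (hw : Continuous w) :
    Integrable (fun x => f x * w x) volume := by
  have h1 : IntegrableOn w (Metric.closedBall (0 : E3) R) volume :=
    hw.continuousOn.integrableOn_compact (isCompact_closedBall 0 R)
  have h2 : IntegrableOn (fun x => f x * w x) (Metric.closedBall (0 : E3) R) volume :=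
    Integrable.bdd_mul (c := M) h1 h.meas.aestronglyMeasurable (Eventually.of_forall fun x => h.bdd x)
  refine (integrableOn_iff_integrable_of_support_subset ?_).1 h2
  intro x hx
  by_contra hx'
  exact hx (by simp only [h.off x fun hb => hx' (Metric.ball_subset_closedBall hb), zero_mul])

/-- the part of the distance inside a child -/
theorem lim_inner_le {γ₁ γ₂ γ₁' γ₂' : E3 → ℝ} (i : Bool)
    (h₁ : ∀ᵐ x, Q x ≤ 105 / 100 → γ₁' (T i x) = γ₁ x) (h₂ : ∀ᵐ x, Q x ≤ 105 / 100 → γ₂' (T i x) = γ₂ x) :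
    ∫⁻ x in {x | Q (S i x) ≤ 105 / 100}, ‖γ₁' x - γ₂' x‖ₑ ≤
      ENNReal.ofReal (σ ^ 3) * ∫⁻ x, ‖γ₁ x - γ₂ x‖ₑ := by
  have hm : MeasurableSet {x | Q (S i x) ≤ 105 / 100} :=
    (isClosed_le ((contDiff_Q 0).continuous.comp ((S i).contDiff 0).continuous)
      continuous_const).measurableSet
  rw [← lintegral_indicator hm]
  have h1 := (S i).lintegral_comp fun x => ‖γ₁ x - γ₂ x‖ₑ
  rw [S_s, inv_pow, inv_inv] at h1
  rw [← h1]
  refine lintegral_mono_ae ?_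
  filter_upwards [(S i).qmp.ae h₁, (S i).qmp.ae h₂] with x hx hx'
  by_cases hQ : Q (S i x) ≤ 105 / 100
  · rw [indicator_of_mem (by exact hQ), ← hx hQ, ← hx' hQ, T_S]
  · rw [indicator_of_notMem (by exact hQ)]
    exact zero_le

theorem lim_step {γ₁ φ₁ γ₂ φ₂ γ₁' φ₁' γ₂' φ₂' : E3 → ℝ} (h₁ : Mrg γ₁ φ₁ γ₁' φ₁') (h₂ : Mrg γ₂ φ₂ γ₂' φ₂') :
    ∫⁻ x, ‖γ₁' x - γ₂' x‖ₑ ≤ (∫⁻ x in Out (105 / 100), ‖γ₁' x - γ₂' x‖ₑ) +
      2 * ENNReal.ofReal (σ ^ 3) * ∫⁻ x, ‖γ₁ x - γ₂ x‖ₑ := by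
  have hu : (univ : Set E3) ⊆ Out (105 / 100) ∪
      ({x | Q (S false x) ≤ 105 / 100} ∪ {x | Q (S true x) ≤ 105 / 100}) := by
    intro x _
    by_contra hx
    simp only [mem_union, mem_ofPred_eq, not_or, not_le] at hx
    refine hx.1 fun i => ?_
    cases i
    · exact hx.2.1
    · exact hx.2.2
  rw [← setLIntegral_univ]
  refine (lintegral_mono_set hu).trans ((lintegral_union_le _ _ _).trans ?_)
  gcongr
  refine (lintegral_union_le _ _ _).trans ?_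
  rw [mul_assoc, two_mul]
  exact add_le_add (lim_inner_le false (h₁.inner false) (h₂.inner false))
    (lim_inner_le true (h₁.inner true) (h₂.inner true))

theorem lim_dist_le {c C : ℝ} {γ₁ γ₂ : E3 → ℝ} (h₁ : Ell c C γ₁) (h₁' : ∀ x, x ∉ El → γ₁ x = 1)
    (h₂ : Ell c C γ₂) (h₂' : ∀ x, x ∉ El → γ₂ x = 1) :
    ∫⁻ x, ‖γ₁ x - γ₂ x‖ₑ ≤ ENNReal.ofReal (C - c) * volume El := by
  rw [← setLIntegral_const, ← lintegral_indicator isOpen_El.measurableSet]
  refine lintegral_mono fun x => ?_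
  by_cases hx : x ∈ El
  · rw [indicator_of_mem hx, Real.enorm_eq_ofReal_abs]
    have h1 := h₁.le x
    have h2 := h₁.ge x
    have h3 := h₂.le x
    have h4 := h₂.ge x
    exact ENNReal.ofReal_le_ofReal (abs_le.2 ⟨by linarith, by linarith⟩)
  · simp [h₁' x hx, h₂' x hx]

theorem lim_theta : 2 * ENNReal.ofReal (σ ^ 3) < 1 := by
  rw [← ENNReal.ofReal_ofNat 2, ← ENNReal.ofReal_mul (by norm_num), ENNReal.ofReal_lt_one]
  norm_num [σ]

theorem lim_dat0 {c C M : ℝ} (hc1 : c ≤ 1) (hC : 1 ≤ C) (hM : (volume.real El)⁻¹ ≤ M) :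
    Dat c C M (fun _ => 1) (El.indicator fun _ => (volume.real El)⁻¹) := by
  have hp := volume_El_pos
  have hnn : ∀ x, 0 ≤ El.indicator (fun _ => (volume.real El)⁻¹) x := fun x =>
    indicator_nonneg (fun _ _ => by positivity) x
  refine ⟨⟨measurable_const, fun _ => hc1, fun _ => hC⟩, fun _ _ => rfl,
    ⟨⟨measurable_const.indicator isOpen_El.measurableSet, fun x => ?_,
      fun x hx => indicator_of_notMem hx _⟩, ?_⟩, hnn⟩
  · rw [abs_of_nonneg (hnn x)]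
    exact indicator_le' (fun _ _ => hM) (fun _ _ => le_trans (by positivity) hM) x
  · rw [integral_indicator_const _ isOpen_El.measurableSet, smul_eq_mul, mul_inv_cancel₀ hp.ne']

/-- the relation between the conductivities passes to the limit -/
theorem lim_inner_lim {l : Filter ℕ} [l.NeBot] {a b : ℕ → E3 → ℝ} {a' b' : E3 → ℝ} (i : Bool)
    (ha' : Measurable a') (hb : ∀ n, Measurable (b n)) (hb' : Measurable b')
    (hta : Tendsto (fun n => ∫⁻ x, ‖a n x - a' x‖ₑ) l (𝓝 0))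
    (htb : Tendsto (fun n => ∫⁻ x, ‖b n x - b' x‖ₑ) l (𝓝 0))
    (h : ∀ᶠ n in l, ∀ᵐ x, Q x ≤ 105 / 100 → a n (T i x) = b n x) :
    ∀ᵐ x, Q x ≤ 105 / 100 → a' (T i x) = b' x := by
  have hm : MeasurableSet {x | Q x ≤ 105 / 100} := (isCompact_Q_le _).measurableSet
  have hT : Measurable (T i) := ((T i).contDiff 0).continuous.measurable
  have hlim : Tendsto (fun n => ENNReal.ofReal ((T i).s ^ 3)⁻¹ * (∫⁻ x, ‖a n x - a' x‖ₑ) +
      ∫⁻ x, ‖b n x - b' x‖ₑ) l (𝓝 0) := by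
    have := (ENNReal.Tendsto.const_mul (a := ENNReal.ofReal ((T i).s ^ 3)⁻¹) hta
      (Or.inr ENNReal.ofReal_ne_top)).add htb
    simpa using this
  have h0 : ∫⁻ x in {x | Q x ≤ 105 / 100}, ‖a' (T i x) - b' x‖ₑ ≤ 0 := by
    refine ge_of_tendsto hlim ?_
    filter_upwards [h] with n hn
    have hmb : Measurable fun x => ‖b n x - b' x‖ₑ := ((hb n).sub hb').enorm
    rw [← (T i).lintegral_comp fun x => ‖a n x - a' x‖ₑ, ← lintegral_add_right _ hmb,
      ← lintegral_indicator hm]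
    refine lintegral_mono_ae ?_
    filter_upwards [hn] with x hx
    by_cases hQ : Q x ≤ 105 / 100
    · rw [indicator_of_mem (by exact hQ), ← hx hQ, enorm_sub_rev (a n (T i x)) (a' (T i x))]
      refine le_trans (le_of_eq ?_) (enorm_add_le _ _)
      rw [sub_add_sub_cancel]
    · rw [indicator_of_notMem (by exact hQ)]
      exact zero_le
  have h1 := (lintegral_eq_zero_iff (((ha'.comp hT).sub hb').enorm)).1 (nonpos_iff_eq_zero.1 h0)
  have h2 := (ae_restrict_iff' hm).1 h1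
  filter_upwards [h2] with x hx hQ
  have := hx hQ
  simp only [Pi.zero_apply, enorm_eq_zero] at this
  exact sub_eq_zero.1 this

theorem lim_hat_tendsto {l : Filter ℕ} {φ : ℕ → E3 → ℝ} {φ' : E3 → ℝ} (i : Bool)
    (h : ∀ w : E3 → ℝ, Continuous w → Tendsto (fun n => ∫ x, φ n x * w x) l (𝓝 (∫ x, φ' x * w x)))
    (w : E3 → ℝ) (hw : Continuous w) :
    Tendsto (fun n => ∫ x, hat i (φ n) x * w x) l (𝓝 (∫ x, hat i φ' x * w x)) := by
  simp only [integral_hat_mul]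
  exact h _ (hw.comp ((T i).contDiff 0).continuous)

theorem lim_sub_tendsto {l : Filter ℕ} {R M M' : ℝ} {f g : ℕ → E3 → ℝ} {f' g' : E3 → ℝ}
    (hf : ∀ n, Bd (Metric.ball 0 R) M (f n)) (hf' : Bd (Metric.ball 0 R) M f')
    (hg : ∀ n, Bd (Metric.ball 0 R) M' (g n)) (hg' : Bd (Metric.ball 0 R) M' g')
    (h : ∀ w : E3 → ℝ, Continuous w → Tendsto (fun n => ∫ x, f n x * w x) l (𝓝 (∫ x, f' x * w x)))
    (h' : ∀ w : E3 → ℝ, Continuous w → Tendsto (fun n => ∫ x, g n x * w x) l (𝓝 (∫ x, g' x * w x)))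
    (w : E3 → ℝ) (hw : Continuous w) :
    Tendsto (fun n => ∫ x, (f n x - g n x) * w x) l (𝓝 (∫ x, (f' x - g' x) * w x)) := by
  simp only [sub_mul]
  rw [integral_sub (lim_integrable_mul hf' hw) (lim_integrable_mul hg' hw)]
  refine ((h w hw).sub (h' w hw)).congr fun n => ?_
  rw [integral_sub (lim_integrable_mul (hf n) hw) (lim_integrable_mul (hg n) hw)]

/-- `D 0 = (1, indicator El / volume El)`, `D (n + 1) = (Γ (D n), Φ (D n))`, `𝒰 = hyperfilter ℕ`.  With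
`d n n' = ∫ |γ n - γ n'|`: `d (n+1) (n'+1) ≤ ∫_{Out 1.05} |..| + 2 σ³ d n n'` (`Mrg.inner`, `Sim.lintegral_comp`) and
`d ≤ (C - c) volume El`, `2 σ³ < 1`; so `n ↦ γ (n - j)` is Cauchy along `𝒰` for every `j`.  Let `γ' j` be its limit and
`φ' j` the weak limit of `φ (n - j)` (`weak_lim_bdd`); `n - j = (n - (j + 1)) + 1` eventually. -/
theorem tower {c C M : ℝ} {Γ Φ : (E3 → ℝ) × (E3 → ℝ) → E3 → ℝ} (hc : 0 < c) (hc1 : c ≤ 1) (hC : 1 ≤ C)
    (hM : (volume.real El)⁻¹ ≤ M)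
    (h : ∀ D : (E3 → ℝ) × (E3 → ℝ), Dat c C M D.1 D.2 → Dat c C M (Γ D) (Φ D) ∧ Mrg D.1 D.2 (Γ D) (Φ D))
    (hcpt : ∀ (D : ℕ → (E3 → ℝ) × (E3 → ℝ)), (∀ n, Dat c C M (D n).1 (D n).2) → ∀ (𝒰 : Ultrafilter ℕ)
      (ε : ℝ≥0∞), 0 < ε →
      ∃ A ∈ 𝒰, ∀ n ∈ A, ∀ n' ∈ A, ∫⁻ x in Out (105 / 100), ‖Γ (D n) x - Γ (D n') x‖ₑ ≤ ε) :
    ∃ γ φ : ℕ → E3 → ℝ, ∀ j, Dat c C M (γ j) (φ j) ∧ Mrg (γ (j + 1)) (φ (j + 1)) (γ j) (φ j) := by
  classical
  set D : ℕ → (E3 → ℝ) × (E3 → ℝ) := fun n =>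
    Nat.rec (fun _ => 1, El.indicator fun _ => (volume.real El)⁻¹) (fun _ d => (Γ d, Φ d)) n with hD
  have hDs : ∀ n, D (n + 1) = (Γ (D n), Φ (D n)) := fun n => rfl
  have hdat : ∀ n, Dat c C M (D n).1 (D n).2 := by
    intro n
    induction n with
    | zero => exact lim_dat0 hc1 hC hM
    | succ n ih => exact (h _ ih).1
  set 𝒰 : Ultrafilter ℕ := hyperfilter ℕ with h𝒰
  have hge : ∀ j : ℕ, ∀ᶠ n in (𝒰 : Filter ℕ), D (n - j) = (Γ (D (n - (j + 1))), Φ (D (n - (j + 1)))) := by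
    intro j
    filter_upwards [Nat.hyperfilter_le_atTop (eventually_ge_atTop (j + 1))] with n hn
    have hn' : j + 1 ≤ n := hn
    rw [← hDs, show n - (j + 1) + 1 = n - j by omega]
  have hmrg : ∀ j : ℕ, ∀ᶠ n in (𝒰 : Filter ℕ),
      Mrg (D (n - (j + 1))).1 (D (n - (j + 1))).2 (D (n - j)).1 (D (n - j)).2 := by
    intro j
    filter_upwards [hge j] with n hn
    rw [hn]
    exact (h _ (hdat _)).2
  set θ : ℝ≥0∞ := 2 * ENNReal.ofReal (σ ^ 3) with hθ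
  set B : ℝ≥0∞ := ENNReal.ofReal (C - c) * volume El with hB
  have hBt : B ≠ ⊤ := ENNReal.mul_ne_top ENNReal.ofReal_ne_top lim_bdd_El.measure_lt_top.ne
  have hP : ∀ k j : ℕ, ∀ ε : ℝ≥0∞, 0 < ε → ∃ A ∈ 𝒰, ∀ n ∈ A, ∀ n' ∈ A,
      ∫⁻ x, ‖(D (n - j)).1 x - (D (n' - j)).1 x‖ₑ ≤ ε + θ ^ k * B := by
    intro k
    induction k with
    | zero =>
      intro j ε _
      refine ⟨univ, univ_mem, fun n _ n' _ => ?_⟩
      rw [pow_zero, one_mul]
      exact (lim_dist_le (hdat _).ell (hdat _).one (hdat _).ell (hdat _).one).trans le_add_self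
    | succ k ih =>
      intro j ε hε
      have hε2 : 0 < ε / 2 := ENNReal.half_pos hε.ne'
      obtain ⟨A, hA, hAA⟩ := ih (j + 1) _ hε2
      obtain ⟨A', hA', hAA'⟩ := hcpt (fun n => D (n - (j + 1))) (fun n => hdat _) 𝒰 _ hε2
      refine ⟨A ∩ A' ∩ {n | D (n - j) = (Γ (D (n - (j + 1))), Φ (D (n - (j + 1))))},
        inter_mem (inter_mem hA hA') (hge j), fun n hn n' hn' => ?_⟩
      have e1 : D (n - j) = _ := hn.2
      have e2 : D (n' - j) = _ := hn'.2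
      rw [e1, e2]
      refine (lim_step (h _ (hdat (n - (j + 1)))).2 (h _ (hdat (n' - (j + 1)))).2).trans ?_
      have e3 := hAA n hn.1.1 n' hn'.1.1
      have e4 := hAA' n hn.1.2 n' hn'.1.2
      calc _ ≤ ε / 2 + θ * (ε / 2 + θ ^ k * B) := add_le_add e4 (mul_le_mul_right e3 _)
        _ = ε / 2 + θ * (ε / 2) + θ ^ (k + 1) * B := by ring
        _ ≤ ε / 2 + 1 * (ε / 2) + θ ^ (k + 1) * B := by gcongr; exact lim_theta.le
        _ = ε + θ ^ (k + 1) * B := by rw [one_mul, ENNReal.add_halves]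
  have hcau : ∀ j : ℕ, ∀ ε : ℝ≥0∞, 0 < ε → ∃ A ∈ 𝒰, ∀ n ∈ A, ∀ n' ∈ A,
      ∫⁻ x, ‖(D (n - j)).1 x - (D (n' - j)).1 x‖ₑ ≤ ε := by
    intro j ε hε
    have hε2 : 0 < ε / 2 := ENNReal.half_pos hε.ne'
    have ht : Tendsto (fun k : ℕ => θ ^ k * B) atTop (𝓝 0) := by
      have := ENNReal.Tendsto.mul_const (b := B) (ENNReal.tendsto_pow_atTop_nhds_zero_of_lt_one lim_theta)
        (Or.inr hBt)
      simpa using this
    obtain ⟨k, hk⟩ := (ht.eventually (ge_mem_nhds hε2)).exists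
    obtain ⟨A, hA, hAA⟩ := hP k j _ hε2
    refine ⟨A, hA, fun n hn n' hn' => (hAA n hn n' hn').trans ?_⟩
    calc _ ≤ ε / 2 + ε / 2 := add_le_add le_rfl hk
      _ = ε := ENNReal.add_halves ε
  choose γ hγ hγ1 hγt using fun j : ℕ => exists_L1_lim hc1 hC 𝒰 (γ := fun n => (D (n - j)).1)
    (fun n => ⟨(hdat _).ell, (hdat _).one⟩) (hcau j)
  choose φ hφ hφ0 hφt using fun j : ℕ => weak_lim_bdd 𝒰 isOpen_El.measurableSet lim_bdd_El
    (φ := fun n => (D (n - j)).2) fun n => (hdat _).den.1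
  have hφt' : ∀ j, ∀ w : E3 → ℝ, Continuous w →
      Tendsto (fun n => ∫ x, (D (n - j)).2 x * w x) 𝒰 (𝓝 (∫ x, φ j x * w x)) :=
    fun j w hw => hφt j w hw.continuousOn
  refine ⟨γ, φ, fun j => ⟨⟨hγ j, hγ1 j, ⟨hφ j, ?_⟩, hφ0 j fun n => (hdat _).nn⟩, fun i => ?_, ?_, ?_⟩⟩
  · have h1 := hφt' j (fun _ => 1) continuous_const
    simp only [mul_one, fun n => (hdat (n - j)).den.2] at h1
    exact (tendsto_nhds_unique tendsto_const_nhds h1).symm
  · exact lim_inner_lim i (hγ j).meas (fun n => (hdat _).ell.meas)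
      (hγ (j + 1)).meas (hγt j) (hγt (j + 1)) ((hmrg j).mono fun n hn => hn.inner i)
  · exact sol_lim hc 𝒰 (fun n => (hdat _).ell) (hγ j)
      (fun n => lim_bd_sub (lim_bd_hat (hdat (n - (j + 1))).den.1 false)
        (lim_bd_hat (hdat (n - (j + 1))).den.1 true)) (hγt j)
      (lim_sub_tendsto (fun n => lim_bd_hat (hdat (n - (j + 1))).den.1 false) (lim_bd_hat (hφ (j + 1)) false)
        (fun n => lim_bd_hat (hdat (n - (j + 1))).den.1 true) (lim_bd_hat (hφ (j + 1)) true)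
        (lim_hat_tendsto false (hφt' (j + 1))) (lim_hat_tendsto true (hφt' (j + 1))))
      ((hmrg j).mono fun n hn => hn.exv)
  · exact sol_lim hc 𝒰 (fun n => (hdat _).ell) (hγ j)
      (fun n => lim_bd_sub (lim_bd_hat (hdat (n - (j + 1))).den.1 false)
        (lim_bd_mono (hdat (n - j)).den.1 El_subset_ball le_rfl)) (hγt j)
      (lim_sub_tendsto (fun n => lim_bd_hat (hdat (n - (j + 1))).den.1 false) (lim_bd_hat (hφ (j + 1)) false)
        (fun n => lim_bd_mono (hdat (n - j)).den.1 El_subset_ball le_rfl)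
        (lim_bd_mono (hφ j) El_subset_ball le_rfl)
        (lim_hat_tendsto false (hφt' (j + 1))) (hφt' j))
      ((hmrg j).mono fun n hn => hn.exg)

end Crest.Agent.R83
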