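import Crest.Agent.R83.Rep
import Crest.Agent.R83.L1b

/-!
# R83 TASK RepM: the exterior potential of a cluster is the Newton potential of a bounded density
-/

set_option autoImplicit false

namespace Crest.Agent.R83

open MeasureTheory Set Filter Topology
open scoped Gradient RealInnerProductSpace ENNReal NNReal ContDiff

/-- the cut-off function with levels `a < b` -/
noncomputable def repm_th (a b : ℝ) (x : E3) : ℝ := Real.smoothTransition ((Q x - a) / (b - a))

/-- the shell between the levels -/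
def repm_sh (a b : ℝ) : Set E3 := {x | a ≤ Q x ∧ Q x ≤ b}

theorem repm_contQ : Continuous Q := (contDiff_Q 0).continuous

theorem repm_sh_compact (a b : ℝ) : IsCompact (repm_sh a b) :=
  (isCompact_Q_le b).of_isClosed_subset
    ((isClosed_le continuous_const repm_contQ).inter (isClosed_le repm_contQ continuous_const))
    fun _ hx => hx.2

theorem repm_th_contDiff (a b : ℝ) (n : ℕ) : ContDiff ℝ n (repm_th a b) :=
  (Real.smoothTransition.contDiff (n := n)).comp (((contDiff_Q n).sub contDiff_const).div_const _)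

theorem repm_th_zero {a b : ℝ} (hab : a < b) {x : E3} (hx : Q x ≤ a) : repm_th a b x = 0 :=
  Real.smoothTransition.zero_of_nonpos (div_nonpos_of_nonpos_of_nonneg (by linarith) (by linarith))

theorem repm_th_one {a b : ℝ} (hab : a < b) {x : E3} (hx : b ≤ Q x) : repm_th a b x = 1 :=
  Real.smoothTransition.one_of_one_le ((one_le_div (by linarith)).2 (by linarith))

theorem repm_tsupport {a b : ℝ} (hab : a < b) : tsupport (repm_th a b) ⊆ {x | a ≤ Q x} := by
  refine closure_minimal (fun x hx => ?_) (isClosed_le continuous_const repm_contQ)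
  by_contra h
  exact hx (repm_th_zero hab (not_le.1 h).le)

theorem repm_tsupport_sub {a b : ℝ} (hab : a < b) (ha : 1 < a) : tsupport (repm_th a b) ⊆ {x | 1 < Q x} :=
  (repm_tsupport hab).trans fun _ hx => lt_of_lt_of_le ha hx

theorem repm_tsupport' {a b : ℝ} (hab : a < b) :
    tsupport (fun x => 1 - repm_th a b x) ⊆ {x | Q x ≤ b} := by
  refine closure_minimal (fun x hx => ?_) (isClosed_le repm_contQ continuous_const)
  by_contra h
  exact hx (by simp [repm_th_one hab (not_le.1 h).le])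

theorem repm_cpt {a b : ℝ} (hab : a < b) : HasCompactSupport fun x => 1 - repm_th a b x :=
  (isCompact_Q_le b).of_isClosed_subset (isClosed_tsupport _) (repm_tsupport' hab)

theorem repm_locconst {a b : ℝ} (hab : a < b) {x : E3} (hx : x ∉ repm_sh a b) :
    ∃ c : ℝ, repm_th a b =ᶠ[𝓝 x] fun _ => c := by
  rcases not_and_or.1 hx with h | h
  · refine ⟨0, ?_⟩
    filter_upwards [(isOpen_lt repm_contQ continuous_const).mem_nhds (not_le.1 h)] with y hy
    exact repm_th_zero hab (le_of_lt hy)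
  · refine ⟨1, ?_⟩
    filter_upwards [(isOpen_lt continuous_const repm_contQ).mem_nhds (not_le.1 h)] with y hy
    exact repm_th_one hab (le_of_lt hy)

theorem repm_grad_ev {a b : ℝ} (hab : a < b) {x : E3} (hx : x ∉ repm_sh a b) :
    ∇ (repm_th a b) =ᶠ[𝓝 x] fun _ => 0 := by
  obtain ⟨c, hc⟩ := repm_locconst hab hx
  filter_upwards [hc.eventuallyEq_nhds] with y hy
  rw [hy.gradient_eq]
  exact gradient_fun_const y c

theorem repm_grad_zero {a b : ℝ} (hab : a < b) {x : E3} (hx : x ∉ repm_sh a b) :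
    ∇ (repm_th a b) x = 0 := (repm_grad_ev hab hx).eq_of_nhds

theorem repm_lap_zero {a b : ℝ} (hab : a < b) {x : E3} (hx : x ∉ repm_sh a b) :
    lap (repm_th a b) x = 0 := by
  unfold lap dvg
  rw [(repm_grad_ev hab hx).fderiv_eq]
  simp

theorem repm_grad_contDiff (a b : ℝ) (n : ℕ) : ContDiff ℝ n (∇ (repm_th a b)) :=
  contDiff_iff_contDiffAt.2 fun _ => contDiffAt_grad (repm_th_contDiff a b (n + 1)).contDiffAt

theorem repm_lap_contDiff (a b : ℝ) : ContDiff ℝ 1 (lap (repm_th a b)) := by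
  have h : ContDiff ℝ 1 (fderiv ℝ (∇ (repm_th a b))) :=
    (repm_grad_contDiff a b 2).fderiv_right (m := 1) (by norm_num)
  unfold lap dvg
  refine ContDiff.sum fun i _ => ?_
  have h2 : ContDiff ℝ 1 fun x => fderiv ℝ (∇ (repm_th a b)) x (e i) := h.clm_apply contDiff_const
  exact (EuclideanSpace.proj (𝕜 := ℝ) i).contDiff.comp h2

theorem repm_grad_cpt {a b : ℝ} (hab : a < b) : HasCompactSupport (∇ (repm_th a b)) :=
  HasCompactSupport.intro (repm_sh_compact a b) fun _ hx => repm_grad_zero hab hx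

/-- a measurable everywhere bounded version -/
theorem repm_exists_bd {K : Set E3} (hK : MeasurableSet K) {M : ℝ} (hM : 0 ≤ M) {f : E3 → ℝ}
    (hf : AEStronglyMeasurable f volume) (hb : ∀ᵐ x, |f x| ≤ M) (h0 : ∀ᵐ x, x ∉ K → f x = 0) :
    ∃ f', Bd K M f' ∧ f' =ᵐ[volume] f := by
  classical
  have hm : Measurable (hf.mk f) := hf.stronglyMeasurable_mk.measurable
  have hS : MeasurableSet (K ∩ {x | |hf.mk f x| ≤ M}) :=
    hK.inter (measurableSet_le (continuous_abs.measurable.comp hm) measurable_const)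
  refine ⟨(K ∩ {x | |hf.mk f x| ≤ M}).indicator (hf.mk f), ⟨hm.indicator hS, fun x => ?_, fun x hx => ?_⟩, ?_⟩
  · by_cases hx : x ∈ K ∩ {x | |hf.mk f x| ≤ M}
    · rw [indicator_of_mem hx]; exact hx.2
    · rw [indicator_of_notMem hx]; simpa using hM
  · exact indicator_of_notMem (fun h => hx h.1) _
  · filter_upwards [hf.ae_eq_mk, hb, h0] with x h1 h2 h3
    by_cases hx : x ∈ K
    · rw [indicator_of_mem (show x ∈ K ∩ {x | |hf.mk f x| ≤ M} from ⟨hx, by simpa [← h1] using h2⟩), h1]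
    · rw [indicator_of_notMem (fun h => hx h.1), h3 hx]

theorem repm_integrable {K : Set E3} (hK : IsCompact K) {M : ℝ} (hM : 0 ≤ M) {f : E3 → ℝ}
    (hf : AEStronglyMeasurable f volume) (hb : ∀ᵐ x, |f x| ≤ M) (h0 : ∀ᵐ x, x ∉ K → f x = 0) :
    Integrable f volume := by
  obtain ⟨f', h1, h2⟩ := repm_exists_bd hK.measurableSet hM hf hb h0
  exact (h1.l1 hK).int.congr h2

theorem repm_wd {c C M : ℝ} {γ φ : E3 → ℝ} {G : E3 → E3} (hD : Dat c C M γ φ)
    (hw : WD univ (fun x => γ x • G x) φ) : WD {x | 1 < Q x} G 0 := by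
  refine (hw.mono (subset_univ _)).congr (ae_of_all _ fun x hx => ?_) (ae_of_all _ fun x hx => ?_)
  · have : x ∉ El := fun h => lt_asymm (show Q x < 1 from h) hx
    simp [hD.one x this]
  · have : x ∉ El := fun h => lt_asymm (show Q x < 1 from h) hx
    simp [hD.den.1.off x this]

/-- the dipole kernel -/
noncomputable def repm_k (a b : ℝ) (q : E3 × E3) : ℝ :=
  lap (repm_th a b) q.1 * ‖q.2 - q.1‖⁻¹ + 2 * ⟪∇ (repm_th a b) q.1, Bf (q.2 - q.1)⟫

theorem repm_k_contDiffAt (a b : ℝ) {y x : E3} (h : x ≠ y) : ContDiffAt ℝ 1 (repm_k a b) (y, x) := by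
  have hs : ContDiffAt ℝ 1 (fun q : E3 × E3 => q.2 - q.1) (y, x) := contDiffAt_snd.sub contDiffAt_fst
  have hne : (fun q : E3 × E3 => q.2 - q.1) (y, x) ≠ 0 := sub_ne_zero.2 h
  have h1 : ContDiffAt ℝ 1 (fun q : E3 × E3 => lap (repm_th a b) q.1) (y, x) :=
    (repm_lap_contDiff a b).contDiffAt.comp _ contDiffAt_fst
  have h2 : ContDiffAt ℝ 1 (fun q : E3 × E3 => ‖q.2 - q.1‖⁻¹) (y, x) :=
    (hs.norm ℝ hne).inv (norm_ne_zero_iff.2 hne)
  have h3 : ContDiffAt ℝ 1 (fun q : E3 × E3 => ∇ (repm_th a b) q.1) (y, x) :=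
    (repm_grad_contDiff a b 1).contDiffAt.comp _ contDiffAt_fst
  have h4 : ContDiffAt ℝ 1 (fun q : E3 × E3 => Bf (q.2 - q.1)) (y, x) :=
    ContDiffAt.comp (g := Bf) (f := fun q : E3 × E3 => q.2 - q.1) (y, x)
      ((contDiffOn_Bf 1).contDiffAt (isOpen_ne.mem_nhds hne)) hs
  exact (h1.mul h2).add (contDiffAt_const.mul (h3.inner ℝ h4))

theorem repm_l1 {N a b b' : ℝ} (hb : b ≤ b') {P : E3 → ℝ} (hP : MemLp P 6 volume) (h0 : ∀ᵐ x, 0 ≤ P x)
    (hN : ∫ x in repm_sh a b', P x ≤ N) : L1 (repm_sh a b) N ((repm_sh a b).indicator P) := by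
  have hi : ∀ r, IntegrableOn P (repm_sh a r) volume := fun r =>
    (hP.locallyIntegrable (by norm_num)).integrableOn_isCompact (repm_sh_compact a r)
  have hm := (repm_sh_compact a b).measurableSet
  refine ⟨(integrable_indicator_iff hm).2 (hi b), ?_, fun x hx => indicator_of_notMem hx _⟩
  have h1 : ∫ y, |(repm_sh a b).indicator P y| = ∫ y, (repm_sh a b).indicator P y := by
    refine integral_congr_ae ?_
    filter_upwards [h0] with y hy
    exact abs_of_nonneg (indicator_apply_nonneg fun _ => hy)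
  rw [h1, integral_indicator hm]
  refine le_trans (setIntegral_mono_set (hi b') (ae_restrict_of_ae h0) ?_) hN
  exact (show repm_sh a b ⊆ repm_sh a b' from fun x hx => ⟨hx.1, hx.2.trans hb⟩).eventuallyLE

/-- uniform bounds on the shell `1.03 ≤ Q ≤ 1.04` -/
theorem repm_bound : ∃ B : ℝ, 0 ≤ B ∧ ∀ {c C M : ℝ} {γ φ P : E3 → ℝ} {G : E3 → E3}, Dat c C M γ φ →
    H0 univ P G → WD univ (fun x => γ x • G x) φ → (∀ᵐ x, 0 ≤ P x) →
    ∀ᵐ x, x ∈ repm_sh (103 / 100) (104 / 100) → |P x| ≤ B ∧ ‖G x‖ ≤ B := by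
  obtain ⟨N, hN⟩ := l1_bound
  have hab : (101 / 100 : ℝ) < 102 / 100 := by norm_num
  have hK := repm_sh_compact (101 / 100) (102 / 100)
  have hA := repm_sh_compact (103 / 100) (104 / 100)
  have hO : IsOpen {x : E3 | 102 / 100 < Q x} := isOpen_lt continuous_const repm_contQ
  have hAO : repm_sh (103 / 100) (104 / 100) ⊆ {x : E3 | 102 / 100 < Q x} := fun x hx =>
    lt_of_lt_of_le (by norm_num) hx.1
  have hk : ∀ y ∈ repm_sh (101 / 100) (102 / 100), ∀ x ∈ {x : E3 | 102 / 100 < Q x},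
      ContDiffAt ℝ 1 (repm_k (101 / 100) (102 / 100)) (y, x) := fun y hy x hx =>
    repm_k_contDiffAt _ _ fun h => by
      have h1 : 102 / 100 < Q x := hx
      have h2 : Q y ≤ 102 / 100 := hy.2
      rw [h] at h1
      linarith
  obtain ⟨N1, hN1⟩ := ker_bound (V := ℝ) hA hK (k := repm_k (101 / 100) (102 / 100))
    (fun y hy x hx => (hk y hy x (hAO hx)).continuousAt) N
  obtain ⟨N2, hN2⟩ := ker_bound (V := E3) hA hK
    (k := fun q : E3 × E3 => ∇ (fun z => repm_k (101 / 100) (102 / 100) (q.1, z)) q.2)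
    (fun y hy x hx => continuousAt_grad_param (hk y hy x (hAO hx))) N
  have hc := c0_pos
  refine ⟨c0⁻¹ * max (max N1 N2) 0, by positivity, fun {c C M γ φ P G} hD hP hw h0 => ?_⟩
  have hl : L1 _ N _ := repm_l1 (a := 101 / 100) (b := 102 / 100) (b' := 105 / 100) (by norm_num) hP.mu h0
    (hN hD hP hw h0)
  obtain ⟨p, hp⟩ : ∃ p, p = (repm_sh (101 / 100) (102 / 100)).indicator P := ⟨_, rfl⟩
  rw [← hp] at hl
  obtain ⟨hc1, hg1⟩ := ker_c1 hO hK hk hl
  have hr := (rep_dipole hP (repm_wd hD hw) (repm_th_contDiff _ _ 3) (repm_cpt hab)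
    (repm_tsupport_sub hab (by norm_num))).1
  have hPw : ∀ᵐ x, x ∈ {x : E3 | 102 / 100 < Q x} →
      P x = c0⁻¹ * ∫ y, p y * repm_k (101 / 100) (102 / 100) (y, x) := by
    filter_upwards [hr] with x hx hxO
    have h1 := hx fun h => not_le.2 hxO (repm_tsupport' hab h)
    have h2 : ∫ y, p y * repm_k (101 / 100) (102 / 100) (y, x) = c0 * P x := by
      rw [h1]
      refine integral_congr_ae (ae_of_all _ fun y => ?_)
      by_cases hy : y ∈ repm_sh (101 / 100) (102 / 100)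
      · simp only [hp, indicator_of_mem hy, repm_k]
      · simp only [hp, indicator_of_notMem hy, repm_grad_zero hab hy, repm_lap_zero hab hy]
        simp
    rw [h2, inv_mul_cancel_left₀ hc.ne']
  have hG := hP.grad_eq hO (contDiffOn_const.mul hc1) hPw
  filter_upwards [hPw, hG] with x h1 h2 hx
  have hd : DifferentiableAt ℝ (fun x => ∫ y, p y * repm_k (101 / 100) (102 / 100) (y, x)) x :=
    (hc1.contDiffAt (hO.mem_nhds (hAO hx))).differentiableAt (by norm_num)
  constructor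
  · rw [h1 (hAO hx), abs_mul, abs_of_pos (inv_pos.2 hc)]
    refine mul_le_mul_of_nonneg_left ?_ (by positivity)
    exact le_trans (hN1 p hl x hx) ((le_max_left _ _).trans (le_max_left _ _))
  · rw [h2 (hAO hx), grad_const_mul _ hd, hg1 x (hAO hx), norm_smul, Real.norm_eq_abs,
      abs_of_pos (inv_pos.2 hc)]
    refine mul_le_mul_of_nonneg_left ?_ (by positivity)
    exact le_trans (hN2 p hl x hx) ((le_max_right _ _).trans (le_max_left _ _))

theorem repm_flux {a b c C M : ℝ} (hab : a < b) (ha : 1 ≤ a) {γ φ : E3 → ℝ} {G : E3 → E3} (hD : Dat c C M γ φ)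
    (hw : WD univ (fun x => γ x • G x) φ) : ∫ x, ⟪G x, ∇ (repm_th a b) x⟫ = -1 := by
  have hθ := repm_th_contDiff a b 1
  have hT : Test univ fun x => 1 - repm_th a b x := ⟨contDiff_const.sub hθ, repm_cpt hab, subset_univ _⟩
  have h := hw _ hT
  have h1 : ∀ x, ⟪γ x • G x, ∇ (fun x => 1 - repm_th a b x) x⟫ = -⟪G x, ∇ (repm_th a b) x⟫ := fun x => by
    rw [grad_sub (differentiableAt_const _) (hθ.differentiable (by norm_num) x), gradient_fun_const, zero_sub]
    by_cases hx : x ∈ El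
    · have : x ∉ repm_sh a b := fun h => by
        have h1 : Q x < 1 := hx
        have h2 : a ≤ Q x := h.1
        linarith
      simp [repm_grad_zero hab this]
    · simp [hD.one x hx]
  have h2 : ∀ x, φ x * (1 - repm_th a b x) = φ x := fun x => by
    by_cases hx : x ∈ El
    · have h1 : Q x < 1 := hx
      simp [repm_th_zero hab (show Q x ≤ a by linarith)]
    · simp [hD.den.1.off x hx]
  simp only [h1, h2, integral_neg, hD.den.2] at h
  linarith

/-- Let `θ' = S' (Q)` vanish on `Q ≤ 1.01` and be `1` on `Q ≥ 1.02`, and `θ = S (Q)` with the levels `1.03`, `1.04`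
(`Real.smoothTransition`); `WD Elᶜ.. G 0` on `Ω = {Q > 1}`.  The first formula of `rep_dipole` for `θ'` has a density
`P * indicator {1.01 ≤ Q ≤ 1.02}` with `L¹` norm `≤ N` (`l1_bound`), so by `ker_c1`, `ker_bound`, `H0.grad_eq` both
`P` and `G` are a.e. bounded on `{1.03 ≤ Q ≤ 1.04}` by a constant depending only on `N`.  Take for `f` a measurable,
clipped and cut off version of `c0⁻¹ (-P Δθ - 2 G·∇θ)`; `∫ P Δθ = -∫ G·∇θ` (`H0.ibp_dvg` for `∇θ`) and
`-∫ G·∇θ = ∫ γ G·∇(1 - θ) = ∫ φ = 1`, so `m = c0⁻¹`.  The formula for `G` follows from `pot_c1`, `H0.grad_eq`. -/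
theorem rep : ∃ m M₀ : ℝ, 0 < m ∧ ∀ {c C M : ℝ} {γ φ P : E3 → ℝ} {G : E3 → E3}, Dat c C M γ φ →
    H0 univ P G → WD univ (fun x => γ x • G x) φ → (∀ᵐ x, 0 ≤ P x) →
    ∃ f, Den K0 M₀ m f ∧ ∀ᵐ x, x ∉ K0 → P x = pot f x ∧ G x = -fld f x := by
  obtain ⟨B, hB0, hB⟩ := repm_bound
  have hab : (103 / 100 : ℝ) < 104 / 100 := by norm_num
  have hA := repm_sh_compact (103 / 100) (104 / 100)
  have hK0 : IsCompact K0 := isCompact_Q_le _
  have hcl := (repm_lap_contDiff (103 / 100) (104 / 100)).continuous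
  have hcg := (repm_grad_contDiff (103 / 100) (104 / 100) 1).continuous
  obtain ⟨L1', hL1⟩ := hA.exists_bound_of_continuousOn hcl.continuousOn
  obtain ⟨L2', hL2⟩ := hA.exists_bound_of_continuousOn hcg.continuousOn
  obtain ⟨L, hL⟩ : ∃ L : ℝ, L = max (max L1' L2') 0 := ⟨_, rfl⟩
  have hL0 : 0 ≤ L := hL ▸ le_max_right _ _
  have hLl : ∀ x ∈ repm_sh (103 / 100) (104 / 100), |lap (repm_th (103 / 100) (104 / 100)) x| ≤ L :=
    fun x hx => hL ▸ (hL1 x hx).trans ((le_max_left _ _).trans (le_max_left _ _))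
  have hLg : ∀ x ∈ repm_sh (103 / 100) (104 / 100), ‖∇ (repm_th (103 / 100) (104 / 100)) x‖ ≤ L :=
    fun x hx => hL ▸ (hL2 x hx).trans ((le_max_right _ _).trans (le_max_left _ _))
  have hc := c0_pos
  refine ⟨c0⁻¹, c0⁻¹ * (B * L + 2 * (B * L)), inv_pos.2 hc, fun {c C M γ φ P G} hD hP hw h0 => ?_⟩
  obtain ⟨θ, hθ⟩ : ∃ θ, θ = repm_th (103 / 100) (104 / 100) := ⟨_, rfl⟩
  have hz : ∀ x, x ∉ repm_sh (103 / 100) (104 / 100) → lap θ x = 0 ∧ ∇ θ x = 0 := fun x hx =>
    hθ ▸ ⟨repm_lap_zero hab hx, repm_grad_zero hab hx⟩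
  rw [← hθ] at hLl hLg hcl hcg
  have hb := hB hD hP hw h0
  have hm1 : AEStronglyMeasurable (fun y => P y * lap θ y) volume := hP.mu.1.mul hcl.aestronglyMeasurable
  have hm2 : AEStronglyMeasurable (fun y => ⟪G y, ∇ θ y⟫) volume := hP.mG.1.inner hcg.aestronglyMeasurable
  have hb1 : ∀ᵐ y, |P y * lap θ y| ≤ B * L := by
    filter_upwards [hb] with y hy
    by_cases h : y ∈ repm_sh (103 / 100) (104 / 100)
    · rw [abs_mul]
      exact mul_le_mul (hy h).1 (hLl y h) (abs_nonneg _) hB0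
    · simp only [(hz y h).1, mul_zero, abs_zero]
      positivity
  have hb2 : ∀ᵐ y, |⟪G y, ∇ θ y⟫| ≤ B * L := by
    filter_upwards [hb] with y hy
    by_cases h : y ∈ repm_sh (103 / 100) (104 / 100)
    · exact (abs_real_inner_le_norm _ _).trans (mul_le_mul (hy h).2 (hLg y h) (norm_nonneg _) hB0)
    · simp only [(hz y h).2, inner_zero_right, abs_zero]
      positivity
  have hi1 : Integrable (fun y => P y * lap θ y) volume :=
    repm_integrable hA (by positivity) hm1 hb1 (ae_of_all _ fun y h => by simp [(hz y h).1])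
  have hi2 : Integrable (fun y => ⟪G y, ∇ θ y⟫) volume :=
    repm_integrable hA (by positivity) hm2 hb2 (ae_of_all _ fun y h => by simp [(hz y h).2])
  obtain ⟨f, hf, hfe⟩ := repm_exists_bd (K := K0) (M := c0⁻¹ * (B * L + 2 * (B * L))) hK0.measurableSet
    (by positivity) (f := fun y => c0⁻¹ * (-(P y * lap θ y) - 2 * ⟪G y, ∇ θ y⟫))
    ((hm1.neg.sub (hm2.const_mul 2)).const_mul _)
    (by
      filter_upwards [hb1, hb2] with y h1 h2
      rw [abs_mul, abs_of_pos (inv_pos.2 hc)]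
      refine mul_le_mul_of_nonneg_left ?_ (by positivity)
      rw [abs_le] at h1 h2 ⊢
      constructor <;> linarith [h1.1, h1.2, h2.1, h2.2])
    (ae_of_all _ fun y hy => by
      have h : y ∉ repm_sh (103 / 100) (104 / 100) := fun h => hy h.2
      simp [(hz y h).1, (hz y h).2])
  have hfl : ∫ x, ⟪G x, ∇ θ x⟫ = -1 := hθ ▸ repm_flux hab (by norm_num) hD hw
  have hib : ∫ x, ⟪G x, ∇ θ x⟫ = -∫ x, P x * lap θ x :=
    hP.ibp_dvg (hθ ▸ repm_grad_contDiff _ _ 1) (hθ ▸ repm_grad_cpt hab)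
  have hPf : ∀ᵐ x, x ∈ K0ᶜ → P x = pot f x := by
    have hr := (rep_dipole hP (repm_wd hD hw) (repm_th_contDiff _ _ 3) (repm_cpt hab)
      (repm_tsupport_sub hab (by norm_num))).2
    filter_upwards [hr] with x hx hxK
    have h1 := hx fun h => hxK (repm_tsupport' hab h)
    rw [← hθ] at h1
    have h2 : pot f x = c0⁻¹ * pot (fun y => -(P y * lap θ y) - 2 * ⟪G y, ∇ θ y⟫) x := by
      unfold pot
      rw [← integral_const_mul]
      refine integral_congr_ae ?_
      filter_upwards [hfe] with y hy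
      rw [hy, mul_assoc]
    rw [h2, ← h1, inv_mul_cancel_left₀ hc.ne']
  obtain ⟨hc1, hg1⟩ := pot_c1 hK0 (hf.l1 hK0)
  have hG := hP.grad_eq hK0.isClosed.isOpen_compl hc1 hPf
  refine ⟨f, ⟨hf, ?_⟩, ?_⟩
  · rw [integral_congr_ae hfe, integral_const_mul, integral_sub hi1.fun_neg (hi2.const_mul 2), integral_neg,
      integral_const_mul, ← hib, hfl]
    ring
  · filter_upwards [hPf, hG] with x h1 h2 hx
    exact ⟨h1 hx, by rw [h2 hx, hg1 x hx]⟩

end Crest.Agent.R83
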