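import Crest.Agent.R83.StdB
import Crest.Agent.R83.Casc

/-!
# R83 TASK Std: the standard subsolution with two point charges and compact support
-/

set_option autoImplicit false

namespace Crest.Agent.R83

open MeasureTheory Set Filter Topology
open scoped Gradient RealInnerProductSpace ENNReal NNReal ContDiff

theorem std_det (a b c d : ℝ) (n w u : E3) :
    ⟪a • n + b • w, cross (c • n + d • w) u⟫ = (a * d - b * c) * ⟪n, cross w u⟫ := by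
  simp only [cross, PiLp.inner_apply, Fin.sum_univ_three, PiLp.add_apply, PiLp.smul_apply, smul_eq_mul,
    RCLike.inner_apply, conj_trivial, Matrix.cons_val_zero, Matrix.cons_val_one, Matrix.cons_val_two,
    Matrix.head_cons, Matrix.tail_cons]
  ring

theorem std_cross_smul (c : ℝ) (a b : E3) : cross (c • a) b = c • cross a b := by
  ext i
  fin_cases i <;> simp [cross] <;> ring

theorem std_cone_smul {κ : ℝ} {E J : E3} (h : cone κ E J) (a : ℝ) : cone κ (a • E) (a • J) := by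
  unfold cone at h ⊢
  rw [real_inner_smul_left, real_inner_smul_right, norm_smul, norm_smul, mul_pow, mul_pow,
    Real.norm_eq_abs, sq_abs]
  nlinarith [mul_le_mul_of_nonneg_left h (sq_nonneg a)]

/-- the sign of the determinant -/
theorem std_sign {t v h : E3 → ℝ} {U : E3 → ℂ} {x w : E3} (ht : DifferentiableAt ℝ t x)
    (hU : DifferentiableAt ℝ U x) (h1 : ∀ᶠ y in 𝓝 x, ‖U y‖ = 1)
    (hv : v =ᶠ[𝓝 x] fun y => 1 / 4 * Real.exp (-t y) * (U y).re)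
    (hh : h =ᶠ[𝓝 x] fun y => 1 / 4 * Real.exp (-t y) * (U y).im)
    (hp : 0 < ⟪∇ v x, cross (∇ h x) w⟫) : ⟪∇ t x, cross (om U x) w⟫ < 0 := by
  obtain ⟨g1, g2⟩ := grad_pow hU h1 1
  simp only [pow_one, Nat.cast_one, one_mul] at g1 g2
  have hd : HasDerivAt (fun s : ℝ => 1 / 4 * Real.exp (-s)) (-(1 / 4 * Real.exp (-t x))) (t x) := by
    exact (((hasDerivAt_neg (t x)).exp).const_mul (1 / 4 : ℝ)).congr_deriv (by ring)
  have g0 : ∇ (fun y => 1 / 4 * Real.exp (-t y)) x = (-(1 / 4 * Real.exp (-t x))) • ∇ t x :=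
    grad_comp (h := fun s : ℝ => 1 / 4 * Real.exp (-s)) hd ht
  have d0 : DifferentiableAt ℝ (fun y => 1 / 4 * Real.exp (-t y)) x := ht.neg.exp.const_mul _
  have d1 : DifferentiableAt ℝ (fun y => (U y).re) x := Complex.reCLM.differentiableAt.comp x hU
  have d2 : DifferentiableAt ℝ (fun y => (U y).im) x := Complex.imCLM.differentiableAt.comp x hU
  set r : ℝ := 1 / 4 * Real.exp (-t x) with hr
  have hr0 : 0 < r := by positivity
  have e1 : ∇ v x = (-(r * (U x).re)) • ∇ t x + (-(r * (U x).im)) • om U x := by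
    rw [hv.gradient_eq, grad_mul d0 d1, g0, g1, smul_smul, smul_smul, add_comm]
    congr 2 <;> ring
  have e2 : ∇ h x = (-(r * (U x).im)) • ∇ t x + (r * (U x).re) • om U x := by
    rw [hh.gradient_eq, grad_mul d0 d2, g0, g2, smul_smul, smul_smul, add_comm]
    congr 2
    ring
  rw [e1, e2, std_det] at hp
  have h2 : (U x).re ^ 2 + (U x).im ^ 2 = 1 := by
    have h3 := h1.self_of_nhds
    have h4 := Complex.sq_norm (U x)
    rw [h3, Complex.normSq_apply] at h4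
    linarith
  have h5 : -(r * (U x).re) * (r * (U x).re) - -(r * (U x).im) * -(r * (U x).im) = -r ^ 2 := by
    linear_combination (-r ^ 2) * h2
  rw [h5] at hp
  by_contra hc
  have := mul_nonneg (sq_nonneg r) (not_lt.1 hc)
  linarith

theorem std_unit {Ω : Set E3} {a b : E3 → ℝ} (ha : ContDiffOn ℝ 2 a Ω) (hb : ContDiffOn ℝ 2 b Ω)
    (h : ∀ x ∈ Ω, a x ^ 2 + b x ^ 2 ≠ 0) :
    ContDiffOn ℝ 2 (fun x => ((a x : ℂ) + (b x : ℂ) * Complex.I) / (√(a x ^ 2 + b x ^ 2) : ℝ)) Ω ∧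
      ∀ x ∈ Ω, ‖((a x : ℂ) + (b x : ℂ) * Complex.I) / (√(a x ^ 2 + b x ^ 2) : ℝ)‖ = 1 := by
  have hpos : ∀ x ∈ Ω, √(a x ^ 2 + b x ^ 2) ≠ 0 := fun x hx =>
    (Real.sqrt_pos.2 (lt_of_le_of_ne (by positivity) (h x hx).symm)).ne'
  have c1 : ContDiffOn ℝ 2 (fun x => (a x : ℂ)) Ω := Complex.ofRealCLM.contDiff.comp_contDiffOn ha
  have c2 : ContDiffOn ℝ 2 (fun x => (b x : ℂ)) Ω := Complex.ofRealCLM.contDiff.comp_contDiffOn hb
  have c3 : ContDiffOn ℝ 2 (fun x => ((√(a x ^ 2 + b x ^ 2) : ℝ) : ℂ)) Ω :=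
    Complex.ofRealCLM.contDiff.comp_contDiffOn (((ha.pow 2).add (hb.pow 2)).sqrt h)
  refine ⟨?_, fun x hx => ?_⟩
  · simp only [div_eq_mul_inv]
    exact (c1.add (c2.mul contDiffOn_const)).mul
      (c3.inv fun x hx => Complex.ofReal_ne_zero.2 (hpos x hx))
  · rw [norm_div, Complex.norm_add_mul_I, Complex.norm_real, Real.norm_of_nonneg (Real.sqrt_nonneg _),
      div_self (hpos x hx)]

/-- the cascade, adapted to the data of `stdB` -/
theorem std_casc : ∃ a : ℝ, 0 < a ∧ a < 1 / 4 ∧ ∀ (F : E3 → E3) (v ρ : E3 → ℝ), ContDiff ℝ 2 F →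
    ContDiffOn ℝ 2 v {x | F x ≠ 0} → (∀ x, F x ≠ 0 → 0 < ⟪∇ v x, -pb F Bf x⟫) →
    (ρ = fun x => √(v x ^ 2 + (F x 1 / ‖F x‖) ^ 2)) →
    IsCompact ({x | F x ≠ 0} ∩ ρ ⁻¹' Icc a (1 / 4)) →
    ∃ (v' : E3 → ℝ) (J' : E3 → E3) (κ : ℝ), 0 < κ ∧
      ContDiffOn ℝ 1 v' ({x | F x ≠ 0} ∩ ρ ⁻¹' Ioo 0 (1 / 2)) ∧
      ContinuousOn J' ({x | F x ≠ 0} ∩ ρ ⁻¹' Ioo 0 (1 / 2)) ∧
      WD ({x | F x ≠ 0} ∩ ρ ⁻¹' Ioo 0 (1 / 2)) J' 0 ∧
      ∀ x ∈ {x | F x ≠ 0} ∩ ρ ⁻¹' Ioo 0 (1 / 2), (1 / 4 ≤ ρ x → v' x = v x ∧ J' x = -pb F Bf x) ∧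
        (ρ x ≤ a → v' x = 0 ∧ J' x = 0) ∧ (ρ x ≤ 1 / 4 → cone κ (∇ v' x) (J' x)) := by
  obtain ⟨T, hT, hc⟩ := cascade
  have ha1 : Real.exp (-T) < 1 := by
    rw [← Real.exp_zero]
    exact Real.exp_lt_exp.2 (by linarith)
  refine ⟨Real.exp (-T) / 4, by positivity, by linarith, fun F v ρ hF hv hp hρ hK => ?_⟩
  set D : Set E3 := {x | F x ≠ 0} with hDd
  set Ω : Set E3 := D ∩ ρ ⁻¹' Ioo 0 (1 / 2) with hΩd
  set h : E3 → ℝ := fun x => F x 1 / ‖F x‖ with hhd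
  have hD : IsOpen D := isOpen_ne_fun hF.continuous continuous_const
  have hFi : ∀ i, ContDiff ℝ 2 fun x => F x i := fun i => contDiff_euclidean.1 hF i
  have hh : ContDiffOn ℝ 2 h D :=
    (hFi 1).contDiffOn.div (hF.contDiffOn.norm ℝ fun x hx => hx) fun x hx => norm_ne_zero_iff.2 hx
  have hρx : ∀ x, ρ x = √(v x ^ 2 + h x ^ 2) := fun x => by rw [hρ]
  have hρc : ContinuousOn ρ D := by
    rw [hρ]
    exact ((hv.continuousOn.pow 2).add (hh.continuousOn.pow 2)).sqrt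
  have hΩ : IsOpen Ω := hρc.isOpen_inter_preimage hD isOpen_Ioo
  have hΩD : Ω ⊆ D := inter_subset_left
  have hne : ∀ x ∈ Ω, v x ^ 2 + h x ^ 2 ≠ 0 := fun x hx =>
    (Real.sqrt_pos.1 (hρx x ▸ hx.2.1)).ne'
  have hρ2 : ContDiffOn ℝ 2 ρ Ω := by
    rw [hρ]
    exact (((hv.mono hΩD).pow 2).add ((hh.mono hΩD).pow 2)).sqrt hne
  have hne2 : ∀ x ∈ Ω, F x 0 ^ 2 + F x 2 ^ 2 ≠ 0 := by
    intro x hx h0
    have h1 : ‖F x‖ ^ 2 = F x 1 ^ 2 := by
      rw [EuclideanSpace.real_norm_sq_eq, Fin.sum_univ_three]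
      linarith
    have h2 : h x ^ 2 = 1 := by
      have h3 : ‖F x‖ ≠ 0 := norm_ne_zero_iff.2 hx.1
      rw [hhd]
      dsimp only
      rw [div_pow, ← h1, div_self (pow_ne_zero 2 h3)]
    have h3 : ρ x < 1 / 2 := hx.2.2
    rw [hρx, Real.sqrt_lt' (by norm_num)] at h3
    nlinarith [sq_nonneg (v x)]
  set t : E3 → ℝ := fun x => -Real.log (4 * ρ x) with htd
  have ht : ContDiffOn ℝ 2 t Ω :=
    ((contDiffOn_const.mul hρ2).log fun x hx => by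
      have : 0 < ρ x := hx.2.1
      positivity).neg
  have het : ∀ x ∈ Ω, Real.exp (-t x) = 4 * ρ x := by
    intro x hx
    have : 0 < ρ x := hx.2.1
    rw [htd]
    dsimp only
    rw [neg_neg, Real.exp_log (by positivity)]
  have ht0 : ∀ x ∈ Ω, (0 ≤ t x ↔ ρ x ≤ 1 / 4) ∧ (t x ≤ 0 ↔ 1 / 4 ≤ ρ x) ∧
      (t x ≤ T ↔ Real.exp (-T) / 4 ≤ ρ x) ∧ (T ≤ t x ↔ ρ x ≤ Real.exp (-T) / 4) := by
    intro x hx
    have e := het x hx
    refine ⟨?_, ?_, ?_, ?_⟩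
    · rw [← neg_nonpos, ← Real.exp_le_one_iff, e]
      constructor <;> intro <;> linarith
    · rw [← neg_nonneg, ← Real.one_le_exp_iff, e]
      constructor <;> intro <;> linarith
    · rw [← neg_le_neg_iff, ← Real.exp_le_exp, e]
      constructor <;> intro <;> linarith
    · rw [← neg_le_neg_iff, ← Real.exp_le_exp, e]
      constructor <;> intro <;> linarith
  set U₁ : E3 → ℂ := fun x => ((v x : ℂ) + (h x : ℂ) * Complex.I) / (√(v x ^ 2 + h x ^ 2) : ℝ) with hU₁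
  set U₂ : E3 → ℂ := fun y => ((F y 0 : ℂ) - (F y 2 : ℂ) * Complex.I) / (√(F y 0 ^ 2 + F y 2 ^ 2) : ℝ)
    with hU₂
  obtain ⟨u1, u2⟩ := std_unit (hv.mono hΩD) (hh.mono hΩD) hne
  obtain ⟨u3, u4⟩ := std_unit (Ω := Ω) (a := fun y => F y 0) (b := fun y => -F y 2) (hFi 0).contDiffOn
    (hFi 2).neg.contDiffOn (fun x hx => by simpa using hne2 x hx)
  have eU₂ : U₂ = fun y => ((F y 0 : ℂ) + ((-F y 2 : ℝ) : ℂ) * Complex.I) /
      (√(F y 0 ^ 2 + (-F y 2) ^ 2) : ℝ) := by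
    funext y
    rw [hU₂, neg_sq, Complex.ofReal_neg, neg_mul, ← sub_eq_add_neg]
  have hre : ∀ x ∈ Ω, Real.exp (-t x) * (U₁ x).re = 4 * v x ∧ Real.exp (-t x) * (U₁ x).im = 4 * h x := by
    intro x hx
    have h0 : ρ x ≠ 0 := (hx.2.1 : 0 < ρ x).ne'
    rw [het x hx, hU₁]
    dsimp only
    rw [← hρx, Complex.div_ofReal_re, Complex.div_ofReal_im]
    simp only [Complex.add_re, Complex.ofReal_re, Complex.mul_re, Complex.I_re, mul_zero, Complex.ofReal_im,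
      Complex.I_im, mul_one, sub_self, add_zero, Complex.add_im, Complex.mul_im, zero_add]
    constructor <;> field_simp
  have hJ : ∀ x ∈ Ω, -pb F Bf x = cross (∇ h x) (om U₂ x) := fun x hx =>
    pb_Bf_eq_cross (hF.differentiable (by norm_num) x) (hne2 x hx)
  have hKe : {x | x ∈ Ω ∧ 0 ≤ t x ∧ t x ≤ T} = D ∩ ρ ⁻¹' Icc (Real.exp (-T) / 4) (1 / 4) := by
    ext x
    constructor
    · rintro ⟨hx, h1, h2⟩
      exact ⟨hx.1, (ht0 x hx).2.2.1.1 h2, (ht0 x hx).1.1 h1⟩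
    · rintro ⟨hx, h1, h2⟩
      have hxΩ : x ∈ Ω := ⟨hx, lt_of_lt_of_le (by positivity) h1, by linarith⟩
      exact ⟨hxΩ, (ht0 x hxΩ).1.2 h2, (ht0 x hxΩ).2.2.1.2 h1⟩
  obtain ⟨v', J', κ, hκ, c1, c2, c3, c4, c5, c6⟩ := hc Ω t U₁ U₂ hΩ ht u1 (eU₂ ▸ u3)
    (fun x hx => ⟨u2 x hx, eU₂ ▸ u4 x hx⟩) (hKe ▸ hK) (fun x hx => by
      have hn : Ω ∈ 𝓝 x := hΩ.mem_nhds hx
      refine std_sign (v := v) (h := h) ((ht.contDiffAt hn).differentiableAt (by norm_num))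
        ((u1.contDiffAt hn).differentiableAt (by norm_num)) (eventually_of_mem hn u2)
        (eventually_of_mem hn fun y hy => ?_) (eventually_of_mem hn fun y hy => ?_) ?_
      · dsimp only
        rw [mul_assoc, (hre y hy).1]
        ring
      · dsimp only
        rw [mul_assoc, (hre y hy).2]
        ring
      · rw [← hJ x hx]
        exact hp x hx.1)
  refine ⟨fun x => 1 / 4 * v' x, fun x => (1 / 4 : ℝ) • J' x, κ, hκ, contDiffOn_const.mul c1,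
    c2.const_smul (1 / 4 : ℝ), (c3.smul (1 / 4)).congr (ae_of_all _ fun _ _ => rfl) (ae_of_all _ fun _ _ => by simp),
    fun x hx => ⟨fun h1 => ?_, fun h1 => ?_, fun h1 => ?_⟩⟩
  · obtain ⟨e1, e2⟩ := c4 x hx ((ht0 x hx).2.1.2 h1)
    have hn : Ω ∈ 𝓝 x := hΩ.mem_nhds hx
    have e3 : (fun y => Real.exp (-t y) * (U₁ y).im) =ᶠ[𝓝 x] fun y => 4 * h y :=
      eventually_of_mem hn fun y hy => (hre y hy).2
    have e4 : DifferentiableAt ℝ h x :=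
      (hh.contDiffAt (hD.mem_nhds hx.1)).differentiableAt (by norm_num)
    constructor
    · dsimp only
      rw [e1, (hre x hx).1]
      ring
    · dsimp only
      rw [e2, e3.gradient_eq, grad_const_mul 4 e4, std_cross_smul, smul_smul, hJ x hx]
      norm_num
  · obtain ⟨e1, e2⟩ := c5 x hx ((ht0 x hx).2.2.2.2 h1)
    simp [e1, e2]
  · rw [grad_const_mul _ ((c1.contDiffAt (hΩ.mem_nhds hx)).differentiableAt (by norm_num))]
    exact std_cone_smul (c6 x hx ((ht0 x hx).1.2 h1)) _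

/-- gluing of the three pieces -/
theorem std_glue {D : Set E3} {ρ v v' : E3 → ℝ} {J J' : E3 → E3} {a : ℝ} (ha : 0 < a) (ha' : a < 1 / 4)
    (hD : IsOpen D) (hρ : ContinuousOn ρ D) (hv : ContDiffOn ℝ 1 v D) (hJ : ContinuousOn J D)
    (hw : WD D J 0) (hv' : ContDiffOn ℝ 1 v' (D ∩ ρ ⁻¹' Ioo 0 (1 / 2)))
    (hJ' : ContinuousOn J' (D ∩ ρ ⁻¹' Ioo 0 (1 / 2))) (hw' : WD (D ∩ ρ ⁻¹' Ioo 0 (1 / 2)) J' 0)
    (h1 : ∀ x ∈ D ∩ ρ ⁻¹' Ioo 0 (1 / 2), 1 / 4 ≤ ρ x → v' x = v x ∧ J' x = J x)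
    (h2 : ∀ x ∈ D ∩ ρ ⁻¹' Ioo 0 (1 / 2), ρ x ≤ a → v' x = 0 ∧ J' x = 0) :
    ∃ (vN : E3 → ℝ) (JN : E3 → E3), ContDiffOn ℝ 1 vN D ∧ ContinuousOn JN D ∧ WD D JN 0 ∧
      (∀ x ∈ D, 1 / 4 < ρ x → vN x = v x ∧ JN x = J x ∧ ∇ vN x = ∇ v x) ∧
      (∀ x ∈ D ∩ ρ ⁻¹' Ioo 0 (1 / 2), JN x = J' x ∧ ∇ vN x = ∇ v' x) ∧
      (∀ x, ρ x < a → vN x = 0 ∧ JN x = 0) ∧ ∀ x ∈ D, ρ x < a → ∇ vN x = 0 := by
  classical
  set Ω : Set E3 := D ∩ ρ ⁻¹' Ioo 0 (1 / 2) with hΩd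
  set O₁ : Set E3 := D ∩ ρ ⁻¹' Ioi (1 / 4) with hO₁d
  set O₃ : Set E3 := D ∩ ρ ⁻¹' Iio a with hO₃d
  have hΩ : IsOpen Ω := hρ.isOpen_inter_preimage hD isOpen_Ioo
  have hO₁ : IsOpen O₁ := hρ.isOpen_inter_preimage hD isOpen_Ioi
  have hO₃ : IsOpen O₃ := hρ.isOpen_inter_preimage hD isOpen_Iio
  set vN : E3 → ℝ := fun x => if x ∈ Ω then v' x else if 1 / 2 ≤ ρ x then v x else 0 with hvN
  set JN : E3 → E3 := fun x => if x ∈ Ω then J' x else if 1 / 2 ≤ ρ x then J x else 0 with hJN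
  have hA : ∀ x ∈ O₁, vN x = v x ∧ JN x = J x := by
    intro x hx
    have h3 : 1 / 4 < ρ x := hx.2
    by_cases hxΩ : x ∈ Ω
    · simp only [hvN, hJN, if_pos hxΩ]
      exact h1 x hxΩ h3.le
    · have h4 : 1 / 2 ≤ ρ x := by
        by_contra h5
        exact hxΩ ⟨hx.1, by linarith, not_le.1 h5⟩
      simp only [hvN, hJN, if_neg hxΩ, if_pos h4, and_self]
  have hB : ∀ x ∈ Ω, vN x = v' x ∧ JN x = J' x := by
    intro x hxΩ
    simp only [hvN, hJN, if_pos hxΩ, and_self]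
  have hC : ∀ x, ρ x < a → vN x = 0 ∧ JN x = 0 := by
    intro x hx
    by_cases hxΩ : x ∈ Ω
    · simp only [hvN, hJN, if_pos hxΩ]
      exact h2 x hxΩ hx.le
    · have h4 : ¬ 1 / 2 ≤ ρ x := by
        intro h5
        linarith
      simp only [hvN, hJN, if_neg hxΩ, if_neg h4, and_self]
  have hcov : D = O₁ ∪ Ω ∪ O₃ := by
    refine Subset.antisymm (fun x hx => ?_) (union_subset (union_subset inter_subset_left inter_subset_left)
      inter_subset_left)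
    by_cases h3 : 1 / 4 < ρ x
    · exact Or.inl (Or.inl ⟨hx, h3⟩)
    · by_cases h4 : 0 < ρ x
      · exact Or.inl (Or.inr ⟨hx, h4, by linarith⟩)
      · exact Or.inr ⟨hx, show ρ x < a by linarith⟩
  have cJ : ContinuousOn JN D := by
    rw [hcov]
    refine ContinuousOn.union_of_isOpen (ContinuousOn.union_of_isOpen ?_ ?_ hO₁ hΩ) ?_ (hO₁.union hΩ) hO₃
    · exact (hJ.mono inter_subset_left).congr fun x hx => (hA x hx).2
    · exact hJ'.congr fun x hx => (hB x hx).2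
    · exact (continuousOn_const (c := (0 : E3))).congr fun x hx => (hC x hx.2).2
  refine ⟨vN, JN, ?_, cJ, ?_, fun x hx h3 => ⟨(hA x ⟨hx, h3⟩).1, (hA x ⟨hx, h3⟩).2, ?_⟩,
    fun x hx => ⟨(hB x hx).2, ?_⟩, hC, fun x hx h3 => ?_⟩
  · rw [hcov]
    refine ContDiffOn.union_of_isOpen (ContDiffOn.union_of_isOpen ?_ ?_ hO₁ hΩ) ?_ (hO₁.union hΩ) hO₃
    · exact (hv.mono inter_subset_left).congr fun x hx => (hA x hx).1
    · exact hv'.congr fun x hx => (hB x hx).1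
    · exact (contDiffOn_const (c := (0 : ℝ))).congr fun x hx => (hC x hx.2).1
  · have w1 : WD O₁ JN 0 := (hw.mono inter_subset_left).congr
      (ae_of_all _ fun x hx => (hA x hx).2.symm) (ae_of_all _ fun _ _ => rfl)
    have w2 : WD Ω JN 0 := hw'.congr (ae_of_all _ fun x hx => (hB x hx).2.symm) (ae_of_all _ fun _ _ => rfl)
    have w0 : WD O₃ (fun _ => 0) 0 := fun ψ _ => by simp
    have w3 : WD O₃ JN 0 := w0.congr (ae_of_all _ fun x hx => (hC x hx.2).2.symm)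
      (ae_of_all _ fun _ _ => rfl)
    have w4 : WD (O₁ ∪ Ω ∪ O₃) JN 0 :=
      WD.union_cont (hO₁.union hΩ) hO₃
        (WD.union_cont hO₁ hΩ w1 w2 (cJ.mono (union_subset inter_subset_left inter_subset_left))) w3
        (hcov ▸ cJ)
    exact hcov ▸ w4
  · exact Filter.EventuallyEq.gradient_eq
      (eventually_of_mem (hO₁.mem_nhds ⟨hx, h3⟩) fun y hy => (hA y hy).1)
  · exact Filter.EventuallyEq.gradient_eq (eventually_of_mem (hΩ.mem_nhds hx) fun y hy => (hB y hy).1)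
  · have e : vN =ᶠ[𝓝 x] fun _ => 0 := eventually_of_mem (hO₃.mem_nhds ⟨hx, h3⟩) fun y hy => (hC y hy.2).1
    rw [e.gradient_eq]
    simp

theorem std_K (r : ℝ) : IsCompact {x | Q x ≤ 94 / 100 ∧ ∀ i, r ≤ Q (S i x)} := by
  refine (isCompact_Q_le (94 / 100)).of_isClosed_subset ?_ fun x hx => hx.1
  have hQ : Continuous Q := (contDiff_Q 0).continuous
  rw [ofPred_and, ofPred_forall]
  exact (isClosed_le hQ continuous_const).inter (isClosed_iInter fun i =>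
    isClosed_le continuous_const (hQ.comp ((S i).contDiff 0).continuous))

theorem std_Q_ctr (i : Bool) : Q (S i (ctr i)) = 0 := by
  rw [S_ctr]
  simp [Q]

/-- Take `T` from `cascade`, `η = exp (-2 T) / 16`, the data of `stdB`, `h = F₁ / ‖F‖`, `Z = v + i h`,
`Ω = {F ≠ 0, 0 < ‖Z‖ < 1/2}`, `t = -log (4 ‖Z‖)`, `U₁ = Z / ‖Z‖`, `U₂` as in `pb_Bf_eq_cross` (`|h| < 1/2` gives
`F₀² + F₂² ≠ 0`).  On `Ω`, `v = exp (-t) re U₁ / 4`, `h = exp (-t) im U₁ / 4`, so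
`0 < ⟪∇v, ∇h × ω₂⟫ = -‖Z‖² ⟪∇t, ω₁ × ω₂⟫` (`grad_pow` with `n = 1`).  The set `exp (-T) / 4 ≤ ‖Z‖ ≤ 1/4` is compact
(it lies in `Out (1.07) ∩ {Q ≤ 0.94}`).  New fields: the old ones on `‖Z‖ > 1/4`, a quarter of the cascade on `Ω`, zero on
`‖Z‖ < exp (-T) / 4` (three open sets covering `{F ≠ 0}`; `WD.union_cont`, `wd_pb`); `cone_of_pos` on the compact set
`‖Z‖ ≥ 1/4`, `1.07 ≤ Q (S i x)`. -/
theorem std : ∃ (v : E3 → ℝ) (J : E3 → E3) (α β κ M : ℝ), 0 < α ∧ 0 < β ∧ 0 < κ ∧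
    ContDiffOn ℝ 1 v {x | ∀ i, x ≠ ctr i} ∧ ContinuousOn J {x | ∀ i, x ≠ ctr i} ∧
    WD {x | ∀ i, x ≠ ctr i} J 0 ∧
    (∀ i x, Q (S i x) < 108 / 100 → x ≠ ctr i → v x = sg i * (α + β * ‖x - ctr i‖⁻¹) ∧
      J x = -(sg i • Bf (x - ctr i))) ∧
    (∀ x, 94 / 100 ≤ Q x → v x = 0 ∧ J x = 0) ∧
    ∀ x ∈ Out (107 / 100), cone κ (∇ v x) (J x) ∧ ‖∇ v x‖ ≤ M ∧ ‖J x‖ ≤ M := by
  obtain ⟨a, ha, ha', hc⟩ := std_casc
  obtain ⟨F, v, α, β, hα, hβ, hF, hF0, hv, hp, hn, hf⟩ := stdB (η := a ^ 2) (by positivity)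
  set ρ : E3 → ℝ := fun x => √(v x ^ 2 + (F x 1 / ‖F x‖) ^ 2) with hρ
  have hDe : {x | ∀ i, x ≠ ctr i} = {x | F x ≠ 0} := by
    ext x
    simp [hF0]
  set D : Set E3 := {x | F x ≠ 0} with hDd
  have hD : IsOpen D := isOpen_ne_fun hF.continuous continuous_const
  have hmem : ∀ x, x ∈ D ↔ ∀ i, x ≠ ctr i := fun x => by rw [← hDe]; rfl
  have hρc : ContinuousOn ρ D := by
    have h1 : Continuous fun x => F x 1 := (contDiff_euclidean.1 hF 1).continuous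
    exact ((hv.continuousOn.pow 2).add ((h1.continuousOn.div hF.continuous.norm.continuousOn
      fun x hx => norm_ne_zero_iff.2 hx).pow 2)).sqrt
  have hρ0 : ∀ x, 0 ≤ ρ x := fun x => Real.sqrt_nonneg _
  have hfar : ∀ x, 94 / 100 ≤ Q x → ρ x < a := fun x hx => (Real.sqrt_lt' ha).2 (hf x hx)
  have hnear : ∀ i x, Q (S i x) < 108 / 100 → x ≠ ctr i → 1 ≤ ρ x := by
    intro i x h1 h2
    refine (hn i x h1 h2).2.1.trans (Real.abs_le_sqrt ?_)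
    nlinarith [sq_nonneg (F x 1 / ‖F x‖)]
  have hKD : ∀ r : ℝ, 0 < r → ∀ x, (∀ i, r ≤ Q (S i x)) → x ∈ D := by
    intro r hr x hx
    refine (hmem x).2 fun i hi => ?_
    have := hx i
    rw [hi, std_Q_ctr] at this
    linarith
  have hK : IsCompact (D ∩ ρ ⁻¹' Icc a (1 / 4)) := by
    have e : D ∩ ρ ⁻¹' Icc a (1 / 4) =
        {x | Q x ≤ 94 / 100 ∧ ∀ i, 108 / 100 ≤ Q (S i x)} ∩ ρ ⁻¹' Icc a (1 / 4) := by
      ext x
      constructor
      · rintro ⟨hx, h1, h2⟩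
        refine ⟨⟨?_, fun i => ?_⟩, h1, h2⟩
        · by_contra h3
          have := hfar x (not_le.1 h3).le
          linarith
        · by_contra h3
          have := hnear i x (not_le.1 h3) ((hmem x).1 hx i)
          linarith
      · rintro ⟨hx, h1⟩
        exact ⟨hKD _ (by norm_num) x hx.2, h1⟩
    rw [e]
    exact (std_K _).of_isClosed_subset
      ((hρc.mono fun x hx => hKD _ (by norm_num) x hx.2).preimage_isClosed_of_isClosed
        (std_K _).isClosed isClosed_Icc) inter_subset_left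
  obtain ⟨v', J', κ₂, hκ₂, c1, c2, c3, c4⟩ := hc F v ρ hF hv hp rfl hK
  have hv1 : ContDiffOn ℝ 1 v D := hv.of_le (by norm_num)
  have hJc : ContinuousOn (fun x => -pb F Bf x) D :=
    (continuousOn_pb hD (hF.of_le (by norm_num)).contDiffOn (contDiffOn_Bf 0).continuousOn
      fun x hx => hx).neg
  have hJw : WD D (fun x => -pb F Bf x) 0 :=
    ((wd_pb hD isOpen_ne hF.contDiffOn (contDiffOn_Bf 1) (fun x hx => hx)
      fun y hy => dvg_Bf hy).smul (-1)).congr (ae_of_all _ fun _ _ => by simp)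
      (ae_of_all _ fun _ _ => by simp)
  obtain ⟨vN, JN, g1, g2, g3, g4, g5, g6, g7⟩ := std_glue ha ha' hD hρc hv1 hJc hJw c1 c2 c3
    (fun x hx => (c4 x hx).1) (fun x hx => (c4 x hx).2.1)
  set K₁ : Set E3 := {x | Q x ≤ 94 / 100 ∧ ∀ i, 107 / 100 ≤ Q (S i x)} with hK₁d
  have hK₁ : IsCompact K₁ := std_K _
  have hK₁D : K₁ ⊆ D := fun x hx => hKD _ (by norm_num) x hx.2
  have hK₂ : IsCompact (K₁ ∩ ρ ⁻¹' Ici (1 / 4)) :=
    hK₁.of_isClosed_subset ((hρc.mono hK₁D).preimage_isClosed_of_isClosed hK₁.isClosed isClosed_Ici)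
      inter_subset_left
  obtain ⟨κ₁, hκ₁, hc₁⟩ := cone_of_pos hK₂ (E := ∇ v) (J := fun x => -pb F Bf x)
    ((continuousOn_grad hD hv1).mono (inter_subset_left.trans hK₁D))
    (hJc.mono (inter_subset_left.trans hK₁D)) fun x hx => hp x (hK₁D hx.1)
  obtain ⟨M₁, hM₁⟩ := hK₁.exists_bound_of_continuousOn ((continuousOn_grad hD g1).mono hK₁D)
  obtain ⟨M₂, hM₂⟩ := hK₁.exists_bound_of_continuousOn (g2.mono hK₁D)
  rw [hDe]
  refine ⟨vN, JN, α, β, min κ₁ κ₂, |M₁| + |M₂|, hα, hβ, lt_min hκ₁ hκ₂, g1, g2, g3,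
    fun i x h1 h2 => ?_, fun x hx => g6 x (hfar x hx), fun x hx => ?_⟩
  · have hxD : x ∈ D := by
      refine (hmem x).2 fun j hj => ?_
      by_cases hij : i = j
      · exact h2 (hij ▸ hj)
      · have := lt_Q_S hij (x := x) (by linarith)
        rw [hj, std_Q_ctr] at this
        linarith
    obtain ⟨e1, e2, -⟩ := g4 x hxD (by linarith [hnear i x h1 h2])
    obtain ⟨e3, -, e4⟩ := hn i x h1 h2
    exact ⟨e1.trans e3, by rw [e2, e4]⟩
  · have hx' : ∀ i, 107 / 100 ≤ Q (S i x) := fun i => (hx i).le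
    have hxD : x ∈ D := hKD _ (by norm_num) x hx'
    have a1 := abs_nonneg M₁
    have a2 := abs_nonneg M₂
    by_cases h1 : ρ x < a
    · rw [g7 x hxD h1, (g6 x h1).2]
      simp only [cone, norm_zero, inner_zero_left]
      refine ⟨by simp, by linarith, by linarith⟩
    · have hxK : x ∈ K₁ := ⟨not_lt.1 fun h2 => h1 (hfar x h2.le), hx'⟩
      refine ⟨?_, by linarith [hM₁ x hxK, le_abs_self M₁], by linarith [hM₂ x hxK, le_abs_self M₂]⟩
      by_cases h2 : 1 / 4 < ρ x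
      · obtain ⟨-, e2, e3⟩ := g4 x hxD h2
        rw [e2, e3]
        exact (hc₁ x ⟨hxK, h2.le⟩).mono (min_le_left _ _)
      · have hxΩ : x ∈ D ∩ ρ ⁻¹' Ioo 0 (1 / 2) := ⟨hxD, by linarith, by linarith⟩
        obtain ⟨e2, e3⟩ := g5 x hxΩ
        rw [e2, e3]
        exact ((c4 x hxΩ).2.2 (not_lt.1 h2)).mono (min_le_right _ _)

end Crest.Agent.R83
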