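import Crest.Agent.R83.Slot
import Crest.Agent.R83.Std

/-!
# R83 TASK Sub: the subsolution outside the two children
-/

set_option autoImplicit false

namespace Crest.Agent.R83

open MeasureTheory Set Filter Topology
open scoped Gradient RealInnerProductSpace ENNReal NNReal ContDiff

/-- the collar of the child `i` -/
def sub_A (i : Bool) : Set E3 := {x | 104 / 100 < Q (S i x) ∧ Q (S i x) < 108 / 100}

/-- gluing the formulas near the children with the formula outside -/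
noncomputable def sub_glue {V : Type} (a : Bool → E3 → V) (b : E3 → V) (x : E3) : V :=
  if Q (S false x) < 1075 / 1000 then a false x else if Q (S true x) < 1075 / 1000 then a true x else b x

theorem sub_glue_A {V : Type} {a : Bool → E3 → V} {b : E3 → V}
    (hab : ∀ i x, 107 / 100 ≤ Q (S i x) → Q (S i x) < 108 / 100 → a i x = b x) {i : Bool} {x : E3}
    (hx : Q (S i x) < 108 / 100) : sub_glue a b x = a i x := by
  unfold sub_glue
  cases i
  · have h := lt_Q_S (j := true) (by simp) (x := x) (i := false) (by linarith)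
    split_ifs with h1 h2
    · rfl
    · linarith
    · exact (hab false x (by linarith) hx).symm
  · have h := lt_Q_S (j := false) (by simp) (x := x) (i := true) (by linarith)
    split_ifs with h1 h2
    · linarith
    · rfl
    · exact (hab true x (by linarith) hx).symm

theorem sub_glue_B {V : Type} {a : Bool → E3 → V} {b : E3 → V}
    (hab : ∀ i x, 107 / 100 ≤ Q (S i x) → Q (S i x) < 108 / 100 → a i x = b x) {x : E3}
    (hx : x ∈ Out (107 / 100)) : sub_glue a b x = b x := by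
  unfold sub_glue
  split_ifs with h1 h2
  · exact hab false x (hx false).le (by linarith)
  · exact hab true x (hx true).le (by linarith)
  · rfl

theorem sub_cont_QS (i : Bool) : Continuous fun x => Q (S i x) :=
  (contDiff_Q 0).continuous.comp ((S i).contDiff 0).continuous

theorem sub_open_A (i : Bool) : IsOpen (sub_A i) :=
  (isOpen_lt continuous_const (sub_cont_QS i)).inter (isOpen_lt (sub_cont_QS i) continuous_const)

theorem sub_A_out {i : Bool} {x : E3} (hx : x ∈ sub_A i) : x ∈ Out (104 / 100) := by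
  intro j
  by_cases h : i = j
  · exact h ▸ hx.1
  · have := lt_Q_S h (x := x) (by linarith [hx.2])
    linarith

theorem sub_out_mono {r r' : ℝ} (h : r ≤ r') : Out r' ⊆ Out r := fun _ hx i => h.trans_lt (hx i)

theorem sub_cover {x : E3} (hx : x ∈ Out (104 / 100)) : (∃ i, x ∈ sub_A i) ∨ x ∈ Out (107 / 100) := by
  by_cases h : ∃ i, Q (S i x) < 108 / 100
  · obtain ⟨i, hi⟩ := h
    exact Or.inl ⟨i, hx i, hi⟩
  · push Not at h
    exact Or.inr fun i => by linarith [h i]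

theorem sub_cover_eq : Out (104 / 100) = sub_A false ∪ sub_A true ∪ Out (107 / 100) := by
  ext x
  constructor
  · intro hx
    rcases sub_cover hx with ⟨i, hi⟩ | h
    · cases i
      · exact Or.inl (Or.inl hi)
      · exact Or.inl (Or.inr hi)
    · exact Or.inr h
  · rintro ((h | h) | h)
    · exact sub_A_out h
    · exact sub_A_out h
    · exact sub_out_mono (by norm_num) h

theorem sub_open_K0 : IsOpen K0ᶜ := (isCompact_Q_le _).isClosed.isOpen_compl

theorem sub_A_K0 {i : Bool} {x : E3} (hx : x ∈ sub_A i) : S i x ∈ K0ᶜ := fun h => (not_le.2 hx.1) h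

theorem sub_ne_ctr {i : Bool} {x : E3} (hx : 0 < Q (S i x)) : x ≠ ctr i := by
  rintro rfl
  rw [S_ctr] at hx
  simp [Q] at hx

theorem sub_B_P : Out (107 / 100) ⊆ {x | ∀ i, x ≠ ctr i} := fun _ hx i => sub_ne_ctr (by linarith [hx i])

theorem sub_open_P : IsOpen {x : E3 | ∀ i, x ≠ ctr i} := by
  rw [Set.ofPred_forall]
  exact isOpen_iInter_of_finite fun i => isOpen_ne

theorem sub_σ_pos : 0 < σ := by norm_num [σ]

theorem sub_hatG_smul {G G' : E3 → E3} {i : Bool} {x : E3} {c : ℝ} (h : G (S i x) = c • G' (S i x)) :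
    hatG i G x = c • hatG i G' x := by
  simp only [hatG, Sim.pG, h, map_smul]
  rw [smul_comm c, smul_comm c]

theorem sub_hatG_sub (i : Bool) (G : E3 → E3) (x x' : E3) :
    ‖sg i • hatG i G x' - sg i • hatG i G x‖ = σ⁻¹ * (σ⁻¹ * ‖G (S i x') - G (S i x)‖) := by
  have h := sub_σ_pos
  simp only [hatG, Sim.pG]
  rw [← smul_sub, ← smul_sub, ← smul_sub, ← map_sub, norm_smul, norm_smul, norm_smul,
    LinearIsometryEquiv.norm_map, S_s, Real.norm_of_nonneg (le_of_lt (inv_pos.2 h))]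
  cases i <;> simp [sg]

theorem sub_norm_hatG (i : Bool) (G : E3 → E3) (x : E3) :
    ‖sg i • hatG i G x‖ = σ⁻¹ * (σ⁻¹ * ‖G (S i x)‖) := by
  have h := sub_σ_pos
  rw [hatG, norm_smul, norm_smul, Sim.norm_pG, S_s, Real.norm_of_nonneg (le_of_lt (inv_pos.2 h))]
  cases i <;> simp [sg]

theorem sub_inner_hatG (i : Bool) (G J : E3 → E3) (x : E3) :
    ⟪sg i • hatG i G x, sg i • hatG i J x⟫ = σ⁻¹ ^ 4 * ⟪G (S i x), J (S i x)⟫ := by
  rw [hatG, hatG, real_inner_smul_left, real_inner_smul_right, real_inner_smul_left, real_inner_smul_right,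
    Sim.inner_pG, S_s]
  cases i <;> simp only [sg] <;> simp <;> ring

theorem sub_cone_hatG {κ : ℝ} {i : Bool} {G J : E3 → E3} {x : E3} (h : cone κ (G (S i x)) (J (S i x))) :
    cone κ (sg i • hatG i G x) (sg i • hatG i J x) := by
  unfold cone at h ⊢
  rw [sub_norm_hatG, sub_norm_hatG, sub_inner_hatG]
  have h1 := mul_le_mul_of_nonneg_left h (show 0 ≤ σ⁻¹ ^ 4 by positivity)
  linarith [show κ * ((σ⁻¹ * (σ⁻¹ * ‖G (S i x)‖)) ^ 2 + (σ⁻¹ * (σ⁻¹ * ‖J (S i x)‖)) ^ 2) =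
    σ⁻¹ ^ 4 * (κ * (‖G (S i x)‖ ^ 2 + ‖J (S i x)‖ ^ 2)) by ring]

theorem sub_contAt_hatG {i : Bool} {G : E3 → E3} {x : E3} (h : ContinuousAt G (S i x)) :
    ContinuousAt (fun y => sg i • hatG i G y) x := by
  have h1 : ContinuousAt (fun y => G (S i y)) x := h.comp ((S i).contDiff 0).continuous.continuousAt
  exact ((((S i).R.symm.continuous.continuousAt.comp h1).const_smul (S i).s).const_smul σ⁻¹).const_smul (sg i)

theorem sub_eqc {ι : Type} {w ws : ι → E3 → E3} {w0 : E3 → E3} (hs : Eqc K0ᶜ ws)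
    (h0 : ContinuousOn w0 (Out (107 / 100))) (hA : ∀ z i, ∀ y ∈ sub_A i, w z y = sg i • hatG i (ws z) y)
    (hB : ∀ z, ∀ y ∈ Out (107 / 100), w z y = w0 y) {U : Set E3} (hU : U ⊆ Out (104 / 100)) : Eqc U w := by
  intro x hx ε hε
  have hσ := sub_σ_pos
  rcases sub_cover (hU hx) with ⟨i, hi⟩ | h
  · obtain ⟨δ₁, h1, h2⟩ := Metric.isOpen_iff.1 (sub_open_A i) x hi
    obtain ⟨δ₂, h3, h4⟩ := hs (S i x) (sub_A_K0 hi) (σ * (σ * ε)) (by positivity)
    refine ⟨min δ₁ (σ * δ₂), by positivity, fun z x' hx' => ?_⟩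
    rw [lt_min_iff] at hx'
    rw [hA z i x' (h2 hx'.1), hA z i x hi, sub_hatG_sub]
    have h5 := h4 z (S i x') (by
      rw [dist_eq_norm, Sim.norm_sub, S_s, ← dist_eq_norm, inv_mul_lt_iff₀ hσ]
      exact hx'.2)
    rwa [inv_mul_le_iff₀ hσ, inv_mul_le_iff₀ hσ]
  · obtain ⟨δ₁, h1, h2⟩ := Metric.isOpen_iff.1 (isOpen_Out _) x h
    obtain ⟨δ₂, h3, h4⟩ := Metric.continuousAt_iff.1 (h0.continuousAt ((isOpen_Out _).mem_nhds h)) ε hε
    refine ⟨min δ₁ δ₂, by positivity, fun z x' hx' => ?_⟩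
    rw [lt_min_iff] at hx'
    rw [hB z x' (h2 hx'.1), hB z x h, ← dist_eq_norm]
    exact (h4 hx'.2).le

theorem sub_vol_S (i : Bool) (Z : Set E3) : volume (S i ⁻¹' Z) ≤ volume Z := by
  refine (Measure.le_map_apply ((S i).contDiff 0).continuous.aemeasurable Z).trans ?_
  rw [Sim.map_volume, Measure.smul_apply, smul_eq_mul, S_s]
  refine mul_le_of_le_one_left' (ENNReal.ofReal_le_one.2 ?_)
  norm_num [σ]

theorem sub_small {g : E3 → ℝ} {O : Set E3} (hO : IsOpen O) (hg : ContinuousOn g O)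
    (hb : ∀ x ∈ O, 0 < g x → Q x ≤ 95 / 100) {ε : ℝ≥0∞} (hε : 0 < ε) :
    ∃ η : ℝ, 0 < η ∧ volume {x | x ∈ O ∧ 0 < g x ∧ g x < η} ≤ ε := by
  have hm : ∀ n : ℕ, IsOpen {x | x ∈ O ∧ 0 < g x ∧ g x < 1 / ((n : ℝ) + 1)} := fun n =>
    hg.isOpen_inter_preimage hO (isOpen_Ioo (a := 0) (b := 1 / ((n : ℝ) + 1)))
  have ht := tendsto_measure_iInter_atTop (μ := (volume : Measure E3))
    (s := fun n : ℕ => {x | x ∈ O ∧ 0 < g x ∧ g x < 1 / ((n : ℝ) + 1)})
    (fun n => (hm n).measurableSet.nullMeasurableSet)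
    (fun a b hab x hx => ⟨hx.1, hx.2.1, hx.2.2.trans_le (Nat.one_div_le_one_div hab)⟩)
    ⟨0, ne_top_of_le_ne_top (isCompact_Q_le (95 / 100)).measure_lt_top.ne
      (measure_mono fun x hx => hb x hx.1 hx.2.1)⟩
  have he : ⋂ n : ℕ, {x | x ∈ O ∧ 0 < g x ∧ g x < 1 / ((n : ℝ) + 1)} = ∅ := by
    refine Set.eq_empty_of_forall_notMem fun x hx => ?_
    rw [Set.mem_iInter] at hx
    obtain ⟨n, hn⟩ := exists_nat_one_div_lt (hx 0).2.1
    exact lt_asymm hn (hx n).2.2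
  rw [he, measure_empty] at ht
  obtain ⟨n, hn⟩ := (ht.eventually (gt_mem_nhds hε)).exists
  exact ⟨_, Nat.one_div_pos_of_nat, le_of_lt hn⟩

theorem sub_cone_zero {κ : ℝ} (hκ : 0 < κ) {E J : E3} (h : cone κ E J) (h0 : ⟪E, J⟫ ≤ 0) : E = 0 ∧ J = 0 := by
  have h1 : ‖E‖ ^ 2 + ‖J‖ ^ 2 ≤ 0 := by
    by_contra h2
    exact absurd (h.trans h0) (not_le.2 (mul_pos hκ (not_le.1 h2)))
  constructor <;> rw [← norm_eq_zero] <;> nlinarith [sq_nonneg ‖E‖, sq_nonneg ‖J‖]

/-- With `slot` and `std`: `v f x = sg i * (α' + hatu i (v_slot f) x)`, `J f x = sg i • hatG i (J_slot f) x` if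
`Q (S i x) < 1.075`, and `(lam / β) v_std`, `m • J_std` otherwise, `α' = α lam / β`; both agree on
`1.07 ≤ Q (S i x) < 1.08` (`norm_S`, `hatG_Bf`), so `Out 1.04` is covered by the open sets `1.04 < Q (S i x) < 1.08` and
`Out 1.07` on which one formula holds (`WD.union_cont`, `WD.hat`, `grad_hatu`, `cone.smul`, `cone.neg`).
`U = Out 1.05 ∩ ({∃ i, Q (S i x) < 1.08} ∪ {x ∈ Out 1.07 | ⟪∇v_std, J_std⟫ > 0})`. -/
theorem sub {M₀ m : ℝ} (hm : 0 < m) : ∃ (α κ M : ℝ) (U : Set E3) (v : (E3 → ℝ) → E3 → ℝ)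
    (J : (E3 → ℝ) → E3 → E3), 0 < α ∧ 0 < κ ∧ κ ≤ 1 ∧ IsOpen U ∧ U ⊆ Out (105 / 100) ∧
    (∀ x ∈ U, Q x ≤ 95 / 100) ∧
    (∀ f, Den K0 M₀ m f → ContDiffOn ℝ 1 (v f) (Out (104 / 100)) ∧ ContinuousOn (J f) (Out (104 / 100)) ∧
      WD (Out (104 / 100)) (J f) 0 ∧
      (∀ i x, 104 / 100 < Q (S i x) → Q (S i x) ≤ 105 / 100 →
        v f x = sg i * (α + hatu i (pot f) x) ∧ J f x = -(sg i • hatG i (fld f) x)) ∧
      (∀ x, 95 / 100 < Q x → v f x = 0 ∧ ∇ (v f) x = 0 ∧ J f x = 0) ∧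
      (∀ x ∈ U, cone κ (∇ (v f) x) (J f x) ∧ ‖∇ (v f) x‖ ≤ M ∧ ‖J f x‖ ≤ M) ∧
      ∀ x ∈ Out (105 / 100), x ∉ U → ∇ (v f) x = 0 ∧ J f x = 0) ∧
    Eqc U (fun f : {f // Den K0 M₀ m f} => ∇ (v f.1)) ∧ Eqc U (fun f : {f // Den K0 M₀ m f} => J f.1) ∧
    ∀ ε : ℝ≥0∞, 0 < ε → ∃ η : ℝ, 0 < η ∧ ∀ f, Den K0 M₀ m f →
      volume {x | x ∈ U ∧ ⟪∇ (v f) x, J f x⟫ < η} ≤ ε := by
  obtain ⟨lam, κs, N, vs, Js, hlam, hκs, hs, he1, he2, hsm⟩ := slot (M := M₀) hm
  obtain ⟨v0, J0, α0, β, κ0, M0, hα0, hβ, hκ0, hv0, hJ0, hw0, hn0, hz0, hc0⟩ := std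
  have hσ := sub_σ_pos
  have ha : 0 < lam / β := div_pos hlam hβ
  set v : (E3 → ℝ) → E3 → ℝ := fun f =>
    sub_glue (fun i x => sg i * (α0 * lam / β + hatu i (vs f) x)) fun x => lam / β * v0 x with hv
  set J : (E3 → ℝ) → E3 → E3 := fun f =>
    sub_glue (fun i x => sg i • hatG i (Js f) x) fun x => m • J0 x with hJ
  have agv : ∀ f, Den K0 M₀ m f → ∀ i x, 107 / 100 ≤ Q (S i x) → Q (S i x) < 108 / 100 →
      sg i * (α0 * lam / β + hatu i (vs f) x) = lam / β * v0 x := by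
    intro f hf i x h1 h2
    have hx : x ≠ ctr i := sub_ne_ctr (by linarith)
    rw [(hn0 i x h2 hx).1, hatu, ((hs f hf).2.2.2.2.1 _ h1).1, norm_S]
    field_simp
  have agJ : ∀ f, Den K0 M₀ m f → ∀ i x, 107 / 100 ≤ Q (S i x) → Q (S i x) < 108 / 100 →
      sg i • hatG i (Js f) x = m • J0 x := by
    intro f hf i x h1 h2
    have hx : x ≠ ctr i := sub_ne_ctr (by linarith)
    rw [(hn0 i x h2 hx).2, sub_hatG_smul (G' := Bf) (c := -m)
      (by rw [((hs f hf).2.2.2.2.1 _ h1).2, neg_smul]), hatG_Bf, neg_smul, smul_neg, smul_neg, smul_comm]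
  have vA : ∀ f, Den K0 M₀ m f → ∀ i, ∀ x ∈ sub_A i, v f x = sg i * (α0 * lam / β + hatu i (vs f) x) :=
    fun f hf i x hx => sub_glue_A (agv f hf) hx.2
  have JA : ∀ f, Den K0 M₀ m f → ∀ i, ∀ x ∈ sub_A i, J f x = sg i • hatG i (Js f) x :=
    fun f hf i x hx => sub_glue_A (agJ f hf) hx.2
  have vB : ∀ f, Den K0 M₀ m f → ∀ x ∈ Out (107 / 100), v f x = lam / β * v0 x :=
    fun f hf x hx => sub_glue_B (agv f hf) hx
  have JB : ∀ f, Den K0 M₀ m f → ∀ x ∈ Out (107 / 100), J f x = m • J0 x :=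
    fun f hf x hx => sub_glue_B (agJ f hf) hx
  clear_value v J
  have vA' : ∀ f, Den K0 M₀ m f → ∀ i, ∀ x ∈ sub_A i,
      v f =ᶠ[𝓝 x] fun x => sg i * (α0 * lam / β + hatu i (vs f) x) := fun f hf i x hx =>
    eventually_of_mem ((sub_open_A i).mem_nhds hx) (vA f hf i)
  have vB' : ∀ f, Den K0 M₀ m f → ∀ x ∈ Out (107 / 100), v f =ᶠ[𝓝 x] fun x => lam / β * v0 x :=
    fun f hf x hx => eventually_of_mem ((isOpen_Out _).mem_nhds hx) (vB f hf)
  have cs : ∀ f, Den K0 M₀ m f → ∀ i, ∀ x ∈ sub_A i, ContDiffAt ℝ 1 (vs f) (S i x) := fun f hf i x hx =>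
    (hs f hf).1.contDiffAt (sub_open_K0.mem_nhds (sub_A_K0 hx))
  have cu : ∀ f, Den K0 M₀ m f → ∀ i, ∀ x ∈ sub_A i, ContDiffAt ℝ 1 (hatu i (vs f)) x := fun f hf i x hx =>
    contDiffAt_const.mul ((cs f hf i x hx).comp x ((S i).contDiff 1).contDiffAt)
  have c0 : ∀ x ∈ Out (107 / 100), ContDiffAt ℝ 1 v0 x := fun x hx =>
    hv0.contDiffAt (sub_open_P.mem_nhds (sub_B_P hx))
  have gA : ∀ f, Den K0 M₀ m f → ∀ i, ∀ x ∈ sub_A i, ∇ (v f) x = sg i • hatG i (∇ (vs f)) x := by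
    intro f hf i x hx
    have h1 := (cu f hf i x hx).differentiableAt one_ne_zero
    rw [(vA' f hf i x hx).gradient_eq, grad_const_mul _ (h1.const_add _), grad_const_add,
      grad_hatu i ((cs f hf i x hx).differentiableAt one_ne_zero)]
  have gB : ∀ f, Den K0 M₀ m f → ∀ x ∈ Out (107 / 100), ∇ (v f) x = (lam / β) • ∇ v0 x := by
    intro f hf x hx
    rw [(vB' f hf x hx).gradient_eq, grad_const_mul _ ((c0 x hx).differentiableAt one_ne_zero)]
  have cg0 : ContinuousOn (∇ v0) (Out (107 / 100)) := continuousOn_grad (isOpen_Out _) (hv0.mono sub_B_P)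
  have cJ0 : ContinuousOn J0 (Out (107 / 100)) := hJ0.mono sub_B_P
  have ci : ContinuousOn (fun x => ⟪∇ v0 x, J0 x⟫) (Out (107 / 100)) := ContinuousOn.inner (𝕜 := ℝ) cg0 cJ0
  have hb : ∀ x ∈ Out (107 / 100), 0 < ⟪∇ v0 x, J0 x⟫ → Q x ≤ 95 / 100 := by
    intro x _ h
    by_contra h1
    rw [(hz0 x (by linarith)).2, inner_zero_right] at h
    exact lt_irrefl _ h
  have hk : 0 < κ0 * min (lam / β / m) (m / (lam / β)) := by positivity
  refine ⟨α0 * lam / β, min 1 (min κs (κ0 * min (lam / β / m) (m / (lam / β)))),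
    max (σ⁻¹ * (σ⁻¹ * N)) (max (lam / β * M0) (m * M0)),
    Out (105 / 100) ∩ ((⋃ i, sub_A i) ∪ {x | x ∈ Out (107 / 100) ∧ 0 < ⟪∇ v0 x, J0 x⟫}), v, J,
    by positivity, by positivity, min_le_left _ _, ?_, inter_subset_left, ?_, fun f hf => ?_, ?_, ?_, ?_⟩
  · exact (isOpen_Out _).inter ((isOpen_iUnion sub_open_A).union
      (ci.isOpen_inter_preimage (isOpen_Out _) (isOpen_Ioi (a := 0))))
  · rintro x ⟨-, h | h⟩
    · obtain ⟨i, hi⟩ := mem_iUnion.1 h
      linarith [Q_le_of_S (i := i) (x := x) (by linarith [hi.2])]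
    · exact hb x h.1 h.2
  · have cJ : ContinuousOn (J f) (Out (104 / 100)) := by
      intro x hx
      refine ContinuousAt.continuousWithinAt ?_
      rcases sub_cover hx with ⟨i, hi⟩ | h
      · exact (sub_contAt_hatG ((hs f hf).2.1.continuousAt (sub_open_K0.mem_nhds (sub_A_K0 hi)))).congr
          (eventually_of_mem ((sub_open_A i).mem_nhds hi) fun y hy => (JA f hf i y hy).symm)
      · exact ((cJ0.continuousAt ((isOpen_Out _).mem_nhds h)).const_smul m).congr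
          (eventually_of_mem ((isOpen_Out _).mem_nhds h) fun y hy => (JB f hf y hy).symm)
    refine ⟨fun x hx => ContDiffAt.contDiffWithinAt ?_, cJ, ?_, fun i x h1 h2 => ?_, fun x hx => ?_, ?_, ?_⟩
    · rcases sub_cover hx with ⟨i, hi⟩ | h
      · exact (contDiffAt_const.mul (contDiffAt_const.add (cu f hf i x hi))).congr_of_eventuallyEq
          (vA' f hf i x hi)
      · exact (contDiffAt_const.mul (c0 x h)).congr_of_eventuallyEq (vB' f hf x h)
    · have wA : ∀ i, WD (sub_A i) (J f) 0 := fun i =>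
        ((((hs f hf).2.2.1.hat i).smul (sg i)).mono fun x hx => sub_A_K0 hx).congr
          (ae_of_all _ fun x hx => (JA f hf i x hx).symm) (ae_of_all _ fun x _ => by simp [hat])
      have wB : WD (Out (107 / 100)) (J f) 0 :=
        ((hw0.smul m).mono sub_B_P).congr (ae_of_all _ fun x hx => (JB f hf x hx).symm)
          (ae_of_all _ fun x _ => by simp)
      rw [sub_cover_eq] at cJ ⊢
      exact WD.union_cont ((sub_open_A _).union (sub_open_A _)) (isOpen_Out _)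
        (WD.union_cont (sub_open_A _) (sub_open_A _) (wA _) (wA _) (cJ.mono subset_union_left)) wB cJ
    · have hx : x ∈ sub_A i := ⟨h1, by linarith⟩
      have h3 := (hs f hf).2.2.2.1 (S i x) (sub_A_K0 hx) h2
      refine ⟨by rw [vA f hf i x hx, hatu, hatu, h3.1], ?_⟩
      rw [JA f hf i x hx, sub_hatG_smul (G' := fld f) (c := -1) (by rw [h3.2, neg_one_smul]), neg_one_smul,
        smul_neg]
    · have hB : x ∈ Out (107 / 100) := fun i => by
        by_contra h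
        linarith [Q_le_of_S (i := i) (x := x) (by linarith)]
      have h0 : v0 =ᶠ[𝓝 x] fun _ => 0 :=
        eventually_of_mem ((isOpen_lt continuous_const (contDiff_Q 0).continuous).mem_nhds hx)
          fun y (hy : 95 / 100 < Q y) => (hz0 y (by linarith)).1
      refine ⟨by rw [vB f hf x hB, (hz0 x (by linarith)).1, mul_zero], ?_,
        by rw [JB f hf x hB, (hz0 x (by linarith)).2, smul_zero]⟩
      rw [gB f hf x hB, h0.gradient_eq, gradient_fun_const, smul_zero]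
    · rintro x ⟨hx, h | h⟩
      · obtain ⟨i, hi⟩ := mem_iUnion.1 h
        obtain ⟨h1, h2, h3⟩ := (hs f hf).2.2.2.2.2 (S i x) (hx i).le hi.2.le
        rw [gA f hf i x hi, JA f hf i x hi, sub_norm_hatG, sub_norm_hatG]
        exact ⟨(sub_cone_hatG h1).mono ((min_le_right _ _).trans (min_le_left _ _)),
          le_max_of_le_left (by gcongr), le_max_of_le_left (by gcongr)⟩
      · obtain ⟨h1, h2, h3⟩ := hc0 x h.1
        rw [gB f hf x h.1, JB f hf x h.1, norm_smul, norm_smul, Real.norm_of_nonneg ha.le,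
          Real.norm_of_nonneg hm.le]
        exact ⟨(h1.smul hκ0.le ha hm).mono ((min_le_right _ _).trans (min_le_right _ _)),
          le_max_of_le_right (le_max_of_le_left (by gcongr)),
          le_max_of_le_right (le_max_of_le_right (by gcongr))⟩
    · intro x hx hU
      rcases sub_cover (sub_out_mono (by norm_num) hx) with ⟨i, hi⟩ | h
      · exact (hU ⟨hx, Or.inl (mem_iUnion.2 ⟨i, hi⟩)⟩).elim
      · obtain ⟨h1, h2⟩ := sub_cone_zero hκ0 (hc0 x h).1 (not_lt.1 fun h' => hU ⟨hx, Or.inr ⟨h, h'⟩⟩)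
        rw [gB f hf x h, JB f hf x h, h1, h2, smul_zero, smul_zero]
        exact ⟨rfl, rfl⟩
  · exact sub_eqc he1 (cg0.const_smul (lam / β)) (fun z => gA z.1 z.2) (fun z => gB z.1 z.2)
      (inter_subset_left.trans (sub_out_mono (by norm_num)))
  · exact sub_eqc he2 (cJ0.const_smul m) (fun z => JA z.1 z.2) (fun z => JB z.1 z.2)
      (inter_subset_left.trans (sub_out_mono (by norm_num)))
  · intro ε hε
    have hε3 : 0 < ε / 3 := ENNReal.div_pos hε.ne' (by simp)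
    obtain ⟨η₁, h1, h2⟩ := hsm _ hε3
    obtain ⟨η₂, h3, h4⟩ := sub_small (isOpen_Out _) ci hb hε3
    refine ⟨min η₁ (lam / β * m * η₂), by positivity, fun f hf => ?_⟩
    have hsub : {x | x ∈ Out (105 / 100) ∩ ((⋃ i, sub_A i) ∪
          {x | x ∈ Out (107 / 100) ∧ 0 < ⟪∇ v0 x, J0 x⟫}) ∧ ⟪∇ (v f) x, J f x⟫ < min η₁ (lam / β * m * η₂)} ⊆
        S false ⁻¹' {x | 105 / 100 ≤ Q x ∧ Q x ≤ 108 / 100 ∧ ⟪∇ (vs f) x, Js f x⟫ < η₁} ∪
        S true ⁻¹' {x | 105 / 100 ≤ Q x ∧ Q x ≤ 108 / 100 ∧ ⟪∇ (vs f) x, Js f x⟫ < η₁} ∪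
        {x | x ∈ Out (107 / 100) ∧ 0 < ⟪∇ v0 x, J0 x⟫ ∧ ⟪∇ v0 x, J0 x⟫ < η₂} := by
      rintro x ⟨⟨hx, h | h⟩, hlt⟩
      · obtain ⟨i, hi⟩ := mem_iUnion.1 h
        rw [gA f hf i x hi, JA f hf i x hi, sub_inner_hatG, lt_min_iff] at hlt
        have h5 : ⟪∇ (vs f) (S i x), Js f (S i x)⟫ < η₁ := by
          by_contra h6
          have h7 : (1 : ℝ) ≤ σ⁻¹ ^ 4 := by norm_num [σ]
          nlinarith [hlt.1, not_lt.1 h6]
        cases i
        · exact Or.inl (Or.inl ⟨(hx _).le, hi.2.le, h5⟩)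
        · exact Or.inl (Or.inr ⟨(hx _).le, hi.2.le, h5⟩)
      · rw [gB f hf x h.1, JB f hf x h.1, real_inner_smul_left, real_inner_smul_right, lt_min_iff,
          ← mul_assoc] at hlt
        exact Or.inr ⟨h.1, h.2, lt_of_mul_lt_mul_left hlt.2 (by positivity)⟩
    refine (measure_mono hsub).trans ((measure_union_le _ _).trans ?_)
    rw [← ENNReal.add_thirds ε]
    exact add_le_add ((measure_union_le _ _).trans
      (add_le_add ((sub_vol_S _ _).trans (h2 f hf)) ((sub_vol_S _ _).trans (h2 f hf)))) h4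

end Crest.Agent.R83
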