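import Crest.Agent.R83.MrgA
import Crest.Agent.R83.RepM
import Crest.Agent.R83.Sub
import Crest.Agent.R83.Iso
import Crest.Agent.R83.Solve

/-!
# R83 TASK Merge: merging two copies of a cluster
-/

set_option autoImplicit false

namespace Crest.Agent.R83

open MeasureTheory Set Filter Topology
open scoped Gradient RealInnerProductSpace ENNReal NNReal ContDiff

open Classical in
/-- glue: `a i` on the collar of child `i`, `b` elsewhere -/
noncomputable def merge_gl {V : Type} (a : Bool → E3 → V) (b : E3 → V) (x : E3) : V :=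
  if Q (S false x) ≤ 105 / 100 then a false x else if Q (S true x) ≤ 105 / 100 then a true x else b x

theorem merge_gl_in {V : Type} (a : Bool → E3 → V) (b : E3 → V) {i : Bool} {x : E3}
    (hx : Q (S i x) ≤ 105 / 100) : merge_gl a b x = a i x := by
  unfold merge_gl
  cases i with
  | false => rw [if_pos hx]
  | true =>
    have h : 11 / 10 < Q (S false x) := lt_Q_S (i := true) (j := false) (by decide) (by linarith)
    rw [if_neg (by linarith), if_pos hx]

theorem merge_gl_out {V : Type} (a : Bool → E3 → V) (b : E3 → V) {x : E3}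
    (hx : x ∈ Out (105 / 100)) : merge_gl a b x = b x := by
  unfold merge_gl
  rw [if_neg (not_le.2 (hx false)), if_neg (not_le.2 (hx true))]

theorem merge_cases (x : E3) : (∃ i, Q (S i x) ≤ 105 / 100) ∨ x ∈ Out (105 / 100) := by
  by_cases h : ∃ i, Q (S i x) ≤ 105 / 100
  · exact Or.inl h
  · right
    intro i
    exact not_le.1 fun hi => h ⟨i, hi⟩

theorem merge_cont_QS (i : Bool) : Continuous fun x => Q (S i x) :=
  (contDiff_Q 0).continuous.comp ((S i).contDiff 0).continuous

theorem merge_gl_meas {a : Bool → E3 → ℝ} {b : E3 → ℝ} (ha : ∀ i, Measurable (a i)) (hb : Measurable b) :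
    Measurable (merge_gl a b) := by
  unfold merge_gl
  refine Measurable.ite ?_ (ha false) (Measurable.ite ?_ (ha true) hb)
  · exact measurableSet_le (merge_cont_QS false).measurable measurable_const
  · exact measurableSet_le (merge_cont_QS true).measurable measurable_const

theorem merge_out_of_Q {x : E3} (hx : 92 / 100 < Q x) (i : Bool) : 11 / 10 < Q (S i x) := by
  by_contra h
  have := Q_le_of_S (not_lt.1 h)
  linarith

theorem merge_hatG_congr (i : Bool) {G G' : E3 → E3} {x : E3} (h : G (S i x) = G' (S i x)) :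
    hatG i G x = hatG i G' x := by
  simp only [hatG, Sim.pG, h]

theorem merge_hatG_smul (i : Bool) (γ : E3 → ℝ) (G : E3 → E3) (x : E3) :
    hatG i (fun y => γ y • G y) x = γ (S i x) • hatG i G x := by
  simp only [hatG, Sim.pG, map_smul]
  rw [smul_comm (S i).s, smul_comm σ⁻¹]

theorem merge_hatG_neg (i : Bool) (G : E3 → E3) (x : E3) :
    hatG i (fun y => -G y) x = -hatG i G x := by
  simp only [hatG, Sim.pG, map_neg, smul_neg]

theorem merge_hat_zero {M : ℝ} {φ : E3 → ℝ} (h : Bd El M φ) {i : Bool} {x : E3} (hx : 1 ≤ Q (S i x)) :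
    hat i φ x = 0 := by
  unfold hat
  rw [h.off _ (by simp only [El, mem_ofPred_eq, not_lt]; exact hx), mul_zero]

theorem merge_src {M : ℝ} {φ : E3 → ℝ} (h : Bd El M φ) {i : Bool} {x : E3} (hx : Q (S i x) ≤ 105 / 100) :
    sg i * hat i φ x = hat false φ x - hat true φ x := by
  cases i with
  | false =>
    have h1 : 11 / 10 < Q (S true x) := lt_Q_S (i := false) (j := true) (by decide) (by linarith)
    rw [merge_hat_zero h (i := true) (by linarith)]
    simp [sg]
  | true =>
    have h1 : 11 / 10 < Q (S false x) := lt_Q_S (i := true) (j := false) (by decide) (by linarith)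
    rw [merge_hat_zero h (i := false) (by linarith)]
    simp [sg]

theorem merge_ae_ne (i : Bool) (r : ℝ) : ∀ᵐ x, Q (S i x) ≠ r := by
  have h : ∀ᵐ x : E3, Q x ≠ r := by
    rw [ae_iff]
    simpa using volume_Q_eq r
  exact (S i).qmp.ae h

/-- the glued subsolution is a local solution in the whole space -/
theorem merge_loc {c C M M₀ m α : ℝ} {γ φ P f v : E3 → ℝ} {G J : E3 → E3} (hD : Dat c C M γ φ)
    (hP : H0 univ P G) (hw : WD univ (fun x => γ x • G x) φ) (hf : Den K0 M₀ m f)
    (hrep : ∀ᵐ x, x ∉ K0 → P x = pot f x ∧ G x = -fld f x)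
    (hv : ContDiffOn ℝ 1 v (Out (104 / 100))) (hJ : ContinuousOn J (Out (104 / 100)))
    (hwJ : WD (Out (104 / 100)) J 0)
    (hov : ∀ i x, 104 / 100 < Q (S i x) → Q (S i x) ≤ 105 / 100 →
      v x = sg i * (α + hatu i (pot f) x) ∧ J x = -(sg i • hatG i (fld f) x)) :
    Loc univ (merge_gl (fun i x => sg i * (α + hatu i P x)) v)
      (merge_gl (fun i x => sg i • hatG i G x) (∇ v))
      (merge_gl (fun i x => sg i • hatG i (fun y => γ y • G y) x) J)
      fun x => hat false φ x - hat true φ x := by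
  have hsrc : Src φ := hD.den.1.src (Metric.isBounded_ball.subset El_subset_ball)
  have hL : Loc univ P G (fun y => γ y • G y) φ := Loc.of_h0 hP (hD.ell.memLp_smul hP.mG) hsrc hw
  have hop : ∀ i, IsOpen {x | Q (S i x) < 105 / 100} := fun i =>
    isOpen_lt (merge_cont_QS i) continuous_const
  have hin : ∀ i, Loc {x | Q (S i x) < 105 / 100} (merge_gl (fun i x => sg i * (α + hatu i P x)) v)
      (merge_gl (fun i x => sg i • hatG i G x) (∇ v))
      (merge_gl (fun i x => sg i • hatG i (fun y => γ y • G y) x) J)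
      fun x => hat false φ x - hat true φ x := by
    intro i
    have h1 := ((hL.hat i).const_add α).smul (sg i)
    rw [preimage_univ] at h1
    refine (h1.mono isOpen_univ (subset_univ {x | Q (S i x) < 105 / 100})).congr ?_
    refine Eventually.of_forall fun x hx => ?_
    have hx' : Q (S i x) ≤ 105 / 100 := le_of_lt hx
    rw [merge_gl_in _ _ hx', merge_gl_in _ _ hx', merge_gl_in _ _ hx']
    exact ⟨rfl, rfl, rfl, merge_src hD.den.1 hx'⟩
  have hK0 : IsCompact K0 := isCompact_Q_le _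
  obtain ⟨hpc, hpg⟩ := pot_c1 hK0 (hf.1.l1 hK0)
  have hout : Loc (Out (104 / 100)) (merge_gl (fun i x => sg i * (α + hatu i P x)) v)
      (merge_gl (fun i x => sg i • hatG i G x) (∇ v))
      (merge_gl (fun i x => sg i • hatG i (fun y => γ y • G y) x) J)
      fun x => hat false φ x - hat true φ x := by
    refine (Loc.of_c1 (isOpen_Out _) hv hJ hwJ).congr ?_
    have hr : ∀ᵐ x, ∀ i, S i x ∉ K0 → P (S i x) = pot f (S i x) ∧ G (S i x) = -fld f (S i x) :=
      ae_all_iff.2 fun i => (S i).qmp.ae hrep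
    have hn : ∀ᵐ x, ∀ i, Q (S i x) ≠ 105 / 100 := ae_all_iff.2 fun i => merge_ae_ne i _
    filter_upwards [hr, hn] with x hr hn hx
    have h0 : (0 : E3 → ℝ) x = hat false φ x - hat true φ x := by
      rw [merge_hat_zero hD.den.1 (i := false) (by linarith [hx false]),
        merge_hat_zero hD.den.1 (i := true) (by linarith [hx true])]
      simp
    rcases merge_cases x with ⟨i, hi⟩ | ho
    · have hxi := hx i
      have hK : S i x ∉ K0 := by
        simp only [K0, mem_ofPred_eq, not_le]; exact hxi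
      obtain ⟨hr1, hr2⟩ := hr i hK
      obtain ⟨ho1, ho2⟩ := hov i x hxi hi
      rw [merge_gl_in _ _ hi, merge_gl_in _ _ hi, merge_gl_in _ _ hi]
      refine ⟨?_, ?_, ?_, h0⟩
      · rw [ho1]; simp only [hatu, hr1]
      · have hlt : Q (S i x) < 105 / 100 := lt_of_le_of_ne hi (hn i)
        have hev : v =ᶠ[𝓝 x] fun y => sg i * (α + hatu i (pot f) y) := by
          have e1 : ∀ᶠ y in 𝓝 x, 104 / 100 < Q (S i y) :=
            (merge_cont_QS i).continuousAt.eventually (lt_mem_nhds hxi)
          have e2 : ∀ᶠ y in 𝓝 x, Q (S i y) < 105 / 100 :=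
            (merge_cont_QS i).continuousAt.eventually (gt_mem_nhds hlt)
          filter_upwards [e1, e2] with y h1 h2
          exact (hov i y h1 h2.le).1
        have hdp : DifferentiableAt ℝ (pot f) (S i x) :=
          (hpc.contDiffAt (hK0.isClosed.isOpen_compl.mem_nhds hK)).differentiableAt one_ne_zero
        have hdh : DifferentiableAt ℝ (hatu i (pot f)) x := by
          unfold hatu
          exact (hdp.comp x (((S i).contDiff 1).differentiable one_ne_zero x)).const_mul _
        rw [hev.gradient_eq, grad_const_mul _ (hdh.const_add α), grad_const_add, grad_hatu i hdp]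
        congr 1
        exact merge_hatG_congr i (by rw [hpg _ hK, hr2])
      · rw [ho2, merge_hatG_smul, hD.one _ (by simp only [El, mem_ofPred_eq, not_lt]; linarith), one_smul,
          merge_hatG_congr i (G' := fun y => -fld f y) hr2, merge_hatG_neg, smul_neg]
    · rw [merge_gl_out _ _ ho, merge_gl_out _ _ ho, merge_gl_out _ _ ho]
      exact ⟨rfl, rfl, rfl, h0⟩
  have hu := ((hin false).union (hop false) (hop true) (hin true)).union ((hop false).union (hop true))
    (isOpen_Out _) hout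
  have he : ({x | Q (S false x) < 105 / 100} ∪ {x | Q (S true x) < 105 / 100}) ∪ Out (104 / 100) = univ := by
    refine eq_univ_of_forall fun x => ?_
    by_cases h1 : Q (S false x) < 105 / 100
    · exact Or.inl (Or.inl h1)
    by_cases h2 : Q (S true x) < 105 / 100
    · exact Or.inl (Or.inr h2)
    right
    intro i
    cases i
    · linarith [not_lt.1 h1]
    · linarith [not_lt.1 h2]
  rwa [he] at hu

/-- Constants: `m, M₀` from `rep`, then `sub`, `iso` (index type `{f // Den K0 M₀ m f}`), `new_source` with `N = 2 M²`;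
`c = κ/4`, `C = 4/κ`.  Given `(γ, φ)` let `(P, G)` be the solution in the whole space (`exists_sol`, `nonneg_of_sol`) and
`f` its density (`rep`).  Define `γ' x = γ (S i x)` if `Q (S i x) ≤ 1.05`, `γ_iso f x` on `U`, `1` otherwise;
`u = sg i (α + hatu i P)`, `Gu = sg i • hatG i G`, `J₀ = γ' • Gu` on `Q (S i x) ≤ 1.05` and `v f`, `∇(v f)`, `J f` otherwise.
`Loc` holds on `Q (S i x) < 1.05` (`Loc.of_h0`, `Loc.hat`, `Loc.const_add`, `Loc.smul`, `Loc.congr`) and on `Out 1.04`
(`Loc.of_c1`, `Loc.congr`; on the overlap `γ = 1`, `P = pot f`, `G = -fld f = ∇ (pot f)` a.e., `volume_Q_eq`), hence on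
`univ` (`Loc.union`), `Loc.to_h0` with `K = {Q ≤ 0.95}`.  Add the perturbation of `iso` (zero off `U`). -/
theorem merge : ∃ (c C M : ℝ) (Γ Φ : (E3 → ℝ) × (E3 → ℝ) → E3 → ℝ), 0 < c ∧ c ≤ 1 ∧ 1 ≤ C ∧
    (volume.real El)⁻¹ ≤ M ∧
    (∀ D, Dat c C M D.1 D.2 → Dat c C M (Γ D) (Φ D) ∧ Mrg D.1 D.2 (Γ D) (Φ D)) ∧
    ∀ (D : ℕ → (E3 → ℝ) × (E3 → ℝ)), (∀ n, Dat c C M (D n).1 (D n).2) → ∀ (𝒰 : Ultrafilter ℕ) (ε : ℝ≥0∞),
      0 < ε → ∃ A ∈ 𝒰, ∀ n ∈ A, ∀ n' ∈ A, ∫⁻ x in Out (105 / 100), ‖Γ (D n) x - Γ (D n') x‖ₑ ≤ ε := by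
  classical
  obtain ⟨m, M₀, hm, hrep⟩ := rep
  obtain ⟨α, κ, M, U, v, J, hα, hκ, hκ1, hU, hUo, hUQ, hsub, hEv, hEJ, hnd⟩ := sub (M₀ := M₀) hm
  have hUK : U ⊆ {x | Q x ≤ 95 / 100} := fun x hx => hUQ x hx
  have hfin : volume U ≠ ⊤ :=
    ((measure_mono hUK).trans_lt (isCompact_Q_le _).measure_lt_top).ne
  obtain ⟨dv, γi, dE, dJ, hiso, hcau⟩ := iso (ι := {f // Den K0 M₀ m f}) hU hfin hEv hEJ hκ hκ1
    (fun z => (hsub z.1 z.2).2.2.2.2.2.1) (fun ε hε => by
      obtain ⟨η, hη, h⟩ := hnd ε hε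
      exact ⟨η, hη, fun z => h z.1 z.2⟩)
  obtain ⟨M₁, hns⟩ := new_source (N := 2 * M ^ 2) hα
  have hc : 0 < κ / 4 := by positivity
  have hc1 : κ / 4 ≤ 1 := by linarith
  have hC1 : 1 ≤ 4 / κ := by rw [le_div_iff₀ hκ]; linarith
  have hUE : U ⊆ El := fun x hx => by
    have := hUQ x hx
    simp only [El, mem_ofPred_eq]; linarith
  have core : ∀ D : (E3 → ℝ) × (E3 → ℝ), Dat (κ / 4) (4 / κ) (max M₁ (volume.real El)⁻¹) D.1 D.2 →
      ∃ (z : {f // Den K0 M₀ m f}) (γ' φ' : E3 → ℝ),
        Dat (κ / 4) (4 / κ) (max M₁ (volume.real El)⁻¹) γ' φ' ∧ Mrg D.1 D.2 γ' φ' ∧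
        ∀ x ∈ Out (105 / 100), γ' x = if x ∈ U then γi z x else 1 := by
    rintro ⟨γ, φ⟩ hD
    dsimp only at hD ⊢
    have hsrc : Src φ := hD.den.1.src (Metric.isBounded_ball.subset El_subset_ball)
    obtain ⟨P, G, hP, hw⟩ := exists_sol hc hD.ell univ hsrc (F := fun _ => 0) (MemLp.zero')
    simp only [add_zero] at hw
    have hP0 : ∀ᵐ x, 0 ≤ P x := nonneg_of_sol hc hD.ell hP hw hsrc hD.nn
    obtain ⟨f, hf, hr⟩ := hrep hD hP hw hP0
    obtain ⟨hv, hJ, hwJ, hov, hfar, hUb, hoff⟩ := hsub f hf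
    obtain ⟨hdv, hdJ, hdJ0, hwd, hγi, hrel⟩ := hiso ⟨f, hf⟩
    set z : {f // Den K0 M₀ m f} := ⟨f, hf⟩ with hz
    have hL := merge_loc hD hP hw hf hr hv hJ hwJ hov
    set u₀ := merge_gl (fun i x => sg i * (α + hatu i P x)) (v f) with hu₀
    set G₀ := merge_gl (fun i x => sg i • hatG i G x) (∇ (v f)) with hG₀
    set J₀ := merge_gl (fun i x => sg i • hatG i (fun y => γ y • G y) x) (J f) with hJ₀
    have hout : ∀ {x : E3}, 92 / 100 < Q x → x ∈ Out (105 / 100) := fun hx i => by
      linarith [merge_out_of_Q hx i]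
    obtain ⟨hH, hJ2⟩ := hL.to_h0 (K := {x | Q x ≤ 95 / 100}) (isCompact_Q_le _) isOpen_El
      (fun x hx => by
        simp only [El, mem_ofPred_eq] at hx ⊢; linarith)
      (Eventually.of_forall fun x hx => by
        have hx' : 95 / 100 < Q x := not_le.1 hx
        have ho := hout (x := x) (by linarith)
        rw [hu₀, hG₀, hJ₀, merge_gl_out _ _ ho, merge_gl_out _ _ ho, merge_gl_out _ _ ho]
        exact hfar x hx')
    set γ' := merge_gl (fun i x => γ (S i x)) (fun x => if x ∈ U then γi z x else 1) with hγ'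
    have hell : Ell (κ / 4) (4 / κ) γ' := by
      refine ⟨merge_gl_meas (fun i => hD.ell.meas.comp ((S i).contDiff 0).continuous.measurable)
        (Measurable.ite hU.measurableSet hγi.meas measurable_const), fun x => ?_, fun x => ?_⟩
      · rcases merge_cases x with ⟨i, hi⟩ | ho
        · rw [hγ', merge_gl_in _ _ hi]; exact hD.ell.le _
        · rw [hγ', merge_gl_out _ _ ho]
          split_ifs
          · exact hγi.le _
          · exact hc1
      · rcases merge_cases x with ⟨i, hi⟩ | ho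
        · rw [hγ', merge_gl_in _ _ hi]; exact hD.ell.ge _
        · rw [hγ', merge_gl_out _ _ ho]
          split_ifs
          · exact hγi.ge _
          · exact hC1
    have hnU : ∀ {i : Bool} {x : E3}, Q (S i x) ≤ 105 / 100 → x ∉ U := fun {i x} hi hx => by
      linarith [hUo hx i]
    have hsf : Src (hat false φ) := hsrc.hat false
    have hst : Src (hat true φ) := hsrc.hat true
    have hH1 : H0 El (fun x => u₀ x + dv z x) fun x => G₀ x + dE z x := hH.add (hdv.mono hUE)
    have hkey : ∀ᵐ x, J₀ x + dJ z x = γ' x • (G₀ x + dE z x) ∧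
        (α ≤ |u₀ x + dv z x| ∨ ⟪G₀ x + dE z x, γ' x • (G₀ x + dE z x)⟫ ≤ 2 * M ^ 2) ∧
        ∀ i, Q (S i x) ≤ 105 / 100 → α ≤ sg i * (u₀ x + dv z x) := by
      have hP1 : ∀ᵐ x, ∀ i, 0 ≤ P (S i x) := ae_all_iff.2 fun i => (S i).qmp.ae hP0
      filter_upwards [hdv.zero_off, hdJ0, hrel, hP1] with x h1 h2 h3 h4
      have hA : ∀ i, Q (S i x) ≤ 105 / 100 → α ≤ sg i * (u₀ x + dv z x) := by
        intro i hi
        rw [(h1 (hnU hi)).1, hu₀, merge_gl_in _ _ hi, add_zero, ← mul_assoc]
        have hs : sg i * sg i = 1 := by cases i <;> simp [sg]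
        have hσ : 0 ≤ σ⁻¹ := by norm_num [σ]
        rw [hs, one_mul, hatu]
        linarith [mul_nonneg hσ (h4 i)]
      rcases merge_cases x with ⟨i, hi⟩ | ho
      · refine ⟨?_, Or.inl ?_, hA⟩
        · rw [(h1 (hnU hi)).2, h2 (hnU hi), hJ₀, hG₀, hγ', merge_gl_in _ _ hi, merge_gl_in _ _ hi,
            merge_gl_in _ _ hi, add_zero, add_zero, merge_hatG_smul, smul_comm]
        · refine (hA i hi).trans ((le_abs_self _).trans ?_)
          have hs : |sg i| = 1 := by cases i <;> simp [sg]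
          rw [abs_mul, hs, one_mul]
      · by_cases hx : x ∈ U
        · obtain ⟨e1, e2⟩ := h3 hx
          have e3 : J₀ x + dJ z x = γ' x • (G₀ x + dE z x) := by
            rw [hJ₀, hG₀, hγ', merge_gl_out _ _ ho, merge_gl_out _ _ ho, merge_gl_out _ _ ho, if_pos hx]
            exact e1
          refine ⟨e3, Or.inr ?_, hA⟩
          rw [← e3, hJ₀, hG₀, merge_gl_out _ _ ho, merge_gl_out _ _ ho]
          exact e2
        · obtain ⟨e1, e2⟩ := hoff x ho hx
          have e3 : G₀ x + dE z x = 0 := by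
            rw [hG₀, merge_gl_out _ _ ho, e1, (h1 hx).2, add_zero]
          refine ⟨?_, Or.inr ?_, hA⟩
          · rw [e3, hJ₀, merge_gl_out _ _ ho, e2, h2 hx, add_zero, smul_zero]
          · rw [e3, inner_zero_left]; positivity
    have hW : WD univ (fun x => γ' x • (G₀ x + dE z x)) fun x => hat false φ x - hat true φ x := by
      refine (hL.wd.add hwd hJ2 hdJ (hsf.sub hst) Src.zero).congr ?_ ?_
      · filter_upwards [hkey] with x hx _ using hx.1
      · exact Eventually.of_forall fun x _ => by simp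
    have hlt : ∀ {i : Bool} {x : E3}, hat i φ x ≠ 0 → Q (S i x) ≤ 105 / 100 := fun {i x} hx => by
      by_contra h
      exact hx (merge_hat_zero hD.den.1 (by linarith [not_le.1 h]))
    obtain ⟨φ', hφ', hφ0, hg⟩ := hns hc hell hH1 hW hsf hst
      (fun x hx => merge_hat_zero hD.den.1 (by
        have hx' : 1 ≤ Q x := not_lt.1 hx
        linarith [merge_out_of_Q (x := x) (by linarith) false]))
      (by
        have := integral_hat_mul false φ fun _ => 1
        simp only [mul_one] at this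
        rw [this, hD.den.2])
      (by
        filter_upwards [hkey] with x hx h0
        have := hx.2.2 false (hlt h0)
        simpa [sg] using this)
      (by
        filter_upwards [hkey] with x hx h0
        have := hx.2.2 true (hlt h0)
        simp only [sg, if_true] at this
        linarith)
      (by filter_upwards [hkey] with x hx using hx.2.1)
    refine ⟨z, γ', φ', ⟨hell, fun x hx => ?_, ⟨⟨hφ'.1.meas, fun x => (hφ'.1.bdd x).trans (le_max_left _ _),
      hφ'.1.off⟩, hφ'.2⟩, hφ0⟩, ⟨fun i => Eventually.of_forall fun x hx => ?_, ⟨_, _, hH1, hW⟩, hg⟩,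
      fun x hx => by rw [hγ', merge_gl_out _ _ hx]⟩
    · have hx' : 1 ≤ Q x := not_lt.1 hx
      rw [hγ', merge_gl_out _ _ (hout (by linarith)), if_neg fun h => hx (hUE h)]
    · rw [hγ', merge_gl_in (i := i) _ _ (by rw [S_T]; exact hx), S_T]
  choose z Γ Φ hD hM hO using core
  refine ⟨κ / 4, 4 / κ, max M₁ (volume.real El)⁻¹,
    fun D => if h : Dat (κ / 4) (4 / κ) (max M₁ (volume.real El)⁻¹) D.1 D.2 then Γ D h else 0,
    fun D => if h : Dat (κ / 4) (4 / κ) (max M₁ (volume.real El)⁻¹) D.1 D.2 then Φ D h else 0,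
    hc, hc1, hC1, le_max_right _ _, fun D h => ?_, fun D h 𝒰 ε hε => ?_⟩
  · simp only [dif_pos h]
    exact ⟨hD D h, hM D h⟩
  · obtain ⟨A, hA, hAc⟩ := hcau (𝒰.map fun n => z (D n) (h n)) ε hε
    refine ⟨_, Ultrafilter.mem_map.1 hA, fun n hn n' hn' => le_trans ?_ (hAc _ hn _ hn')⟩
    simp only [dif_pos (h n), dif_pos (h n')]
    rw [← lintegral_indicator hU.measurableSet]
    refine le_trans (setLIntegral_mono_ae' (isOpen_Out _).measurableSet ?_) (setLIntegral_le_lintegral _ _)
    refine Eventually.of_forall fun x hx => ?_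
    rw [hO _ _ x hx, hO _ _ x hx]
    by_cases hxU : x ∈ U
    · rw [if_pos hxU, if_pos hxU, indicator_of_mem hxU]
    · rw [if_neg hxU, if_neg hxU]; simp

end Crest.Agent.R83
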