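import Crest.Agent.R83.TeleA
import Crest.Agent.R83.Stamp

/-!
# R83 TASK Tele: the bounded potential of the limit measure
-/

set_option autoImplicit false

namespace Crest.Agent.R83

open MeasureTheory Set Filter Topology
open scoped Gradient RealInnerProductSpace ENNReal NNReal ContDiff

variable {c C M : ℝ} {γ φ : ℕ → E3 → ℝ}

theorem tele_inner_toLp {G J : E3 → E3} (hG : MemLp G 2 volume) (hJ : MemLp J 2 volume) :
    ⟪hG.toLp G, hJ.toLp J⟫ = ∫ x, ⟪G x, J x⟫ := by
  rw [L2.inner_def]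
  refine integral_congr_ae ?_
  filter_upwards [hG.coeFn_toLp, hJ.coeFn_toLp] with x h1 h2
  rw [h1, h2]

theorem tele_norm_toLp {G : E3 → E3} (hG : MemLp G 2 volume) :
    ‖hG.toLp G‖ ^ 2 = ∫ x, ‖G x‖ ^ 2 := by
  rw [← real_inner_self_eq_norm_sq, tele_inner_toLp]
  simp only [real_inner_self_eq_norm_sq]

theorem tele_int_sq {G : E3 → E3} (hG : MemLp G 2 volume) : Integrable (fun x => ‖G x‖ ^ 2) volume :=
  (memLp_two_iff_integrable_sq_norm hG.1).1 hG

theorem tele_sq_le {G : E3 → E3} (hG : MemLp G 2 volume) {N : ℝ≥0} (h : eLpNorm G 2 volume ≤ N) :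
    ∫ x, ‖G x‖ ^ 2 ≤ (N : ℝ) ^ 2 := by
  rw [← tele_norm_toLp hG, Lp.norm_toLp]
  have h1 : (eLpNorm G 2 volume).toReal ≤ N := by
    have := ENNReal.toReal_mono ENNReal.coe_ne_top h
    simpa using this
  exact pow_le_pow_left₀ ENNReal.toReal_nonneg h1 2

theorem tele_El_bdd : Bornology.IsBounded El :=
  Metric.isBounded_ball.subset El_subset_ball

theorem tele_S_El (i : Bool) : S i ⁻¹' El ⊆ El := by
  intro x hx
  have h1 : Q (S i x) < 1 := hx
  have h2 := Q_le_of_S (i := i) (x := x) (by linarith)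
  show Q x < 1
  linarith

theorem tele_hatG_smul (i : Bool) (g : E3 → ℝ) (G : E3 → E3) (x : E3) :
    hatG i (fun y => g y • G y) x = g (S i x) • hatG i G x := by
  simp only [hatG, Sim.pG, map_smul]
  rw [smul_comm (g (S i x)), smul_comm (g (S i x))]

theorem tele_hatG_zero (i : Bool) {G : E3 → E3} {x : E3} (h : G (S i x) = 0) : hatG i G x = 0 := by
  simp [hatG, Sim.pG, h]

theorem tele_σ_pos : 0 < σ := by norm_num [σ]

theorem tele_int_mul {f w : E3 → ℝ} (hf : Src f) (hw : MemLp w 6 volume) :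
    Integrable (fun x => f x * w x) volume := by
  obtain ⟨R, M, hb⟩ := hf
  have h1 : IntegrableOn w (Metric.ball 0 R) volume := by
    have : IsFiniteMeasure ((volume : Measure E3).restrict (Metric.ball 0 R)) :=
      isFiniteMeasure_restrict.2 measure_ball_lt_top.ne
    exact (hw.restrict _).integrable (by norm_num)
  have h2 : Integrable ((Metric.ball (0 : E3) R).indicator w) volume :=
    (integrable_indicator_iff Metric.isOpen_ball.measurableSet).2 h1
  have h3 := h2.bdd_mul (c := M) hb.meas.aestronglyMeasurable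
    (Eventually.of_forall fun x => by simpa using hb.bdd x)
  refine h3.congr (Eventually.of_forall fun x => ?_)
  by_cases hx : x ∈ Metric.ball (0 : E3) R
  · simp only [indicator_of_mem hx]
  · simp only [hb.off x hx, zero_mul]

theorem tele_wd_one {γ₁ φ₁ γ₀ φ₀ u f : E3 → ℝ} {G : E3 → E3} (h : Mrg γ₁ φ₁ γ₀ φ₀) (hu : H0 El u G)
    (hw : WD univ (fun x => γ₁ x • G x) f) (i : Bool) :
    WD univ (fun x => γ₀ x • hatG i G x) (hat i f) := by
  have h1 := hw.hat i
  rw [preimage_univ] at h1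
  refine h1.congr ?_ (Eventually.of_forall fun x _ => rfl)
  filter_upwards [(S i).qmp.ae (h.inner i), (S i).qmp.ae hu.zero_off] with x h2 h3 _
  rw [tele_hatG_smul]
  by_cases hx : S i x ∈ El
  · have h4 : Q (S i x) < 1 := hx
    rw [← h2 (by linarith), T_S]
  · rw [tele_hatG_zero i (h3 hx).2, smul_zero, smul_zero]

theorem tele_mu_src (h : ∀ j, Dat c C M (γ j) (φ j)) (m j : ℕ) : Src (mu φ m j) := by
  obtain ⟨⟨M', h1⟩, -⟩ := mu_den h m j
  exact h1.1.src tele_El_bdd

/-- two copies of a field: the supports are disjoint (`H0.zero_off`, `lt_Q_S`), `integral_norm_sq_hatG`, `Mrg.inner` -/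
theorem two_copies {γ₁ φ₁ γ₀ φ₀ u f : E3 → ℝ} {G : E3 → E3} (h₁ : Ell c C γ₁) (h₀ : Ell c C γ₀)
    (h : Mrg γ₁ φ₁ γ₀ φ₀) (hu : H0 El u G) (hw : WD univ (fun x => γ₁ x • G x) f) (hf : Src f) (a : Bool → ℝ)
    (ha : ∀ i, |a i| ≤ 1) {N : ℝ} (hN : ∀ᵐ x, |u x| ≤ N) :
    H0 El (fun x => a false * hatu false u x + a true * hatu true u x)
        (fun x => a false • hatG false G x + a true • hatG true G x) ∧
      WD univ (fun x => γ₀ x • (a false • hatG false G x + a true • hatG true G x))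
        (fun x => a false * hat false f x + a true * hat true f x) ∧
      (∀ᵐ x, |a false * hatu false u x + a true * hatu true u x| ≤ max |a false| |a true| * σ⁻¹ * N) ∧
      ∫ x, ‖a false • hatG false G x + a true • hatG true G x‖ ^ 2 =
        (a false ^ 2 + a true ^ 2) * σ⁻¹ * ∫ x, ‖G x‖ ^ 2 := by
  have hσ := tele_σ_pos
  have hh : ∀ i, H0 El (hatu i u) (hatG i G) := fun i => (hu.hat i).mono (tele_S_El i)
  have hdis : ∀ᵐ x, (u (S false x) = 0 ∧ G (S false x) = 0) ∨ (u (S true x) = 0 ∧ G (S true x) = 0) := by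
    filter_upwards [(S false).qmp.ae hu.zero_off, (S true).qmp.ae hu.zero_off] with x h2 h3
    by_cases hx : S false x ∈ El
    · right
      refine h3 fun hx' => ?_
      have h4 : Q (S false x) < 1 := hx
      have h5 : Q (S true x) < 1 := hx'
      have := lt_Q_S (i := false) (j := true) (by simp) (x := x) (by linarith)
      linarith
    · exact Or.inl (h2 hx)
  refine ⟨((hh false).smul _).add ((hh true).smul _), ?_, ?_, ?_⟩
  · have h1 := fun i => (tele_wd_one h hu hw i).smul (a i)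
    have h2 : ∀ i, MemLp (fun x => a i • γ₀ x • hatG i G x) 2 volume := fun i =>
      (h₀.memLp_smul (hh i).mG).const_smul (a i)
    have h3 := (h1 false).add (h1 true) (h2 false) (h2 true) ((hf.hat false).const_mul _)
      ((hf.hat true).const_mul _)
    refine h3.congr (Eventually.of_forall fun x _ => ?_) (Eventually.of_forall fun x _ => rfl)
    rw [smul_add, smul_comm (a false), smul_comm (a true)]
  · filter_upwards [hdis, (S false).qmp.ae hN, (S true).qmp.ae hN] with x h1 h2 h3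
    have hσ' : 0 ≤ σ⁻¹ := inv_nonneg.2 hσ.le
    rcases h1 with h1 | h1
    · simp only [hatu, h1.1, mul_zero, zero_add, abs_mul, abs_of_nonneg hσ', mul_assoc]
      exact mul_le_mul (le_max_right _ _) (mul_le_mul_of_nonneg_left h3 hσ') (by positivity)
        (le_trans (abs_nonneg _) (le_max_left _ _))
    · simp only [hatu, h1.1, mul_zero, add_zero, abs_mul, abs_of_nonneg hσ', mul_assoc]
      exact mul_le_mul (le_max_left _ _) (mul_le_mul_of_nonneg_left h2 hσ') (by positivity)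
        (le_trans (abs_nonneg _) (le_max_left _ _))
  · have h1 : ∫ x, ‖a false • hatG false G x + a true • hatG true G x‖ ^ 2 =
        ∫ x, (a false ^ 2 * ‖hatG false G x‖ ^ 2 + a true ^ 2 * ‖hatG true G x‖ ^ 2) := by
      refine integral_congr_ae ?_
      filter_upwards [hdis] with x h1
      rcases h1 with h1 | h1
      · simp [tele_hatG_zero false h1.2, norm_smul, mul_pow]
      · simp [tele_hatG_zero true h1.2, norm_smul, mul_pow]
    rw [h1, integral_add ((tele_int_sq (hh false).mG).const_mul _) ((tele_int_sq (hh true).mG).const_mul _),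
      integral_const_mul, integral_const_mul, integral_norm_sq_hatG, integral_norm_sq_hatG]
    ring

theorem tele_base (hc : 0 < c) (M : ℝ) : ∃ N : ℝ, 0 ≤ N ∧ ∀ {γ u f : E3 → ℝ} {G : E3 → E3}, Ell c C γ →
    H0 El u G → WD univ (fun x => γ x • G x) f → Bd El M f →
    (∀ᵐ x, |u x| ≤ N) ∧ ∫ x, ‖G x‖ ^ 2 ≤ N := by
  obtain ⟨N₁, h₁⟩ := stampacchia hc (3 / 2) M
  obtain ⟨N₂, h₂⟩ := energy_bound hc (3 / 2) M
  refine ⟨max N₁ ((N₂ : ℝ) ^ 2), le_max_of_le_right (by positivity), fun {γ u f G} hγ hu hw hf => ?_⟩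
  have hf' : Bd (Metric.ball 0 (3 / 2)) M f :=
    ⟨hf.meas, hf.bdd, fun x hx => hf.off x fun hx' => hx (El_subset_ball hx')⟩
  have hw' := hw.mono (subset_univ El)
  have hM : 0 ≤ M := le_trans (abs_nonneg _) (hf.bdd 0)
  constructor
  · have := h₁ (F := fun _ => 0) El_subset_ball hγ hu (by simpa using hw') hf' MemLp.zero'
      (fun x => by simpa using hM)
    filter_upwards [this] with x hx
    exact hx.trans (le_max_left _ _)
  · exact (tele_sq_le hu.mG (h₂ hγ hu hw' hf')).trans (le_max_right _ _)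

theorem tele_bd_hat {f : E3 → ℝ} (h : Bd El M f) (i : Bool) : Bd El ((σ ^ 3)⁻¹ * M) (hat i f) :=
  ⟨(h.hat i).meas, (h.hat i).bdd, fun x hx => (h.hat i).off x fun hx' => hx (tele_S_El i hx')⟩

theorem tele_bd_sub {K : Set E3} {M' : ℝ} {f g : E3 → ℝ} (h : Bd K M f) (h' : Bd K M' g) :
    Bd K (M + M') fun x => f x - g x :=
  ⟨h.meas.sub h'.meas, fun x => (abs_sub _ _).trans (add_le_add (h.bdd x) (h'.bdd x)),
    fun x hx => by rw [h.off x hx, h'.off x hx, sub_zero]⟩

theorem tele_bd_mu1 (h : ∀ j, Dat c C M (γ j) (φ j)) (j : ℕ) : Bd El ((σ ^ 3)⁻¹ * M) (mu φ 1 j) := by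
  have h1 := tele_bd_hat (h (j + 1)).den.1
  refine ⟨((h1 false).meas.add (h1 true).meas).div_const 2, fun x => ?_, fun x hx => ?_⟩
  · have h2 := (h1 false).bdd x
    have h3 := (h1 true).bdd x
    show |(hat false (φ (j + 1)) x + hat true (φ (j + 1)) x) / 2| ≤ _
    rw [abs_le] at h2 h3 ⊢
    constructor <;> linarith [h2.1, h2.2, h3.1, h3.2]
  · show (hat false (φ (j + 1)) x + hat true (φ (j + 1)) x) / 2 = 0
    rw [(h1 false).off x hx, (h1 true).off x hx]
    norm_num

/-- Induction on `m`: `d 0 j = g j - v j / 2` (`energy_bound`, `stampacchia`), `d (m + 1) j` is `two_copies` of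
`d m (j + 1)` with `a = 1/2`. -/
theorem increments (hc : 0 < c)
    (h : ∀ j, Dat c C M (γ j) (φ j) ∧ Mrg (γ (j + 1)) (φ (j + 1)) (γ j) (φ j)) :
    ∃ N : ℝ, ∀ m j, ∃ d G, H0 El d G ∧
      WD univ (fun x => γ j x • G x) (fun x => mu φ (m + 1) j x - mu φ m j x) ∧
      (∀ᵐ x, |d x| ≤ N * ((2 * σ)⁻¹) ^ m) ∧ ∫ x, ‖G x‖ ^ 2 ≤ N * ((2 * σ)⁻¹) ^ m := by
  have hσ := tele_σ_pos
  have hd := fun j => (h j).1
  obtain ⟨N, hN0, hN⟩ := tele_base (C := C) hc ((σ ^ 3)⁻¹ * M + M)
  refine ⟨N, fun m => ?_⟩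
  induction m with
  | zero =>
    intro j
    obtain ⟨v, Gv, hv, hwv⟩ := (h j).2.exv
    obtain ⟨g, Gg, hg, hwg⟩ := (h j).2.exg
    have hs : Src (φ (j + 1)) := (hd (j + 1)).den.1.src tele_El_bdd
    have hs0 : Src (φ j) := (hd j).den.1.src tele_El_bdd
    have h1 := hg.add (hv.smul (-1 / 2))
    have h2 : WD univ (fun x => γ j x • (Gg x + (-1 / 2 : ℝ) • Gv x))
        (fun x => mu φ (0 + 1) j x - mu φ 0 j x) := by
      have h3 := hwg.add (hwv.smul (-1 / 2)) ((hd j).ell.memLp_smul hg.mG)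
        (((hd j).ell.memLp_smul hv.mG).const_smul (-1 / 2 : ℝ)) ((hs.hat false).sub hs0)
        (((hs.hat false).sub (hs.hat true)).const_mul _)
      refine h3.congr (Eventually.of_forall fun x _ => ?_) (Eventually.of_forall fun x _ => ?_)
      · rw [smul_add, smul_comm (-1 / 2 : ℝ)]
      · simp only [mu]
        ring
    have h4 := hN (hd j).ell h1 h2 (tele_bd_sub (tele_bd_mu1 hd j) (hd j).den.1)
    exact ⟨_, _, h1, h2, by simpa using h4.1, by simpa using h4.2⟩
  | succ m ih =>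
    intro j
    obtain ⟨d, G, h1, h2, h3, h4⟩ := ih (j + 1)
    obtain ⟨k1, k2, k3, k4⟩ := two_copies (hd (j + 1)).ell (hd j).ell (h j).2 h1 h2
      ((tele_mu_src hd _ _).sub (tele_mu_src hd _ _)) (fun _ => 1 / 2) (fun _ => by norm_num [abs_of_pos]) h3
    refine ⟨_, _, k1, k2.congr (Eventually.of_forall fun x _ => rfl) (Eventually.of_forall fun x _ => ?_),
      ?_, ?_⟩
    · simp only [mu, hat]
      ring
    · filter_upwards [k3] with x hx
      refine hx.trans (le_of_eq ?_)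
      rw [max_self, abs_of_pos (by norm_num : (0 : ℝ) < 1 / 2), pow_succ, mul_inv]
      ring
    · rw [k4]
      calc ((1 / 2 : ℝ) ^ 2 + (1 / 2) ^ 2) * σ⁻¹ * ∫ x, ‖G x‖ ^ 2
          ≤ ((1 / 2 : ℝ) ^ 2 + (1 / 2) ^ 2) * σ⁻¹ * (N * ((2 * σ)⁻¹) ^ m) :=
            mul_le_mul_of_nonneg_left h4 (by positivity)
        _ = N * ((2 * σ)⁻¹) ^ (m + 1) := by
            rw [pow_succ _ m, mul_inv]
            ring

/-- the partial sums -/
theorem tele_partial (hc : 0 < c)
    (h : ∀ j, Dat c C M (γ j) (φ j) ∧ Mrg (γ (j + 1)) (φ (j + 1)) (γ j) (φ j)) :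
    ∃ (p : ℕ → E3 → ℝ) (G : ℕ → E3 → E3) (N : ℝ), (∀ m, H0 El (p m) (G m)) ∧
      (∀ m, WD univ (fun x => γ 0 x • G m x) fun x => hat false (mu φ m 1) x - hat true (mu φ m 1) x) ∧
      (∀ m, ∀ᵐ x, |p m x| ≤ N) ∧ ∀ m, ∫ x, ‖G (m + 1) x - G m x‖ ^ 2 ≤ (N * (24 / 25) ^ m) ^ 2 := by
  have hσ := tele_σ_pos
  have hd := fun j => (h j).1
  obtain ⟨N, hN⟩ := increments hc h
  choose d D h1 h2 h3 h4 using fun m => hN m 1
  have hsg : ∀ i, |sg i| = 1 := fun i => by cases i <;> simp [sg]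
  have h5 := fun m => two_copies (hd 1).ell (hd 0).ell (h 0).2 (h1 m) (h2 m)
    ((tele_mu_src hd _ _).sub (tele_mu_src hd _ _)) sg (fun i => (hsg i).le) (h3 m)
  set q : ℕ → E3 → ℝ := fun m x => sg false * hatu false (d m) x + sg true * hatu true (d m) x with hq
  set E : ℕ → E3 → E3 := fun m x => sg false • hatG false (D m) x + sg true • hatG true (D m) x with hE
  obtain ⟨v, Gv, hv, hwv⟩ := (h 0).2.exv
  have hs : Src (φ 1) := (hd 1).den.1.src tele_El_bdd
  obtain ⟨N₀, hN₀, hb⟩ := tele_base (C := C) hc ((σ ^ 3)⁻¹ * M + (σ ^ 3)⁻¹ * M)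
  have hv' := (hb (hd 0).ell hv hwv
    (tele_bd_sub (tele_bd_hat (hd 1).den.1 false) (tele_bd_hat (hd 1).den.1 true))).1
  have hN0 : 0 ≤ N := by
    have := le_trans (integral_nonneg fun x => by positivity) (h4 0)
    simpa using this
  have hr : (2 * σ)⁻¹ = 10 / 11 := by norm_num [σ]
  have hσ' : σ⁻¹ = 20 / 11 := by norm_num [σ]
  have hH : ∀ m, H0 El (fun x => v x + ∑ l ∈ Finset.range m, q l x)
      fun x => Gv x + ∑ l ∈ Finset.range m, E l x := by
    intro m
    induction m with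
    | zero => simpa using hv
    | succ m ih =>
      have := ih.add (h5 m).1
      simpa only [Finset.sum_range_succ, add_assoc] using this
  refine ⟨fun m x => v x + ∑ l ∈ Finset.range m, q l x, fun m x => Gv x + ∑ l ∈ Finset.range m, E l x,
    N₀ + 20 * N + 1, hH, fun m => ?_, fun m => ?_, fun m => ?_⟩
  · induction m with
    | zero => simpa [mu] using hwv
    | succ m ih =>
      have hs := fun k => tele_mu_src hd k 1
      have := ih.add (h5 m).2.1 ((hd 0).ell.memLp_smul (hH m).mG) ((hd 0).ell.memLp_smul (h5 m).1.mG)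
        (((hs m).hat false).sub ((hs m).hat true))
        (((((hs (m + 1)).sub (hs m)).hat false).const_mul _).add
          ((((hs (m + 1)).sub (hs m)).hat true).const_mul _))
      refine this.congr (Eventually.of_forall fun x _ => ?_) (Eventually.of_forall fun x _ => ?_)
      · simp only [Finset.sum_range_succ, smul_add, add_assoc, hE]
      · simp only [hat, sg]
        norm_num
        ring
  · have h6 : ∀ m, ∀ᵐ x, |v x + ∑ l ∈ Finset.range m, q l x| ≤ N₀ + 20 * N * (1 - (10 / 11) ^ m) := by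
      intro m
      induction m with
      | zero => simpa using hv'
      | succ m ih =>
        filter_upwards [ih, (h5 m).2.2.1] with x k1 k2
        rw [Finset.sum_range_succ, ← add_assoc]
        refine (abs_add_le _ _).trans ?_
        rw [hsg, hsg, max_self, hr, hσ'] at k2
        have : N₀ + 20 * N * (1 - (10 / 11) ^ (m + 1)) =
            N₀ + 20 * N * (1 - (10 / 11) ^ m) + 1 * (20 / 11) * (N * (10 / 11) ^ m) := by ring
        rw [this]
        exact add_le_add k1 k2
    filter_upwards [h6 m] with x hx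
    have : 0 ≤ 20 * N * (10 / 11 : ℝ) ^ m := by positivity
    linarith
  · simp only [Finset.sum_range_succ, ← add_assoc, add_sub_cancel_left]
    rw [hE]
    simp only
    rw [(h5 m).2.2.2]
    have k1 := h4 m
    rw [hr] at k1
    have k2 : ((10 : ℝ) / 11) ^ m ≤ ((24 / 25) ^ m) ^ 2 := by
      rw [← pow_mul, mul_comm m 2, pow_mul]
      exact pow_le_pow_left₀ (by norm_num) (by norm_num) m
    have k3 : (sg false ^ 2 + sg true ^ 2) * σ⁻¹ = 40 / 11 := by norm_num [sg, σ]
    rw [k3, mul_pow]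
    have k4 : 40 / 11 * N ≤ (N₀ + 20 * N + 1) ^ 2 := by nlinarith
    calc 40 / 11 * ∫ x, ‖D m x‖ ^ 2 ≤ 40 / 11 * (N * (10 / 11) ^ m) := by linarith
      _ = 40 / 11 * N * (10 / 11) ^ m := by ring
      _ ≤ _ := mul_le_mul k4 k2 (by positivity) (by positivity)

/-- strong limits -/
theorem tele_lim {G : ℕ → E3 → E3} (hG : ∀ m, MemLp (G m) 2 volume) {N : ℝ} (hN : 0 ≤ N)
    (h : ∀ m, ∫ x, ‖G (m + 1) x - G m x‖ ^ 2 ≤ (N * (24 / 25) ^ m) ^ 2) :
    ∃ G' : E3 → E3, MemLp G' 2 volume ∧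
      Tendsto (fun n => eLpNorm (fun x => G' x - G n x) 2 volume) atTop (𝓝 0) ∧
      ∀ F, MemLp F 2 volume → Tendsto (fun n => ∫ x, ⟪G n x, F x⟫) atTop (𝓝 (∫ x, ⟪G' x, F x⟫)) := by
  have h1 : CauchySeq fun n => (hG n).toLp (G n) := by
    refine cauchySeq_of_le_geometric (24 / 25) N (by norm_num) fun n => ?_
    rw [dist_comm, dist_eq_norm, ← MemLp.toLp_sub]
    exact (pow_le_pow_iff_left₀ (norm_nonneg _) (by positivity) two_ne_zero).1
      ((tele_norm_toLp _).le.trans (h n))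
  obtain ⟨P, hP⟩ := cauchySeq_tendsto_of_complete h1
  refine ⟨P, Lp.memLp P, ?_, fun F hF => ?_⟩
  · rw [← Lp.toLp_coeFn P (Lp.memLp P), Lp.tendsto_Lp_iff_tendsto_eLpNorm''] at hP
    refine hP.congr fun n => ?_
    exact eLpNorm_sub_comm _ _ _ _
  · have h2 := hP.inner (𝕜 := ℝ) (tendsto_const_nhds (x := hF.toLp F))
    rw [← Lp.toLp_coeFn P (Lp.memLp P), tele_inner_toLp] at h2
    simpa only [tele_inner_toLp] using h2

/-- `p m = v 0 + ∑ l < m, two_copies (d l 1)` with `a = sg` has the source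
`hat false (mu φ m 1) - hat true (mu φ m 1)`; `2 σ > 1`, so the gradients converge in `L²` (`H0.exists_lim`).  Testing
with `ψ = 1` on the first child and `0` on the second gives `Gp ≠ 0`.  For a bounded solution `u` take
`k = ∫ φ 0 * u`, test with `ψ u - k ψ` (`WD.ext`), and use `Sl.child`, `Sl.mean`, `mu_small`, `integral_hat_mul`. -/
theorem tele (hc : 0 < c) (h : ∀ j, Dat c C M (γ j) (φ j) ∧ Mrg (γ (j + 1)) (φ (j + 1)) (γ j) (φ j)) :
    ∃ (p : E3 → ℝ) (Gp : E3 → E3) (N : ℝ), H0 El p Gp ∧ (∀ᵐ x, |p x| ≤ N) ∧ ¬(∀ᵐ x, Gp x = 0) ∧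
      ∀ (u : E3 → ℝ) (G : E3 → E3) (N' : ℝ), Loc (Metric.ball 0 3) u G (fun x => γ 0 x • G x) 0 →
        (∀ᵐ x, x ∈ Metric.ball (0 : E3) 3 → |u x| ≤ N') → ∃ k : ℝ, ∀ ψ, Test (Metric.ball 0 3) ψ →
          ∫ x, ⟪γ 0 x • Gp x, ψ x • G x + (u x - k) • ∇ ψ x⟫ = 0 := by
  have hσ := tele_σ_pos
  have hd := fun j => (h j).1
  obtain ⟨p, G, N, h1, h2, h3, h4⟩ := tele_partial hc h
  have hN : 0 ≤ N := by
    obtain ⟨x, hx⟩ := (h3 0).exists
    exact (abs_nonneg _).trans hx
  obtain ⟨Gp, hGp, ht, hw⟩ := tele_lim (fun m => (h1 m).mG) hN h4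
  obtain ⟨p', hp', hb⟩ := H0.exists_lim h1 hGp ht
  have hs := fun k => tele_mu_src hd k 1
  have key : ∀ (w : E3 → ℝ) (W : E3 → E3), H0 univ w W →
      Tendsto (fun m => (∫ x, mu φ m 1 x * w (T false x)) - ∫ x, mu φ m 1 x * w (T true x)) atTop
        (𝓝 (∫ x, ⟪γ 0 x • Gp x, W x⟫)) := by
    intro w W hW
    have k1 := hw _ ((hd 0).ell.memLp_smul hW.mG)
    simp only [real_inner_smul_right] at k1
    simp only [real_inner_smul_left]
    refine k1.congr fun m => ?_
    have k2 := (h2 m).ext ((hd 0).ell.memLp_smul (h1 m).mG) (((hs m).hat false).sub ((hs m).hat true)) hW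
    simp only [real_inner_smul_left] at k2
    rw [k2, ← integral_hat_mul, ← integral_hat_mul,
      ← integral_sub (tele_int_mul ((hs m).hat false) hW.mu) (tele_int_mul ((hs m).hat true) hW.mu)]
    simp only [sub_mul]
  refine ⟨p', Gp, N, hp', hb N h3, fun h0 => ?_, fun u G' N' hu hu' => ?_⟩
  · have hK : IsCompact (T false '' {x | Q x ≤ 1}) :=
      (isCompact_Q_le 1).image ((T false).contDiff 0).continuous
    have hO : IsOpen {x | Q (S false x) < 11 / 10} :=
      isOpen_lt ((contDiff_Q 0).continuous.comp ((S false).contDiff 0).continuous) continuous_const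
    obtain ⟨χ, -, hχ, -, hχ1⟩ := exists_cutoff hK hO (by
      rintro _ ⟨x, hx, rfl⟩
      have : Q x ≤ 1 := hx
      show Q (S false (T false x)) < 11 / 10
      rw [S_T]
      linarith)
    have k1 := key χ (∇ χ) (hχ.mono (subset_univ _)).h0
    have k2 : ∀ m, (∫ x, mu φ m 1 x * χ (T false x)) - ∫ x, mu φ m 1 x * χ (T true x) = 1 := by
      intro m
      obtain ⟨⟨M', hm⟩, -⟩ := mu_den hd m 1
      have k3 : ∀ x, mu φ m 1 x * χ (T false x) = mu φ m 1 x := by
        intro x
        by_cases hx : x ∈ El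
        · have : Q x < 1 := hx
          rw [hχ1.self_of_nhdsSet _ ⟨x, this.le, rfl⟩, mul_one]
        · rw [hm.1.off x hx, zero_mul]
      have k4 : ∀ x, mu φ m 1 x * χ (T true x) = 0 := by
        intro x
        by_cases hx : x ∈ El
        · have k5 : Q x < 1 := hx
          have k6 := lt_Q_S (i := true) (j := false) (by simp) (x := T true x) (by rw [S_T]; linarith)
          rw [(hχ.eq_zero (x := T true x) (not_lt.2 k6.le)).1, mul_zero]
        · rw [hm.1.off x hx, zero_mul]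
      simp only [k3, k4, hm.2, integral_zero, sub_zero]
    have k7 : ∫ x, ⟪γ 0 x • Gp x, ∇ χ x⟫ = 0 := by
      refine integral_eq_zero_of_ae ?_
      filter_upwards [h0] with x hx
      simp [hx]
    rw [k7] at k1
    simp only [k2] at k1
    exact one_ne_zero (tendsto_nhds_unique tendsto_const_nhds k1)
  · have hsub : {x : E3 | Q x < 105 / 100} ⊆ Metric.ball 0 3 := by
      intro x hx
      have k1 : Q x < 105 / 100 := hx
      have k2 := norm_sq_le_Q x
      rw [mem_ball_zero_iff]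
      nlinarith [norm_nonneg x]
    have hS : Sl (γ 0) N' u :=
      ⟨by filter_upwards [hu'] with x hx hx' using hx (hsub hx'), G', hu.mono Metric.isOpen_ball hsub⟩
    refine ⟨∫ x, φ 0 x * u x, fun ψ hψ => ?_⟩
    set k := ∫ x, φ 0 x * u x with hk
    have k1 : H0 univ (fun x => (u x - k) * ψ x) fun x => ψ x • G' x + (u x - k) • ∇ ψ x := by
      refine (((hu.h0 ψ hψ).sub (hψ.h0.smul k)).mono (subset_univ _)).congr
        (Eventually.of_forall fun x => ?_) (Eventually.of_forall fun x => ?_)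
      · simp only
        ring
      · simp only
        rw [sub_smul, add_sub_assoc]
    obtain ⟨L, hL⟩ := ContDiff.lipschitzWith_of_hasCompactSupport hψ.cpt hψ.c1 (by simp)
    have k2 : ∀ m i, |∫ x, mu φ m 1 x * ((u (T i x) - k) * ψ (T i x))| ≤ 3 * N' * (L * σ) * σ ^ m := by
      intro m i
      have k3 := mu_small h m 1 (Sl.child (h 0).2 hS i) (ψ := fun x => ψ (T i x)) (L := L * σ)
        (fun x y => by
          have := hL.dist_le_mul (T i x) (T i y)
          rw [Real.dist_eq, dist_eq_norm, Sim.norm_sub, T_s, ← mul_assoc] at this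
          exact this)
      rwa [Sl.mean (hd 1) (hd 0) (h 0).2 hS i] at k3
    refine tendsto_nhds_unique (key _ _ k1) ?_
    have k4 : Tendsto (fun m : ℕ => 2 * (3 * N' * (L * σ)) * σ ^ m) atTop (𝓝 0) := by
      have := (tendsto_pow_atTop_nhds_zero_of_lt_one hσ.le (by norm_num [σ])).const_mul
        (2 * (3 * N' * (L * σ)))
      simpa using this
    refine squeeze_zero_norm (fun m => ?_) k4
    rw [Real.norm_eq_abs]
    refine (abs_sub _ _).trans ?_
    linarith [k2 m false, k2 m true]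

end Crest.Agent.R83
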