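import Crest.Agent.R83.Final
import Crest.Agent.R83.Merge
import Crest.Agent.R83.Limit
import Crest.Agent.R83.Tele

/-!
# R83 TASK Main: assembly
-/

set_option autoImplicit false

namespace Crest.Agent.R83

open MeasureTheory Set Filter Topology
open scoped Gradient RealInnerProductSpace ENNReal NNReal ContDiff

open Crest.AnalysisR.PDE.Calderon


/-- `merge`, `tower`, `tele`; replace `p` by a measurable representative that is bounded everywhere and vanishes off
`El`; if `p = 0` a.e. then `Gp = 0` a.e. (`H0.grad_eq`). -/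
theorem main : ∃ γ₀ γ₁ : E3 → ℝ, ∃ c C : ℝ, 0 < c ∧ Measurable γ₀ ∧ Measurable γ₁ ∧
    (∀ x, c ≤ γ₀ x ∧ γ₀ x ≤ C ∧ c ≤ γ₁ x ∧ γ₁ x ≤ C) ∧
    (∃ r : ℝ, r < 3 ∧ ∀ x : E3, r < ‖x‖ → γ₀ x = 1 ∧ γ₁ x = 1) ∧
    0 < volume {x : E3 | γ₀ x ≠ γ₁ x} ∧ SameBoundaryEnergies γ₀ γ₁ := by
  classical
  obtain ⟨c, C, M, Γ, Φ, hc, hc1, hC, hM, h, hcpt⟩ := merge
  obtain ⟨γ, φ, ht⟩ := tower hc hc1 hC hM h hcpt
  obtain ⟨p, Gp, N, hp, hN, hne, hk⟩ := tele hc ht
  have hγ := (ht 0).1
  set p₀ := hp.mu.1.mk p with hp₀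
  have hm₀ : Measurable p₀ := hp.mu.1.stronglyMeasurable_mk.measurable
  let q : E3 → ℝ := fun x => if x ∈ El ∧ |p₀ x| ≤ |N| then p₀ x else 0
  have hqm : Measurable q :=
    Measurable.ite (isOpen_El.measurableSet.inter (measurableSet_le hm₀.abs measurable_const)) hm₀
      measurable_const
  have hqp : p =ᵐ[volume] q := by
    filter_upwards [hp.mu.1.ae_eq_mk, hN, hp.zero_off] with x h1 h2 h3
    by_cases hx : x ∈ El
    · have h4 : |p₀ x| ≤ |N| := by rw [hp₀, ← h1]; exact h2.trans (le_abs_self _)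
      simp only [q, hx, h4, and_self, if_true]
      exact h1
    · simp only [q, hx, false_and, if_false]
      exact (h3 hx).1
  have hq : H0 El q Gp := hp.congr hqp (Eventually.of_forall fun _ => rfl)
  have hqN : ∀ x, |q x| ≤ |N| := fun x => by
    simp only [q]
    split_ifs with hx
    · exact hx.2
    · simp
  set ε : ℝ := 1 / (2 * (|N| + 1)) with hε
  have hε0 : 0 < ε := by positivity
  have hεN : ε * |N| ≤ 1 / 2 := by
    rw [hε, div_mul_eq_mul_div, div_le_div_iff₀ (by positivity) (by positivity)]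
    linarith
  have hw : ∀ x, 1 / 2 ≤ 1 + ε * q x ∧ 1 + ε * q x ≤ 3 / 2 := fun x => by
    have h1 : |ε * q x| ≤ 1 / 2 := by
      rw [abs_mul, abs_of_pos hε0]
      exact (mul_le_mul_of_nonneg_left (hqN x) hε0.le).trans hεN
    constructor <;> linarith [(abs_le.1 h1).1, (abs_le.1 h1).2]
  refine ⟨γ 0, fun x => (1 + ε * q x) ^ 2 * γ 0 x, c / 4, 9 / 4 * C, by positivity, hγ.ell.meas,
    ((measurable_const.add (measurable_const.mul hqm)).pow_const 2).mul hγ.ell.meas, fun x => ?_,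
    ⟨2, by norm_num, fun x hx => ?_⟩, ?_, same_energies hc hγ.ell hq hqm hqN hε0 hεN hk⟩
  · have h1 := hγ.ell.le x
    have h2 := hγ.ell.ge x
    obtain ⟨h3, h4⟩ := hw x
    have h5 : 1 / 4 ≤ (1 + ε * q x) ^ 2 := by nlinarith
    have h6 : (1 + ε * q x) ^ 2 ≤ 9 / 4 := by nlinarith
    refine ⟨by linarith, by linarith, ?_, ?_⟩
    · nlinarith
    · nlinarith
  · have h1 : x ∉ El := fun h1 => by
      have := mem_ball_zero_iff.1 (El_subset_ball h1)
      linarith
    simp only [q, h1, false_and, if_false, hγ.one x h1]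
    norm_num
  · rw [pos_iff_ne_zero]
    intro h0
    apply hne
    have h1 : ∀ᵐ x, x ∈ (univ : Set E3) → q x = (fun _ => (0 : ℝ)) x := by
      filter_upwards [measure_eq_zero_iff_ae_notMem.1 h0] with x hx _
      have h2 : γ 0 x = (1 + ε * q x) ^ 2 * γ 0 x := not_not.1 hx
      have h3 : 0 < γ 0 x := hc.trans_le (hγ.ell.le x)
      have h4 : (1 + ε * q x) ^ 2 = 1 := by
        have := mul_right_cancel₀ h3.ne' ((one_mul _).trans h2)
        exact this.symm
      have h5 : ε * q x * (2 + ε * q x) = 0 := by linear_combination h4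
      rcases mul_eq_zero.1 h5 with h6 | h6
      · exact (mul_eq_zero.1 h6).resolve_left hε0.ne'
      · linarith [(hw x).1]
    filter_upwards [hq.grad_eq isOpen_univ contDiffOn_const h1] with x hx
    rw [hx trivial, gradient_fun_const]

end Crest.Agent.R83
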