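import Crest.Agent.R83.Chain
import Crest.Agent.R83.LocA

/-!
# R83 TASK MrgA: the new source density of a merged cluster
-/

set_option autoImplicit false

namespace Crest.Agent.R83

open MeasureTheory Set Filter Topology
open scoped Gradient RealInnerProductSpace ENNReal NNReal ContDiff

theorem mrga_int_inner {J G : E3 → E3} (hJ : MemLp J 2 volume) (hG : MemLp G 2 volume) :
    Integrable (fun x => ⟪J x, G x⟫) volume := by
  refine (L2.integrable_inner (𝕜 := ℝ) (hJ.toLp J) (hG.toLp G)).congr ?_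
  filter_upwards [hJ.coeFn_toLp, hG.coeFn_toLp] with x h1 h2
  rw [h1, h2]

theorem mrga_theta {α : ℝ} (hα : 0 < α) : ∃ (θ : ℝ → ℝ) (L : ℝ), ContDiff ℝ 1 θ ∧ 0 ≤ L ∧
    (∀ s, |θ s| ≤ 1) ∧ (∀ s, s ≤ 0 → θ s = 0) ∧ (∀ s, α ≤ s → θ s = 1) ∧
    (∀ s, 0 ≤ deriv θ s ∧ deriv θ s ≤ L) ∧ ∀ s, α ≤ |s| → deriv θ s = 0 := by
  set θ : ℝ → ℝ := fun s => Real.smoothTransition (3 * s / α - 1) with hθ
  have hc : ContDiff ℝ 1 θ := Real.smoothTransition.contDiff.comp (by fun_prop)
  have h0 : ∀ s, s < α / 3 → θ s = 0 := fun s hs => Real.smoothTransition.zero_of_nonpos (by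
    rw [sub_nonpos, div_le_one hα]; linarith)
  have h1 : ∀ s, 2 * α / 3 < s → θ s = 1 := fun s hs => Real.smoothTransition.one_of_one_le (by
    rw [le_sub_iff_add_le, le_div_iff₀ hα]; linarith)
  have hm : Monotone θ := fun a b hab => Real.smoothTransition.monotone (by gcongr)
  have hz : ∀ s, α ≤ |s| → deriv θ s = 0 := by
    intro s hs
    rcases le_abs.1 hs with h | h
    · have : θ =ᶠ[𝓝 s] fun _ => 1 := by
        filter_upwards [lt_mem_nhds (show 2 * α / 3 < s by linarith)] with t ht using h1 t ht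
      rw [this.deriv_eq, deriv_const]
    · have : θ =ᶠ[𝓝 s] fun _ => 0 := by
        filter_upwards [gt_mem_nhds (show s < α / 3 by linarith)] with t ht using h0 t ht
      rw [this.deriv_eq, deriv_const]
  obtain ⟨L, hL⟩ := (isCompact_Icc (a := -α) (b := α)).bddAbove_image
    (hc.continuous_deriv le_rfl).continuousOn
  refine ⟨θ, max L 0, hc, le_max_right _ _, fun s => ?_, fun s hs => h0 s (by linarith),
    fun s hs => h1 s (by linarith), fun s => ⟨hm.deriv_nonneg, ?_⟩, hz⟩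
  · rw [abs_of_nonneg (Real.smoothTransition.nonneg _)]
    exact Real.smoothTransition.le_one _
  · rcases le_total α |s| with h | h
    · rw [hz s h]; exact le_max_right _ _
    · exact (hL ⟨s, abs_le.1 h, rfl⟩).trans (le_max_left _ _)

/-- Let `Θ` be `C²` with `Θ = 0` on `(-∞, α/3]`, `Θ' = 1` on `[2α/3, ∞)`, `0 ≤ Θ'' ≤ L`, `0 ≤ Θ' ≤ 1`
(`Θ' s = smoothTransition (3 s / α - 1)`).  `g = Θ (v)` (`H0.comp`), `φ'` is a measurable version of
`Θ'' (v) ⟪G, γ G⟫` clipped to `[0, L N]` and cut off outside `El` (`H0.zero_off`).  Test the equation of `v` with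
`ψ Θ'(v)` (`H0.comp`, `H0.mul_test`, `WD.ext`).  The mass is obtained by testing with a cut-off equal to `1` near
`{Q ≤ 1}`. -/
theorem new_source {α N : ℝ} (hα : 0 < α) : ∃ M : ℝ, ∀ {c C : ℝ} {γ v f₁ f₂ : E3 → ℝ} {G : E3 → E3},
    0 < c → Ell c C γ → H0 El v G → WD univ (fun x => γ x • G x) (fun x => f₁ x - f₂ x) → Src f₁ → Src f₂ →
    (∀ x, x ∉ El → f₁ x = 0) → ∫ x, f₁ x = 1 → (∀ᵐ x, f₁ x ≠ 0 → α ≤ v x) → (∀ᵐ x, f₂ x ≠ 0 → v x ≤ 0) →
    (∀ᵐ x, α ≤ |v x| ∨ ⟪G x, γ x • G x⟫ ≤ N) →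
    ∃ φ', Den El M 1 φ' ∧ (∀ x, 0 ≤ φ' x) ∧
      ∃ g Gg, H0 El g Gg ∧ WD univ (fun x => γ x • Gg x) fun x => f₁ x - φ' x := by
  obtain ⟨θ, L, hθ, hL0, hθ1, hθz, hθo, hθ', hθ'z⟩ := mrga_theta hα
  refine ⟨L * max N 0, ?_⟩
  intro c C γ v f₁ f₂ G hc hγ hv hw hf₁ hf₂ hoff hint h1 h2 hN
  set M := L * max N 0 with hM
  have hM0 : 0 ≤ M := mul_nonneg hL0 (le_max_right _ _)
  -- the primitive of `θ`
  set Θ : ℝ → ℝ := fun s => ∫ t in (0 : ℝ)..s, θ t with hΘ
  have hΘd : deriv Θ = θ := funext fun s => hθ.continuous.deriv_integral θ 0 s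
  have hΘc : ContDiff ℝ 1 Θ := by
    refine contDiff_one_iff_deriv.2 ⟨fun s => ?_, hΘd ▸ hθ.continuous⟩
    exact (intervalIntegral.integral_hasDerivAt_right (hθ.continuous.intervalIntegrable _ _)
      (hθ.continuous.stronglyMeasurableAtFilter _ _) hθ.continuous.continuousAt).differentiableAt
  have hg := hv.comp hΘc (by simp [hΘ]) (L := 1) (fun s => hΘd ▸ hθ1 s)
  rw [hΘd] at hg
  have hθv := hv.comp hθ (hθz 0 le_rfl) (L := L) fun s => by
    rw [abs_of_nonneg (hθ' s).1]; exact (hθ' s).2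
  -- the density
  have hJ := hγ.memLp_smul hv.mG
  have hφ0 := mrga_int_inner hθv.mG hJ
  set φ0 : E3 → ℝ := fun x => ⟪deriv θ (v x) • G x, γ x • G x⟫ with hφ0def
  set φm := hφ0.1.mk φ0 with hφm
  set φ' : E3 → ℝ := El.indicator fun x => max 0 (min (φm x) M) with hφ'
  have hnn : ∀ x, 0 ≤ φ' x := fun x => indicator_nonneg (fun _ _ => le_max_left _ _) x
  have hbd : Bd El M φ' := by
    refine ⟨?_, fun x => ?_, fun x hx => indicator_of_notMem hx _⟩
    · exact (measurable_const.max (hφ0.1.stronglyMeasurable_mk.measurable.min measurable_const)).indicator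
        isOpen_El.measurableSet
    · rw [abs_of_nonneg (hnn x)]
      exact indicator_le' (fun y _ => max_le hM0 (min_le_right _ _)) (fun _ _ => hM0) x
  have hsrc : Src φ' := hbd.src (Metric.isBounded_ball.subset El_subset_ball)
  have hae : φ0 =ᵐ[volume] φ' := by
    filter_upwards [hφ0.1.ae_eq_mk, hv.zero_off, hN] with x hx hz hNx
    by_cases hxE : x ∈ El
    · have e : φ0 x = deriv θ (v x) * ⟪G x, γ x • G x⟫ := real_inner_smul_left _ _ _
      have h3 : 0 ≤ ⟪G x, γ x • G x⟫ := by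
        rw [real_inner_smul_right]
        exact mul_nonneg (hc.le.trans (hγ.le x)) real_inner_self_nonneg
      have h4 : 0 ≤ φ0 x := e ▸ mul_nonneg (hθ' _).1 h3
      have h5 : φ0 x ≤ M := by
        rw [e]
        rcases hNx with h | h
        · rw [hθ'z _ h, zero_mul]; exact hM0
        · exact mul_le_mul (hθ' _).2 (h.trans (le_max_left _ _)) h3 hL0
      rw [hφ', indicator_of_mem hxE, hφm, ← hx, min_eq_left h5, max_eq_right h4]
    · rw [hbd.off x hxE, hφ0def]
      simp [(hz hxE).2]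
  have hJg := hγ.memLp_smul hg.mG
  have hWD : WD univ (fun x => γ x • θ (v x) • G x) fun x => f₁ x - φ' x := by
    intro ψ hψ
    have h3 := hw.ext hJ (hf₁.sub hf₂) (hθv.mul_test hψ)
    have i1 := mrga_int_inner hJg (hψ.memLp_grad 2)
    have i2 : Integrable (fun x => φ' x * ψ x) volume := (hsrc.memLp 2).integrable_mul (hψ.memLp 2)
    have i3 : Integrable (fun x => f₁ x * ψ x) volume := (hf₁.memLp 2).integrable_mul (hψ.memLp 2)
    have h4 : ∫ x, ⟪γ x • G x, ψ x • deriv θ (v x) • G x + θ (v x) • ∇ ψ x⟫ =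
        ∫ x, (φ' x * ψ x + ⟪γ x • θ (v x) • G x, ∇ ψ x⟫) := by
      refine integral_congr_ae ?_
      filter_upwards [hae] with x hx
      rw [← hx, hφ0def]
      simp only [inner_add_right, real_inner_smul_left, real_inner_smul_right]
      ring
    have h5 : ∫ x, (f₁ x - f₂ x) * (ψ x * θ (v x)) = ∫ x, f₁ x * ψ x := by
      refine integral_congr_ae ?_
      filter_upwards [h1, h2] with x hx1 hx2
      have e1 : f₁ x * θ (v x) = f₁ x := by
        by_cases h : f₁ x = 0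
        · simp [h]
        · rw [hθo _ (hx1 h), mul_one]
      have e2 : f₂ x * θ (v x) = 0 := by
        by_cases h : f₂ x = 0
        · simp [h]
        · rw [hθz _ (hx2 h), mul_zero]
      linear_combination ψ x * e1 - ψ x * e2
    rw [h4, h5, integral_add i2 i1] at h3
    simp only [sub_mul]
    rw [integral_sub i3 i2]
    linarith
  refine ⟨φ', ⟨hbd, ?_⟩, hnn, _, _, hg, hWD⟩
  obtain ⟨χ, -, hχ, -, hχ1⟩ := exists_cutoff (isCompact_Q_le 1) isOpen_univ (subset_univ _)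
  have hEl : ∀ x ∈ El, χ =ᶠ[𝓝 x] fun _ => 1 := fun x hx =>
    hχ1.filter_mono (nhds_le_nhdsSet (show x ∈ {x | Q x ≤ 1} from (show Q x < 1 from hx).le))
  have h3 := hWD χ hχ
  have h4 : ∫ x, ⟪γ x • θ (v x) • G x, ∇ χ x⟫ = 0 := by
    refine integral_eq_zero_of_ae ?_
    filter_upwards [hv.zero_off] with x hz
    by_cases hx : x ∈ El
    · rw [(hEl x hx).gradient_eq, gradient_fun_const]; simp
    · simp [(hz hx).2]
  have h5 : ∫ x, (f₁ x - φ' x) * χ x = ∫ x, (f₁ x - φ' x) := by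
    refine integral_congr_ae (Eventually.of_forall fun x => ?_)
    by_cases hx : x ∈ El
    · simp [(hEl x hx).eq_of_nhds]
    · simp [hoff x hx, hbd.off x hx]
  rw [h4, h5, integral_sub (memLp_one_iff_integrable.1 (hf₁.memLp 1))
    (memLp_one_iff_integrable.1 (hsrc.memLp 1)), hint] at h3
  linarith

end Crest.Agent.R83
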