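import Crest.Agent.R83.Ker
import Crest.Agent.R83.Geo
import Crest.Agent.R83.Solve

/-!
# R83 TASK ND: the field of a charged density vanishes only on a null set, uniformly
-/

set_option autoImplicit false

namespace Crest.Agent.R83

open MeasureTheory Set Filter Topology
open scoped Gradient RealInnerProductSpace ENNReal NNReal ContDiff

/-- `∫ s in 1..2, volume (s⁻¹ • Z) = ∫ x, volume {s ∈ [1,2] | s • x ∈ Z} = 0` (`Measure.addHaar_preimage_smul`) -/
theorem null_of_rays {Z : Set E3} (hZ : MeasurableSet Z)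
    (h : ∀ x : E3, x ≠ 0 → {s : ℝ | 0 < s ∧ s • x ∈ Z}.Countable) : volume Z = 0 := by
  have hm : MeasurableSet {p : E3 × ℝ | ¬ (0 < p.2 ∧ p.2 • p.1 ∈ Z)} := by
    refine MeasurableSet.compl (MeasurableSet.inter ?_ ?_)
    · exact measurableSet_lt measurable_const measurable_snd
    · exact (continuous_snd.smul continuous_fst).measurable hZ
  have h0 : ∀ᵐ x : E3, x ≠ 0 := by
    rw [ae_iff]
    simp
  have h1 : ∀ᵐ x : E3, ∀ᵐ s : ℝ, ¬ (0 < s ∧ s • x ∈ Z) := by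
    filter_upwards [h0] with x hx
    rw [ae_iff]
    simp only [not_not]
    exact (h x hx).measure_zero _
  have h2 := (Measure.ae_ae_comm (μ := (volume : Measure E3)) (ν := (volume : Measure ℝ))
    (p := fun x s => ¬ (0 < s ∧ s • x ∈ Z)) hm).1 h1
  obtain ⟨s, hs, hs'⟩ := Measure.exists_mem_of_measure_ne_zero_of_ae (μ := (volume : Measure ℝ))
    (s := Ioi (0 : ℝ)) (by simp) (ae_restrict_of_ae h2)
  have hs0 : (0 : ℝ) < s := hs
  have h3 : volume ((fun x : E3 => s • x) ⁻¹' Z) = 0 := by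
    rw [ae_iff] at hs'
    refine measure_mono_null (fun x hx => ?_) hs'
    simp only [not_not, mem_ofPred_eq]
    exact ⟨hs0, hx⟩
  rw [Measure.addHaar_preimage_smul _ hs0.ne'] at h3
  rcases mul_eq_zero.1 h3 with h4 | h4
  · rw [ENNReal.ofReal_eq_zero] at h4
    have : 0 < |(s ^ Module.finrank ℝ E3)⁻¹| := abs_pos.2 (by positivity)
    linarith
  · exact h4

theorem nd_K0 : IsCompact K0 := isCompact_Q_le _

theorem nd_cBf {w : E3} (hw : w ≠ 0) : ContinuousAt Bf w :=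
  (contDiffOn_Bf 0).continuousOn.continuousAt (isOpen_ne.mem_nhds hw)

theorem nd_Bf_smul {s : ℝ} (hs : 0 < s) (w : E3) : Bf (s • w) = (s ^ 2)⁻¹ • Bf w := by
  unfold Bf
  rw [norm_smul, Real.norm_eq_abs, abs_of_pos hs, smul_smul, smul_smul]
  congr 1
  rw [mul_pow, mul_inv]
  field_simp

/-- holomorphy of parametric integrals -/
theorem nd_holo {K : Set E3} {M : ℝ} {f : E3 → ℝ} (hK : IsCompact K) (hf : L1 K M f) {k k' : E3 × ℂ → ℂ}
    {z₀ : ℂ} {r : ℝ} (hk : ∀ y ∈ K, ∀ z ∈ Metric.closedBall z₀ r, ContinuousAt k (y, z))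
    (hk' : ∀ y ∈ K, ∀ z ∈ Metric.closedBall z₀ r, ContinuousAt k' (y, z))
    (hd : ∀ y ∈ K, ∀ z ∈ Metric.closedBall z₀ r, HasDerivAt (fun w => k (y, w)) (k' (y, z)) z) :
    DifferentiableOn ℂ (fun z => ∫ y, f y • k (y, z)) (Metric.ball z₀ r) := by
  have hi : ∀ {g : E3 × ℂ → ℂ}, (∀ y ∈ K, ∀ z ∈ Metric.closedBall z₀ r, ContinuousAt g (y, z)) →
      ∀ z ∈ Metric.ball z₀ r, Integrable (fun y => f y • g (y, z)) volume := by
    intro g hg z hz
    refine ker_integrable hK hf fun y hy => ContinuousAt.continuousWithinAt ?_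
    exact (hg y hy z (Metric.ball_subset_closedBall hz)).comp_of_eq (f := fun y => (y, z)) (by fun_prop) rfl
  obtain ⟨N, hN⟩ := (hK.prod (isCompact_closedBall z₀ r)).exists_bound_of_continuousOn (f := k')
    fun p hp => (hk' p.1 hp.1 p.2 hp.2).continuousWithinAt
  intro z hz
  have hb : Metric.ball z₀ r ∈ 𝓝 z := Metric.isOpen_ball.mem_nhds hz
  refine (hasDerivAt_integral_of_dominated_loc_of_deriv_le (μ := volume) (F := fun z y => f y • k (y, z))
    (F' := fun z y => f y • k' (y, z)) (bound := fun y => |f y| * N) hb ?_ (hi hk z hz)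
    (hi hk' z hz).aestronglyMeasurable ?_ (hf.int.abs.mul_const N) ?_).2.differentiableAt.differentiableWithinAt
  · filter_upwards [hb] with w hw using (hi hk w hw).aestronglyMeasurable
  · refine Eventually.of_forall fun y w hw => ?_
    by_cases hy : y ∈ K
    · rw [norm_smul, Real.norm_eq_abs]
      exact mul_le_mul_of_nonneg_left (hN (y, w) ⟨hy, Metric.ball_subset_closedBall hw⟩) (abs_nonneg _)
    · simp [hf.off y hy]
  · refine Eventually.of_forall fun y w hw => ?_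
    by_cases hy : y ∈ K
    · exact (hd y hy w (Metric.ball_subset_closedBall hw)).const_smul (f y)
    · simp only [hf.off y hy, zero_smul]
      exact hasDerivAt_const _ _

/-- the complexified `‖x - z y‖ ^ 2` -/
noncomputable def nd_q (x : E3) (p : E3 × ℂ) : ℂ :=
  ((‖x‖ ^ 2 : ℝ) : ℂ) - 2 * p.2 * ((⟪x, p.1⟫ : ℝ) : ℂ) + p.2 ^ 2 * ((‖p.1‖ ^ 2 : ℝ) : ℂ)

/-- the complexified `⟪x, x - z y⟫` -/
noncomputable def nd_a (x : E3) (p : E3 × ℂ) : ℂ := ((‖x‖ ^ 2 : ℝ) : ℂ) - p.2 * ((⟪x, p.1⟫ : ℝ) : ℂ)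

/-- the complexified `⟪x, Bf (x - z y)⟫` -/
noncomputable def nd_k (x : E3) (p : E3 × ℂ) : ℂ := nd_a x p * nd_q x p ^ ((-3 / 2 : ℝ) : ℂ)

noncomputable def nd_k' (x : E3) (p : E3 × ℂ) : ℂ :=
  -((⟪x, p.1⟫ : ℝ) : ℂ) * nd_q x p ^ ((-3 / 2 : ℝ) : ℂ) + nd_a x p * (((-3 / 2 : ℝ) : ℂ) *
    nd_q x p ^ (((-3 / 2 : ℝ) : ℂ) - 1) * (-(2 * ((⟪x, p.1⟫ : ℝ) : ℂ)) + 2 * p.2 * ((‖p.1‖ ^ 2 : ℝ) : ℂ)))

theorem nd_cq (x : E3) : Continuous (nd_q x) := by
  unfold nd_q
  fun_prop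

theorem nd_ca (x : E3) : Continuous (nd_a x) := by
  unfold nd_a
  fun_prop

theorem nd_q_real (x y : E3) (t : ℝ) : nd_q x (y, t) = ((‖x - t • y‖ ^ 2 : ℝ) : ℂ) := by
  rw [norm_sub_sq_real, inner_smul_right, norm_smul, mul_pow, Real.norm_eq_abs, sq_abs]
  simp only [nd_q]
  push_cast
  ring

theorem nd_k_real (x y : E3) (t : ℝ) : nd_k x (y, t) = ((⟪x, Bf (x - t • y)⟫ : ℝ) : ℂ) := by
  have h1 : (‖x - t • y‖ ^ 2) ^ (-3 / 2 : ℝ) = (‖x - t • y‖ ^ 3)⁻¹ := by
    rw [← Real.rpow_natCast, ← Real.rpow_mul (norm_nonneg _), ← Real.rpow_natCast,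
      ← Real.rpow_neg (norm_nonneg _)]
    norm_num
  rw [nd_k, nd_q_real, ← Complex.ofReal_cpow (by positivity), h1, Bf, inner_smul_right, inner_sub_right,
    inner_smul_right, real_inner_self_eq_norm_sq]
  simp only [nd_a]
  push_cast
  ring

theorem nd_deriv (x y : E3) {z : ℂ} (h : nd_q x (y, z) ∈ Complex.slitPlane) :
    HasDerivAt (fun w => nd_k x (y, w)) (nd_k' x (y, z)) z := by
  have ha : HasDerivAt (fun w => nd_a x (y, w)) (-((⟪x, y⟫ : ℝ) : ℂ)) z := by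
    exact (((hasDerivAt_id z).mul_const ((⟪x, y⟫ : ℝ) : ℂ)).const_sub ((‖x‖ ^ 2 : ℝ) : ℂ)).congr_deriv
      (by simp)
  have hq : HasDerivAt (fun w => nd_q x (y, w))
      (-(2 * ((⟪x, y⟫ : ℝ) : ℂ)) + 2 * z * ((‖y‖ ^ 2 : ℝ) : ℂ)) z := by
    have h1 := ((((hasDerivAt_id z).const_mul 2).mul_const ((⟪x, y⟫ : ℝ) : ℂ)).const_sub
      ((‖x‖ ^ 2 : ℝ) : ℂ)).add ((hasDerivAt_pow 2 z).mul_const ((‖y‖ ^ 2 : ℝ) : ℂ))
    exact h1.congr_deriv (by simp)
  exact ha.mul (hq.cpow_const h)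

theorem nd_ne {x y : E3} {t : ℝ} (hy : y ∈ K0) (ht : 104 / 100 * t ^ 2 < Q x) : x - t • y ≠ 0 := by
  intro h
  have e : x = t • y := sub_eq_zero.1 h
  rw [e, Q_smul] at ht
  have hy' : Q y ≤ 104 / 100 := hy
  nlinarith [sq_nonneg t]

theorem nd_analytic {M : ℝ} {f : E3 → ℝ} (hf : L1 K0 M f) (x : E3) {t : ℝ} (ht : 104 / 100 * t ^ 2 < Q x) :
    AnalyticAt ℝ (fun s : ℝ => ∫ y, f y • nd_k x (y, (s : ℂ))) t := by
  have h1 : ∀ᶠ z in 𝓝 (t : ℂ), ∀ y ∈ K0, nd_q x (y, z) ∈ Complex.slitPlane := by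
    refine nd_K0.eventually_forall_of_forall_eventually fun y hy => ?_
    have hc : Continuous fun p : ℂ × E3 => nd_q x (p.2, p.1) := (nd_cq x).comp (by fun_prop)
    refine hc.continuousAt.eventually (Complex.isOpen_slitPlane.mem_nhds ?_)
    show nd_q x (y, t) ∈ Complex.slitPlane
    rw [nd_q_real]
    exact Complex.ofReal_mem_slitPlane.2 (pow_pos (norm_pos_iff.2 (nd_ne hy ht)) 2)
  obtain ⟨r, hr, hs⟩ := Metric.nhds_basis_closedBall.eventually_iff.1 h1
  have hp : ∀ (c : ℂ), ∀ y ∈ K0, ∀ z ∈ Metric.closedBall (t : ℂ) r,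
      ContinuousAt (fun p => nd_q x p ^ c) (y, z) := fun c y hy z hz =>
    (nd_cq x).continuousAt.cpow continuousAt_const (hs hz y hy)
  have h2 := nd_holo nd_K0 hf (k := nd_k x) (k' := nd_k' x) (z₀ := t) (r := r)
    (fun y hy z hz => (nd_ca x).continuousAt.mul (hp _ y hy z hz))
    (fun y hy z hz => by
      unfold nd_k'
      refine ContinuousAt.add (ContinuousAt.mul (by fun_prop) (hp _ y hy z hz))
        ((nd_ca x).continuousAt.mul ((continuousAt_const.mul (hp _ y hy z hz)).mul (by fun_prop))))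
    (fun y hy z hz => nd_deriv x y (hs hz y hy))
  have h3 := (h2.analyticAt (Metric.ball_mem_nhds _ hr)).restrictScalars (𝕜 := ℝ)
  exact h3.comp_of_eq (Complex.ofRealCLM.analyticAt t) rfl

theorem nd_int {M : ℝ} {f : E3 → ℝ} (hf : L1 K0 M f) {z : E3} (hz : z ∉ K0) :
    Integrable (fun y => f y • Bf (z - y)) volume := by
  refine ker_integrable nd_K0 hf fun y hy => ContinuousAt.continuousWithinAt ?_
  refine (nd_cBf (sub_ne_zero.2 ?_)).comp_of_eq (f := fun y => z - y) (by fun_prop) rfl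
  rintro rfl
  exact hz hy

theorem nd_inner {M : ℝ} {f : E3 → ℝ} (hf : L1 K0 M f) {z : E3} (hz : z ∉ K0) (a : E3) :
    ⟪a, fld f z⟫ = ∫ y, f y * ⟪a, Bf (z - y)⟫ := by
  rw [fld, ← integral_inner (nd_int hf hz)]
  simp only [inner_smul_right]

/-- `s ↦ ⟪x, fld f (s • x)⟫ = ∫ f y (s ‖x‖² - ⟪x, y⟫) (s² ‖x‖² - 2 s ⟪x, y⟫ + ‖y‖²) ^ (-3/2)` extends holomorphically to
`{re s > s₁, |im s| < β}` for every `s₁` with `Q (s₁ • x) > 1.04` (the real part of the quadratic is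
`‖re s • x - y‖² - (im s)² ‖x‖² > 0`; `hasDerivAt_integral_of_dominated_loc_of_deriv_le` over `ℂ`), and `s²` times it tends
to `m / ‖x‖ ≠ 0`.  So its zeros are countable (`AnalyticOnNhd.eqOn_zero_or_eventually_ne_zero_of_preconnected`,
`countable_of_..codiscreteWithin`, or isolated zeros + Lindelöf). -/
theorem countable_zeros {M m : ℝ} (hm : 0 < m) {f : E3 → ℝ} (hf : Den K0 M m f) {x : E3} (hx : x ≠ 0) :
    {s : ℝ | 0 < s ∧ 104 / 100 < Q (s • x) ∧ fld f (s • x) = 0}.Countable := by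
  have hL := hf.1.l1 nd_K0
  have hQ : 0 < Q x := by
    have := norm_sq_le_Q x
    have := pow_pos (norm_pos_iff.2 hx) 2
    linarith
  set G : ℝ → ℂ := fun s : ℝ => ∫ y, f y • nd_k x (y, (s : ℂ)) with hG
  have hGr : ∀ s : ℝ, G s = ((∫ y, f y * ⟪x, Bf (x - s • y)⟫ : ℝ) : ℂ) := by
    intro s
    rw [← integral_complex_ofReal]
    refine integral_congr_ae (Eventually.of_forall fun y => ?_)
    simp only [nd_k_real]
    push_cast
    rfl
  set I : Set ℝ := {t | 104 / 100 * t ^ 2 < Q x} with hI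
  have hIc : IsPreconnected I := by
    refine OrdConnected.isPreconnected ⟨fun a ha b hb c hc => ?_⟩
    have ha' : 104 / 100 * a ^ 2 < Q x := ha
    have hb' : 104 / 100 * b ^ 2 < Q x := hb
    show 104 / 100 * c ^ 2 < Q x
    rcases le_total 0 c with h | h
    · nlinarith [hc.2]
    · nlinarith [hc.1]
  have han : AnalyticOnNhd ℝ G I := fun t ht => nd_analytic hL x ht
  have h0 : G 0 ≠ 0 := by
    rw [hGr]
    simp only [zero_smul, sub_zero, integral_mul_const, hf.2, Bf, inner_smul_right, real_inner_self_eq_norm_sq]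
    have := norm_pos_iff.2 hx
    exact Complex.ofReal_ne_zero.2 (by positivity)
  have hcount : ({t | G t = 0} ∩ I).Countable := by
    rcases han.eqOn_zero_or_eventually_ne_zero_of_preconnected hIc with h | h
    · exact (h0 (h (show 104 / 100 * (0 : ℝ) ^ 2 < Q x by simpa using hQ))).elim
    · exact (HereditarilyLindelofSpace.isLindelof _).countable_of_isDiscrete
        (isDiscrete_of_codiscreteWithin h)
  refine (hcount.preimage inv_injective).mono ?_
  rintro s ⟨hs, hq, hz⟩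
  refine ⟨?_, ?_⟩
  · show G s⁻¹ = 0
    have h1 := nd_inner hL (z := s • x) (not_le.2 hq) x
    rw [hz, inner_zero_right] at h1
    have h2 : ∀ y : E3, ⟪x, Bf (s • x - y)⟫ = (s ^ 2)⁻¹ * ⟪x, Bf (x - s⁻¹ • y)⟫ := by
      intro y
      rw [← inner_smul_right, ← nd_Bf_smul hs, smul_sub, smul_smul, mul_inv_cancel₀ hs.ne', one_smul]
    simp only [h2, mul_left_comm _ (s ^ 2)⁻¹, integral_const_mul] at h1
    rw [hGr, (mul_eq_zero.1 h1.symm).resolve_left (by positivity), Complex.ofReal_zero]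
  · show 104 / 100 * s⁻¹ ^ 2 < Q x
    rw [Q_smul] at hq
    rw [inv_pow, ← div_eq_mul_inv, div_lt_iff₀ (by positivity)]
    linarith

theorem nd_ck : ∀ y ∈ K0, ∀ x ∈ K0ᶜ, ContinuousAt (fun p : E3 × E3 => Bf (p.2 - p.1)) (y, x) := by
  intro y hy x hx
  refine (nd_cBf (w := x - y) (sub_ne_zero.2 ?_)).comp_of_eq (f := fun p : E3 × E3 => p.2 - p.1)
    (by fun_prop) rfl
  rintro rfl
  exact hx hy

theorem nd_unif {M : ℝ} {f : ℕ → E3 → ℝ} {g : E3 → ℝ} (hf : ∀ n, L1 K0 M (f n)) (hg : L1 K0 M g)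
    {l : Filter ℕ} (h : ∀ w : E3 → ℝ, ContinuousOn w K0 →
      Tendsto (fun n => ∫ x, f n x * w x) l (𝓝 (∫ x, g x * w x)))
    {A : Set E3} (hA : IsCompact A) (hAK : A ⊆ K0ᶜ) {η : ℝ} (hη : 0 < η) :
    ∀ᶠ n in l, ∀ z ∈ A, ‖fld (f n) z - fld g z‖ ≤ η := by
  have hpt : ∀ z, z ∉ K0 → Tendsto (fun n => fld (f n) z) l (𝓝 (fld g z)) := by
    intro z hz
    have hc : ∀ i : Fin 3, Tendsto (fun n => fld (f n) z i) l (𝓝 (fld g z i)) := by
      intro i
      have e1 : ∀ v : E3, v i = ⟪e i, v⟫ := fun v => by simp [EuclideanSpace.inner_single_left]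
      simp only [e1, nd_inner (hf _) hz, nd_inner hg hz]
      refine h _ fun y hy => ContinuousAt.continuousWithinAt ?_
      exact continuousAt_const.inner ((nd_ck y hy z hz).comp_of_eq (f := fun y => (y, z)) (by fun_prop) rfl)
    have := (PiLp.continuous_toLp 2 (fun _ : Fin 3 => ℝ)).continuousAt.tendsto.comp (tendsto_pi_nhds.2 hc)
    simpa [Function.comp_def] using this
  have he := ker_eqc nd_K0.isClosed.isOpen_compl nd_K0 nd_ck M
  refine hA.induction_on (p := fun S => ∀ᶠ n in l, ∀ z ∈ S, ‖fld (f n) z - fld g z‖ ≤ η) (by simp)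
    (fun S S' hS h' => h'.mono fun n hn z hz => hn z (hS hz))
    (fun S S' h1 h2 => (h1.and h2).mono fun n hn z hz => hz.elim (hn.1 z) (hn.2 z)) fun z hz => ?_
  obtain ⟨δ, hδ, hb⟩ := he z (hAK hz) (η / 3) (by positivity)
  refine ⟨Metric.ball z δ, mem_nhdsWithin_of_mem_nhds (Metric.ball_mem_nhds _ hδ), ?_⟩
  filter_upwards [(tendsto_iff_norm_sub_tendsto_zero.1 (hpt z (hAK hz))).eventually
    (gt_mem_nhds (show (0 : ℝ) < η / 3 by positivity))] with n hn w hw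
  have h1 : ‖fld (f n) w - fld (f n) z‖ ≤ η / 3 := hb ⟨f n, hf n⟩ w hw
  have h2 : ‖fld g w - fld g z‖ ≤ η / 3 := hb ⟨g, hg⟩ w hw
  calc ‖fld (f n) w - fld g w‖
      = ‖(fld (f n) w - fld (f n) z) + (fld (f n) z - fld g z) - (fld g w - fld g z)‖ := by congr 1; abel
    _ ≤ ‖fld (f n) w - fld (f n) z‖ + ‖fld (f n) z - fld g z‖ + ‖fld g w - fld g z‖ :=
        (norm_sub_le _ _).trans (add_le_add (norm_add_le _ _) le_rfl)
    _ ≤ η := by linarith

/-- Otherwise there are `ε` and `f n` with `volume {‖fld (f n) ..‖ < 1 / (n + 1)} > ε`.  Let `f` be the weak limit along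
the hyperfilter (`weak_lim_bdd`); the convergence of the fields is uniform on the compact set (`ker_eqc`), so
`volume {‖fld f ..‖ < η} ≥ ε` for all `η` and the zero set has positive measure.  But `s ↦ s * k (Q (s • x))` is
strictly increasing, so `countable_zeros` and `null_of_rays` apply. -/
theorem nondeg {M m : ℝ} (hm : 0 < m) {k : ℝ → ℝ} (hk : Continuous k) (hk' : Monotone k) (h1 : ∀ s, 1 ≤ k s)
    {ε : ℝ≥0∞} (hε : 0 < ε) : ∃ η : ℝ, 0 < η ∧ ∀ f, Den K0 M m f →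
      volume {x | 105 / 100 ≤ Q x ∧ Q x ≤ 108 / 100 ∧ ‖fld f (k (Q x) • x)‖ < η} ≤ ε := by
  by_contra hcon
  push Not at hcon
  choose f hf hv using fun n : ℕ => hcon (1 / ((n : ℝ) + 1)) Nat.one_div_pos_of_nat
  obtain ⟨g, hg, -, hlim⟩ := weak_lim_bdd (hyperfilter ℕ) nd_K0.measurableSet nd_K0.isBounded
    (φ := f) fun n => (hf n).1
  rw [nd_K0.isClosed.closure_eq] at hlim
  have hgm : Den K0 M m g := by
    refine ⟨hg, ?_⟩
    have h2 := hlim (fun _ => 1) continuousOn_const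
    simp only [mul_one, (hf _).2] at h2
    exact (tendsto_nhds_unique tendsto_const_nhds h2).symm
  have hQc : Continuous Q := (contDiff_Q 0).continuous
  set A : Set E3 := {x | 105 / 100 ≤ Q x ∧ Q x ≤ 108 / 100} with hA
  have hAc : IsCompact A := (isCompact_Q_le (108 / 100)).inter_left (isClosed_le continuous_const hQc)
  set Φ : E3 → E3 := fun x => k (Q x) • x with hΦ
  have hΦc : Continuous Φ := (hk.comp hQc).smul continuous_id
  have hΦQ : ∀ x ∈ A, 104 / 100 < Q (Φ x) := by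
    intro x hx
    have h2 := h1 (Q x)
    have h3 : 1 ≤ k (Q x) ^ 2 := one_le_pow₀ h2
    show 104 / 100 < Q (k (Q x) • x)
    rw [Q_smul]
    nlinarith [hx.1]
  have hsub : Φ '' A ⊆ K0ᶜ := by
    rintro _ ⟨x, hx, rfl⟩
    exact not_le.2 (hΦQ x hx)
  have hcont : ContinuousOn (fun x => ‖fld g (Φ x)‖) A :=
    ((ker_continuousOn nd_K0.isClosed.isOpen_compl nd_K0 nd_ck (hg.l1 nd_K0)).comp hΦc.continuousOn
      fun x hx => hsub ⟨x, hx, rfl⟩).norm
  set S : ℕ → Set E3 := fun j => A ∩ (fun x => ‖fld g (Φ x)‖) ⁻¹' Iic (1 / ((j : ℝ) + 1)) with hS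
  have hSm : ∀ j, MeasurableSet (S j) := fun j =>
    (hcont.preimage_isClosed_of_isClosed hAc.isClosed isClosed_Iic).measurableSet
  have hSε : ∀ j, ε ≤ volume (S j) := by
    intro j
    have hp : 0 < 1 / ((j : ℝ) + 1) / 2 := by positivity
    have e1 := nd_unif (fun n => (hf n).1.l1 nd_K0) (hg.l1 nd_K0) hlim (hAc.image hΦc) hsub hp
    have e2 : ∀ᶠ n : ℕ in hyperfilter ℕ, 1 / ((n : ℝ) + 1) < 1 / ((j : ℝ) + 1) / 2 :=
      (tendsto_one_div_add_atTop_nhds_zero_nat.eventually (gt_mem_nhds hp)).filter_mono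
        Nat.hyperfilter_le_atTop
    obtain ⟨n, hn1, hn2⟩ := (e1.and e2).exists
    refine (hv n).le.trans (measure_mono fun x hx => ⟨⟨hx.1, hx.2.1⟩, ?_⟩)
    have h3 := hn1 (Φ x) ⟨x, ⟨hx.1, hx.2.1⟩, rfl⟩
    have h4 : ‖fld (f n) (Φ x)‖ < 1 / ((n : ℝ) + 1) := hx.2.2
    have h5 := norm_sub_norm_le (fld g (Φ x)) (fld (f n) (Φ x))
    rw [norm_sub_rev] at h3
    show ‖fld g (Φ x)‖ ≤ 1 / ((j : ℝ) + 1)
    linarith
  have hanti : Antitone S := fun i j hij x hx =>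
    ⟨hx.1, le_trans (show ‖fld g (Φ x)‖ ≤ 1 / ((j : ℝ) + 1) from hx.2) (Nat.one_div_le_one_div hij)⟩
  have hZ : ε ≤ volume (⋂ j, S j) := by
    rw [hanti.measure_iInter (fun j => (hSm j).nullMeasurableSet)
      ⟨0, ((measure_mono inter_subset_left).trans_lt hAc.measure_lt_top).ne⟩]
    exact le_iInf hSε
  refine absurd (hZ.trans_eq (null_of_rays (MeasurableSet.iInter hSm) fun x hx => ?_)) (not_le.2 hε)
  refine MapsTo.countable_of_injOn (f := fun s => k (Q (s • x)) * s) ?_ ?_ (countable_zeros hm hgm hx)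
  · rintro s ⟨hs, hz⟩
    rw [mem_iInter] at hz
    have e1 : (k (Q (s • x)) * s) • x = Φ (s • x) := by simp only [hΦ, smul_smul]
    refine ⟨mul_pos (by linarith [h1 (Q (s • x))]) hs, ?_, ?_⟩
    · rw [e1]
      exact hΦQ _ (hz 0).1
    · rw [e1, ← norm_le_zero_iff]
      exact ge_of_tendsto' tendsto_one_div_add_atTop_nhds_zero_nat fun j => (hz j).2
  · refine StrictMonoOn.injOn fun s hs s' hs' hlt => ?_
    have h2 : k (Q (s • x)) ≤ k (Q (s' • x)) := by
      refine hk' ?_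
      rw [Q_smul, Q_smul]
      exact mul_le_mul_of_nonneg_right (pow_le_pow_left₀ hs.1.le hlt.le 2) (Q_nonneg x)
    have h3 := h1 (Q (s' • x))
    have h4 := hs.1
    show k (Q (s • x)) * s < k (Q (s' • x)) * s'
    nlinarith

end Crest.Agent.R83
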