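import Crest.Agent.R83.Newt

/-!
# R83 TASK Rep: representation of weakly harmonic functions in an exterior domain
-/

set_option autoImplicit false

namespace Crest.Agent.R83

open MeasureTheory Set Filter Topology
open scoped Gradient RealInnerProductSpace ENNReal NNReal ContDiff

theorem rep_fubini {K K' : Set E3} (hK : IsCompact K) (hK' : IsCompact K') {M M' : ℝ} {f g : E3 → ℝ}
    (hf : L1 K M f) (hg : L1 K' M' g) {k : E3 × E3 → ℝ} (hk : ContinuousOn k (K ×ˢ K')) :
    ∫ x, g x * ∫ y, f y * k (y, x) = ∫ y, f y * ∫ x, g x * k (y, x) := by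
  have h1 : Integrable (fun p : E3 × E3 => f p.1 * g p.2 * k p) (volume.prod volume) := by
    refine ((hf.int.mul_prod hg.int).integrableOn.mul_continuousOn hk
      (hK.prod hK')).integrable_of_forall_notMem_eq_zero fun p hp => ?_
    rcases not_and_or.1 hp with h | h
    · simp [hf.off _ h]
    · simp [hg.off _ h]
  have h2 := integral_integral_swap (f := fun y x => f y * g x * k (y, x)) h1
  simp only [← integral_const_mul]
  refine Eq.trans ?_ (h2.symm.trans ?_)
  · congr 1; funext x; congr 1; funext y; ring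
  · congr 1; funext y; congr 1; funext x; ring

theorem rep_int {P h : E3 → ℝ} (hP : MemLp P 6 volume) (hh : Continuous h) (hc : HasCompactSupport h) :
    Integrable (fun x => P x * h x) volume := by
  simpa only [smul_eq_mul] using
    (hP.locallyIntegrable (by norm_num)).integrable_smul_right_of_hasCompactSupport hh hc

theorem rep_ae {U : Set E3} (hU : IsOpen U) {P R : E3 → ℝ} (hP : MemLp P 6 volume) (hR : ContinuousOn R U)
    (h : ∀ g : E3 → ℝ, ContDiff ℝ ∞ g → HasCompactSupport g → tsupport g ⊆ U →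
      c0 * ∫ x, P x * g x = ∫ x, g x * R x) : ∀ᵐ x, x ∈ U → c0 * P x = R x := by
  have h1 : LocallyIntegrableOn (fun x => c0 * P x - R x) U volume :=
    (((hP.const_mul c0).locallyIntegrable (by norm_num)).locallyIntegrableOn U).sub
      (hR.locallyIntegrableOn hU.measurableSet)
  refine (hU.ae_eq_zero_of_integral_contDiff_smul_eq_zero h1 fun g hg hc hs => ?_).mono
    fun x hx hxU => sub_eq_zero.1 (hx hxU)
  have i1 := (rep_int hP hg.continuous hc).const_mul c0
  have i2 : Integrable (fun x => g x * R x) volume :=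
    ((hg.continuous.continuousOn.mul (hR.mono hs)).integrableOn_compact
      hc).integrable_of_forall_notMem_eq_zero fun x hx => by simp [image_eq_zero_of_notMem_tsupport hx]
  have e : (fun x => g x • (c0 * P x - R x)) = fun x => c0 * (P x * g x) - g x * R x := by
    funext x; simp only [smul_eq_mul]; ring
  rw [e, integral_sub i1 i2, integral_const_mul, h g hg hc hs, sub_self]

theorem rep_c1_grad {θ : E3 → ℝ} (hθ : ContDiff ℝ 2 θ) : ContDiff ℝ 1 (∇ θ) :=
  contDiff_iff_contDiffAt.2 fun _ => contDiffAt_grad (n := 1) hθ.contDiffAt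

theorem rep_cont_lap {θ : E3 → ℝ} (hθ : ContDiff ℝ 2 θ) : Continuous (lap θ) := by
  have h := (rep_c1_grad hθ).continuous_fderiv one_ne_zero
  unfold lap dvg
  fun_prop

theorem rep_dvg_smul {a : E3 → ℝ} {B : E3 → E3} {x : E3} (ha : DifferentiableAt ℝ a x)
    (hB : DifferentiableAt ℝ B x) : dvg (fun y => a y • B y) x = ⟪B x, ∇ a x⟫ + a x * dvg B x := by
  unfold dvg
  rw [fderiv_fun_smul ha hB]
  rw [PiLp.inner_apply]
  simp [grad_apply, Finset.sum_add_distrib, Finset.mul_sum, add_comm]

theorem rep_off {θ : E3 → ℝ} {x : E3} (hx : x ∉ tsupport fun x => 1 - θ x) :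
    (θ =ᶠ[𝓝 x] fun _ => 1) ∧ ∇ θ x = 0 ∧ lap θ x = 0 := by
  have h1 : θ =ᶠ[𝓝 x] fun _ => 1 := by
    filter_upwards [notMem_tsupport_iff_eventuallyEq.1 hx] with y hy
    exact (sub_eq_zero.1 hy).symm
  have h2 : ∇ θ =ᶠ[𝓝 x] fun _ => 0 := by
    filter_upwards [h1.eventuallyEq_nhds] with y hy
    rw [hy.gradient_eq, gradient_fun_const]
  refine ⟨h1, h2.eq_of_nhds, ?_⟩
  unfold lap dvg
  rw [h2.fderiv_eq]
  simp

theorem rep_l1 {g : E3 → ℝ} (hg : Continuous g) (hc : HasCompactSupport g) :
    L1 (tsupport g) (∫ y, |g y|) g :=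
  ⟨hg.integrable_of_hasCompactSupport hc, le_rfl, fun _ hx => image_eq_zero_of_notMem_tsupport hx⟩

/-- the basic identity -/
theorem rep_key {Ω : Set E3} {P θ g : E3 → ℝ} {G : E3 → E3} (hP : H0 univ P G) (hw : WD Ω G 0)
    (hθ : ContDiff ℝ 2 θ) (hc : HasCompactSupport fun x => 1 - θ x) (hs : tsupport θ ⊆ Ω)
    (hg : ContDiff ℝ 2 g) (hgc : HasCompactSupport g) (hgs : tsupport g ⊆ (tsupport fun x => 1 - θ x)ᶜ) :
    c0 * ∫ x, P x * g x = ∫ x, P x * (lap θ x * pot g x + 2 * ⟪∇ θ x, ∇ (pot g) x⟫) := by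
  obtain ⟨hψ, hlap⟩ := pot_c2 hg hgc
  have hl := rep_l1 hg.continuous hgc
  set M := ∫ y, |g y| with hM
  have hM0 : 0 ≤ M := integral_nonneg fun _ => abs_nonneg _
  obtain ⟨R, hR0, hR⟩ := (hc.union hgc).isBounded.subset_closedBall_lt 0 0
  have hl' : L1 (Metric.closedBall 0 R) M g :=
    ⟨hl.int, hl.le, fun x hx => hl.off x fun h => hx (hR (Or.inr h))⟩
  set w : E3 → ℝ := fun x => lap θ x * pot g x + 2 * ⟪∇ θ x, ∇ (pot g) x⟫ with hw'
  have hwc : Continuous w := ((rep_cont_lap hθ).mul hψ.continuous).add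
    (continuous_const.mul ((rep_c1_grad hθ).continuous.inner (rep_c1_grad hψ).continuous))
  have hws : HasCompactSupport w := HasCompactSupport.intro hc fun x hx => by
    simp [hw', (rep_off hx).2.1, (rep_off hx).2.2]
  have hL : lap (fun x => θ x * pot g x) = fun x => w x - c0 * g x := by
    funext x
    rw [lap_mul hθ.contDiffAt hψ.contDiffAt, hlap]
    have : θ x * g x = g x := by
      by_cases h : x ∈ tsupport g
      · rw [(rep_off (hgs h)).1.eq_of_nhds, one_mul]
      · rw [image_eq_zero_of_notMem_tsupport h, mul_zero]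
    simp only [hw']
    linear_combination -c0 * this
  have h := ibp_decay (ψ := fun x => θ x * pot g x) hP hw Src.zero (hθ.mul hψ)
    ((tsupport_mul_subset_left).trans hs) (C := 4 * M) (R := 2 * R) (fun x hx => ?_)
    (Eventually.of_forall fun _ _ => rfl) ?_
  · rw [hL] at h
    have i1 := rep_int hP.mu hwc hws
    have i2 := (rep_int hP.mu hg.continuous hgc).const_mul c0
    have e : (fun x => P x * (w x - c0 * g x)) = fun x => P x * w x - c0 * (P x * g x) := by
      funext x; ring
    simp only [Pi.zero_apply, zero_mul, integral_zero, neg_eq_zero] at h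
    rw [e, integral_sub i1 i2, integral_const_mul] at h
    linarith
  · have h1 : x ∉ Metric.closedBall (0 : E3) R := by
      rw [mem_closedBall_zero_iff]; linarith
    have h2 := (rep_off fun h => h1 (hR (Or.inl h))).1
    have h3 : (fun x => θ x * pot g x) =ᶠ[𝓝 x] pot g := by
      filter_upwards [h2] with y hy
      rw [hy, one_mul]
    obtain ⟨h4, h5⟩ := pot_decay hR0 hl' hx
    rw [h3.gradient_eq, h3.eq_of_nhds, (pot_c1 (isCompact_closedBall 0 R) hl').2 x h1, norm_neg]
    refine ⟨h4.trans ?_, h5⟩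
    gcongr
    norm_num
  · rw [hL]
    exact (hwc.sub (continuous_const.mul hg.continuous)).memLp_of_hasCompactSupport
      (hws.sub hgc.mul_left)

theorem rep_cont_inv {K K' : Set E3} (h : K' ⊆ Kᶜ) :
    ContinuousOn (fun p : E3 × E3 => ‖p.2 - p.1‖⁻¹) (K ×ˢ K') :=
  (continuous_snd.sub continuous_fst).norm.continuousOn.inv₀ fun _ hp h0 =>
    h hp.2 ((sub_eq_zero.1 (norm_eq_zero.1 h0)).symm ▸ hp.1)

theorem rep_cont_Bf {p : E3 × E3} (h : p.2 ≠ p.1) : ContinuousAt (fun p : E3 × E3 => Bf (p.2 - p.1)) p :=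
  ContinuousAt.comp (g := Bf) (f := fun p : E3 × E3 => p.2 - p.1)
    (((contDiffOn_Bf 0).continuousOn).continuousAt (isOpen_ne.mem_nhds (sub_ne_zero.2 h)))
    (continuous_snd.sub continuous_fst).continuousAt

theorem rep_Bf_neg (x y : E3) : Bf (x - y) = -Bf (y - x) := by
  unfold Bf
  rw [norm_sub_rev, ← smul_neg, neg_sub]

/-- For smooth `g` with compact support in the open set `(tsupport (1 - θ))ᶜ` put `ψ = pot g` and apply `ibp_decay`
to `θ ψ`: `0 = ∫ P (θ Δψ + 2 ∇θ·∇ψ + ψ Δθ)`, `θ Δψ = -c0 g`.  On the support of `∇θ`, `Δθ` (a compact subset of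
`tsupport (1 - θ)`) `∇ψ = -fld g` (`pot_c1`); Fubini and
`IsOpen.ae_eq_of_integral_contDiff_smul_eq` give the first formula.  For the second one, `H0.ibp_dvg` with the field
`ψ ∇θ` gives `∫ P ∇θ·∇ψ = -∫ ψ (G·∇θ + P Δθ)`. -/
theorem rep_dipole {Ω : Set E3} {P θ : E3 → ℝ} {G : E3 → E3} (hP : H0 univ P G) (hw : WD Ω G 0)
    (hθ : ContDiff ℝ 3 θ) (hc : HasCompactSupport fun x => 1 - θ x) (hs : tsupport θ ⊆ Ω) :
    (∀ᵐ x, x ∉ tsupport (fun x => 1 - θ x) →
      c0 * P x = ∫ y, P y * (lap θ y * ‖x - y‖⁻¹ + 2 * ⟪∇ θ y, Bf (x - y)⟫)) ∧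
    ∀ᵐ x, x ∉ tsupport (fun x => 1 - θ x) →
      c0 * P x = pot (fun y => -(P y * lap θ y) - 2 * ⟪G y, ∇ θ y⟫) x := by
  replace hθ : ContDiff ℝ 2 θ := hθ.of_le (by norm_num)
  set K := tsupport fun x => 1 - θ x with hKdef
  have hK : IsCompact K := hc
  have hU : IsOpen Kᶜ := hK.isClosed.isOpen_compl
  have cl := rep_cont_lap hθ
  have cg := (rep_c1_grad hθ).continuous
  have sl : HasCompactSupport (lap θ) := HasCompactSupport.intro hK fun x hx => (rep_off hx).2.2
  have sg : HasCompactSupport (∇ θ) := HasCompactSupport.intro hK fun x hx => (rep_off hx).2.1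
  constructor
  · set k : E3 × E3 → ℝ := fun p => lap θ p.1 * ‖p.2 - p.1‖⁻¹ + 2 * ⟪∇ θ p.1, Bf (p.2 - p.1)⟫ with hk
    have hkc : ∀ y ∈ K, ∀ x ∈ Kᶜ, ContinuousAt k (y, x) := by
      intro y hy x hx
      have hne : x ≠ y := fun h => hx (h ▸ hy)
      exact ((cl.comp continuous_fst).continuousAt.mul ((continuous_snd.sub continuous_fst).norm.continuousAt.inv₀
        (norm_ne_zero_iff.2 (sub_ne_zero.2 hne)))).add (continuousAt_const.mul
          ((cg.comp continuous_fst).continuousAt.inner (rep_cont_Bf hne)))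
    have hf : L1 K (∫ y, |K.indicator P y|) (K.indicator P) :=
      ⟨(integrable_indicator_iff hK.measurableSet).2
        ((hP.mu.locallyIntegrable (by norm_num)).integrableOn_isCompact hK), le_rfl,
        fun x hx => indicator_of_notMem hx _⟩
    have he : ∀ (w : E3 → ℝ), (∀ y, y ∉ K → w y = 0) → ∫ y, P y * w y = ∫ y, K.indicator P y * w y := by
      intro w hw
      congr 1
      funext y
      by_cases hy : y ∈ K
      · rw [indicator_of_mem hy]
      · rw [hw y hy, mul_zero, mul_zero]
    have he' : ∀ x, ∫ y, P y * k (y, x) = ∫ y, K.indicator P y * k (y, x) := fun x =>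
      he _ fun y hy => by simp only [hk]; rw [(rep_off hy).2.1, (rep_off hy).2.2]; simp
    refine rep_ae hU hP.mu (R := fun x => ∫ y, P y * k (y, x)) ?_ fun g hg hgc hgs => ?_
    · simp only [he']
      exact ker_continuousOn hU hK hkc hf
    · have hg2 : ContDiff ℝ 2 g := hg.of_le (by norm_cast)
      have hl := rep_l1 hg.continuous hgc
      simp only [he']
      rw [rep_key hP hw hθ hc hs hg2 hgc hgs, rep_fubini hK hgc hf hl
        fun p hp => (hkc p.1 hp.1 p.2 (hgs hp.2)).continuousWithinAt,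
        he _ fun y hy => by simp [(rep_off hy).2.1, (rep_off hy).2.2]]
      congr 1
      funext y
      by_cases hy : y ∈ K
      · congr 1
        have hy' : y ∉ tsupport g := fun h => hgs h hy
        have hne : ∀ x ∈ tsupport g, x ≠ y := fun x hx h => hy' (h ▸ hx)
        have i1 : Integrable (fun x => g x • ‖x - y‖⁻¹) volume := ker_integrable hgc hl
          ((continuous_id.sub continuous_const).norm.continuousOn.inv₀ fun x hx =>
            norm_ne_zero_iff.2 (sub_ne_zero.2 (hne x hx)))
        have i2 : Integrable (fun x => g x • Bf (x - y)) volume := ker_integrable hgc hl fun x hx =>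
          (ContinuousAt.comp (f := fun x : E3 => (y, x)) (rep_cont_Bf (p := (y, x)) (hne x hx))
            (by fun_prop)).continuousWithinAt
        have e1 : (fun x => g x * k (y, x)) = fun x => lap θ y * (g x • ‖x - y‖⁻¹) +
            2 * ⟪∇ θ y, g x • Bf (x - y)⟫ := by
          funext x
          simp only [hk, smul_eq_mul, real_inner_smul_right]
          ring
        rw [e1, integral_add (i1.const_mul _) ((i2.const_inner _).const_mul _), integral_const_mul,
          integral_const_mul, integral_inner i2, (pot_c1 hgc hl).2 y hy', fld, ← integral_neg, pot]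
        congr 3
        · funext x; rw [norm_sub_rev, smul_eq_mul]
        · congr 1; funext x; rw [rep_Bf_neg x y, smul_neg]
      · rw [indicator_of_notMem hy, zero_mul, zero_mul]
  · set f : E3 → ℝ := fun y => -(P y * lap θ y) - 2 * ⟪G y, ∇ θ y⟫ with hfdef
    have iG : ∀ B : E3 → E3, Continuous B → HasCompactSupport B →
        Integrable (fun y => ⟪G y, B y⟫) volume := by
      intro B hB hBc
      have hB2 : MemLp B 2 volume := hB.memLp_of_hasCompactSupport hBc
      refine (L2.integrable_inner (𝕜 := ℝ) (hP.mG.toLp G) (hB2.toLp B)).congr ?_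
      filter_upwards [hP.mG.coeFn_toLp, hB2.coeFn_toLp] with x h1 h2
      rw [h1, h2]
    have hf : L1 K (∫ y, |f y|) f :=
      ⟨(rep_int hP.mu cl sl).neg.sub ((iG _ cg sg).const_mul 2), le_rfl, fun x hx => by
        simp only [hfdef]; rw [(rep_off hx).2.1, (rep_off hx).2.2]; simp⟩
    refine rep_ae hU hP.mu (pot_c1 hK hf).1.continuousOn fun g hg hgc hgs => ?_
    have hg2 : ContDiff ℝ 2 g := hg.of_le (by norm_cast)
    have hl := rep_l1 hg.continuous hgc
    have hψ := (pot_c2 hg2 hgc).1
    have h1 : ∫ x, g x * pot f x = ∫ y, f y * pot g y := by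
      unfold pot
      rw [rep_fubini hK hgc hf hl (rep_cont_inv hgs)]
      simp only [norm_sub_rev]
    have cψ := (rep_c1_grad hψ).continuous
    have hBc : HasCompactSupport fun y => pot g y • ∇ θ y :=
      HasCompactSupport.intro hK fun x hx => by rw [(rep_off hx).2.1, smul_zero]
    have h2 := hP.ibp_dvg (B := fun y => pot g y • ∇ θ y)
      ((hψ.of_le (by norm_num)).smul (rep_c1_grad hθ)) hBc
    simp only [rep_dvg_smul (hψ.differentiable (by norm_num) _)
      ((rep_c1_grad hθ).differentiable one_ne_zero _)] at h2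
    have i1 : Integrable (fun y => P y * (lap θ y * pot g y)) volume :=
      rep_int hP.mu (cl.mul hψ.continuous) sl.mul_right
    have i1' : Integrable (fun y => -(P y * (lap θ y * pot g y))) volume := i1.neg
    have i2 : Integrable (fun y => P y * ⟪∇ θ y, ∇ (pot g) y⟫) volume :=
      rep_int hP.mu (cg.inner cψ) (HasCompactSupport.intro hK fun x hx => by simp [(rep_off hx).2.1])
    have i3 : Integrable (fun y => ⟪G y, pot g y • ∇ θ y⟫) volume :=
      iG _ (hψ.continuous.smul cg) hBc
    have e1 : (fun y => f y * pot g y) = fun y => -(P y * (lap θ y * pot g y)) -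
        2 * ⟪G y, pot g y • ∇ θ y⟫ := by
      funext y; simp only [hfdef, real_inner_smul_right]; ring
    have e2 : (fun y => P y * (⟪∇ θ y, ∇ (pot g) y⟫ + pot g y * dvg (∇ θ) y)) =
        fun y => P y * ⟪∇ θ y, ∇ (pot g) y⟫ + P y * (lap θ y * pot g y) := by
      funext y; unfold lap; ring
    have e3 : (fun y => P y * (lap θ y * pot g y + 2 * ⟪∇ θ y, ∇ (pot g) y⟫)) =
        fun y => P y * (lap θ y * pot g y) + 2 * (P y * ⟪∇ θ y, ∇ (pot g) y⟫) := by
      funext y; ring
    rw [e2, integral_add i2 i1] at h2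
    rw [rep_key hP hw hθ hc hs hg2 hgc hgs, h1, e1, e3, integral_sub i1' (i3.const_mul 2),
      integral_add i1 (i2.const_mul 2), integral_neg, integral_const_mul, integral_const_mul, h2]
    ring

end Crest.Agent.R83
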