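import Crest.Agent.R83.ND

/-!
# R83 TASK Slot: deforming the exterior potential of a cluster into a point charge
-/

set_option autoImplicit false

namespace Crest.Agent.R83

open MeasureTheory Set Filter Topology
open scoped Gradient RealInnerProductSpace ENNReal NNReal ContDiff

noncomputable def slot_a (s : ℝ) : ℝ := Real.smoothTransition ((s - 1052 / 1000) * 250)

noncomputable def slot_χ (s : ℝ) : ℝ := Real.smoothTransition ((1065 / 1000 - s) * 200)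

noncomputable def slot_k (H s : ℝ) : ℝ := 1 + (H - 1) * slot_a s

noncomputable def slot_Φ (H : ℝ) (x : E3) : E3 := slot_k H (Q x) • x

noncomputable def slot_Ψ (H : ℝ) (y x : E3) : E3 := slot_k H (Q x) • x - slot_χ (Q x) • y

noncomputable def slot_Θ (ε : ℝ) (y x : E3) : E3 := x - (ε * slot_χ (Q x)) • y

theorem slot_a_cd (n : ℕ∞) : ContDiff ℝ n slot_a :=
  Real.smoothTransition.contDiff.comp (by fun_prop)

theorem slot_χ_cd (n : ℕ∞) : ContDiff ℝ n slot_χ :=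
  Real.smoothTransition.contDiff.comp (by fun_prop)

theorem slot_k_cd (H : ℝ) (n : ℕ∞) : ContDiff ℝ n (slot_k H) :=
  contDiff_const.add (contDiff_const.mul (slot_a_cd n))

theorem slot_k_mono {H : ℝ} (hH : 1 ≤ H) : Monotone (slot_k H) := fun a b h => by
  have : slot_a a ≤ slot_a b := Real.smoothTransition.monotone (by linarith)
  unfold slot_k
  nlinarith

theorem slot_k_ge {H : ℝ} (hH : 1 ≤ H) (s : ℝ) : 1 ≤ slot_k H s := by
  have : 0 ≤ slot_a s := Real.smoothTransition.nonneg _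
  unfold slot_k
  nlinarith

theorem slot_k_lo (H : ℝ) {s : ℝ} (h : s ≤ 1052 / 1000) : slot_k H s = 1 := by
  rw [slot_k, slot_a, Real.smoothTransition.zero_of_nonpos (by linarith), mul_zero, add_zero]

theorem slot_k_hi (H : ℝ) {s : ℝ} (h : 1056 / 1000 ≤ s) : slot_k H s = H := by
  rw [slot_k, slot_a, Real.smoothTransition.one_of_one_le (by linarith)]
  ring

theorem slot_χ_lo {s : ℝ} (h : s ≤ 106 / 100) : slot_χ s = 1 :=
  Real.smoothTransition.one_of_one_le (by linarith)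

theorem slot_χ_hi {s : ℝ} (h : 1065 / 1000 ≤ s) : slot_χ s = 0 :=
  Real.smoothTransition.zero_of_nonpos (by linarith)

theorem slot_Ψ_cd (H : ℝ) (n : ℕ∞) : ContDiff ℝ n fun q : E3 × E3 => slot_Ψ H q.1 q.2 :=
  (((slot_k_cd H n).comp ((contDiff_Q n).comp contDiff_snd)).smul contDiff_snd).sub
    (((slot_χ_cd n).comp ((contDiff_Q n).comp contDiff_snd)).smul contDiff_fst)

theorem slot_Ψ_cd' (H : ℝ) (n : ℕ∞) (y : E3) : ContDiff ℝ n (slot_Ψ H y) :=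
  (((slot_k_cd H n).comp (contDiff_Q n)).smul contDiff_id).sub
    (((slot_χ_cd n).comp (contDiff_Q n)).smul contDiff_const)

theorem slot_Φ_cd (H : ℝ) (n : ℕ∞) : ContDiff ℝ n (slot_Φ H) :=
  ((slot_k_cd H n).comp (contDiff_Q n)).smul contDiff_id

theorem slot_Θ_cd (n : ℕ∞) : ContDiff ℝ n fun q : (ℝ × E3) × E3 => slot_Θ q.1.1 q.1.2 q.2 :=
  contDiff_snd.sub ((contDiff_fst.fst.mul
    ((slot_χ_cd n).comp ((contDiff_Q n).comp contDiff_snd))).smul contDiff_fst.snd)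

theorem slot_Θ_cd' (n : ℕ∞) (ε : ℝ) (y : E3) : ContDiff ℝ n (slot_Θ ε y) :=
  (slot_Θ_cd n).comp ((contDiff_const (c := (ε, y))).prodMk contDiff_id)

theorem slot_notMem {x : E3} : x ∉ K0 ↔ 104 / 100 < Q x := by
  simp only [K0, mem_ofPred_eq, not_le]

theorem slot_cpt : IsCompact K0 := isCompact_Q_le _

theorem slot_open : IsOpen K0ᶜ := slot_cpt.isClosed.isOpen_compl

theorem slot_Ψ_ne {H : ℝ} (hH : 1 ≤ H) {y x : E3} (hy : y ∈ K0) (hx : x ∉ K0) : slot_Ψ H y x ≠ 0 := by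
  intro h
  have h1 := congrArg Q (sub_eq_zero.1 h)
  rw [Q_smul, Q_smul] at h1
  have h2 := slot_k_ge hH (Q x)
  have h3 : 0 ≤ slot_χ (Q x) := Real.smoothTransition.nonneg _
  have h4 : slot_χ (Q x) ≤ 1 := Real.smoothTransition.le_one _
  have h5 : Q y ≤ 104 / 100 := hy
  have h6 := slot_notMem.1 hx
  have h7 := Q_nonneg y
  have h8 : 1 ≤ slot_k H (Q x) ^ 2 := by nlinarith
  have h9 : slot_χ (Q x) ^ 2 ≤ 1 := by nlinarith
  nlinarith

theorem slot_ev_lt {x : E3} {r : ℝ} (h : Q x < r) : ∀ᶠ z in 𝓝 x, Q z < r :=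
  (contDiff_Q 0).continuous.continuousAt.eventually (gt_mem_nhds h)

theorem slot_ev_gt {x : E3} {r : ℝ} (h : r < Q x) : ∀ᶠ z in 𝓝 x, r < Q z :=
  (contDiff_Q 0).continuous.continuousAt.eventually (lt_mem_nhds h)

theorem slot_pb_congr {F G B : E3 → E3} {x : E3} (h : F =ᶠ[𝓝 x] G) : pb F B x = pb G B x := by
  simp only [pb, ad, jac_congr h, h.eq_of_nhds]

/-- the kernel of the potential -/
noncomputable def slot_kv (H : ℝ) (q : E3 × E3) : ℝ := ‖slot_Ψ H q.1 q.2‖⁻¹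

/-- the kernel of the gradient -/
noncomputable def slot_kG (H : ℝ) (q : E3 × E3) : E3 := ∇ (fun z => slot_kv H (q.1, z)) q.2

/-- the kernel of the flux -/
noncomputable def slot_kJ (H : ℝ) (q : E3 × E3) : E3 := -pb (slot_Ψ H q.1) Bf q.2

theorem slot_cd_inv {P : Type} [NormedAddCommGroup P] [NormedSpace ℝ P] {F : P → E3} {p : P}
    (hF : ContDiffAt ℝ 1 F p) (h0 : F p ≠ 0) : ContDiffAt ℝ 1 (fun q => ‖F q‖⁻¹) p :=
  (hF.norm ℝ h0).inv (norm_ne_zero_iff.2 h0)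

theorem slot_Bf_ca {y : E3} (hy : y ≠ 0) : ContinuousAt Bf y :=
  (contDiffOn_Bf 0).continuousOn.continuousAt (isOpen_ne.mem_nhds hy)

theorem slot_kv_cd {H : ℝ} (hH : 1 ≤ H) : ∀ y ∈ K0, ∀ x ∈ K0ᶜ, ContDiffAt ℝ 1 (slot_kv H) (y, x) :=
  fun _ hy _ hx => slot_cd_inv (slot_Ψ_cd H 1).contDiffAt (slot_Ψ_ne hH hy hx)

theorem slot_kG_ca {H : ℝ} (hH : 1 ≤ H) : ∀ y ∈ K0, ∀ x ∈ K0ᶜ, ContinuousAt (slot_kG H) (y, x) :=
  fun y hy x hx => continuousAt_grad_param (slot_kv_cd hH y hy x hx)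

theorem slot_kJ_ca {H : ℝ} (hH : 1 ≤ H) : ∀ y ∈ K0, ∀ x ∈ K0ᶜ, ContinuousAt (slot_kJ H) (y, x) :=
  fun y hy x hx => (continuousAt_pb_param (k := fun q : E3 × E3 => slot_Ψ H q.1 q.2) (p := (y, x))
    (slot_Ψ_cd H 1).contDiffAt (slot_Bf_ca (slot_Ψ_ne hH hy hx))).neg

theorem slot_kJ_wd {H : ℝ} (hH : 1 ≤ H) : ∀ y ∈ K0, WD K0ᶜ (fun x => slot_kJ H (y, x)) 0 := by
  intro y hy
  have h := (wd_pb slot_open isOpen_ne (slot_Ψ_cd' H 2 y).contDiffOn (contDiffOn_Bf 1)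
    (fun x hx => slot_Ψ_ne hH hy hx) fun z hz => dvg_Bf hz).smul (-1)
  refine h.congr (.of_forall fun x _ => ?_) (.of_forall fun x _ => ?_)
  · simp [slot_kJ]
  · simp

theorem slot_sec {k : E3 × E3 → E3} {x : E3} (h : ∀ y ∈ K0, ContinuousAt k (y, x)) :
    ContinuousOn (fun y => k (y, x)) K0 := fun y hy =>
  ((h y hy).comp (f := fun y => (y, x)) (by fun_prop)).continuousWithinAt

theorem slot_int_congr {V : Type} [NormedAddCommGroup V] [NormedSpace ℝ V] {M : ℝ} {f : E3 → ℝ}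
    (hf : Bd K0 M f) {k k' : E3 → V} (h : ∀ y ∈ K0, k y = k' y) :
    ∫ y, f y • k y = ∫ y, f y • k' y := by
  congr 1
  funext y
  by_cases hy : y ∈ K0
  · rw [h y hy]
  · rw [hf.off y hy, zero_smul, zero_smul]

theorem slot_int_mat (A : Matrix (Fin 3) (Fin 3) ℝ) {f : E3 → ℝ} {g : E3 → E3}
    (hg : Integrable (fun y => f y • g y) volume) :
    ∫ y, f y • (WithLp.toLp 2 (A.mulVec (g y).ofLp) : E3) =
      WithLp.toLp 2 (A.mulVec (∫ y, f y • g y).ofLp) := by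
  have h := (LinearMap.toContinuousLinearMap (Matrix.toLpLin 2 2 A)).integral_comp_comm hg
  simp only [LinearMap.coe_toContinuousLinearMap', map_smul] at h
  exact h

/-- the inner part: the pull-back of the exterior field by the radial map `Φ` -/
theorem slot_inner {H M m : ℝ} (hH : 1 ≤ H) {f : E3 → ℝ} (hf : Den K0 M m f) {x : E3} (hx : x ∉ K0)
    (hx' : Q x < 106 / 100) :
    ∫ y, f y • slot_kG H (y, x) = -tr (slot_Φ H) x (fld f (slot_Φ H x)) ∧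
      ∫ y, f y • slot_kJ H (y, x) = -ad (slot_Φ H) x (fld f (slot_Φ H x)) := by
  have e : ∀ y, slot_Ψ H y =ᶠ[𝓝 x] fun z => slot_Φ H z - y := fun y =>
    (slot_ev_lt hx').mono fun z hz => by
      simp only [slot_Ψ, slot_χ_lo hz.le, one_smul, slot_Φ]
  have ej : ∀ y, jac (slot_Ψ H y) x = jac (slot_Φ H) x := fun y => by
    rw [jac_congr (e y), jac_sub_const]
  have hne : ∀ y ∈ K0, slot_Φ H x - y ≠ 0 := fun y hy => by
    rw [← (e y).eq_of_nhds]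
    exact slot_Ψ_ne hH hy hx
  have hi : Integrable (fun y => f y • Bf (slot_Φ H x - y)) volume :=
    ker_integrable slot_cpt (hf.1.l1 slot_cpt) fun y hy =>
      ((slot_Bf_ca (hne y hy)).comp (f := fun y => slot_Φ H x - y) (by fun_prop)).continuousWithinAt
  constructor
  · rw [tr, fld, ← slot_int_mat _ hi, ← integral_neg]
    simp only [← smul_neg]
    refine slot_int_congr hf.1 fun y hy => ?_
    have h0 := slot_Ψ_ne hH hy hx
    have h1 : DifferentiableAt ℝ (fun z : E3 => ‖z‖⁻¹) (slot_Ψ H y x) :=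
      (slot_cd_inv contDiffAt_id h0).differentiableAt one_ne_zero
    have h2 := grad_comp_map (((slot_Ψ_cd' H 1 y).differentiable one_ne_zero) x) h1
    rw [grad_inv_norm h0, ← neg_one_smul ℝ (Bf _), tr_smul, neg_one_smul, tr, ej,
      (e y).eq_of_nhds] at h2
    exact h2
  · rw [ad, fld, ← slot_int_mat _ hi, ← integral_neg]
    simp only [← smul_neg]
    refine slot_int_congr hf.1 fun y hy => ?_
    simp only [slot_kJ, pb, ad, ej, (e y).eq_of_nhds]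

theorem slot_det {H : ℝ} (hH : 1 ≤ H) (x : E3) : 0 < (jac (slot_Φ H) x).det := by
  have hk : Differentiable ℝ (slot_k H) := (slot_k_cd H 1).differentiable one_ne_zero
  have hQ : Differentiable ℝ Q := (contDiff_Q 1).differentiable one_ne_zero
  have h := det_radial (l := fun y => slot_k H (Q y)) (x := x) 0 ((hk _).comp x (hQ x))
  simp only [sub_zero] at h
  rw [grad_comp (hk (Q x)).hasDerivAt (hQ x), real_inner_smul_left, inner_grad_Q] at h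
  have h1 := slot_k_ge hH (Q x)
  have h2 : 0 ≤ deriv (slot_k H) (Q x) := (slot_k_mono hH).deriv_nonneg
  have h3 := Q_nonneg x
  have h4 : (jac (slot_Φ H) x).det = _ := h
  rw [h4]
  positivity

theorem slot_pb_smul {H : ℝ} (hH : 0 < H) (z : E3) : pb (fun w => H • w) Bf z = Bf z := by
  simpa using pb_radial (l := fun _ => H) (x := z) 0 (differentiableAt_const _) hH

/-- the outer part -/
theorem slot_outer {H : ℝ} (hH : 1 ≤ H) {y x : E3} (hy : y ∈ K0) (hx : 1056 / 1000 < Q x) :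
    H • slot_kG H (y, x) = ∇ (fun z => ‖slot_Θ H⁻¹ y z‖⁻¹) x ∧
      slot_kJ H (y, x) = -pb (slot_Θ H⁻¹ y) Bf x := by
  have h0 : 0 < H := by linarith
  have e : slot_Ψ H y =ᶠ[𝓝 x] fun z => H • slot_Θ H⁻¹ y z :=
    (slot_ev_gt hx).mono fun z hz => by
      simp only [slot_Ψ, slot_Θ, slot_k_hi H hz.le, smul_sub, smul_smul, ← mul_assoc,
        mul_inv_cancel₀ h0.ne', one_mul]
  have hne : slot_Θ H⁻¹ y x ≠ 0 := fun h =>
    slot_Ψ_ne hH hy (x := x) (slot_notMem.2 (by linarith)) (by rw [e.eq_of_nhds, h, smul_zero])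
  have hd : DifferentiableAt ℝ (slot_Θ H⁻¹ y) x := (slot_Θ_cd' 1 _ y).differentiable one_ne_zero x
  constructor
  · have e2 : (fun z => slot_kv H (y, z)) =ᶠ[𝓝 x] fun z => H⁻¹ * ‖slot_Θ H⁻¹ y z‖⁻¹ :=
      e.mono fun z hz => by
        simp only [slot_kv, hz, norm_smul, Real.norm_eq_abs, abs_of_pos h0, mul_inv]
    rw [slot_kG, e2.gradient_eq, grad_const_mul _
      ((slot_cd_inv (slot_Θ_cd' 1 _ y).contDiffAt hne).differentiableAt one_ne_zero), smul_smul,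
      mul_inv_cancel₀ h0.ne', one_smul]
  · rw [slot_kJ, slot_pb_congr e, pb_comp (F := fun w => H • w) hd (by fun_prop)]
    simp only [pb]
    rw [show ad (fun w => H • w) (slot_Θ H⁻¹ y x) (Bf (H • slot_Θ H⁻¹ y x)) = _ from
      slot_pb_smul h0 _]

/-- choice of `H` -/
theorem slot_H {τ : ℝ} (hτ : 0 < τ) : ∃ H : ℝ, 1 ≤ H ∧ ∀ y ∈ K0, ∀ x, 1058 / 1000 ≤ Q x →
    Q x ≤ 108 / 100 → ‖H • slot_kG H (y, x) + Bf x‖ ≤ τ ∧ ‖slot_kJ H (y, x) + Bf x‖ ≤ τ := by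
  have hA : IsCompact {x | 1058 / 1000 ≤ Q x ∧ Q x ≤ 108 / 100} :=
    (isCompact_Q_le (108 / 100)).inter_left (isClosed_le continuous_const (contDiff_Q 0).continuous)
  have h := (slot_cpt.prod hA).eventually_forall_of_forall_eventually (x₀ := (0 : ℝ))
    (P := fun ε q => ‖∇ (fun z => ‖slot_Θ ε q.1 z‖⁻¹) q.2 + Bf q.2‖ < τ ∧
      ‖-pb (slot_Θ ε q.1) Bf q.2 + Bf q.2‖ < τ) (by
    rintro ⟨y, x⟩ ⟨-, hx, -⟩
    have hx0 : x ≠ 0 := by
      rintro rfl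
      have h1 := Q_le_norm_sq (0 : E3)
      simp only [norm_zero] at h1
      have h2 : 1058 / 1000 ≤ Q 0 := hx
      linarith
    have e : slot_Θ 0 y = fun z => z := funext fun z => by simp [slot_Θ]
    have hne : slot_Θ 0 y x ≠ 0 := by rwa [e]
    have hc : ContinuousAt (fun z : ℝ × E3 × E3 => ((z.1, z.2.1), z.2.2)) (0, y, x) := by fun_prop
    have hB : ContinuousAt (fun z : ℝ × E3 × E3 => Bf z.2.2) (0, y, x) :=
      ContinuousAt.comp (f := fun z : ℝ × E3 × E3 => z.2.2) (x := (0, y, x)) (slot_Bf_ca hx0)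
        (by fun_prop)
    have h1 := ((ContinuousAt.comp (f := fun z : ℝ × E3 × E3 => ((z.1, z.2.1), z.2.2))
      (continuousAt_grad_param (k := fun q : (ℝ × E3) × E3 => ‖slot_Θ q.1.1 q.1.2 q.2‖⁻¹)
        (p := ((0, y), x)) (slot_cd_inv (slot_Θ_cd 1).contDiffAt hne)) hc).add hB).norm
    have h2 := ((ContinuousAt.comp (f := fun z : ℝ × E3 × E3 => ((z.1, z.2.1), z.2.2))
      (continuousAt_pb_param (k := fun q : (ℝ × E3) × E3 => slot_Θ q.1.1 q.1.2 q.2)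
        (p := ((0, y), x)) (slot_Θ_cd 1).contDiffAt (slot_Bf_ca hne)) hc).neg.add hB).norm
    refine (h1.eventually (gt_mem_nhds ?_)).and (h2.eventually (gt_mem_nhds ?_))
    · change ‖∇ (fun z => ‖slot_Θ 0 y z‖⁻¹) x + Bf x‖ < τ
      rw [e, grad_inv_norm hx0, neg_add_cancel, norm_zero]
      exact hτ
    · change ‖-pb (slot_Θ 0 y) Bf x + Bf x‖ < τ
      have h3 := slot_pb_smul one_pos x
      simp only [one_smul] at h3
      rw [e, h3, neg_add_cancel, norm_zero]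
      exact hτ)
  obtain ⟨H, h1, h2⟩ := ((tendsto_inv_atTop_zero.eventually h).and (eventually_ge_atTop 1)).exists
  refine ⟨H, h2, fun y hy x hx hx' => ?_⟩
  obtain ⟨e1, e2⟩ := slot_outer h2 hy (x := x) (by linarith)
  rw [e1, e2]
  exact ⟨(h1 (y, x) ⟨hy, hx, hx'⟩).1.le, (h1 (y, x) ⟨hy, hx, hx'⟩).2.le⟩

theorem slot_close {M m τ : ℝ} {f : E3 → ℝ} (hf : Den K0 M m f) {k : E3 → E3}
    (hk : ContinuousOn k K0) {b : E3} (hτ : 0 ≤ τ) (h : ∀ y ∈ K0, ‖k y + b‖ ≤ τ) :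
    ‖(∫ y, f y • k y) + m • b‖ ≤ M * volume.real K0 * τ := by
  have h1 := hf.1.l1 slot_cpt
  have h2 := ker_norm_le h1 hτ h
  simp only [smul_add] at h2
  rwa [integral_add (ker_integrable slot_cpt h1 hk) (ker_integrable slot_cpt h1 continuousOn_const),
    integral_smul_const, hf.2] at h2

theorem slot_alg {E J b : E3} (hE : ‖E + b‖ ≤ ‖b‖ / 4) (hJ : ‖J + b‖ ≤ ‖b‖ / 4) :
    cone (1 / 8) E J ∧ 7 / 16 * ‖b‖ ^ 2 ≤ ⟪E, J⟫ := by
  have h0 := norm_nonneg b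
  have h1 : ‖E‖ ≤ 5 / 4 * ‖b‖ := by
    have := norm_sub_le (E + b) b
    rw [add_sub_cancel_right] at this
    linarith
  have h2 : ‖J‖ ≤ 5 / 4 * ‖b‖ := by
    have := norm_sub_le (J + b) b
    rw [add_sub_cancel_right] at this
    linarith
  have h3 : ⟪E, J⟫ = ⟪E + b, J + b⟫ - ⟪E + b, b⟫ - ⟪b, J + b⟫ + ‖b‖ ^ 2 := by
    simp only [inner_add_left, inner_add_right, real_inner_self_eq_norm_sq]
    ring
  have h4 := (abs_le.1 (abs_real_inner_le_norm (E + b) (J + b))).1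
  have h5 := real_inner_le_norm (E + b) b
  have h6 := real_inner_le_norm b (J + b)
  have h7 := mul_le_mul hE hJ (norm_nonneg _) (by positivity)
  have h8 := mul_le_mul_of_nonneg_right hE h0
  have h9 := mul_le_mul_of_nonneg_left hJ h0
  have h10 : 7 / 16 * ‖b‖ ^ 2 ≤ ⟪E, J⟫ := by nlinarith
  refine ⟨?_, h10⟩
  have h11 := pow_le_pow_left₀ (norm_nonneg _) h1 2
  have h12 := pow_le_pow_left₀ (norm_nonneg _) h2 2
  unfold cone
  nlinarith

theorem slot_Bf_ge {x : E3} (h : 1 ≤ Q x) (h' : Q x ≤ 108 / 100) : 1 / 3 ≤ ‖Bf x‖ := by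
  have h1 := norm_sq_le_Q x
  have h2 := Q_le_norm_sq x
  rw [norm_Bf, one_div]
  exact inv_anti₀ (by linarith) (by linarith)

theorem slot_eqc {M m : ℝ} {k : E3 × E3 → E3} (hk : ∀ y ∈ K0, ∀ x ∈ K0ᶜ, ContinuousAt k (y, x))
    {w : (E3 → ℝ) → E3 → E3} (hw : ∀ f, Den K0 M m f → ∀ x ∈ K0ᶜ, w f x = ∫ y, f y • k (y, x)) :
    Eqc K0ᶜ fun f : {f // Den K0 M m f} => w f.1 := by
  intro x hx ε hε
  obtain ⟨δ, hδ, h⟩ := ker_eqc slot_open slot_cpt hk (M * volume.real K0) x hx ε hε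
  obtain ⟨δ', hδ', h'⟩ := Metric.isOpen_iff.1 slot_open x hx
  refine ⟨min δ δ', lt_min hδ hδ', fun f x' hx' => ?_⟩
  have h1 := h ⟨f.1, f.2.1.l1 slot_cpt⟩ x' (hx'.trans_le (min_le_left _ _))
  simp only at h1 ⊢
  rwa [hw f.1 f.2 x hx, hw f.1 f.2 x' (h' (hx'.trans_le (min_le_right _ _)))]

noncomputable def slot_v (H : ℝ) (f : E3 → ℝ) (x : E3) : ℝ := ∫ y, f y * slot_kv H (y, x)

noncomputable def slot_G (H : ℝ) (f : E3 → ℝ) (x : E3) : E3 := ∫ y, f y • slot_kG H (y, x)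

noncomputable def slot_J (H : ℝ) (f : E3 → ℝ) (x : E3) : E3 := ∫ y, f y • slot_kJ H (y, x)

theorem slot_AK {x : E3} (hx : 105 / 100 ≤ Q x) : x ∈ K0ᶜ := slot_notMem.2 (by linarith)

theorem slot_grad {H M m : ℝ} (hH : 1 ≤ H) {f : E3 → ℝ} (hf : Den K0 M m f) {x : E3} (hx : x ∈ K0ᶜ) :
    ∇ (slot_v H f) x = slot_G H f x :=
  (ker_c1 slot_open slot_cpt (slot_kv_cd hH) (hf.1.l1 slot_cpt)).2 x hx

theorem slot_out {M m : ℝ} (hm : 0 < m) : ∃ H : ℝ, 1 ≤ H ∧ ∀ f, Den K0 M m f → ∀ x,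
    1058 / 1000 ≤ Q x → Q x ≤ 108 / 100 → cone (1 / 8 * H⁻¹) (slot_G H f x) (slot_J H f x) ∧
      7 / 16 * (m / 3) ^ 2 * H⁻¹ ≤ ⟪slot_G H f x, slot_J H f x⟫ := by
  have hτ : 0 < m / (12 * (|M * volume.real K0| + 1)) := by positivity
  obtain ⟨H, hH, hcl⟩ := slot_H hτ
  have h0 : 0 < H := by linarith
  refine ⟨H, hH, fun f hf x hx hx' => ?_⟩
  have hxK : x ∈ K0ᶜ := slot_AK (by linarith)
  have hb : m / 3 ≤ ‖m • Bf x‖ := by
    rw [norm_smul, Real.norm_eq_abs, abs_of_pos hm]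
    have := slot_Bf_ge (x := x) (by linarith) hx'
    nlinarith
  have hs : M * volume.real K0 * (m / (12 * (|M * volume.real K0| + 1))) ≤ ‖m • Bf x‖ / 4 := by
    refine le_trans ?_ (show m / 12 ≤ _ by linarith)
    rw [← mul_div_assoc, div_le_div_iff₀ (by positivity) (by norm_num)]
    have := le_abs_self (M * volume.real K0)
    nlinarith
  have h1 := slot_close hf (k := fun y => H • slot_kG H (y, x))
    ((slot_sec fun y hy => slot_kG_ca hH y hy x hxK).const_smul H) hτ.le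
    fun y hy => (hcl y hy x hx hx').1
  have h2 : ‖slot_J H f x + m • Bf x‖ ≤ _ :=
    slot_close hf (slot_sec fun y hy => slot_kJ_ca hH y hy x hxK) hτ.le
      fun y hy => (hcl y hy x hx hx').2
  have e : ∫ y, f y • H • slot_kG H (y, x) = H • slot_G H f x := by
    rw [slot_G, ← integral_smul]
    simp only [smul_comm H]
  rw [e] at h1
  obtain ⟨h3, h4⟩ := slot_alg (h1.trans hs) (h2.trans hs)
  have h5 := h3.smul (by norm_num) (inv_pos.2 h0) one_pos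
  rw [smul_smul, inv_mul_cancel₀ h0.ne', one_smul, one_smul, div_one, one_div H⁻¹, inv_inv,
    min_eq_left ((inv_le_one_of_one_le₀ hH).trans hH)] at h5
  refine ⟨h5, ?_⟩
  rw [real_inner_smul_left] at h4
  rw [← div_eq_mul_inv, div_le_iff₀ h0]
  have h6 := pow_le_pow_left₀ (by positivity) hb 2
  linarith

theorem slot_A : IsCompact {x | 105 / 100 ≤ Q x ∧ Q x ≤ 108 / 100} :=
  (isCompact_Q_le (108 / 100)).inter_left (isClosed_le continuous_const (contDiff_Q 0).continuous)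

theorem slot_in {H : ℝ} (hH : 1 ≤ H) (M m : ℝ) : ∃ κ : ℝ, 0 < κ ∧ ∀ f, Den K0 M m f → ∀ x,
    105 / 100 ≤ Q x → Q x ≤ 1058 / 1000 → cone κ (slot_G H f x) (slot_J H f x) ∧
      κ * ‖fld f (slot_Φ H x)‖ ^ 2 ≤ ⟪slot_G H f x, slot_J H f x⟫ := by
  obtain ⟨κ₁, hκ₁, hc₁⟩ := cone_pb slot_A (fun x _ => (slot_Φ_cd H 1).contDiffAt)
    fun x _ => slot_det hH x
  refine ⟨κ₁, hκ₁, fun f hf x hx hx' => ?_⟩
  obtain ⟨e1, e2⟩ := slot_inner hH hf (slot_AK hx) (by linarith)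
  obtain ⟨h1, h2⟩ := hc₁ x ⟨hx, by linarith⟩ (fld f (slot_Φ H x))
  rw [slot_G, slot_J, e1, e2, inner_neg_neg]
  exact ⟨h1.neg, h2⟩

theorem slot_lo {H M m : ℝ} {f : E3 → ℝ} (hf : Den K0 M m f) {x : E3} (hx : Q x ≤ 105 / 100) :
    slot_v H f x = pot f x ∧ slot_J H f x = -fld f x := by
  have e : ∀ y, slot_Ψ H y =ᶠ[𝓝 x] fun z => z - y := fun y =>
    (slot_ev_lt (r := 1052 / 1000) (by linarith)).mono fun z hz => by
      rw [slot_Ψ, slot_χ_lo (by linarith), slot_k_lo H hz.le, one_smul, one_smul]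
  refine ⟨by simp only [slot_v, slot_kv, pot, (e _).eq_of_nhds], ?_⟩
  rw [slot_J, fld, ← integral_neg]
  simp only [← smul_neg]
  refine slot_int_congr hf.1 fun y _ => ?_
  have h2 := pb_radial (l := fun _ => 1) (x := x) y (differentiableAt_const _) one_pos
  simp only [one_smul] at h2
  rw [slot_kJ, slot_pb_congr (e y), h2]

theorem slot_hi {H M m : ℝ} (h0 : 0 < H) {f : E3 → ℝ} (hf : Den K0 M m f) {x : E3}
    (hx : 107 / 100 ≤ Q x) : slot_v H f x = m / H * ‖x‖⁻¹ ∧ slot_J H f x = -(m • Bf x) := by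
  have e : ∀ y, slot_Ψ H y =ᶠ[𝓝 x] fun z => H • z := fun y =>
    (slot_ev_gt (r := 1065 / 1000) (by linarith)).mono fun z hz => by
      rw [slot_Ψ, slot_χ_hi hz.le, slot_k_hi H (by linarith), zero_smul, sub_zero]
  constructor
  · simp only [slot_v, slot_kv, (e _).eq_of_nhds, integral_mul_const, hf.2, norm_smul,
      Real.norm_eq_abs, abs_of_pos h0, mul_inv, div_eq_mul_inv, mul_assoc]
  · simp only [slot_J, slot_kJ, slot_pb_congr (e _), slot_pb_smul h0, integral_smul_const, hf.2,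
      smul_neg, integral_neg]

theorem slot_bd {H : ℝ} (hH : 1 ≤ H) (M m : ℝ) : ∃ N : ℝ, ∀ f, Den K0 M m f → ∀ x,
    105 / 100 ≤ Q x → Q x ≤ 108 / 100 → ‖slot_G H f x‖ ≤ N ∧ ‖slot_J H f x‖ ≤ N := by
  obtain ⟨N₁, hN₁⟩ := ker_bound slot_A slot_cpt
    (fun y hy x hx => slot_kG_ca hH y hy x (slot_AK hx.1)) (M * volume.real K0)
  obtain ⟨N₂, hN₂⟩ := ker_bound slot_A slot_cpt
    (fun y hy x hx => slot_kJ_ca hH y hy x (slot_AK hx.1)) (M * volume.real K0)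
  exact ⟨max N₁ N₂, fun f hf x hx hx' =>
    ⟨(hN₁ f (hf.1.l1 slot_cpt) x ⟨hx, hx'⟩).trans (le_max_left _ _),
      (hN₂ f (hf.1.l1 slot_cpt) x ⟨hx, hx'⟩).trans (le_max_right _ _)⟩⟩

theorem slot_reg {H M m : ℝ} (hH : 1 ≤ H) {f : E3 → ℝ} (hf : Den K0 M m f) :
    ContDiffOn ℝ 1 (slot_v H f) K0ᶜ ∧ ContinuousOn (slot_J H f) K0ᶜ ∧ WD K0ᶜ (slot_J H f) 0 :=
  ⟨(ker_c1 slot_open slot_cpt (slot_kv_cd hH) (hf.1.l1 slot_cpt)).1,
    ker_continuousOn slot_open slot_cpt (slot_kJ_ca hH) (hf.1.l1 slot_cpt),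
    ker_wd slot_open slot_cpt (slot_kJ_ca hH) (slot_kJ_wd hH) (hf.1.l1 slot_cpt)⟩

/-- `Ψ y x = k (Q x) • x - χ (Q x) • y` with `k` smooth, monotone, `k = 1` on `(-∞, 1.05]`, `k = H` on `[1.06, ∞)`,
`χ ∈ [0,1]` smooth, `χ = 1` on `(-∞, 1.06]`, `χ = 0` on `[1.07, ∞)`; `Ψ y x ≠ 0` for `y ∈ K0`, `x ∉ K0` (compare `Q`,
`Q_smul`).  `v f x = ∫ f y * ‖Ψ y x‖⁻¹`, `J f x = -∫ f y • pb (Ψ y) Bf x` (`ker_c1`, `ker_wd`, `wd_pb`, `ker_eqc`,
`ker_bound`, `Bd.l1`), `lam = m / H`.  On `Q ≤ 1.06` the Jacobian of `Ψ y` is that of `Φ x = k (Q x) • x`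
(at `Q = 1.06` too, `χ' = 0` there), so `∇(v f) = -tr Φ x b`, `J f = -ad Φ x b`, `b = fld f (Φ x)`: `cone_pb`, `det_radial`,
`nondeg`.  On `1.06 ≤ Q ≤ 1.08`, `Ψ y x = H • (x - ε χ y)`, `ε = 1 / H`; `H ∇‖Ψ y‖⁻¹` and `-pb (Ψ y) Bf` tend to `-Bf x`
as `ε → 0` uniformly on the compact set of `(y, x)` (`continuousAt_grad_param`, `continuousAt_pb_param`), so
`‖H ∇(v f) + m Bf x‖, ‖J f + m Bf x‖ ≤ m ‖Bf x‖ / 4` (`ker_norm_le`); `cone.smul`. -/
theorem slot {M m : ℝ} (hm : 0 < m) : ∃ (lam κ N : ℝ) (v : (E3 → ℝ) → E3 → ℝ) (J : (E3 → ℝ) → E3 → E3),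
    0 < lam ∧ 0 < κ ∧ (∀ f, Den K0 M m f → ContDiffOn ℝ 1 (v f) K0ᶜ ∧ ContinuousOn (J f) K0ᶜ ∧
      WD K0ᶜ (J f) 0 ∧ (∀ x, x ∉ K0 → Q x ≤ 105 / 100 → v f x = pot f x ∧ J f x = -fld f x) ∧
      (∀ x, 107 / 100 ≤ Q x → v f x = lam * ‖x‖⁻¹ ∧ J f x = -(m • Bf x)) ∧
      ∀ x, 105 / 100 ≤ Q x → Q x ≤ 108 / 100 →
        cone κ (∇ (v f) x) (J f x) ∧ ‖∇ (v f) x‖ ≤ N ∧ ‖J f x‖ ≤ N) ∧
    Eqc K0ᶜ (fun f : {f // Den K0 M m f} => ∇ (v f.1)) ∧ Eqc K0ᶜ (fun f : {f // Den K0 M m f} => J f.1) ∧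
    ∀ ε : ℝ≥0∞, 0 < ε → ∃ η : ℝ, 0 < η ∧ ∀ f, Den K0 M m f →
      volume {x | 105 / 100 ≤ Q x ∧ Q x ≤ 108 / 100 ∧ ⟪∇ (v f) x, J f x⟫ < η} ≤ ε := by
  obtain ⟨H, hH, hout⟩ := slot_out (M := M) hm
  obtain ⟨κ₁, hκ₁, hin⟩ := slot_in hH M m
  obtain ⟨N, hN⟩ := slot_bd hH M m
  have h0 : 0 < H := by linarith
  refine ⟨m / H, min κ₁ (1 / 8 * H⁻¹), N, slot_v H, slot_J H, by positivity, by positivity,
    fun f hf => ?_,
    slot_eqc (w := fun f => ∇ (slot_v H f)) (slot_kG_ca hH) fun _ hf _ hx => slot_grad hH hf hx,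
    slot_eqc (w := slot_J H) (slot_kJ_ca hH) fun _ _ _ _ => rfl, fun ε hε => ?_⟩
  · obtain ⟨r1, r2, r3⟩ := slot_reg hH hf
    refine ⟨r1, r2, r3, fun x _ hx => slot_lo hf hx, fun x hx => slot_hi h0 hf hx,
      fun x hx hx' => ?_⟩
    rw [slot_grad hH hf (slot_AK hx)]
    refine ⟨?_, hN f hf x hx hx'⟩
    rcases le_total (Q x) (1058 / 1000) with h2 | h2
    · exact (hin f hf x hx h2).1.mono (min_le_left _ _)
    · exact (hout f hf x h2 hx').1.mono (min_le_right _ _)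
  · obtain ⟨η, hη, h⟩ := nondeg (M := M) hm (slot_k_cd H 0).continuous (slot_k_mono hH)
      (slot_k_ge hH) hε
    refine ⟨min (κ₁ * η ^ 2) (7 / 16 * (m / 3) ^ 2 * H⁻¹), by positivity, fun f hf =>
      (measure_mono ?_).trans (h f hf)⟩
    rintro x ⟨hx, hx', h1⟩
    rw [slot_grad hH hf (slot_AK hx)] at h1
    refine ⟨hx, hx', ?_⟩
    rcases le_total (Q x) (1058 / 1000) with h2 | h2
    · have h3 := ((hin f hf x hx h2).2.trans_lt h1).trans_le (min_le_left _ _)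
      exact lt_of_pow_lt_pow_left₀ 2 hη.le (lt_of_mul_lt_mul_left h3 hκ₁.le)
    · exact absurd (((hout f hf x h2 hx').2.trans_lt h1).trans_le (min_le_right _ _)) (lt_irrefl _)

end Crest.Agent.R83
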