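import Crest.Agent.R83.PB
import Crest.Agent.R83.Geo

/-!
# R83 TASK StdA: the Green function of the round three-sphere, made exactly Newtonian near the poles
-/

set_option autoImplicit false

namespace Crest.Agent.R83

open MeasureTheory Set Filter Topology
open scoped Gradient RealInnerProductSpace ENNReal NNReal ContDiff

/-- maps that change only the first coordinate -/
noncomputable def stda_F (f : E3 → ℝ) (y : E3) : E3 := y + (f y - y 0) • e 0

@[simp] theorem stda_F0 (f : E3 → ℝ) (y : E3) : stda_F f y 0 = f y := by simp [stda_F]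

@[simp] theorem stda_F1 (f : E3 → ℝ) (y : E3) : stda_F f y 1 = y 1 := by simp [stda_F]

@[simp] theorem stda_F2 (f : E3 → ℝ) (y : E3) : stda_F f y 2 = y 2 := by simp [stda_F]

theorem stda_ext {x y : E3} (h0 : x 0 = y 0) (h1 : x 1 = y 1) (h2 : x 2 = y 2) : x = y := by
  ext i; fin_cases i <;> assumption

theorem stda_norm_sq (y : E3) : ‖y‖ ^ 2 = y 0 ^ 2 + y 1 ^ 2 + y 2 ^ 2 := by
  rw [EuclideanSpace.real_norm_sq_eq, Fin.sum_univ_three]

theorem stda_coord (i : Fin 3) (n : ℕ∞ω) : ContDiff ℝ n fun y : E3 => y i :=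
  (EuclideanSpace.proj i : E3 →L[ℝ] ℝ).contDiff

theorem stda_hasF {f : E3 → ℝ} {y : E3} (hf : DifferentiableAt ℝ f y) :
    HasFDerivAt (stda_F f) (ContinuousLinearMap.id ℝ E3 +
      (fderiv ℝ f y - (EuclideanSpace.proj 0 : E3 →L[ℝ] ℝ)).smulRight (e 0)) y :=
  (hasFDerivAt_id y).add ((hf.hasFDerivAt.sub
    (EuclideanSpace.proj 0 : E3 →L[ℝ] ℝ).hasFDerivAt).smul_const (e 0))

theorem stda_jac {f : E3 → ℝ} {y : E3} (hf : DifferentiableAt ℝ f y) :
    jac (stda_F f) y = !![fderiv ℝ f y (e 0), fderiv ℝ f y (e 1), fderiv ℝ f y (e 2); 0, 1, 0; 0, 0, 1] := by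
  unfold jac
  rw [(stda_hasF hf).fderiv]
  ext i j
  fin_cases i <;> fin_cases j <;> simp

theorem stda_det {f : E3 → ℝ} {y : E3} (hf : DifferentiableAt ℝ f y) :
    (jac (stda_F f) y).det = fderiv ℝ f y (e 0) := by
  rw [stda_jac hf, Matrix.det_fin_three]
  simp

theorem stda_pb {f : E3 → ℝ} {y : E3} (hf : DifferentiableAt ℝ f y) :
    pb (stda_F f) Bf y = (‖stda_F f y‖ ^ 3)⁻¹ •
      !₂[f y - fderiv ℝ f y (e 1) * y 1 - fderiv ℝ f y (e 2) * y 2, fderiv ℝ f y (e 0) * y 1,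
        fderiv ℝ f y (e 0) * y 2] := by
  unfold pb Bf
  rw [ad_smul]
  congr 1
  unfold ad
  rw [stda_jac hf, Matrix.adjugate_fin_three]
  refine stda_ext ?_ ?_ ?_ <;> simp [Matrix.mulVec, dotProduct, Fin.sum_univ_three] <;> ring

theorem stda_grad_congr {f g : E3 → ℝ} {y : E3} (h : f =ᶠ[𝓝 y] g) : ∇ f y = ∇ g y :=
  h.gradient_eq

theorem stda_pb_congr {F G : E3 → E3} {y : E3} (h : F =ᶠ[𝓝 y] G) (B : E3 → E3) :
    pb F B y = pb G B y := by
  unfold pb ad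
  rw [jac_congr h, h.eq_of_nhds]

theorem stda_grad_shift (f : E3 → ℝ) (c y : E3) : ∇ (fun z => f (z - c)) y = ∇ f (y - c) := by
  unfold gradient
  rw [fderiv_comp_sub]

theorem stda_pb_shift (F B : E3 → E3) (c y : E3) : pb (fun z => F (z - c)) B y = pb F B (y - c) := by
  unfold pb ad jac
  rw [fderiv_comp_sub]

/-- `W a y = ((‖y‖² - a²) / (2 a), y₁, y₂)`, `v = y₀ / (a ‖W‖)`.  `4 a² ‖W‖² = (‖y‖² + a²)² - 4 a² y₀²`, and both `∇v`
and `-pb W Bf` are positive multiples of `(‖y‖² + a²) e₀ - 2 y₀ y`, whose norm is `2 a ‖W‖`. -/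
theorem green_pos {a : ℝ} (ha : 0 < a) {W : E3 → E3}
    (hW : W = fun y => !₂[(‖y‖ ^ 2 - a ^ 2) / (2 * a), y 1, y 2]) {y : E3} (hy : W y ≠ 0) :
    0 < ⟪∇ (fun z => z 0 / (a * ‖W z‖)) y, -pb W Bf y⟫ := by
  have hw : ContDiff ℝ 1 fun y : E3 => (‖y‖ ^ 2 - a ^ 2) / (2 * a) :=
    ((contDiff_norm_sq ℝ).sub contDiff_const).div_const _
  have hwd := hw.differentiable one_ne_zero y
  have hWF : W = stda_F fun y : E3 => (‖y‖ ^ 2 - a ^ 2) / (2 * a) := by
    rw [hW]; funext y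
    refine stda_ext ?_ ?_ ?_ <;> simp
  have hd : ∀ i, fderiv ℝ (fun y : E3 => (‖y‖ ^ 2 - a ^ 2) / (2 * a)) y (e i) = y i / a := by
    intro i
    have h1 := (((hasStrictFDerivAt_norm_sq y).hasFDerivAt.sub_const (a ^ 2)).mul_const
      (2 * a)⁻¹).fderiv
    simp only [div_eq_mul_inv]
    rw [h1]
    simp [EuclideanSpace.inner_single_right]
    field_simp
  have hWd : DifferentiableAt ℝ W y := by rw [hWF]; exact (stda_hasF hwd).differentiableAt
  have hn : 0 < ‖W y‖ := norm_pos_iff.2 hy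
  have hinv : DifferentiableAt ℝ (fun z : E3 => ‖z‖⁻¹) (W y) :=
    (differentiableAt_id.norm ℝ hy).inv hn.ne'
  have h0 : DifferentiableAt ℝ (fun z : E3 => a⁻¹ * z 0) y :=
    ((stda_coord 0 1).differentiable one_ne_zero y).const_mul _
  have e1 : (fun z : E3 => z 0 / (a * ‖W z‖)) = fun z => (a⁻¹ * z 0) * ‖W z‖⁻¹ := by
    funext z; rw [div_eq_mul_inv, mul_inv]; ring
  have e2 : ∇ (fun z => ‖W z‖⁻¹) y = -tr W y (Bf (W y)) := by
    rw [grad_comp_map (v := fun z : E3 => ‖z‖⁻¹) hWd hinv, grad_inv_norm hy, ← neg_one_smul ℝ (Bf _),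
      tr_smul, neg_one_smul]
  have e3 : ⟪tr W y (Bf (W y)), pb W Bf y⟫ = y 0 / a * ((‖W y‖ ^ 2)⁻¹) ^ 2 := by
    unfold pb
    rw [inner_tr_ad, real_inner_self_eq_norm_sq, norm_Bf]
    congr 1
    rw [hWF, stda_det hwd, hd]
  have e4 : ⟪e 0, pb W Bf y⟫ =
      (‖W y‖ ^ 3)⁻¹ * ((‖y‖ ^ 2 - a ^ 2) / (2 * a) - y 1 / a * y 1 - y 2 / a * y 2) := by
    have := stda_pb hwd
    rw [← hWF, hd, hd, hd] at this
    rw [this, EuclideanSpace.inner_single_left]
    simp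
  have hc : DifferentiableAt ℝ (fun z => ‖W z‖⁻¹) y := hinv.comp y hWd
  rw [e1, grad_mul h0 hc, e2,
    grad_const_mul _ ((stda_coord 0 1).differentiable one_ne_zero y), grad_coord, inner_add_left,
    inner_smul_left, inner_smul_left, inner_smul_left, inner_neg_neg, inner_neg_right, e3, e4]
  have e5 : a⁻¹ * y 0 * (y 0 / a * ((‖W y‖ ^ 2)⁻¹) ^ 2) + ‖W y‖⁻¹ * (a⁻¹ *
      -((‖W y‖ ^ 3)⁻¹ * ((‖y‖ ^ 2 - a ^ 2) / (2 * a) - y 1 / a * y 1 - y 2 / a * y 2))) =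
      (‖y‖ ^ 2 + a ^ 2) / (2 * a ^ 2 * ‖W y‖ ^ 4) := by
    rw [stda_norm_sq y]
    field_simp
    ring
  simp only [conj_trivial]
  rw [e5]
  positivity

/-- local models near a pole of sign `s` -/
noncomputable def stda_lf (χ : E3 → ℝ) (s ε : ℝ) (u : E3) : ℝ := s * u 0 + ε / 2 * (1 - χ u) * ‖u‖ ^ 2

noncomputable def stda_lv (χ : E3 → ℝ) (s ε : ℝ) (u : E3) : ℝ :=
  (s + ε * (1 - χ u) * u 0) / ‖stda_F (stda_lf χ s ε) u‖ + s * ε * χ u

theorem stda_sg_sq (i : Bool) : sg i * sg i = 1 := by cases i <;> simp [sg]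

theorem stda_norm_lin {s : ℝ} (hs : s * s = 1) (u : E3) : ‖stda_F (fun z => s * z 0) u‖ = ‖u‖ := by
  refine (sq_eq_sq₀ (norm_nonneg _) (norm_nonneg _)).1 ?_
  rw [stda_norm_sq, stda_norm_sq, stda_F0, stda_F1, stda_F2]
  linear_combination u 0 ^ 2 * hs

theorem stda_pb_lin {s : ℝ} (hs : s * s = 1) (u : E3) :
    pb (stda_F fun z => s * z 0) Bf u = s • Bf u := by
  have h0 : HasFDerivAt (fun z : E3 => s * z 0) (s • (EuclideanSpace.proj 0 : E3 →L[ℝ] ℝ)) u :=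
    (EuclideanSpace.proj 0 : E3 →L[ℝ] ℝ).hasFDerivAt.const_mul s
  rw [stda_pb h0.differentiableAt, h0.fderiv, stda_norm_lin hs, Bf, smul_comm]
  congr 1
  refine stda_ext ?_ ?_ ?_ <;> simp

theorem stda_pos_lin {s : ℝ} (hs : s * s = 1) (α : ℝ) {u : E3} (hu : u ≠ 0) :
    0 < ⟪∇ (fun z : E3 => s * (α + ‖z‖⁻¹)) u, -(s • Bf u)⟫ := by
  have hn : 0 < ‖u‖ := norm_pos_iff.2 hu
  have hinv : DifferentiableAt ℝ (fun z : E3 => ‖z‖⁻¹) u := (differentiableAt_id.norm ℝ hu).inv hn.ne'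
  rw [grad_const_mul _ (hinv.const_add α), grad_const_add, grad_inv_norm hu, inner_smul_left,
    inner_neg_neg, inner_smul_right, real_inner_self_eq_norm_sq, norm_Bf, conj_trivial, ← mul_assoc, hs]
  positivity

theorem stda_shell {χ : E3 → ℝ} (hχ : ContDiff ℝ 1 χ) {s : ℝ} (hs : s * s = 1) :
    ∀ᶠ ε in 𝓝 (0 : ℝ), ∀ u ∈ Metric.closedBall (0 : E3) 3 \ Metric.ball 0 (1 / 2),
      0 < ⟪∇ (stda_lv χ s ε) u, -pb (stda_F (stda_lf χ s ε)) Bf u⟫ := by
  refine ((isCompact_closedBall (0 : E3) 3).diff Metric.isOpen_ball).eventually_forall_of_forall_eventually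
    fun u hu => ?_
  have hu0 : u ≠ 0 := by
    rintro rfl
    exact hu.2 (Metric.mem_ball_self (by norm_num))
  have c0 : ContDiff ℝ 1 fun q : ℝ × E3 => q.2 0 := (stda_coord 0 1).comp contDiff_snd
  have cχ : ContDiff ℝ 1 fun q : ℝ × E3 => χ q.2 := hχ.comp contDiff_snd
  have cn : ContDiff ℝ 1 fun q : ℝ × E3 => ‖q.2‖ ^ 2 := (contDiff_norm_sq ℝ).comp contDiff_snd
  have cf : ContDiff ℝ 1 fun q : ℝ × E3 => stda_lf χ s q.1 q.2 :=
    (contDiff_const.mul c0).add (((contDiff_fst.div_const 2).mul (contDiff_const.sub cχ)).mul cn)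
  have cF : ContDiff ℝ 1 fun q : ℝ × E3 => stda_F (stda_lf χ s q.1) q.2 :=
    contDiff_snd.add ((cf.sub c0).smul contDiff_const)
  have e0 : stda_lf χ s 0 = fun z => s * z 0 := by funext z; simp [stda_lf]
  have hF0 : stda_F (stda_lf χ s 0) u ≠ 0 := by
    rw [e0, ← norm_ne_zero_iff, stda_norm_lin hs]; exact norm_ne_zero_iff.2 hu0
  have cv : ContDiffAt ℝ 1 (fun q : ℝ × E3 => stda_lv χ s q.1 q.2) (0, u) :=
    ((contDiff_const.add ((contDiff_fst.mul (contDiff_const.sub cχ)).mul c0)).contDiffAt.div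
      (cF.contDiffAt.norm ℝ hF0) (norm_ne_zero_iff.2 hF0)).add
      ((contDiff_const.mul contDiff_fst).mul cχ).contDiffAt
  have hB : ContinuousAt Bf (stda_F (stda_lf χ s 0) u) :=
    (contDiffOn_Bf 0).continuousOn.continuousAt (isOpen_ne.mem_nhds hF0)
  have h1 := continuousAt_grad_param cv
  have h2 := continuousAt_pb_param (B := Bf) (p := ((0 : ℝ), u)) cF.contDiffAt hB
  have h3 := ContinuousAt.inner (𝕜 := ℝ) h1 h2.neg
  refine h3.eventually (lt_mem_nhds ?_)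
  have e1 : stda_lv χ s 0 = fun z => s * (0 + ‖z‖⁻¹) := by
    funext z
    rw [stda_lv, e0, stda_norm_lin hs]
    simp [div_eq_mul_inv]
  have := stda_pos_lin hs 0 hu0
  rw [← e1, ← stda_pb_lin hs, ← e0] at this
  exact this

/-- the global objects -/
noncomputable def stda_c (a : ℝ) (i : Bool) : E3 := (sg i * a) • e 0

noncomputable def stda_f (χ : E3 → ℝ) (a : ℝ) (y : E3) : ℝ := (‖y‖ ^ 2 - a ^ 2) / (2 * a) -
  a⁻¹ / 2 * (χ (y - stda_c a false) * ‖y - stda_c a false‖ ^ 2 +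
    χ (y - stda_c a true) * ‖y - stda_c a true‖ ^ 2)

noncomputable def stda_v (χ : E3 → ℝ) (a : ℝ) (y : E3) : ℝ :=
  (y 0 / a - a⁻¹ * (χ (y - stda_c a false) * (y - stda_c a false) 0 +
    χ (y - stda_c a true) * (y - stda_c a true) 0)) / ‖stda_F (stda_f χ a) y‖ +
  a⁻¹ * (χ (y - stda_c a false) - χ (y - stda_c a true))

theorem stda_c0 (a : ℝ) (i : Bool) (y : E3) : (y - stda_c a i) 0 = y 0 - sg i * a := by simp [stda_c]

theorem stda_c1 (a : ℝ) (i : Bool) (y : E3) : (y - stda_c a i) 1 = y 1 := by simp [stda_c]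

theorem stda_c2 (a : ℝ) (i : Bool) (y : E3) : (y - stda_c a i) 2 = y 2 := by simp [stda_c]

theorem stda_abs0 (u : E3) : |u 0| ≤ ‖u‖ := by
  simpa using PiLp.norm_apply_le u 0

theorem stda_norm_c {a : ℝ} (ha : 0 ≤ a) (i : Bool) : ‖stda_c a i‖ = a := by
  cases i <;> simp [stda_c, sg, norm_smul, abs_of_nonneg ha]

theorem stda_loc {χ : E3 → ℝ} (hχ : ∀ u, 2 ≤ ‖u‖ → χ u = 0) {a : ℝ} (ha : 4 < a) (i : Bool) {y : E3}
    (hy : ‖y - stda_c a i‖ < 4) :
    stda_F (stda_f χ a) y = stda_F (stda_lf χ (sg i) a⁻¹) (y - stda_c a i) ∧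
      stda_v χ a y = stda_lv χ (sg i) a⁻¹ (y - stda_c a i) := by
  have ha0 : a ≠ 0 := by linarith
  have h1 := abs_le.1 (stda_abs0 (y - stda_c a i))
  have h2 := stda_abs0 (y - stda_c a (!i))
  rw [stda_c0] at h1 h2
  have h3 : χ (y - stda_c a (!i)) = 0 := by
    refine hχ _ (le_trans ?_ h2)
    cases i
    · simp only [sg, Bool.false_eq_true, if_false, Bool.not_false, if_true] at h1 ⊢
      exact le_abs.2 (Or.inl (by linarith))
    · simp only [sg, Bool.false_eq_true, if_false, Bool.not_true, if_true] at h1 ⊢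
      exact le_abs.2 (Or.inr (by linarith))
  have hF : stda_F (stda_f χ a) y = stda_F (stda_lf χ (sg i) a⁻¹) (y - stda_c a i) := by
    refine stda_ext ?_ (by rw [stda_F1, stda_F1, stda_c1]) (by rw [stda_F2, stda_F2, stda_c2])
    rw [stda_F0, stda_F0, stda_f, stda_lf]
    have e1 := stda_norm_sq (y - stda_c a i)
    rw [stda_c0, stda_c1, stda_c2] at e1
    cases i
    · rw [Bool.not_false] at h3
      rw [h3, e1, stda_c0, stda_norm_sq y]
      simp only [sg, Bool.false_eq_true, if_false]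
      field_simp
      ring
    · rw [Bool.not_true] at h3
      rw [h3, e1, stda_c0, stda_norm_sq y]
      simp only [sg, if_true]
      field_simp
      ring
  refine ⟨hF, ?_⟩
  rw [stda_v, stda_lv, hF]
  cases i
  · rw [Bool.not_false] at h3
    rw [h3, stda_c0]
    simp only [sg, Bool.false_eq_true, if_false]
    congr 1
    · congr 1
      field_simp
      ring
    · ring
  · rw [Bool.not_true] at h3
    rw [h3, stda_c0 a true]
    simp only [sg, if_true]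
    congr 1
    · congr 1
      field_simp
      ring
    · ring

theorem stda_far {χ : E3 → ℝ} (hχ : ∀ u, 2 ≤ ‖u‖ → χ u = 0) (a : ℝ) {y : E3}
    (hy : ∀ i, 2 ≤ ‖y - stda_c a i‖) :
    stda_F (stda_f χ a) y = !₂[(‖y‖ ^ 2 - a ^ 2) / (2 * a), y 1, y 2] ∧
      stda_v χ a y = y 0 / (a * ‖(!₂[(‖y‖ ^ 2 - a ^ 2) / (2 * a), y 1, y 2] : E3)‖) := by
  have hF : stda_F (stda_f χ a) y = !₂[(‖y‖ ^ 2 - a ^ 2) / (2 * a), y 1, y 2] := by
    refine stda_ext ?_ ?_ ?_ <;> simp [stda_f, hχ _ (hy false), hχ _ (hy true)]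
  refine ⟨hF, ?_⟩
  rw [stda_v, hF, hχ _ (hy false), hχ _ (hy true)]
  simp [div_div]

theorem stda_in {χ : E3 → ℝ} (hχ1 : ∀ u, ‖u‖ ≤ 1 → χ u = 1) {s : ℝ} (hs : s * s = 1) (ε : ℝ) {u : E3}
    (hu : ‖u‖ ≤ 1) : stda_F (stda_lf χ s ε) u = stda_F (fun z => s * z 0) u ∧
      stda_lv χ s ε u = s * (ε + ‖u‖⁻¹) := by
  have hF : stda_F (stda_lf χ s ε) u = stda_F (fun z => s * z 0) u := by
    refine stda_ext ?_ ?_ ?_ <;> simp [stda_lf, hχ1 u hu]
  refine ⟨hF, ?_⟩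
  rw [stda_lv, hF, stda_norm_lin hs, hχ1 u hu]
  simp only [sub_self, mul_zero, zero_mul, add_zero, div_eq_mul_inv]
  ring

theorem stda_zero {χ : E3 → ℝ} (hχ : ∀ u, 2 ≤ ‖u‖ → χ u = 0) (h0 : ∀ u, 0 ≤ χ u) (h1 : ∀ u, χ u ≤ 1)
    {a : ℝ} (ha : 4 < a) (y : E3) : stda_F (stda_f χ a) y = 0 ↔ ∃ i, y = stda_c a i := by
  have ha0 : 0 < a := by linarith
  constructor
  · intro h
    by_cases hy : ∀ i, 2 ≤ ‖y - stda_c a i‖
    · exfalso
      rw [(stda_far hχ a hy).1] at h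
      have e0 : (‖y‖ ^ 2 - a ^ 2) / (2 * a) = 0 := by simpa using congrArg (fun z : E3 => z 0) h
      have e1 : y 1 = 0 := by simpa using congrArg (fun z : E3 => z 1) h
      have e2 : y 2 = 0 := by simpa using congrArg (fun z : E3 => z 2) h
      rw [div_eq_zero_iff, stda_norm_sq, e1, e2] at e0
      have e3 : (y 0 - a) * (y 0 + a) = 0 := by
        rcases e0 with e0 | e0
        · linear_combination e0
        · linarith
      have key : ∀ i, y 0 - sg i * a ≠ 0 := fun i hi => by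
        have h2 := hy i
        have h3 := stda_norm_sq (y - stda_c a i)
        rw [stda_c0, stda_c1, stda_c2, hi, e1, e2] at h3
        nlinarith
      rcases mul_eq_zero.1 e3 with e | e
      · exact key false (by simpa [sg] using e)
      · exact key true (by simpa [sg] using e)
    · push Not at hy
      obtain ⟨i, hi⟩ := hy
      refine ⟨i, sub_eq_zero.1 ?_⟩
      rw [(stda_loc hχ ha i (by linarith)).1] at h
      set u := y - stda_c a i
      have e0 : stda_lf χ (sg i) a⁻¹ u = 0 := by simpa using congrArg (fun z : E3 => z 0) h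
      have e1 : u 1 = 0 := by simpa using congrArg (fun z : E3 => z 1) h
      have e2 : u 2 = 0 := by simpa using congrArg (fun z : E3 => z 2) h
      rw [stda_lf, stda_norm_sq, e1, e2] at e0
      have e3 : u 0 * (sg i + a⁻¹ / 2 * (1 - χ u) * u 0) = 0 := by linear_combination e0
      have h4 : a⁻¹ < 1 / 4 := by rw [one_div]; exact inv_strictAnti₀ (by norm_num) ha
      have h5 : 0 < a⁻¹ := inv_pos.2 ha0
      have h6 : |a⁻¹ / 2 * (1 - χ u) * u 0| < 1 := by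
        have h7 := stda_abs0 u
        have h8 := h0 u
        have h9 := h1 u
        rw [abs_mul, abs_of_nonneg (by positivity : 0 ≤ a⁻¹ / 2 * (1 - χ u))]
        have h10 : a⁻¹ / 2 * (1 - χ u) ≤ 1 / 8 := by nlinarith
        have h11 : 0 ≤ a⁻¹ / 2 * (1 - χ u) := mul_nonneg (by positivity) (by linarith)
        nlinarith [abs_nonneg (u 0)]
      have e4 : u 0 = 0 := by
        refine (mul_eq_zero.1 e3).resolve_right fun h => ?_
        have := abs_lt.1 h6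
        cases i
        · simp only [sg, Bool.false_eq_true, if_false] at h; linarith
        · simp only [sg, if_true] at h; linarith
      exact stda_ext (by simpa using e4) (by simpa using e1) (by simpa using e2)
  · rintro ⟨i, rfl⟩
    rw [(stda_loc hχ ha i (by simp)).1, sub_self]
    refine stda_ext ?_ ?_ ?_ <;> simp [stda_lf]

/-- Let `ε = 1 / a`, `χ` a smooth bump (`1` on the unit ball, `0` off the ball of radius `2`, even in `y₀`: take
a function of `‖u‖²`).  With `u = y - a e₀` one has `W = u + ε/2 ‖u‖² e₀`, `v = (1 + ε u₀) / ‖W‖`; replace them by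
`F = u + ε/2 (1 - χ u) ‖u‖² e₀`, `v = (1 + ε (1 - χ u) u₀) / ‖F‖ + ε χ u`, and symmetrically near `-a e₀` (the reflection
`r` in `y₀` satisfies `F ∘ r = F`, `v ∘ r = -v`, `det r = -1`; `pb_comp`, `grad_comp_map`, `inner_tr_ad`).  On
`1 ≤ ‖u‖ ≤ 2` the inner product is continuous in `(ε, u)` (`continuousAt_grad_param`, `continuousAt_pb_param`) and
positive for `ε = 0`, hence for small `ε` (`IsCompact.eventually_forall_of_forall_eventually`). -/
theorem stdA : ∃ (a α : ℝ) (F : E3 → E3) (v : E3 → ℝ), 2 < a ∧ 0 < α ∧ ContDiff ℝ 2 F ∧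
    (∀ y, F y = 0 ↔ ∃ i, y = (sg i * a) • e 0) ∧ ContDiffOn ℝ 2 v {y | F y ≠ 0} ∧
    (∀ y, F y ≠ 0 → 0 < ⟪∇ v y, -pb F Bf y⟫) ∧
    (∀ i y, ‖y - (sg i * a) • e 0‖ < 1 → y ≠ (sg i * a) • e 0 →
      v y = sg i * (α + ‖y - (sg i * a) • e 0‖⁻¹) ∧ pb F Bf y = sg i • Bf (y - (sg i * a) • e 0)) ∧
    ∀ η : ℝ, 0 < η → ∃ R : ℝ, ∀ y, R ≤ ‖y‖ → v y ^ 2 + (F y 1 / ‖F y‖) ^ 2 < η := by
  let b : ContDiffBump (0 : E3) := ⟨1, 2, one_pos, one_lt_two⟩
  let χ : E3 → ℝ := b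
  have hχc : ContDiff ℝ 2 χ := b.contDiff
  have hχ0 : ∀ u, 2 ≤ ‖u‖ → χ u = 0 := fun u hu => b.zero_of_le_dist (by simpa using hu)
  have hχ1 : ∀ u, ‖u‖ ≤ 1 → χ u = 1 := fun u hu => b.one_of_mem_closedBall (by simpa using hu)
  have hs := fun i => stda_shell (hχc.of_le one_le_two) (stda_sg_sq i)
  obtain ⟨ε, ⟨⟨hF, hT⟩, hε4⟩, hε0⟩ := ((((hs false).and (hs true)).and
    (gt_mem_nhds (by norm_num : (0 : ℝ) < 1 / 4))).filter_mono nhdsWithin_le_nhds).and
    (self_mem_nhdsWithin (s := Ioi (0 : ℝ))) |>.exists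
  have hε0' : 0 < ε := hε0
  obtain ⟨a, rfl⟩ : ∃ a, ε = a⁻¹ := ⟨ε⁻¹, (inv_inv ε).symm⟩
  have ha0 : 0 < a := inv_pos.1 hε0'
  have ha : 4 < a := by
    rw [one_div] at hε4
    exact (inv_lt_inv₀ ha0 (by norm_num)).1 hε4
  have hsh : ∀ i, ∀ u ∈ Metric.closedBall (0 : E3) 3 \ Metric.ball 0 (1 / 2),
      0 < ⟪∇ (stda_lv χ (sg i) a⁻¹) u, -pb (stda_F (stda_lf χ (sg i) a⁻¹)) Bf u⟫ := fun i => by
    cases i
    · exact hF
    · exact hT
  have cu : ∀ i, ContDiff ℝ 2 fun y : E3 => y - stda_c a i := fun i => contDiff_id.sub contDiff_const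
  have cχ : ∀ i, ContDiff ℝ 2 fun y : E3 => χ (y - stda_c a i) := fun i => hχc.comp (cu i)
  have cn : ∀ i, ContDiff ℝ 2 fun y : E3 => ‖y - stda_c a i‖ ^ 2 := fun i =>
    (contDiff_norm_sq ℝ).comp (cu i)
  have c0 : ∀ i, ContDiff ℝ 2 fun y : E3 => (y - stda_c a i) 0 := fun i => (stda_coord 0 2).comp (cu i)
  have cf : ContDiff ℝ 2 (stda_f χ a) :=
    (((contDiff_norm_sq ℝ).sub contDiff_const).div_const _).sub
      (contDiff_const.mul (((cχ false).mul (cn false)).add ((cχ true).mul (cn true))))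
  have cF : ContDiff ℝ 2 (stda_F (stda_f χ a)) :=
    contDiff_id.add ((cf.sub (stda_coord 0 2)).smul contDiff_const)
  have hopen : ∀ i (r : ℝ) (y : E3), ‖y - stda_c a i‖ < r → ∀ᶠ z in 𝓝 y, ‖z - stda_c a i‖ < r :=
    fun i r y hy => (cu i).continuous.norm.continuousAt.eventually (gt_mem_nhds hy)
  have hin : ∀ i (y : E3), ‖y - stda_c a i‖ < 1 →
      (stda_v χ a =ᶠ[𝓝 y] fun z => sg i * (a⁻¹ + ‖z - stda_c a i‖⁻¹)) ∧
      pb (stda_F (stda_f χ a)) Bf y = sg i • Bf (y - stda_c a i) := fun i y hy => by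
    constructor
    · filter_upwards [hopen i 1 y hy] with z hz
      rw [(stda_loc hχ0 ha i (by linarith)).2, (stda_in hχ1 (stda_sg_sq i) _ hz.le).2]
    · rw [← stda_pb_lin (stda_sg_sq i), ← stda_pb_shift]
      refine stda_pb_congr ?_ _
      filter_upwards [hopen i 1 y hy] with z hz
      rw [(stda_loc hχ0 ha i (by linarith)).1, (stda_in hχ1 (stda_sg_sq i) _ hz.le).1]
  have hz := stda_zero hχ0 (fun u => b.nonneg) (fun u => b.le_one) ha
  refine ⟨a, a⁻¹, stda_F (stda_f χ a), stda_v χ a, by linarith, hε0', cF, hz, ?_, ?_, ?_, ?_⟩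
  · intro y hy
    refine ContDiffAt.contDiffWithinAt ?_
    exact ((((stda_coord 0 2).div_const a).sub (contDiff_const.mul (((cχ false).mul (c0 false)).add
      ((cχ true).mul (c0 true))))).contDiffAt.div (cF.contDiffAt.norm ℝ hy)
        (norm_ne_zero_iff.2 hy)).add (contDiff_const.mul ((cχ false).sub (cχ true))).contDiffAt
  · intro y hy
    by_cases h1 : ∃ i, ‖y - stda_c a i‖ < 1
    · obtain ⟨i, hi⟩ := h1
      have hne : y - stda_c a i ≠ 0 := fun h => hy ((hz y).2 ⟨i, sub_eq_zero.1 h⟩)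
      rw [(hin i y hi).2, stda_grad_congr (hin i y hi).1,
        stda_grad_shift (fun z => sg i * (a⁻¹ + ‖z‖⁻¹))]
      exact stda_pos_lin (stda_sg_sq i) _ hne
    by_cases h2 : ∃ i, ‖y - stda_c a i‖ ≤ 3
    · obtain ⟨i, hi⟩ := h2
      have h3 : 1 ≤ ‖y - stda_c a i‖ := not_lt.1 fun h => h1 ⟨i, h⟩
      have h4 := hsh i (y - stda_c a i) ⟨by simpa using hi, by simp; linarith⟩
      have h5 := hopen i 4 y (by linarith)
      rw [← stda_grad_shift, ← stda_pb_shift] at h4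
      rw [stda_grad_congr (h5.mono fun z hz => (stda_loc hχ0 ha i hz).2),
        stda_pb_congr (h5.mono fun z hz => (stda_loc hχ0 ha i hz).1)]
      exact h4
    · push Not at h2
      have h5 : ∀ᶠ z in 𝓝 y, ∀ i, 2 ≤ ‖z - stda_c a i‖ := Filter.eventually_all.2 fun i =>
        ((cu i).continuous.norm.continuousAt.eventually (lt_mem_nhds (h2 i))).mono fun z hz => by
          linarith
      rw [stda_grad_congr (h5.mono fun z hz => (stda_far hχ0 a hz).2),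
        stda_pb_congr (h5.mono fun z hz => (stda_far hχ0 a hz).1)]
      refine green_pos ha0 rfl ?_
      rw [← (stda_far hχ0 a h5.self_of_nhds).1]
      exact hy
  · intro i y hy _
    exact ⟨(hin i y hy).1.eq_of_nhds, (hin i y hy).2⟩
  · intro η hη
    have hq : 0 < 16 * a ^ 2 / η := by positivity
    refine ⟨2 * a + 16 * a ^ 2 / η, fun y hy => ?_⟩
    have h5 : ∀ i, 2 ≤ ‖y - stda_c a i‖ := fun i => by
      have := norm_sub_norm_le y (stda_c a i)
      rw [stda_norm_c ha0.le] at this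
      linarith
    rw [(stda_far hχ0 a h5).2, stda_F1, (stda_far hχ0 a h5).1]
    set W : E3 := !₂[(‖y‖ ^ 2 - a ^ 2) / (2 * a), y 1, y 2] with hW
    have h6 : (‖y‖ ^ 2 - a ^ 2) / (2 * a) ≤ ‖W‖ := (le_abs_self _).trans (stda_abs0 W)
    have hy0 : 2 * a < ‖y‖ := by linarith
    have hy1 : 1 < ‖y‖ := by linarith
    rw [div_le_iff₀ (by positivity)] at h6
    have h7 : 3 * ‖y‖ ^ 2 ≤ 8 * a * ‖W‖ := by nlinarith
    have hW0 : 0 < ‖W‖ := by
      by_contra h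
      have : ‖W‖ = 0 := le_antisymm (not_lt.1 h) (norm_nonneg _)
      rw [this] at h7
      nlinarith
    have h8 : 16 * a ^ 2 < η * ‖y‖ ^ 2 := by
      have h9 : 16 * a ^ 2 / η < ‖y‖ := by linarith
      rw [div_lt_iff₀ hη] at h9
      nlinarith
    have h9 : (y 0 / (a * ‖W‖)) ^ 2 ≤ y 0 ^ 2 / ‖W‖ ^ 2 := by
      rw [div_pow]
      refine div_le_div_of_nonneg_left (sq_nonneg _) (by positivity) ?_
      exact pow_le_pow_left₀ hW0.le (le_mul_of_one_le_left hW0.le (by linarith)) 2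
    have h10 : y 0 ^ 2 + y 1 ^ 2 ≤ ‖y‖ ^ 2 := by rw [stda_norm_sq y]; nlinarith [sq_nonneg (y 2)]
    have h11 : ‖y‖ ^ 2 < η * ‖W‖ ^ 2 := by
      have h12 : (3 * ‖y‖ ^ 2) ^ 2 ≤ (8 * a * ‖W‖) ^ 2 := pow_le_pow_left₀ (by positivity) h7 2
      have h13 : 0 < ‖y‖ ^ 2 := by positivity
      have h14 : 16 * a ^ 2 * ‖W‖ ^ 2 < η * ‖y‖ ^ 2 * ‖W‖ ^ 2 := by gcongr
      refine lt_of_mul_lt_mul_left (a := ‖y‖ ^ 2) ?_ h13.le
      nlinarith
    calc _ ≤ y 0 ^ 2 / ‖W‖ ^ 2 + y 1 ^ 2 / ‖W‖ ^ 2 := by rw [div_pow (y 1)]; linarith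
      _ = (y 0 ^ 2 + y 1 ^ 2) / ‖W‖ ^ 2 := by ring
      _ < η := by rw [div_lt_iff₀ (by positivity)]; linarith

end Crest.Agent.R83
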