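import Crest.Agent.R83.StdA

/-!
# R83 TASK StdB: pull-back of the Green function by radial compressions
-/

set_option autoImplicit false

namespace Crest.Agent.R83

open MeasureTheory Set Filter Topology
open scoped Gradient RealInnerProductSpace ENNReal NNReal ContDiff

theorem stdb_prof {A B s t : ℝ} (hAB : A ≤ B) (hst : s < t) : ∃ k : ℝ → ℝ, ContDiff ℝ 2 k ∧ Monotone k ∧
    (∀ x, A ≤ k x ∧ k x ≤ B) ∧ (∀ x, x ≤ s → k x = A) ∧ ∀ x, t ≤ x → k x = B := by
  have h0 : 0 < t - s := sub_pos.2 hst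
  refine ⟨fun x => A + (B - A) * Real.smoothTransition ((x - s) / (t - s)), ?_, fun x y hxy => ?_,
    fun x => ?_, fun x hx => ?_, fun x hx => ?_⟩
  · exact contDiff_const.add (contDiff_const.mul (Real.smoothTransition.contDiff.comp (by fun_prop)))
  · have : Real.smoothTransition ((x - s) / (t - s)) ≤ Real.smoothTransition ((y - s) / (t - s)) :=
      Real.smoothTransition.monotone (by gcongr)
    have := mul_le_mul_of_nonneg_left this (sub_nonneg.2 hAB)
    linarith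
  · have h1 := Real.smoothTransition.nonneg ((x - s) / (t - s))
    have h2 := Real.smoothTransition.le_one ((x - s) / (t - s))
    constructor <;> nlinarith
  · simp only
    rw [Real.smoothTransition.zero_of_nonpos (div_nonpos_of_nonpos_of_nonneg (by linarith) h0.le)]
    ring
  · simp only
    rw [Real.smoothTransition.one_of_one_le ((one_le_div h0).2 (by linarith))]
    ring

theorem stdb_det {k : ℝ → ℝ} (hk : ContDiff ℝ 2 k) (hm : Monotone k) (hp : ∀ s, 0 < k s) {q : E3 → ℝ}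
    {c x : E3} (hq : DifferentiableAt ℝ q x) (h : 0 ≤ ⟪∇ q x, x - c⟫) :
    0 < (jac (fun y => k (q y) • (y - c)) x).det := by
  have hd : DifferentiableAt ℝ k (q x) := hk.differentiable (by norm_num) _
  rw [det_radial (l := fun y => k (q y)) c (hd.comp x hq), grad_comp hd.hasDerivAt hq, real_inner_smul_left]
  have h1 := mul_nonneg (hm.deriv_nonneg (x := q x)) h
  have h2 := hp (q x)
  positivity

theorem stdb_sim_sub (T : Sim) (x c : E3) : T x - T c = T.s • T.R (x - c) := by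
  simp [Sim.toFun, smul_sub]

theorem stdb_S (i : Bool) (x : E3) : S i x = (S i).s • (S i).R (x - ctr i) := by
  rw [← stdb_sim_sub, S_ctr, sub_zero]

theorem stdb_S_radial (i : Bool) (t : ℝ) (x : E3) : S i (ctr i + t • (x - ctr i)) = t • S i x := by
  rw [stdb_S, stdb_S i x, add_sub_cancel_left, map_smul, smul_comm]

theorem stdb_QS (i : Bool) : ContDiff ℝ 2 fun x => Q (S i x) := (contDiff_Q 2).comp ((S i).contDiff 2)

theorem stdb_inner_QS (i : Bool) (x : E3) : 0 ≤ ⟪∇ (fun y => Q (S i y)) x, x - ctr i⟫ := by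
  rw [(S i).grad_comp ((contDiff_Q 1).differentiable one_ne_zero _), Sim.pG, real_inner_smul_left,
    ← (S i).R.inner_map_map, LinearIsometryEquiv.apply_symm_apply, ← real_inner_smul_right, ← stdb_S,
    inner_grad_Q]
  linarith [Q_nonneg (S i x)]

theorem stdb_Q_ctr (i : Bool) : Q (ctr i) = 9 / 50 := by
  cases i <;> simp [Q, ctr, sg] <;> norm_num

theorem stdb_Q_add (x y : E3) : Q (x + y) ≤ 2 * Q x + 2 * Q y := by
  simp only [Q, PiLp.add_apply]
  nlinarith [sq_nonneg (x 0 - y 0), sq_nonneg (x 1 - y 1), sq_nonneg (x 2 - y 2)]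

theorem stdb_norm_lt {i : Bool} {x : E3} (hx : Q (S i x) ≤ 11 / 10) : ‖x - ctr i‖ < 1 := by
  have h1 := norm_sq_le_Q (S i x)
  have h2 : ‖x - ctr i‖ = 11 / 20 * ‖S i x‖ := by rw [norm_S, σ]; ring
  have h3 : ‖S i x‖ < 3 / 2 := by nlinarith [norm_nonneg (S i x)]
  linarith

/-- the inner compression -/
theorem stdb_inner {k₀ : ℝ} (h0 : 0 < k₀) (h1 : k₀ ≤ 1) : ∃ Φ : E3 → E3, ContDiff ℝ 2 Φ ∧
    (∀ x, 0 < (jac Φ x).det) ∧ (∀ i x, Φ x = ctr i → x = ctr i) ∧
    (∀ i x, Q (S i x) < 108 / 100 → Φ x = ctr i + k₀ • (x - ctr i)) ∧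
    ∀ x, 94 / 100 ≤ Q x → Φ x = x := by
  obtain ⟨k, hk, hm, hb, hl, hr⟩ := stdb_prof h1 (show (108 / 100 : ℝ) < 109 / 100 by norm_num)
  have hp : ∀ s, 0 < k s := fun s => h0.trans_le (hb s).1
  set Φ : E3 → E3 := fun x => x + ∑ i, (k (Q (S i x)) - 1) • (x - ctr i) with hΦ
  have hA : ∀ i x, Q (S i x) ≤ 11 / 10 → Φ x = ctr i + k (Q (S i x)) • (x - ctr i) := by
    intro i x hx
    have h2 : k (Q (S (!i) x)) = 1 := hr _ (by linarith [lt_Q_S (j := !i) (by simp) hx])
    cases i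
    · simp only [hΦ, Fintype.sum_bool, Bool.not_false] at h2 ⊢
      rw [h2]; module
    · simp only [hΦ, Fintype.sum_bool, Bool.not_true] at h2 ⊢
      rw [h2]; module
  have hB : ∀ x, (∀ i, 109 / 100 ≤ Q (S i x)) → Φ x = x := by
    intro x hx
    simp [hΦ, hr _ (hx _)]
  refine ⟨Φ, ?_, fun x => ?_, fun i x hx => ?_, fun i x hx => ?_, fun x hx => hB x fun i => ?_⟩
  · exact contDiff_id.add (ContDiff.sum fun i _ =>
      ((hk.comp (stdb_QS i)).sub contDiff_const).smul (contDiff_id.sub contDiff_const))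
  · by_cases h : ∃ i, Q (S i x) < 11 / 10
    · obtain ⟨i, hi⟩ := h
      have h2 : Φ =ᶠ[𝓝 x] fun y => k (Q (S i y)) • (y - ctr i) - -ctr i := by
        filter_upwards [(stdb_QS i).continuous.continuousAt.eventually_lt_const hi] with y hy
        rw [hA i y hy.le, sub_neg_eq_add, add_comm]
      rw [jac_congr h2, jac_sub_const]
      exact stdb_det hk hm hp ((stdb_QS i).differentiable (by norm_num) x) (stdb_inner_QS i x)
    · push Not at h
      have h2 : Φ =ᶠ[𝓝 x] fun y => y := by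
        have : ∀ i, ∀ᶠ y in 𝓝 x, 109 / 100 < Q (S i y) := fun i =>
          (stdb_QS i).continuous.continuousAt.eventually_const_lt (by linarith [h i])
        filter_upwards [eventually_all.2 this] with y hy using hB y fun i => (hy i).le
      rw [jac_congr h2, jac_id, Matrix.det_one]
      exact one_pos
  · by_cases h : ∃ j, Q (S j x) ≤ 11 / 10
    · obtain ⟨j, hj⟩ := h
      rw [hA j x hj] at hx
      by_cases hij : i = j
      · subst hij
        rw [add_eq_left, smul_eq_zero] at hx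
        exact sub_eq_zero.1 (hx.resolve_left (hp _).ne')
      · have h2 := lt_Q_S hij (x := ctr i) (by
          rw [S_ctr, ← zero_smul ℝ (0 : E3), Q_smul]; norm_num)
        rw [← hx, stdb_S_radial, Q_smul] at h2
        have h3 : k (Q (S j x)) ^ 2 ≤ 1 := pow_le_one₀ (hp _).le (hb _).2
        nlinarith [Q_nonneg (S j x)]
    · push Not at h
      rwa [hB x fun j => by linarith [h j]] at hx
  · rw [hA i x (by linarith), hl _ hx.le]
  · by_contra h
    linarith [Q_le_of_S (i := i) (x := x) (by linarith)]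

/-- the outer expansion -/
theorem stdb_outer {A : ℝ} (hA : 0 < A) (R : ℝ) : ∃ Φ : E3 → E3, ContDiff ℝ 2 Φ ∧
    (∀ x, 0 < (jac Φ x).det) ∧ (∀ i x, Φ x = A • ctr i → x = ctr i) ∧
    (∀ x, Q x ≤ 1 / 2 → Φ x = A • x) ∧ ∀ x, 94 / 100 ≤ Q x → R ≤ ‖Φ x‖ := by
  obtain ⟨k, hk, hm, hb, hl, hr⟩ := stdb_prof (A := A) (B := A + 2 * |R|) (by linarith [abs_nonneg R])
    (show (1 / 2 : ℝ) < 9 / 10 by norm_num)
  have hp : ∀ s, 0 < k s := fun s => hA.trans_le (hb s).1
  refine ⟨fun x => k (Q x) • (x - 0), (hk.comp (contDiff_Q 2)).smul (contDiff_id.sub contDiff_const),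
    fun x => ?_, fun i x hx => ?_, fun x hx => ?_, fun x hx => ?_⟩
  · refine stdb_det hk hm hp ((contDiff_Q 1).differentiable one_ne_zero x) ?_
    rw [sub_zero, inner_grad_Q]
    linarith [Q_nonneg x]
  · simp only [sub_zero] at hx
    have h1 := congrArg Q hx
    rw [Q_smul, Q_smul, stdb_Q_ctr] at h1
    have h2 : A ^ 2 ≤ k (Q x) ^ 2 := pow_le_pow_left₀ hA.le (hb _).1 2
    have h3 : Q x ≤ 1 / 2 := by
      by_contra h
      have := pow_pos hA 2
      nlinarith
    rw [hl _ h3] at hx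
    exact smul_right_injective E3 hA.ne' hx
  · simp only [sub_zero, hl _ hx]
  · simp only [sub_zero]
    rw [hr _ (by linarith), norm_smul, Real.norm_of_nonneg (by linarith [abs_nonneg R])]
    have h1 := Q_le_norm_sq x
    have h2 : 1 / 2 ≤ ‖x‖ := by nlinarith [norm_nonneg x]
    nlinarith [le_abs_self R, abs_nonneg R]

theorem stdb_map {a : ℝ} (ha : 2 < a) (R : ℝ) : ∃ Φ : E3 → E3, ContDiff ℝ 2 Φ ∧
    (∀ x, 0 < (jac Φ x).det) ∧ (∀ i x, Φ x = (sg i * a) • e 0 → x = ctr i) ∧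
    (∀ i x, Q (S i x) < 108 / 100 → Φ x = (sg i * a) • e 0 + (10 : ℝ)⁻¹ • (x - ctr i)) ∧
    ∀ x, 94 / 100 ≤ Q x → R ≤ ‖Φ x‖ := by
  have ha0 : 0 < a := by linarith
  have hk : 3 / (50 * a) ≤ 1 / 10 := by
    rw [div_le_div_iff₀ (by positivity) (by norm_num)]; linarith
  obtain ⟨Φ₁, c1, d1, i1, l1, o1⟩ := stdb_inner (k₀ := 3 / (50 * a)) (by positivity) (by linarith)
  obtain ⟨Φ₂, c2, d2, i2, l2, o2⟩ := stdb_outer (A := 5 * a / 3) (by positivity) R
  have hc : ∀ i, (5 * a / 3) • ctr i = (sg i * a) • e 0 := fun i => by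
    rw [ctr, smul_smul]; congr 1; ring
  refine ⟨fun x => Φ₂ (Φ₁ x), c2.comp c1, fun x => ?_, fun i x hx => i1 i x (i2 i _ (hx.trans (hc i).symm)),
    fun i x hx => ?_, fun x hx => ?_⟩
  · rw [jac_comp (c1.differentiable (by norm_num) x) (c2.differentiable (by norm_num) _), Matrix.det_mul]
    exact mul_pos (d2 _) (d1 _)
  · simp only
    rw [l1 i x hx, l2, smul_add, hc, smul_smul]
    · congr 2
      field_simp
      norm_num
    · have h1 := stdb_Q_add (ctr i) ((3 / (50 * a)) • (x - ctr i))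
      have h2 := Q_le_norm_sq (x - ctr i)
      have h3 := stdb_norm_lt (i := i) (x := x) (by linarith)
      have h4 : ‖x - ctr i‖ ^ 2 ≤ 1 := pow_le_one₀ (norm_nonneg _) h3.le
      have h5 : (3 / (50 * a)) ^ 2 ≤ (1 / 10) ^ 2 := pow_le_pow_left₀ (by positivity) hk 2
      have h6 := mul_le_mul h5 (h2.trans h4) (Q_nonneg _) (by positivity)
      rw [Q_smul, stdb_Q_ctr] at h1
      linarith
  · simp only
    rw [o1 x hx]
    exact o2 x hx

/-- Compose the data of `stdA` with `Φ = Φ₃ ∘ Φ₁₂`.  `Φ₁₂ x = x + ∑ i, (k (Q (S i x)) - 1) • (x - ctr i)`, `k` smooth,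
monotone, `k = k₀` tiny on `(-∞, 1.08]`, `k = 1` on `[1.09, ∞)`; near a point of the collar `Q (S i x) < 1.1` it is
`ctr i + k • (x - ctr i)`, elsewhere the identity (`lt_Q_S`, `Q_le_of_S`).  `Φ₃ y = (5 a / 3) l (Q y) • y`, `l` smooth,
monotone, `l = 1` on `(-∞, 0.3]`, `l = H` huge on `[0.9, ∞)`.  Both have positive determinant (`det_radial`; the radial
derivatives of `Q` and `Q ∘ S i` are nonnegative, `inner_grad_Q`), so positivity is preserved (`pb_comp`,
`grad_comp_map`, `inner_tr_ad`, `jac_comp`).  On `Q (S i x) < 1.08`, `Φ x = ± a e₀ + (5 a / 3) k₀ • (x - ctr i)`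
(`pb_radial` or `ad` of a multiple of the identity). -/
theorem stdB {η : ℝ} (hη : 0 < η) : ∃ (F : E3 → E3) (v : E3 → ℝ) (α β : ℝ), 0 < α ∧ 0 < β ∧
    ContDiff ℝ 2 F ∧ (∀ x, F x = 0 ↔ ∃ i, x = ctr i) ∧ ContDiffOn ℝ 2 v {x | F x ≠ 0} ∧
    (∀ x, F x ≠ 0 → 0 < ⟪∇ v x, -pb F Bf x⟫) ∧
    (∀ i x, Q (S i x) < 108 / 100 → x ≠ ctr i → v x = sg i * (α + β * ‖x - ctr i‖⁻¹) ∧ 1 ≤ |v x| ∧
      pb F Bf x = sg i • Bf (x - ctr i)) ∧
    ∀ x, 94 / 100 ≤ Q x → v x ^ 2 + (F x 1 / ‖F x‖) ^ 2 < η := by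
  obtain ⟨a, α, F, v, ha, hα, hF, hz, hv, hpos, hloc, hinf⟩ := stdA
  obtain ⟨R, hR⟩ := hinf η hη
  obtain ⟨Φ, hΦ, hdet, hinj, hl, ho⟩ := stdb_map ha R
  have dΦ : Differentiable ℝ Φ := hΦ.differentiable (by norm_num)
  have dF : Differentiable ℝ F := hF.differentiable (by norm_num)
  have hO : IsOpen {y | F y ≠ 0} := isOpen_ne_fun hF.continuous continuous_const
  refine ⟨fun x => F (Φ x), fun x => v (Φ x), α, 10, hα, by norm_num, hF.comp hΦ, fun x => ?_,
    hv.comp hΦ.contDiffOn fun x hx => hx, fun x hx => ?_, fun i x hx hne => ?_, fun x hx => hR _ (ho x hx)⟩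
  · rw [hz]
    refine exists_congr fun i => ⟨hinj i x, ?_⟩
    rintro rfl
    rw [hl i _ (by rw [S_ctr, ← zero_smul ℝ (0 : E3), Q_smul]; norm_num), sub_self, smul_zero, add_zero]
  · have dv : DifferentiableAt ℝ v (Φ x) :=
      (hv.contDiffAt (hO.mem_nhds hx)).differentiableAt (by norm_num)
    have h1 := hpos _ hx
    rw [inner_neg_right] at h1
    rw [grad_comp_map (dΦ x) dv, pb_comp (dΦ x) (dF _), inner_neg_right, pb, inner_tr_ad, ← mul_neg]
    exact mul_pos (hdet x) h1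
  · have h1 : Φ x - (sg i * a) • e 0 = (10 : ℝ)⁻¹ • (x - ctr i) := by rw [hl i x hx, add_sub_cancel_left]
    have h2 : ‖Φ x - (sg i * a) • e 0‖ = 10⁻¹ * ‖x - ctr i‖ := by
      rw [h1, norm_smul, Real.norm_of_nonneg (by norm_num)]
    have h3 := stdb_norm_lt (i := i) (x := x) (by linarith)
    have h4 : 0 < ‖x - ctr i‖ := norm_pos_iff.2 (sub_ne_zero.2 hne)
    obtain ⟨h5, h6⟩ := hloc i (Φ x) (by linarith) fun h => hne (hinj i x h)
    rw [h2, mul_inv, inv_inv] at h5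
    refine ⟨h5, ?_, ?_⟩
    · have h7 : 1 ≤ ‖x - ctr i‖⁻¹ := (one_le_inv₀ h4).2 h3.le
      have h8 : |sg i| = 1 := by cases i <;> simp [sg]
      simp only
      rw [h5, abs_mul, h8, one_mul, abs_of_nonneg (by linarith)]
      linarith
    · have h7 : Φ =ᶠ[𝓝 x] fun y => (10 : ℝ)⁻¹ • (y - ctr i) - -((sg i * a) • e 0) := by
        filter_upwards [(stdb_QS i).continuous.continuousAt.eventually_lt_const hx] with y hy
        rw [hl i y hy, sub_neg_eq_add, add_comm]
      have h8 := pb_radial (l := fun _ => (10 : ℝ)⁻¹) (x := x) (ctr i) (differentiableAt_const _)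
        (by norm_num)
      rw [pb_comp (dΦ x) (dF _), pb, h6, ad_smul, h1, ← h8, pb]
      unfold ad
      rw [jac_congr h7, jac_sub_const]

end Crest.Agent.R83
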