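import Crest.Agent.R83.LocA

/-!
# R83 TASK TeleA: solutions are constant on the limit set
-/

set_option autoImplicit false

namespace Crest.Agent.R83

open MeasureTheory Set Filter Topology
open scoped Gradient RealInnerProductSpace ENNReal NNReal ContDiff

/-- the densities of generation `m` -/
noncomputable def mu (φ : ℕ → E3 → ℝ) : ℕ → ℕ → E3 → ℝ
  | 0, j => φ j
  | m + 1, j => fun x => (hat false (mu φ m (j + 1)) x + hat true (mu φ m (j + 1)) x) / 2

/-- bounded solutions on a neighbourhood of the closed ellipsoid -/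
def Sl (γ : E3 → ℝ) (N : ℝ) (u : E3 → ℝ) : Prop :=
  (∀ᵐ x, Q x < 105 / 100 → |u x| ≤ N) ∧ ∃ G, Loc {x | Q x < 105 / 100} u G (fun x => γ x • G x) 0

variable {c C M : ℝ} {γ φ : ℕ → E3 → ℝ}

theorem telea_σ_pos : 0 < σ := by norm_num [σ]

theorem telea_bounded : Bornology.IsBounded El := Metric.isBounded_ball.subset El_subset_ball

theorem telea_open : IsOpen {x : E3 | Q x < 105 / 100} :=
  isOpen_lt (contDiff_Q 0).continuous continuous_const

theorem telea_hat {f : E3 → ℝ} {M : ℝ} (h : Bd El M f) (i : Bool) : Bd El ((σ ^ 3)⁻¹ * M) (hat i f) := by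
  refine ⟨(h.hat i).meas, (h.hat i).bdd, fun x hx => (h.hat i).off x fun h1 => hx ?_⟩
  have h2 : Q (S i x) < 1 := h1
  have h3 := Q_le_of_S (i := i) (x := x) (by linarith)
  show Q x < 1
  linarith

theorem telea_int0 {f : E3 → ℝ} {M : ℝ} (h : Bd El M f) : Integrable f volume :=
  memLp_one_iff_integrable.1 ((h.src telea_bounded).memLp 1)

theorem telea_int {f w : E3 → ℝ} {M N : ℝ} (h : Bd El M f)
    (hw : AEStronglyMeasurable w (volume.restrict El)) (hN : ∀ᵐ x, x ∈ El → |w x| ≤ N) :
    Integrable (fun x => f x * w x) volume := by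
  have hs : Function.support (fun x => f x * w x) ⊆ El := fun x hx => by
    by_contra h1
    exact hx (by simp only [h.off x h1, zero_mul])
  rw [← integrableOn_iff_integrable_of_support_subset hs]
  refine Integrable.mul_bdd (c := N) (telea_int0 h).integrableOn hw ?_
  exact (ae_restrict_iff' isOpen_El.measurableSet).2 hN

theorem telea_meas {γ u : E3 → ℝ} {N : ℝ} (hu : Sl γ N u) :
    AEStronglyMeasurable u (volume.restrict El) := by
  obtain ⟨-, G, hG⟩ := hu
  obtain ⟨χ, -, h1, -, h2⟩ := exists_cutoff (isCompact_Q_le 1) telea_open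
    (fun x (hx : Q x ≤ 1) => show Q x < 105 / 100 by linarith)
  refine (hG.h0 χ h1).mu.1.restrict.congr ?_
  refine (ae_restrict_iff' isOpen_El.measurableSet).2 (Eventually.of_forall fun x hx => ?_)
  have h3 : χ x = 1 := h2.self_of_nhdsSet x (show Q x ≤ 1 from le_of_lt hx)
  simp only [h3, one_mul]

theorem telea_bd {γ u : E3 → ℝ} {N : ℝ} (hu : Sl γ N u) : ∀ᵐ x, x ∈ El → |u x| ≤ N := by
  filter_upwards [hu.1] with x hx h1
  exact hx (lt_trans h1 (by norm_num))

theorem telea_abs_le {f w : E3 → ℝ} {M N : ℝ} (h : Den El M 1 f) (h0 : ∀ x, 0 ≤ f x)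
    (hN : ∀ᵐ x, x ∈ El → |w x| ≤ N) : |∫ x, f x * w x| ≤ N := by
  have h1 : ‖∫ x, f x * w x‖ ≤ ∫ x, f x * N := by
    refine norm_integral_le_of_norm_le ((telea_int0 h.1).mul_const N) ?_
    filter_upwards [hN] with x hx
    by_cases h2 : x ∈ El
    · rw [Real.norm_eq_abs, abs_mul, abs_of_nonneg (h0 x)]
      exact mul_le_mul_of_nonneg_left (hx h2) (h0 x)
    · simp [h.1.off x h2]
  rwa [integral_mul_const, h.2, one_mul] at h1

theorem mu_den (h : ∀ j, Dat c C M (γ j) (φ j)) (m j : ℕ) :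
    (∃ M', Den El M' 1 (mu φ m j)) ∧ ∀ x, 0 ≤ mu φ m j x := by
  induction m generalizing j with
  | zero => exact ⟨⟨M, (h j).den⟩, (h j).nn⟩
  | succ m ih =>
    obtain ⟨⟨M', h1, h2⟩, h3⟩ := ih (j + 1)
    have h4 := fun i => telea_hat h1 i
    have h5 : ∀ i, ∫ x, hat i (mu φ m (j + 1)) x = 1 := fun i => by
      have := integral_hat_mul i (mu φ m (j + 1)) (fun _ => 1)
      simpa only [mul_one, h2] using this
    refine ⟨⟨(σ ^ 3)⁻¹ * M', ⟨((h4 false).meas.add (h4 true).meas).div_const 2, fun x => ?_,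
      fun x hx => ?_⟩, ?_⟩, fun x => ?_⟩
    · have e1 := abs_le.1 ((h4 false).bdd x)
      have e2 := abs_le.1 ((h4 true).bdd x)
      simp only [mu]
      rw [abs_le]
      constructor <;> linarith
    · simp only [mu, (h4 false).off x hx, (h4 true).off x hx, add_zero, zero_div]
    · simp only [mu]
      rw [integral_div, integral_add (telea_int0 (h4 false)) (telea_int0 (h4 true)), h5, h5]
      norm_num
    · have e : ∀ i, 0 ≤ hat i (mu φ m (j + 1)) x := fun i =>
        mul_nonneg (inv_nonneg.2 (pow_nonneg telea_σ_pos.le 3)) (h3 _)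
      exact div_nonneg (add_nonneg (e false) (e true)) zero_le_two

/-- `Loc.sim`, `Loc.mono`, `Loc.congr`, `Q_T_le` -/
theorem Sl.child {γ₁ φ₁ γ₀ φ₀ u : E3 → ℝ} {N : ℝ} (h : Mrg γ₁ φ₁ γ₀ φ₀) (hu : Sl γ₀ N u) (i : Bool) :
    Sl γ₁ N fun x => u (T i x) := by
  obtain ⟨h1, G, hG⟩ := hu
  have hQ : ∀ x, Q x < 105 / 100 → Q (T i x) < 105 / 100 := fun x hx => by
    have := Q_T_le i (x := x) (by linarith)
    linarith
  refine ⟨?_, (T i).pG G, ?_⟩
  · filter_upwards [(T i).qmp.ae h1] with x hx h2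
    exact hx (hQ x h2)
  · refine ((hG.sim (T i)).mono (telea_open.preimage ((T i).contDiff 0).continuous) hQ).congr ?_
    filter_upwards [h.inner i] with x hx h2
    refine ⟨rfl, rfl, ?_, ?_⟩
    · rw [← hx (le_of_lt h2)]
      simp only [Sim.pG, map_smul]
      rw [smul_comm]
    · simp

/-- `Loc.orth` for the two fields of `Mrg`, `integral_hat_mul` -/
theorem Sl.mean {γ₁ φ₁ γ₀ φ₀ u : E3 → ℝ} {N : ℝ} (h₁ : Dat c C M γ₁ φ₁) (h₀ : Dat c C M γ₀ φ₀)
    (h : Mrg γ₁ φ₁ γ₀ φ₀) (hu : Sl γ₀ N u) (i : Bool) :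
    ∫ x, φ₁ x * u (T i x) = ∫ x, φ₀ x * u x := by
  have hm := telea_meas hu
  have hb := telea_bd hu
  obtain ⟨-, G, hG⟩ := hu
  have hE : {x : E3 | Q x ≤ 1} ⊆ {x | Q x < 105 / 100} :=
    fun x (hx : Q x ≤ 1) => show Q x < 105 / 100 by linarith
  have b := fun i => telea_hat h₁.den.1 i
  obtain ⟨v, Gv, hv, hwv⟩ := h.exv
  obtain ⟨g, Gg, hg, hwg⟩ := h.exg
  have e1 := hG.orth h₀.ell telea_open hE hv hwv
    (((b false).src telea_bounded).sub ((b true).src telea_bounded))
    (fun x hx => by rw [(b false).off x hx, (b true).off x hx, sub_zero])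
  have e2 := hG.orth h₀.ell telea_open hE hg hwg
    (((b false).src telea_bounded).sub (h₀.den.1.src telea_bounded))
    (fun x hx => by rw [(b false).off x hx, h₀.den.1.off x hx, sub_zero])
  simp only [sub_mul] at e1 e2
  rw [integral_sub (telea_int (b false) hm hb) (telea_int (b true) hm hb)] at e1
  rw [integral_sub (telea_int (b false) hm hb) (telea_int h₀.den.1 hm hb)] at e2
  rw [← integral_hat_mul]
  cases i <;> linarith

/-- induction on `m`; for `m = 0` subtract `ψ 0` (`|u - k| ≤ 2 N`, `‖x‖ ≤ 3/2` on `El`) -/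
theorem mu_small (h : ∀ j, Dat c C M (γ j) (φ j) ∧ Mrg (γ (j + 1)) (φ (j + 1)) (γ j) (φ j)) (m j : ℕ)
    {N L : ℝ} {u ψ : E3 → ℝ} (hu : Sl (γ j) N u) (hψ : ∀ x y, |ψ x - ψ y| ≤ L * ‖x - y‖) :
    |∫ x, mu φ m j x * ((u x - ∫ y, φ j y * u y) * ψ x)| ≤ 3 * N * L * σ ^ m := by
  induction m generalizing j L u ψ with
  | zero =>
    have hd := (h j).1
    have hm := telea_meas hu
    have hb := telea_bd hu
    set k := ∫ y, φ j y * u y with hk
    have hkN : |k| ≤ N := telea_abs_le hd.den hd.nn hb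
    have hL : 0 ≤ L := by
      have := (abs_nonneg _).trans (hψ (e 0) 0)
      simpa using this
    have hc : Continuous ψ := (LipschitzWith.of_dist_le' (K := L) fun x y => by
      rw [Real.dist_eq, dist_eq_norm]; exact hψ x y).continuous
    have hw : ∀ᵐ x, x ∈ El → |(u x - k) * (ψ x - ψ 0)| ≤ 3 * N * L := by
      filter_upwards [hb] with x hx h1
      have e1 : |u x - k| ≤ 2 * N := (abs_sub _ _).trans (by linarith [hx h1])
      have e2 : |ψ x - ψ 0| ≤ L * (3 / 2) := by
        refine (hψ x 0).trans (mul_le_mul_of_nonneg_left ?_ hL)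
        have := El_subset_ball h1
        rw [Metric.mem_ball, dist_eq_norm] at this
        exact this.le
      rw [abs_mul]
      calc _ ≤ 2 * N * (L * (3 / 2)) := mul_le_mul e1 e2 (abs_nonneg _) ((abs_nonneg _).trans e1)
        _ = 3 * N * L := by ring
    have i1 : Integrable (fun x => φ j x * ((u x - k) * (ψ x - ψ 0))) volume :=
      telea_int hd.den.1 ((hm.sub (aestronglyMeasurable_const (b := k))).mul
      (hc.sub (continuous_const (y := ψ 0))).aestronglyMeasurable) hw
    have i2 := telea_int hd.den.1 hm hb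
    have i3 := telea_int0 hd.den.1
    have e : ∫ x, mu φ 0 j x * ((u x - k) * ψ x) = ∫ x, φ j x * ((u x - k) * (ψ x - ψ 0)) := by
      have e1 : ∀ x, mu φ 0 j x * ((u x - k) * ψ x) =
          φ j x * ((u x - k) * (ψ x - ψ 0)) + (ψ 0 * (φ j x * u x) - ψ 0 * k * φ j x) := fun x => by
        simp only [mu]; ring
      simp only [e1]
      have i4 : Integrable (fun x => ψ 0 * (φ j x * u x) - ψ 0 * k * φ j x) volume :=
        (i2.const_mul _).sub (i3.const_mul _)
      rw [integral_add i1 i4,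
        integral_sub (i2.const_mul _) (i3.const_mul _), integral_const_mul, integral_const_mul,
        hd.den.2, ← hk]
      ring
    rw [e, pow_zero, mul_one]
    exact telea_abs_le hd.den hd.nn hw
  | succ m ih =>
    have hd := (h j).1
    have hm := telea_meas hu
    have hb := telea_bd hu
    set k := ∫ y, φ j y * u y with hk
    have hc : Continuous ψ := (LipschitzWith.of_dist_le' (K := L) fun x y => by
      rw [Real.dist_eq, dist_eq_norm]; exact hψ x y).continuous
    obtain ⟨B, hB⟩ := (isCompact_Q_le 1).exists_bound_of_continuousOn hc.continuousOn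
    have hw : ∀ᵐ x, x ∈ El → |(u x - k) * ψ x| ≤ (N + |k|) * B := by
      filter_upwards [hb] with x hx h1
      have e1 : |u x - k| ≤ N + |k| := (abs_sub _ _).trans (by linarith [hx h1])
      rw [abs_mul]
      exact mul_le_mul e1 (hB x (show Q x ≤ 1 from le_of_lt h1)) (abs_nonneg _)
        ((abs_nonneg _).trans e1)
    obtain ⟨⟨M', h1, -⟩, -⟩ := mu_den (fun j => (h j).1) m (j + 1)
    have i1 : ∀ i, Integrable (fun x => hat i (mu φ m (j + 1)) x * ((u x - k) * ψ x)) volume :=
      fun i => telea_int (telea_hat h1 i)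
      ((hm.sub (aestronglyMeasurable_const (b := k))).mul hc.aestronglyMeasurable) hw
    have key : ∀ i, |∫ x, hat i (mu φ m (j + 1)) x * ((u x - k) * ψ x)| ≤ 3 * N * L * σ ^ (m + 1) := by
      intro i
      have e1 := ih (j + 1) (L := L * σ) (ψ := fun x => ψ (T i x)) (hu.child (h j).2 i)
        (fun x y => by rw [mul_assoc, ← T_s i, ← Sim.norm_sub]; exact hψ _ _)
      rw [hu.mean (h (j + 1)).1 hd (h j).2 i, ← hk] at e1
      rw [integral_hat_mul]
      refine e1.trans (le_of_eq ?_)
      ring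
    have e : ∫ x, mu φ (m + 1) j x * ((u x - k) * ψ x) =
        ((∫ x, hat false (mu φ m (j + 1)) x * ((u x - k) * ψ x)) +
          ∫ x, hat true (mu φ m (j + 1)) x * ((u x - k) * ψ x)) / 2 := by
      rw [← integral_add (i1 false) (i1 true), ← integral_div]
      refine integral_congr_ae (Eventually.of_forall fun x => ?_)
      simp only [mu]
      ring
    have e1 := abs_le.1 (key false)
    have e2 := abs_le.1 (key true)
    rw [e, abs_le]
    constructor <;> linarith

end Crest.Agent.R83
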